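import Crest.Agent.R155.Defs

/-!
# PIECE AMGM (row 155): trace inequality by AM-GM and cyclicity

`X = ker f`.  Let `K_(ω,x)` be the matrix with the single nonzero entry `1/|Ω|` at `(x, f ω x)`, so
`X = ∑_{τ=(ω,x)} K_τ`, and put `A(p) = ∑_τ (W τ)^p K_τ` (nonnegative matrices, `A(0) = X`,
`A(-1) = δ · (all ones)` by `hδ`).
`Tr X^64 = ∑_{τ_0..τ_63} Tr(K_{τ_0} … K_{τ_63})`, all terms `≥ 0`.  AM-GM:
`1 = (∏_r [W_{τ_r}^{-1} ∏_{i ∈ N(r)} W_{τ_i}^{1/31}])^{1/64} ≤ (1/64) ∑_r W_{τ_r}^{-1} ∏_{i∈N(r)} W_{τ_i}^{1/31}`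
with `N(r) = {r+2, r+4, …, r+62} mod 64` (31 elements): every `W_{τ_i}` has total exponent
`-1 + 31/31 = 0`.  By cyclicity of the trace all the 64 terms give
`Tr(A(-1) X A(1/31) X A(1/31) … X A(1/31) X)` (31 factors `A(1/31)`), which equals
`δ · 1ᵀ (X A(1/31))^31 X 1 = δ ∑_x ((X A(1/31))^31 1)(x)`; `(X A(1/31) 1)(x) =
avg_ω avg_ω' W(ω', f ω x)^{1/31} ≤ g`.  So `≤ δ |I| g^31`.
The second statement is the same with `N(r)` = all `i ≠ r` and exponent `1/63`.
(It may be easier to work with functions `Fin 64 → I` of closed paths and the shift `i ↦ i + 1`.)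
-/

set_option autoImplicit false

namespace Crest.Agent.R155

namespace AmGmaux

variable {I Ω : Type} [Fintype I] [DecidableEq I] [Fintype Ω]

/-- ordered product `M 0 * M 1 * … * M (n-1)` -/
noncomputable def pr (M : ℕ → Matrix I I ℝ) : ℕ → Matrix I I ℝ
  | 0 => 1
  | n + 1 => pr M n * M n

theorem pr_path (M : ℕ → Matrix I I ℝ) (n : ℕ) (i j : I) :
    pr M n i j = ∑ x : Fin (n + 1) → I, if x 0 = i ∧ x (Fin.last n) = j then
      ∏ r : Fin n, M r (x r.castSucc) (x r.succ) else 0 := by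
  induction n generalizing j with
  | zero =>
    rw [← (Equiv.funUnique (Fin 1) I).symm.sum_comp]
    simp only [pr, Matrix.one_apply, Finset.univ_eq_empty, Finset.prod_empty]
    by_cases h : i = j
    · subst h
      simp
    · simp only [h, if_false]
      symm
      apply Finset.sum_eq_zero
      intro a _
      rw [if_neg]
      rintro ⟨h1, h2⟩
      exact h (h1.symm.trans h2)
  | succ n ih =>
    rw [← (Fin.snocEquiv (fun _ : Fin (n + 2) => I)).sum_comp, Fintype.sum_prod_type]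
    simp only [pr, Matrix.mul_apply, ih]
    have h1 : ∀ (a : I) (x : Fin (n + 1) → I),
        (if (Fin.snocEquiv (fun _ : Fin (n + 2) => I)) (a, x) 0 = i ∧
          (Fin.snocEquiv (fun _ : Fin (n + 2) => I)) (a, x) (Fin.last (n + 1)) = j then
          ∏ r : Fin (n + 1), M r ((Fin.snocEquiv (fun _ : Fin (n + 2) => I)) (a, x) r.castSucc)
            ((Fin.snocEquiv (fun _ : Fin (n + 2) => I)) (a, x) r.succ) else 0) =
        if a = j then (if x 0 = i then (∏ r : Fin n, M r (x r.castSucc) (x r.succ)) *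
          M n (x (Fin.last n)) a else 0) else 0 := by
      intro a x
      have e0 : (Fin.snocEquiv (fun _ : Fin (n + 2) => I)) (a, x) 0 = x 0 := by
        have := Fin.snoc_castSucc (α := fun _ : Fin (n + 2) => I) a x 0
        simpa [Fin.snocEquiv] using this
      have el : (Fin.snocEquiv (fun _ : Fin (n + 2) => I)) (a, x) (Fin.last (n + 1)) = a := by
        simp [Fin.snocEquiv]
      have ec : ∀ r : Fin (n + 1),
          (Fin.snocEquiv (fun _ : Fin (n + 2) => I)) (a, x) r.castSucc = x r := by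
        intro r; simp [Fin.snocEquiv]
      rw [e0, el, Fin.prod_univ_castSucc]
      simp only [ec, Fin.succ_castSucc, Fin.succ_last, Fin.val_castSucc, Fin.val_last]
      have el' : (Fin.snocEquiv (fun _ : Fin (n + 2) => I)) (a, x) (Fin.last n.succ) = a := el
      rw [el']
      by_cases h1 : x 0 = i <;> by_cases h2 : a = j <;> simp [h1, h2]
    simp only [h1]
    have h2 : ∑ a : I, ∑ x : Fin (n + 1) → I,
        (if a = j then (if x 0 = i then (∏ r : Fin n, M r (x r.castSucc) (x r.succ)) *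
          M n (x (Fin.last n)) a else 0) else 0) = ∑ x : Fin (n + 1) → I,
          (if x 0 = i then (∏ r : Fin n, M r (x r.castSucc) (x r.succ)) *
          M n (x (Fin.last n)) j else 0) := by
      rw [Finset.sum_eq_single j (fun b _ hb => by simp [hb]) (by simp)]
      simp only [if_true]
    rw [h2]
    simp only [Finset.sum_mul]
    rw [Finset.sum_comm]
    refine Finset.sum_congr rfl fun x _ => ?_
    by_cases h1 : x 0 = i
    · simp [h1]
    · simp [h1]

theorem trace_pr (M : ℕ → Matrix I I ℝ) (n : ℕ) :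
    (pr M (n + 1)).trace = ∑ x : Fin (n + 1) → I, ∏ r : Fin (n + 1), M r (x r) (x (r + 1)) := by
  have h0 : (pr M (n + 1)).trace = ∑ x : Fin (n + 2) → I, if x (Fin.last (n + 1)) = x 0 then
      ∏ r : Fin (n + 1), M r (x r.castSucc) (x r.succ) else 0 := by
    simp only [Matrix.trace, Matrix.diag_apply, pr_path]
    rw [Finset.sum_comm]
    refine Finset.sum_congr rfl fun x _ => ?_
    rw [Finset.sum_eq_single (x 0) (fun b _ hb => if_neg (fun h => hb h.1.symm)) (by simp)]
    simp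
  rw [h0, ← (Fin.snocEquiv (fun _ : Fin (n + 2) => I)).sum_comp, Fintype.sum_prod_type,
    Finset.sum_comm]
  refine Finset.sum_congr rfl fun x _ => ?_
  have e0 : ∀ a, (Fin.snocEquiv (fun _ : Fin (n + 2) => I)) (a, x) 0 = x 0 := by
    intro a
    have := Fin.snoc_castSucc (α := fun _ : Fin (n + 2) => I) a x 0
    simpa [Fin.snocEquiv] using this
  have el : ∀ a, (Fin.snocEquiv (fun _ : Fin (n + 2) => I)) (a, x) (Fin.last (n + 1)) = a := by
    intro a
    simp [Fin.snocEquiv]
  have ec : ∀ a, ∀ r : Fin (n + 1),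
      (Fin.snocEquiv (fun _ : Fin (n + 2) => I)) (a, x) r.castSucc = x r := by
    intro a r; simp [Fin.snocEquiv]
  simp only [e0, el]
  rw [Finset.sum_eq_single (x 0) (fun b _ hb => if_neg hb) (by simp), if_pos rfl]
  refine Finset.prod_congr rfl fun r _ => ?_
  rw [ec]
  congr 1
  rcases Fin.eq_castSucc_or_eq_last r with ⟨r', rfl⟩ | rfl
  · rw [Fin.succ_castSucc, ec, Fin.coeSucc_eq_succ]
  · rw [Fin.succ_last, Fin.last_add_one]
    exact el _

/-- the weighted matrices -/
noncomputable def AA (f : Ω → I → I) (W : Ω → I → ℝ) (p : ℝ) : Matrix I I ℝ :=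
  fun x y => avg (fun ω => Real.exp (p * Real.log (W ω x)) * (if f ω x = y then (1 : ℝ) else 0))

/-- the cyclic path sum -/
noncomputable def SS (f : Ω → I → I) (W : Ω → I → ℝ) (n : ℕ) (e : Fin (n + 1) → ℝ) : ℝ :=
  ∑ x : Fin (n + 1) → I, ∏ r : Fin (n + 1), AA f W (e r) (x r) (x (r + 1))

theorem SS_shift (f : Ω → I → I) (W : Ω → I → ℝ) (n : ℕ) (e : Fin (n + 1) → ℝ)
    (k : Fin (n + 1)) : SS f W n (fun r => e (r + k)) = SS f W n e := by
  unfold SS
  rw [← (Equiv.arrowCongr (Equiv.addRight k).symm (Equiv.refl I)).sum_comp]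
  refine Finset.sum_congr rfl fun x _ => ?_
  rw [← Equiv.prod_comp (Equiv.addRight k) (fun r => AA f W (e r) (x r) (x (r + 1)))]
  refine Finset.prod_congr rfl fun r _ => ?_
  simp only [Equiv.arrowCongr_apply, Equiv.coe_addRight, Equiv.coe_refl, Function.comp_apply,
    Equiv.symm_symm, id_eq]
  rw [add_right_comm r 1 k]

theorem SS_expand (f : Ω → I → I) (W : Ω → I → ℝ) (n : ℕ) (e : Fin (n + 1) → ℝ) :
    SS f W n e = ∑ x : Fin (n + 1) → I, ∑ ω : Fin (n + 1) → Ω,
      Real.exp (∑ r, e r * Real.log (W (ω r) (x r))) *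
        ∏ r : Fin (n + 1), ((if f (ω r) (x r) = x (r + 1) then (1 : ℝ) else 0) /
          (Fintype.card Ω : ℝ)) := by
  unfold SS
  refine Finset.sum_congr rfl fun x _ => ?_
  have : ∀ r : Fin (n + 1), AA f W (e r) (x r) (x (r + 1)) = ∑ ω : Ω,
      (Real.exp (e r * Real.log (W ω (x r))) *
        ((if f ω (x r) = x (r + 1) then (1 : ℝ) else 0) / (Fintype.card Ω : ℝ))) := by
    intro r
    unfold AA avg
    rw [Finset.sum_div]
    refine Finset.sum_congr rfl fun ω _ => ?_
    rw [mul_div_assoc]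
  simp only [this]
  rw [Finset.prod_univ_sum]
  simp only [Fintype.piFinset_univ]
  refine Finset.sum_congr rfl fun ω _ => ?_
  rw [Finset.prod_mul_distrib, Real.exp_sum]

theorem SS_zero_le (f : Ω → I → I) (W : Ω → I → ℝ) (n : ℕ) (e : Fin (n + 1) → ℝ)
    (he : ∑ r, e r = 0) : SS f W n (fun _ => 0) ≤ SS f W n e := by
  have h1 : ((n + 1 : ℕ) : ℝ) * SS f W n (fun _ => 0) ≤
      ∑ k : Fin (n + 1), SS f W n (fun r => e (r + k)) := by
    simp only [SS_expand]
    rw [Finset.mul_sum, Finset.sum_comm]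
    refine Finset.sum_le_sum fun x _ => ?_
    rw [Finset.mul_sum, Finset.sum_comm]
    refine Finset.sum_le_sum fun ω _ => ?_
    rw [← Finset.sum_mul, ← mul_assoc]
    refine mul_le_mul_of_nonneg_right ?_ (Finset.prod_nonneg fun r _ => ?_)
    · have h2 : ∑ k : Fin (n + 1), ∑ r, e (r + k) * Real.log (W (ω r) (x r)) = 0 := by
        rw [Finset.sum_comm]
        apply Finset.sum_eq_zero
        intro r _
        rw [← Finset.sum_mul]
        have : ∑ k, e (r + k) = 0 := by
          rw [← he]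
          exact Equiv.sum_comp (Equiv.addLeft r) e
        rw [this, zero_mul]
      have h3 : ∑ k : Fin (n + 1), (∑ r, e (r + k) * Real.log (W (ω r) (x r)) + 1) ≤
          ∑ k : Fin (n + 1), Real.exp (∑ r, e (r + k) * Real.log (W (ω r) (x r))) :=
        Finset.sum_le_sum fun k _ => Real.add_one_le_exp _
      rw [Finset.sum_add_distrib, h2, zero_add] at h3
      simpa using h3
    · apply div_nonneg
      · split <;> norm_num
      · positivity
  simp only [SS_shift] at h1
  rw [Finset.sum_const, Finset.card_univ, Fintype.card_fin, nsmul_eq_mul] at h1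
  have h4 : (0 : ℝ) < ((n + 1 : ℕ) : ℝ) := by positivity
  exact le_of_mul_le_mul_left h1 h4

theorem trace_eq_SS (f : Ω → I → I) (W : Ω → I → ℝ) (n : ℕ) (e : ℕ → ℝ) :
    (pr (fun r => AA f W (e r)) (n + 1)).trace = SS f W n (fun r => e r) := by
  rw [trace_pr]
  rfl

theorem AA_zero (f : Ω → I → I) (W : Ω → I → ℝ) : AA f W 0 = ker f := by
  funext x y
  simp [AA, ker]

theorem pr_const (M : Matrix I I ℝ) (n : ℕ) : pr (fun _ => M) n = M ^ n := by
  induction n with
  | zero => rfl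
  | succ n ih => rw [pr, ih, pow_succ]

theorem main_le (f : Ω → I → I) (W : Ω → I → ℝ) (n : ℕ) (e : ℕ → ℝ)
    (he : ∑ r ∈ Finset.range (n + 1), e r = 0) :
    ((ker f) ^ (n + 1)).trace ≤ (pr (fun r => AA f W (e r)) (n + 1)).trace := by
  have h := SS_zero_le f W n (fun r => e r) (by rw [← he, Finset.sum_range])
  rw [← trace_eq_SS] at h
  refine le_trans (le_of_eq ?_) h
  have h2 := trace_eq_SS f W n (fun _ => 0)
  simp only [AA_zero, pr_const] at h2
  rw [h2]

open Matrix in
/-- `1ᵀ M^k 1 ≤ |I| g^k` style bound: if `B 1 ≤ g 1` for a nonnegative matrix -/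
theorem pow_row_le (B : Matrix I I ℝ) (hB : ∀ x y, 0 ≤ B x y) (g : ℝ)
    (hg : ∀ x, ∑ y, B x y ≤ g) (hg0 : 0 ≤ g) (k : ℕ) (x : I) :
    ∑ y, (B ^ k) x y ≤ g ^ k := by
  induction k generalizing x with
  | zero => simp [Matrix.one_apply]
  | succ k ih =>
    have : ∑ y, (B ^ (k + 1)) x y = ∑ z, B x z * ∑ y, (B ^ k) z y := by
      rw [pow_succ']
      simp only [Matrix.mul_apply]
      rw [Finset.sum_comm]
      simp only [Finset.mul_sum]
    rw [this]
    calc ∑ z, B x z * ∑ y, (B ^ k) z y ≤ ∑ z, B x z * g ^ k :=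
          Finset.sum_le_sum fun z _ => mul_le_mul_of_nonneg_left (ih z) (hB x z)
      _ = (∑ z, B x z) * g ^ k := by rw [Finset.sum_mul]
      _ ≤ g * g ^ k := mul_le_mul_of_nonneg_right (hg x) (pow_nonneg hg0 _)
      _ = g ^ (k + 1) := by ring

theorem AA_neg_one (f : Ω → I → I) (W : Ω → I → ℝ) (hW : ∀ ω x, 0 < W ω x) (δ : ℝ)
    (hδ : ∀ x y, avg (fun ω => (W ω x)⁻¹ * (if f ω x = y then (1 : ℝ) else 0)) = δ) (x y : I) :
    AA f W (-1) x y = δ := by
  rw [← hδ x y]
  unfold AA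
  congr 1
  funext ω
  rw [neg_one_mul, Real.exp_neg, Real.exp_log (hW ω x)]

theorem AA_row (f : Ω → I → I) (W : Ω → I → ℝ) (hW : ∀ ω x, 0 < W ω x) (p : ℝ) (x : I)
    (h : I → ℝ) : ∑ y, AA f W p x y * h y = avg (fun ω => W ω x ^ p * h (f ω x)) := by
  unfold AA
  simp only [← avg_mul_right]
  rw [← avg_sum]
  congr 1
  funext ω
  rw [Finset.sum_eq_single (f ω x)]
  · rw [if_pos rfl, mul_one, Real.rpow_def_of_pos (hW ω x), mul_comm p]
  · intro b _ hb
    rw [if_neg (Ne.symm hb)]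
    ring
  · simp

theorem AA_nonneg (f : Ω → I → I) (W : Ω → I → ℝ) (p : ℝ) (x y : I) : 0 ≤ AA f W p x y := by
  unfold AA
  apply avg_nonneg
  intro ω
  split
  · rw [mul_one]; exact (Real.exp_pos _).le
  · simp

/-- `tr (δ 𝟙 M) ≤ δ |I| g` if the rows of `M` sum to at most `g` -/
theorem trace_delta (A M : Matrix I I ℝ) (δ g : ℝ) (hδ : 0 ≤ δ) (hA : ∀ x y, A x y = δ)
    (hM : ∀ x, ∑ y, M x y ≤ g) : (A * M).trace ≤ δ * (Fintype.card I : ℝ) * g := by
  have : (A * M).trace = δ * ∑ x, ∑ y, M x y := by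
    simp only [Matrix.trace, Matrix.diag_apply, Matrix.mul_apply, hA]
    rw [Finset.sum_comm, Finset.mul_sum]
    simp only [Finset.mul_sum]
  rw [this, mul_assoc]
  refine mul_le_mul_of_nonneg_left ?_ hδ
  calc ∑ x, ∑ y, M x y ≤ ∑ _x : I, g := Finset.sum_le_sum fun x _ => hM x
    _ = _ := by rw [Finset.sum_const, Finset.card_univ, nsmul_eq_mul]

end AmGmaux

open AmGmaux

theorem amgm_pair {I Ω : Type} [Fintype I] [DecidableEq I] [Fintype Ω] [Nonempty Ω]
    (f : Ω → I → I) (W : Ω → I → ℝ) (hW : ∀ ω x, 0 < W ω x) (δ g : ℝ)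
    (hδ : ∀ x y, avg (fun ω => (W ω x)⁻¹ * (if f ω x = y then (1 : ℝ) else 0)) = δ)
    (hg : ∀ x, avg (fun ω => avg (fun ω' => (W ω' (f ω x)) ^ (1 / 31 : ℝ))) ≤ g) :
    ((ker f) ^ 64).trace ≤ δ * (Fintype.card I : ℝ) * g ^ 31 := by
  classical
  rcases isEmpty_or_nonempty I with hI | ⟨⟨x₀⟩⟩
  · simp [Matrix.trace]
  have hδ0 : 0 ≤ δ := by
    rw [← hδ x₀ x₀]
    apply avg_nonneg
    intro ω
    have := hW ω x₀
    split <;> positivity
  have hg0 : 0 ≤ g := by
    refine le_trans ?_ (hg x₀)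
    exact avg_nonneg fun ω => avg_nonneg fun ω' => Real.rpow_nonneg (hW _ _).le _
  set e : ℕ → ℝ := fun r => if r = 0 then -1 else if r % 2 = 0 then 1 / 31 else 0 with he
  have hsum : ∑ r ∈ Finset.range (63 + 1), e r = 0 := by
    simp only [he]
    norm_num [Finset.sum_range_succ]
  refine (main_le f W 63 e hsum).trans ?_
  set X : Matrix I I ℝ := ker f with hX
  set A : Matrix I I ℝ := AA f W (1 / 31) with hA
  set A0 : Matrix I I ℝ := AA f W (-1) with hA0
  have hpr : ∀ k : ℕ, pr (fun r => AA f W (e r)) (2 * k + 2) = A0 * ((X * A) ^ k * X) := by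
    intro k
    induction k with
    | zero =>
      simp only [pr, he]
      norm_num [AA_zero]
      rw [hA0, hX]
    | succ k ih =>
      have e1 : 2 * (k + 1) + 2 = (2 * k + 2) + 1 + 1 := by ring
      rw [e1, pr, pr, ih]
      have h1 : e (2 * k + 2) = 1 / 31 := by
        simp only [he]
        rw [if_neg (by omega), if_pos (by omega)]
      have h2 : e (2 * k + 2 + 1) = 0 := by
        simp only [he]
        rw [if_neg (by omega), if_neg (by omega)]
      rw [h1, h2, AA_zero, pow_succ]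
      simp only [mul_assoc, hA, hX]
  have h64 : (63 + 1 : ℕ) = 2 * 31 + 2 := by norm_num
  rw [h64, hpr]
  have hXrow : ∀ x, ∀ h : I → ℝ, ∑ y, X x y * h y = avg (fun ω => h (f ω x)) := by
    intro x h
    have := AA_row f W hW 0 x h
    rw [AA_zero] at this
    simpa using this
  have hX1 : ∀ x, ∑ y, X x y = 1 := by
    intro x
    have := hXrow x (fun _ => 1)
    simpa [avg_const] using this
  have hXn : ∀ x y, 0 ≤ X x y := by
    intro x y
    have := AA_nonneg f W 0 x y
    rwa [AA_zero] at this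
  have hB : ∀ x, ∑ y, (X * A) x y ≤ g := by
    intro x
    have h1 : ∑ y, (X * A) x y = ∑ z, X x z * ∑ y, A z y := by
      simp only [Matrix.mul_apply]
      rw [Finset.sum_comm]
      simp only [Finset.mul_sum]
    rw [h1, hXrow]
    refine le_trans (le_of_eq ?_) (hg x)
    congr 1
    funext ω
    have := AA_row f W hW (1 / 31) (f ω x) (fun _ => 1)
    simpa [hA] using this
  have hBn : ∀ x y, 0 ≤ (X * A) x y := by
    intro x y
    rw [Matrix.mul_apply]
    exact Finset.sum_nonneg fun z _ => mul_nonneg (hXn _ _) (AA_nonneg _ _ _ _ _)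
  refine trace_delta A0 _ δ (g ^ 31) hδ0 (AA_neg_one f W hW δ hδ) ?_
  intro x
  have h1 : ∑ y, ((X * A) ^ 31 * X) x y = ∑ z, ((X * A) ^ 31) x z * ∑ y, X z y := by
    simp only [Matrix.mul_apply]
    rw [Finset.sum_comm]
    simp only [Finset.mul_sum]
  rw [h1]
  simp only [hX1, mul_one]
  exact pow_row_le _ hBn g hB hg0 31 x

theorem amgm_all {I Ω : Type} [Fintype I] [DecidableEq I] [Fintype Ω] [Nonempty Ω]
    (f : Ω → I → I) (W : Ω → I → ℝ) (hW : ∀ ω x, 0 < W ω x) (δ g : ℝ)
    (hδ : ∀ x y, avg (fun ω => (W ω x)⁻¹ * (if f ω x = y then (1 : ℝ) else 0)) = δ)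
    (hg : ∀ x, avg (fun ω => (W ω x) ^ (1 / 63 : ℝ)) ≤ g) :
    ((ker f) ^ 64).trace ≤ δ * (Fintype.card I : ℝ) * g ^ 63 := by
  classical
  rcases isEmpty_or_nonempty I with hI | ⟨⟨x₀⟩⟩
  · simp [Matrix.trace]
  have hδ0 : 0 ≤ δ := by
    rw [← hδ x₀ x₀]
    apply avg_nonneg
    intro ω
    have := hW ω x₀
    split <;> positivity
  have hg0 : 0 ≤ g := by
    refine le_trans ?_ (hg x₀)
    exact avg_nonneg fun ω => Real.rpow_nonneg (hW _ _).le _
  set e : ℕ → ℝ := fun r => if r = 0 then -1 else 1 / 63 with he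
  have hsum : ∑ r ∈ Finset.range (63 + 1), e r = 0 := by
    simp only [he]
    norm_num [Finset.sum_range_succ]
  refine (main_le f W 63 e hsum).trans ?_
  set A : Matrix I I ℝ := AA f W (1 / 63) with hA
  set A0 : Matrix I I ℝ := AA f W (-1) with hA0
  have hpr : ∀ k : ℕ, pr (fun r => AA f W (e r)) (k + 1) = A0 * A ^ k := by
    intro k
    induction k with
    | zero =>
      simp only [pr, he]
      norm_num
      rw [hA0]
    | succ k ih =>
      rw [pr, ih]
      have h1 : e (k + 1) = 1 / 63 := by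
        simp only [he]
        rw [if_neg (by omega)]
      rw [h1, pow_succ]
      simp only [mul_assoc, hA]
  rw [hpr]
  have hB : ∀ x, ∑ y, A x y ≤ g := by
    intro x
    refine le_trans (le_of_eq ?_) (hg x)
    have := AA_row f W hW (1 / 63) x (fun _ => 1)
    simpa [hA] using this
  exact trace_delta A0 _ δ (g ^ 63) hδ0 (AA_neg_one f W hW δ hδ)
    (fun x => pow_row_le _ (AA_nonneg f W _) g hB hg0 63 x)

end Crest.Agent.R155
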