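import Crest.Agent.R155.Defs

/-!
# PIECE CORE (row 155): the two-copy trace inequality (abstract form)

`H` finite set of sites, colorings `H → Fin q`, `Y` = transition matrix on colorings of a random
permutation `g ω` of `H`, assumed positive semidefinite.  For a set `B` of sites, two copies
`φ₀, φ₁` exchange their colors on `B`.

## Proof
Fix `B`.  Write `φ₀ = (p, u)`, `φ₁ = (p', v)` with `p, p'` the colors on `B`, `u, v` the colors on the
complement.  Then the inner sum is
`∑_{p,p',u,v} wt₀(p,u) wt₁(p',v) Y((p',u),(p,u)) Y((p,v),(p',v))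
 = ∑_{p,p'} w₀(p) w₁(p') R₀(p',p) R₁(p,p')`
with `w_s(p)` = the part of the weight on `B` (`wt` is multiplicative over sites: it is
`∏_x (if φ x = 0 then 1 else if x ∈ J then 2^{-a} else 0)`), and
`R_s(p',p) = ∑_u w_s(u) Y((p',u),(p,u))`, `w_s(u)` = weight part on the complement of `B`.
`R_s` is symmetric, positive semidefinite, with nonnegative entries.
Cauchy-Schwarz: inner sum `≤ √(∑ w₀(p) w₁(p') R₀(p,p')²) √(∑ w₀(p) w₁(p') R₁(p,p')²)`.
Since `w ≤ 1`: `∑_{p'} w₁(p') R₀(p,p')² ≤ ∑_{p'} R₀(p,p')² ≤ ρ₀ R₀(p,p)`, where `ρ₀` = max row sum of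
`R₀` (for a PSD matrix `R` with nonneg entries and row sums `≤ ρ`: `⟨Ry,y⟩ ≤ ρ‖y‖²`, and with
`y = R e_p`, Cauchy-Schwarz in the PSD form: `‖R e_p‖⁴ = ⟨R e_p, y⟩² ≤ R(p,p) ⟨R y, y⟩ ≤ R(p,p) ρ ‖y‖²`).
Key claim: every row sum of `R₀` is `≤ R₀(0,0)` (`row_sum_le` below).
So the inner sum is `≤ √(n₀(B) n₁(B) TH(a;J₀) TH(a;J₁))` with
`n_s(B) = R_s(0,0) = ∑_{φ: supp φ ∩ B = ∅} wt a J_s φ · Y φ φ` and
`∑_p w₀(p) R₀(p,p) = TH(a;J₀)`.  Finally Cauchy-Schwarz for the average over `B` and
`avg_B n_s(B) = ∑_φ wt a J_s φ 2^{-|supp φ|} Y φ φ = TH(a+1;J_s)`.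

Key claim: for one permutation `g` and `B ⊆ H`: the weighted number of `u` with
`(g·(p,u))|_{Bᶜ} = u` is at most the weighted number of `u'` with `g·(0,u') = (0,u')` on all of `H`.
Proof: `Z = {x : ∀ i : ℤ, (g^i) x ∉ B}`; map `u ↦ u'` = `u` on `Z`, `0` outside.
`u'` is a solution of the second problem (`Z` is `g`-invariant), the weight does not decrease, and the
map is injective on solutions: for `x ∉ Z`, `x ∉ B`, going backwards `g^{-1}x, g^{-2}x, …` until `B`
is hit (finite order) determines `u x = p(g^{-i}x)`.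
-/

set_option autoImplicit false

namespace Crest.Agent.R155

/-- trace against the weight `wt a J` -/
noncomputable def TH {H : Type*} [Fintype H] [DecidableEq H] {q : ℕ} [NeZero q]
    (Y : Matrix (H → Fin q) (H → Fin q) ℝ) (a : ℕ) (J : Finset H) : ℝ :=
  ∑ φ : H → Fin q, wt a J φ * Y φ φ

/-- key claim, for one permutation; `glue B p u` = `p` on `B` and `u` outside -/
theorem row_sum_le {H : Type*} [Fintype H] [DecidableEq H] {q : ℕ} [NeZero q]
    (g : Equiv.Perm H) (B : H → Bool) (a : ℕ) (J : Finset H) (p : H → Fin q) :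
    (∑ φ : H → Fin q, if (∀ x, B x = true → φ x = p x) ∧
        (∀ x, B x = false → φ (g.symm x) = φ x) then
        (1 / 2 : ℝ) ^ (a * (Finset.univ.filter fun x => B x = false ∧ φ x ≠ 0).card) *
          (if ∀ x, B x = false → φ x ≠ 0 → x ∈ J then 1 else 0) else 0)
      ≤ ∑ φ : H → Fin q, if (∀ x, B x = true → φ x = 0) ∧ (∀ x, φ (g.symm x) = φ x) then
        wt a J φ else 0 := by
  classical
  rw [← Finset.sum_filter, ← Finset.sum_filter]
  set Z : H → Prop := fun x => ∀ i : ℤ, B ((g ^ i) x) = false with hZ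
  set Φ : (H → Fin q) → (H → Fin q) := fun φ x => if Z x then φ x else 0 with hΦ
  have hZ0 : ∀ x, Z x → B x = false := by
    intro x hx
    have := hx 0
    simpa using this
  have hZg : ∀ x, Z (g.symm x) ↔ Z x := by
    intro x
    constructor
    · intro h i
      have := h (i + 1)
      rw [zpow_add, zpow_one, Equiv.Perm.mul_apply, Equiv.apply_symm_apply] at this
      exact this
    · intro h i
      have := h (i - 1)
      rw [zpow_sub, zpow_one, Equiv.Perm.mul_apply] at this
      exact this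
  set S₁ := Finset.univ.filter fun φ : H → Fin q => (∀ x, B x = true → φ x = p x) ∧
        (∀ x, B x = false → φ (g.symm x) = φ x) with hS₁
  set S₂ := Finset.univ.filter fun φ : H → Fin q => (∀ x, B x = true → φ x = 0) ∧
        (∀ x, φ (g.symm x) = φ x) with hS₂
  -- the backward orbit determines the value
  have hback : ∀ φ ∈ S₁, ∀ (k : ℕ) (x : H), (∀ j < k, B ((g.symm ^ j) x) = false) →
      φ x = φ ((g.symm ^ k) x) := by
    intro φ hφ k
    rw [hS₁, Finset.mem_filter] at hφ
    induction k with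
    | zero => intro x _; simp
    | succ k ih =>
      intro x hx
      rw [ih x (fun j hj => hx j (Nat.lt_succ_of_lt hj)), pow_succ', Equiv.Perm.mul_apply]
      exact (hφ.2.2 _ (hx k (Nat.lt_succ_self k))).symm
  have hinj : Set.InjOn Φ (S₁ : Set (H → Fin q)) := by
    intro φ hφ ψ hψ h
    funext x
    by_cases hx : Z x
    · have := congrFun h x
      simpa [hΦ, hx] using this
    · -- find a backward time
      have hex : ∃ k : ℕ, B ((g.symm ^ k) x) = true := by
        rw [hZ] at hx
        push Not at hx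
        obtain ⟨i, hi⟩ := hx
        replace hi : B ((g ^ i) x) = true := by simpa using hi
        obtain ⟨k, hk⟩ : ∃ k : ℕ, (g ^ i) = g.symm ^ k := by
          have hfin : IsOfFinOrder g.symm := isOfFinOrder_of_finite _
          have h1 : (g ^ i) ∈ Subgroup.zpowers (g.symm : Equiv.Perm H) := by
            refine ⟨-i, ?_⟩
            show (g⁻¹) ^ (-i) = g ^ i
            rw [inv_zpow', neg_neg]
          rw [← hfin.mem_powers_iff_mem_zpowers] at h1
          obtain ⟨k, hk⟩ := h1
          exact ⟨k, hk.symm⟩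
        exact ⟨k, by rw [← hk]; exact hi⟩
      have hk := Nat.find_spec hex
      have hmin : ∀ j < Nat.find hex, B ((g.symm ^ j) x) = false := by
        intro j hj
        have := Nat.find_min hex hj
        simpa using this
      rw [hback φ hφ _ x hmin, hback ψ hψ _ x hmin]
      have h1 : φ ∈ S₁ := hφ
      have h2 : ψ ∈ S₁ := hψ
      rw [hS₁, Finset.mem_filter] at h1 h2
      rw [h1.2.1 _ hk, h2.2.1 _ hk]
  have hmap : ∀ φ ∈ S₁, Φ φ ∈ S₂ := by
    intro φ hφ
    rw [hS₁, Finset.mem_filter] at hφ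
    rw [hS₂, Finset.mem_filter]
    refine ⟨Finset.mem_univ _, ?_, ?_⟩
    · intro x hx
      have : ¬ Z x := fun hz => by
        have := hZ0 x hz
        rw [hx] at this
        exact absurd this (by simp)
      simp [hΦ, this]
    · intro x
      simp only [hΦ]
      by_cases hx : Z x
      · rw [if_pos hx, if_pos ((hZg x).2 hx)]
        exact hφ.2.2 x (hZ0 x hx)
      · rw [if_neg hx, if_neg (fun h => hx ((hZg x).1 h))]
  have hwt : ∀ φ ∈ S₁, (1 / 2 : ℝ) ^ (a * (Finset.univ.filter fun x => B x = false ∧ φ x ≠ 0).card) *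
          (if ∀ x, B x = false → φ x ≠ 0 → x ∈ J then 1 else 0) ≤ wt a J (Φ φ) := by
    intro φ _
    have hsub : supp (Φ φ) ⊆ Finset.univ.filter fun x => B x = false ∧ φ x ≠ 0 := by
      intro x hx
      unfold supp at hx
      rw [Finset.mem_filter] at hx ⊢
      refine ⟨Finset.mem_univ _, ?_⟩
      by_cases hz : Z x
      · have h2 := hx.2
        simp only [hΦ, if_pos hz] at h2
        exact ⟨hZ0 x hz, h2⟩
      · exfalso
        apply hx.2
        simp [hΦ, hz]
    have hnn : 0 ≤ wt a J (Φ φ) := by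
      unfold wt
      split_ifs <;> positivity
    split_ifs with hJ
    · rw [mul_one]
      have hsJ : supp (Φ φ) ⊆ J := by
        intro x hx
        have := hsub hx
        rw [Finset.mem_filter] at this
        exact hJ x this.2.1 this.2.2
      unfold wt
      rw [if_pos hsJ]
      apply pow_le_pow_of_le_one (by norm_num) (by norm_num)
      exact Nat.mul_le_mul_left _ (Finset.card_le_card hsub)
    · rw [mul_zero]
      exact hnn
  calc ∑ φ ∈ S₁, (1 / 2 : ℝ) ^ (a * (Finset.univ.filter fun x => B x = false ∧ φ x ≠ 0).card) *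
          (if ∀ x, B x = false → φ x ≠ 0 → x ∈ J then 1 else 0)
      ≤ ∑ φ ∈ S₁, wt a J (Φ φ) := Finset.sum_le_sum hwt
    _ = ∑ ψ ∈ S₁.image Φ, wt a J ψ := by
        rw [Finset.sum_image]
        intro x hx y hy h
        exact hinj hx hy h
    _ ≤ ∑ ψ ∈ S₂, wt a J ψ := by
        apply Finset.sum_le_sum_of_subset_of_nonneg
        · intro ψ hψ
          rw [Finset.mem_image] at hψ
          obtain ⟨φ, hφ, rfl⟩ := hψ
          exact hmap φ hφ
        · intro ψ _ _
          unfold wt
          split_ifs <;> positivity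

namespace CoreAux

/-- a PSD matrix with nonnegative entries and row sums `≤ ρ` -/
theorem psd_row {ι : Type*} [Fintype ι] [DecidableEq ι] (R : ι → ι → ℝ) {ρ : ℝ}
    (hsymm : ∀ i j, R i j = R j i) (hnn : ∀ i j, 0 ≤ R i j)
    (hpsd : ∀ y : ι → ℝ, 0 ≤ ∑ i, ∑ j, y i * R i j * y j) (hrow : ∀ i, ∑ j, R i j ≤ ρ) (i : ι) :
    ∑ j, R i j ^ 2 ≤ ρ * R i i := by
  have hρ : 0 ≤ ρ := (Finset.sum_nonneg fun j _ => hnn i j).trans (hrow i)
  rcases hρ.eq_or_lt with h0 | hpos
  · have h1 : ∀ j, R i j = 0 := by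
      intro j
      have hs : ∑ j, R i j = 0 :=
        le_antisymm (by rw [h0]; exact hrow i) (Finset.sum_nonneg fun j _ => hnn i j)
      exact (Finset.sum_eq_zero_iff_of_nonneg (fun j _ => hnn i j)).1 hs j (Finset.mem_univ j)
    rw [← h0, zero_mul]
    apply le_of_eq
    exact Finset.sum_eq_zero fun j _ => by rw [h1 j]; simp
  set S := ∑ j, R i j ^ 2 with hS
  -- the quadratic form at y = R e_i
  have hQ : ∑ j, ∑ k, R i j * R j k * R i k ≤ ρ * S := by
    have h1 : ∀ j k, R i j * R j k * R i k ≤ R j k * R i j ^ 2 / 2 + R j k * R i k ^ 2 / 2 := by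
      intro j k
      have := mul_nonneg (hnn j k) (sq_nonneg (R i j - R i k))
      nlinarith
    have h2 : ∑ j, ∑ k, R j k * R i j ^ 2 / 2 ≤ ρ * S / 2 := by
      calc ∑ j, ∑ k, R j k * R i j ^ 2 / 2 = ∑ j, (∑ k, R j k) * R i j ^ 2 / 2 := by
            refine Finset.sum_congr rfl fun j _ => ?_
            rw [Finset.sum_mul, Finset.sum_div]
        _ ≤ ∑ j, ρ * R i j ^ 2 / 2 := by
            refine Finset.sum_le_sum fun j _ => ?_
            have := mul_le_mul_of_nonneg_right (hrow j) (sq_nonneg (R i j))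
            linarith
        _ = ρ * S / 2 := by rw [hS, Finset.mul_sum, Finset.sum_div]
    have h3 : ∑ j, ∑ k, R j k * R i k ^ 2 / 2 ≤ ρ * S / 2 := by
      rw [Finset.sum_comm]
      calc ∑ k, ∑ j, R j k * R i k ^ 2 / 2 = ∑ k, ∑ j, R k j * R i k ^ 2 / 2 := by
            refine Finset.sum_congr rfl fun k _ => Finset.sum_congr rfl fun j _ => ?_
            rw [hsymm j k]
        _ ≤ ρ * S / 2 := h2
    calc ∑ j, ∑ k, R i j * R j k * R i k
        ≤ ∑ j, ∑ k, (R j k * R i j ^ 2 / 2 + R j k * R i k ^ 2 / 2) :=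
          Finset.sum_le_sum fun j _ => Finset.sum_le_sum fun k _ => h1 j k
      _ = ∑ j, ∑ k, R j k * R i j ^ 2 / 2 + ∑ j, ∑ k, R j k * R i k ^ 2 / 2 := by
          simp_rw [Finset.sum_add_distrib]
      _ ≤ ρ * S := by linarith
  have hmain := hpsd (fun j => (if j = i then ρ else 0) - R i j)
  have hexp : ∑ j, ∑ k, ((if j = i then ρ else 0) - R i j) * R j k *
      ((if k = i then ρ else 0) - R i k) =
      ρ ^ 2 * R i i - 2 * ρ * S + ∑ j, ∑ k, R i j * R j k * R i k := by
    have e1 : ∀ j k, ((if j = i then ρ else 0) - R i j) * R j k *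
      ((if k = i then ρ else 0) - R i k) =
        (if j = i then (if k = i then ρ ^ 2 * R j k else 0) else 0) -
        (if j = i then ρ * R j k * R i k else 0) -
        (if k = i then ρ * R j k * R i j else 0) + R i j * R j k * R i k := by
      intro j k
      split_ifs <;> ring
    simp_rw [e1, Finset.sum_add_distrib, Finset.sum_sub_distrib]
    have e2 : ∑ j, ∑ k, (if j = i then (if k = i then ρ ^ 2 * R j k else 0) else 0) =
        ρ ^ 2 * R i i := by
      rw [Finset.sum_eq_single i]
      · simp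
      · intro j _ hj
        simp [hj]
      · simp
    have e3 : ∑ j, ∑ k, (if j = i then ρ * R j k * R i k else 0) = ρ * S := by
      rw [Finset.sum_eq_single i]
      · simp only [if_true]
        rw [hS, Finset.mul_sum]
        refine Finset.sum_congr rfl fun k _ => ?_
        ring
      · intro j _ hj
        simp [hj]
      · simp
    have e4 : ∑ j, ∑ k, (if k = i then ρ * R j k * R i j else 0) = ρ * S := by
      rw [Finset.sum_comm, Finset.sum_eq_single i]
      · simp only [if_true]
        rw [hS, Finset.mul_sum]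
        refine Finset.sum_congr rfl fun k _ => ?_
        rw [hsymm k i]
        ring
      · intro j _ hj
        simp [hj]
      · simp
    rw [e2, e3, e4]
    ring
  rw [hexp] at hmain
  have : ρ * S ≤ ρ * (ρ * R i i) := by nlinarith
  exact le_of_mul_le_mul_left this hpos

section glue

variable {H : Type} [Fintype H] [DecidableEq H] {q : ℕ} [NeZero q]

/-- colors on `B` -/
abbrev PB (B : H → Bool) (q : ℕ) : Type := {x : H // B x = true} → Fin q
/-- colors outside `B` -/
abbrev UB (B : H → Bool) (q : ℕ) : Type := {x : H // ¬ B x = true} → Fin q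

/-- glue the colors on `B` and outside -/
def glue (B : H → Bool) (p : PB B q) (u : UB B q) : H → Fin q :=
  fun x => if h : B x = true then p ⟨x, h⟩ else u ⟨x, h⟩

theorem glue_pos (B : H → Bool) (p : PB B q) (u : UB B q) {x : H} (h : B x = true) :
    glue B p u x = p ⟨x, h⟩ := by
  unfold glue
  rw [dif_pos h]

theorem glue_neg (B : H → Bool) (p : PB B q) (u : UB B q) {x : H} (h : ¬ B x = true) :
    glue B p u x = u ⟨x, h⟩ := by
  unfold glue
  rw [dif_neg h]

theorem sum_glue (B : H → Bool) (F : (H → Fin q) → ℝ) :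
    ∑ φ, F φ = ∑ p : PB B q, ∑ u : UB B q, F (glue B p u) := by
  rw [← Fintype.sum_prod_type']
  exact (Equiv.sum_comp (Equiv.piEquivPiSubtypeProd (fun x => B x = true)
    (fun _ => Fin q)).symm F).symm

/-- one-site weight -/
noncomputable def ws (a : ℕ) (J : Finset H) (x : H) (c : Fin q) : ℝ :=
  if c = 0 then 1 else if x ∈ J then (1 / 2 : ℝ) ^ a else 0

theorem ws_nonneg (a : ℕ) (J : Finset H) (x : H) (c : Fin q) : 0 ≤ ws a J x c := by
  unfold ws
  split_ifs <;> positivity

theorem ws_le_one (a : ℕ) (J : Finset H) (x : H) (c : Fin q) : ws a J x c ≤ 1 := by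
  unfold ws
  split_ifs
  · exact le_rfl
  · exact pow_le_one₀ (by norm_num) (by norm_num)
  · exact zero_le_one

theorem wt_eq_prod (a : ℕ) (J : Finset H) (φ : H → Fin q) :
    wt a J φ = ∏ x, ws a J x (φ x) := by
  unfold wt
  split_ifs with h
  · have h1 : ∀ x, ws a J x (φ x) = if x ∈ supp φ then (1 / 2 : ℝ) ^ a else 1 := by
      intro x
      unfold ws supp
      by_cases hx : φ x = 0
      · simp [hx]
      · have : x ∈ J := h (by unfold supp; simp [hx])
        simp [hx, this]
    simp_rw [h1]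
    rw [Finset.prod_ite_mem, Finset.univ_inter, Finset.prod_const, pow_mul]
  · rw [Finset.not_subset] at h
    obtain ⟨x, hx, hxJ⟩ := h
    symm
    apply Finset.prod_eq_zero (Finset.mem_univ x)
    unfold supp at hx
    rw [Finset.mem_filter] at hx
    unfold ws
    rw [if_neg hx.2, if_neg hxJ]

/-- weight of the part on `B` -/
noncomputable def wP (a : ℕ) (J : Finset H) (B : H → Bool) (p : PB B q) : ℝ :=
  ∏ x : {x : H // B x = true}, ws a J x.1 (p x)

/-- weight of the part outside `B` -/
noncomputable def wU (a : ℕ) (J : Finset H) (B : H → Bool) (u : UB B q) : ℝ :=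
  ∏ x : {x : H // ¬ B x = true}, ws a J x.1 (u x)

theorem wt_glue (a : ℕ) (J : Finset H) (B : H → Bool) (p : PB B q) (u : UB B q) :
    wt a J (glue B p u) = wP a J B p * wU a J B u := by
  rw [wt_eq_prod, ← Fintype.prod_subtype_mul_prod_subtype (fun x => B x = true)]
  unfold wP wU
  congr 1
  · refine Finset.prod_congr rfl fun x _ => ?_
    rw [glue_pos B p u x.2]
  · refine Finset.prod_congr rfl fun x _ => ?_
    rw [glue_neg B p u x.2]

theorem wP_nonneg (a : ℕ) (J : Finset H) (B : H → Bool) (p : PB B q) : 0 ≤ wP a J B p :=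
  Finset.prod_nonneg fun _ _ => ws_nonneg _ _ _ _

theorem wP_le_one (a : ℕ) (J : Finset H) (B : H → Bool) (p : PB B q) : wP a J B p ≤ 1 :=
  Finset.prod_le_one (fun _ _ => ws_nonneg _ _ _ _) fun _ _ => ws_le_one _ _ _ _

theorem wU_nonneg (a : ℕ) (J : Finset H) (B : H → Bool) (u : UB B q) : 0 ≤ wU a J B u :=
  Finset.prod_nonneg fun _ _ => ws_nonneg _ _ _ _

theorem wP_zero (a : ℕ) (J : Finset H) (B : H → Bool) : wP a J B (0 : PB B q) = 1 := by
  unfold wP
  apply Finset.prod_eq_one
  intro x _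
  unfold ws
  simp

/-- `wU` in the form used by `row_sum_le` -/
theorem wU_eq (a : ℕ) (J : Finset H) (B : H → Bool) (p : PB B q) (u : UB B q) :
    (1 / 2 : ℝ) ^ (a * (Finset.univ.filter fun x => B x = false ∧ glue B p u x ≠ 0).card) *
      (if ∀ x, B x = false → glue B p u x ≠ 0 → x ∈ J then 1 else 0) = wU a J B u := by
  have h1 : wU a J B u = wt a J (glue B 0 u) := by rw [wt_glue, wP_zero, one_mul]
  rw [h1]
  have h2 : supp (glue B 0 u) =
      Finset.univ.filter fun x => B x = false ∧ glue B p u x ≠ 0 := by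
    unfold supp
    apply Finset.filter_congr
    intro x _
    by_cases hx : B x = true
    · rw [glue_pos B 0 u hx]
      simp [hx]
    · rw [glue_neg B 0 u hx, glue_neg B p u hx]
      simp only [Bool.not_eq_true] at hx
      simp [hx]
  unfold wt
  rw [h2]
  have h3 : ((Finset.univ.filter fun x => B x = false ∧ glue B p u x ≠ 0) ⊆ J) ↔
      ∀ x, B x = false → glue B p u x ≠ 0 → x ∈ J := by
    constructor
    · intro h x hx1 hx2
      exact h (by rw [Finset.mem_filter]; exact ⟨Finset.mem_univ _, hx1, hx2⟩)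
    · intro h x hx
      rw [Finset.mem_filter] at hx
      exact h x hx.2.1 hx.2.2
  by_cases hJ : ∀ x, B x = false → glue B p u x ≠ 0 → x ∈ J
  · rw [if_pos hJ, if_pos (h3.2 hJ), mul_one]
  · rw [if_neg hJ, if_neg (fun h => hJ (h3.1 h)), mul_zero]

/-- restriction to `B` of a coloring equal to a glued one -/
theorem eq_glue_iff (B : H → Bool) (ψ : H → Fin q) (p : PB B q) (u : UB B q) :
    ψ = glue B p u ↔ p = (fun x => ψ x.1) ∧ ∀ x, (h : ¬ B x = true) → ψ x = u ⟨x, h⟩ := by
  constructor
  · intro h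
    refine ⟨?_, ?_⟩
    · funext x
      rw [h, glue_pos B p u x.2]
    · intro x hx
      rw [h, glue_neg B p u hx]
  · rintro ⟨h1, h2⟩
    funext x
    by_cases hx : B x = true
    · rw [glue_pos B p u hx, h1]
    · rw [glue_neg B p u hx, h2 x hx]

/-- the matrix `R` -/
noncomputable def RR (Y : Matrix (H → Fin q) (H → Fin q) ℝ) (a : ℕ) (J : Finset H) (B : H → Bool)
    (p' p : PB B q) : ℝ := ∑ u : UB B q, wU a J B u * Y (glue B p' u) (glue B p u)

theorem RR_psd {Y : Matrix (H → Fin q) (H → Fin q) ℝ} (hpsd : Y.PosSemidef) (a : ℕ)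
    (J : Finset H) (B : H → Bool) (y : PB B q → ℝ) :
    0 ≤ ∑ i, ∑ j, y i * RR Y a J B i j * y j := by
  have h1 : ∑ i, ∑ j, y i * RR Y a J B i j * y j =
      ∑ u : UB B q, wU a J B u * ∑ i, ∑ j, y i * Y (glue B i u) (glue B j u) * y j := by
    unfold RR
    simp_rw [Finset.mul_sum, Finset.sum_mul]
    rw [Finset.sum_congr rfl fun i _ => Finset.sum_comm, Finset.sum_comm]
    refine Finset.sum_congr rfl fun u _ => Finset.sum_congr rfl fun i _ =>
      Finset.sum_congr rfl fun j _ => ?_
    ring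
  rw [h1]
  refine Finset.sum_nonneg fun u _ => mul_nonneg (wU_nonneg _ _ _ _) ?_
  have h2 := (hpsd.submatrix (fun p : PB B q => glue B p u)).dotProduct_mulVec_nonneg y
  have h3 : star y ⬝ᵥ (Y.submatrix (fun p : PB B q => glue B p u)
      (fun p : PB B q => glue B p u)).mulVec y =
      ∑ i, ∑ j, y i * Y (glue B i u) (glue B j u) * y j := by
    unfold dotProduct Matrix.mulVec dotProduct
    refine Finset.sum_congr rfl fun i _ => ?_
    rw [Finset.mul_sum]
    refine Finset.sum_congr rfl fun j _ => ?_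
    simp only [Pi.star_apply, star_trivial, Matrix.submatrix_apply]
    ring
  rw [h3] at h2
  exact h2

/-- row sums -/
theorem RR_row {Ω : Type} [Fintype Ω] (g : Ω → Equiv.Perm H) (a : ℕ) (J : Finset H)
    (B : H → Bool) (p : PB B q) :
    ∑ p', RR (ker (fun (ω : Ω) (φ : H → Fin q) => fun x => φ ((g ω).symm x))) a J B p p' ≤
      RR (ker (fun (ω : Ω) (φ : H → Fin q) => fun x => φ ((g ω).symm x))) a J B 0 0 := by
  classical
  have hL : ∑ p', RR (ker (fun (ω : Ω) (φ : H → Fin q) => fun x => φ ((g ω).symm x))) a J B p p' =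
      avg fun ω => ∑ u : UB B q, if (∀ x, B x = false →
        glue B p u ((g ω).symm x) = glue B p u x) then wU a J B u else 0 := by
    unfold RR ker
    rw [Finset.sum_comm, avg_sum]
    refine Finset.sum_congr rfl fun u _ => ?_
    rw [← Finset.mul_sum, ← avg_sum, ← avg_mul_left]
    congr 1
    funext ω
    have h1 : ∀ p' : PB B q, (if (fun x => glue B p u ((g ω).symm x)) = glue B p' u then (1:ℝ)
        else 0) = if p' = (fun x => glue B p u ((g ω).symm x.1)) then
          (if (∀ x, B x = false → glue B p u ((g ω).symm x) = glue B p u x) then (1:ℝ) else 0)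
          else 0 := by
      intro p'
      have h2 : (∀ x, (h : ¬ B x = true) → glue B p u ((g ω).symm x) = u ⟨x, h⟩) ↔
          (∀ x, B x = false → glue B p u ((g ω).symm x) = glue B p u x) := by
        constructor
        · intro h x hx
          have hx' : ¬ B x = true := by simp [hx]
          rw [h x hx', glue_neg B p u hx']
        · intro h x hx
          rw [h x (by simpa using hx), glue_neg B p u hx]
      rw [← ite_and]
      refine if_congr ?_ rfl rfl
      rw [eq_glue_iff, h2]
    simp_rw [h1]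
    rw [Finset.sum_ite_eq']
    simp only [Finset.mem_univ, if_true, mul_ite, mul_one, mul_zero]
  have hR : RR (ker (fun (ω : Ω) (φ : H → Fin q) => fun x => φ ((g ω).symm x))) a J B 0 0 =
      avg fun ω => ∑ u : UB B q, if (∀ x,
        glue B 0 u ((g ω).symm x) = glue B 0 u x) then wU a J B u else 0 := by
    unfold RR ker
    rw [avg_sum]
    refine Finset.sum_congr rfl fun u _ => ?_
    rw [← avg_mul_left]
    congr 1
    funext ω
    rw [mul_ite, mul_one, mul_zero]
    refine if_congr ?_ rfl rfl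
    exact funext_iff
  rw [hL, hR]
  refine avg_le_avg fun ω => ?_
  have key := row_sum_le (g ω) B a J (glue B p 0)
  rw [sum_glue B, sum_glue B] at key
  have e1 : ∀ (p2 : PB B q) (u : UB B q), (if (∀ x, B x = true → glue B p2 u x = glue B p 0 x) ∧
        (∀ x, B x = false → glue B p2 u ((g ω).symm x) = glue B p2 u x) then
        (1 / 2 : ℝ) ^ (a * (Finset.univ.filter fun x => B x = false ∧ glue B p2 u x ≠ 0).card) *
          (if ∀ x, B x = false → glue B p2 u x ≠ 0 → x ∈ J then 1 else 0) else 0) =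
      if p2 = p then (if (∀ x, B x = false →
        glue B p u ((g ω).symm x) = glue B p u x) then wU a J B u else 0) else 0 := by
    intro p2 u
    have h2 : (∀ x, B x = true → glue B p2 u x = glue B p 0 x) ↔ p2 = p := by
      constructor
      · intro h
        funext x
        have := h x.1 x.2
        rw [glue_pos B p2 u x.2, glue_pos B p 0 x.2] at this
        exact this
      · rintro rfl x hx
        rw [glue_pos B p2 u hx, glue_pos B p2 0 hx]
    rw [wU_eq]
    by_cases hp : p2 = p
    · subst hp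
      rw [if_pos rfl]
      exact if_congr (by rw [h2]; simp) rfl rfl
    · rw [if_neg hp, if_neg]
      rw [h2]
      exact fun h => hp h.1
  have e2 : ∀ (p2 : PB B q) (u : UB B q), (if (∀ x, B x = true → glue B p2 u x = 0) ∧
        (∀ x, glue B p2 u ((g ω).symm x) = glue B p2 u x) then
        wt a J (glue B p2 u) else 0) =
      if p2 = 0 then (if (∀ x,
        glue B 0 u ((g ω).symm x) = glue B 0 u x) then wU a J B u else 0) else 0 := by
    intro p2 u
    have h2 : (∀ x, B x = true → glue B p2 u x = 0) ↔ p2 = 0 := by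
      constructor
      · intro h
        funext x
        have := h x.1 x.2
        rw [glue_pos B p2 u x.2] at this
        exact this
      · rintro rfl x hx
        rw [glue_pos B 0 u hx]
        rfl
    by_cases hp : p2 = 0
    · subst hp
      rw [if_pos rfl, wt_glue, wP_zero, one_mul]
      exact if_congr (by rw [h2]; simp) rfl rfl
    · rw [if_neg hp, if_neg]
      rw [h2]
      exact fun h => hp h.1
  simp_rw [e1, e2] at key
  have e3 : ∀ (p0 : PB B q) (f : UB B q → ℝ), ∑ p2 : PB B q, ∑ u : UB B q,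
      (if p2 = p0 then f u else 0) = ∑ u : UB B q, f u := by
    intro p0 f
    rw [Finset.sum_eq_single p0]
    · simp
    · intro b _ hb
      simp [hb]
    · simp
  rw [e3, e3] at key
  exact key

/-- the inner sum for a fixed `B` -/
theorem inner_le {Y : Matrix (H → Fin q) (H → Fin q) ℝ} (hsymm : ∀ φ χ, Y φ χ = Y χ φ)
    (hnn : ∀ φ χ, 0 ≤ Y φ χ) (hpsd : Y.PosSemidef) (a : ℕ) (J₀ J₁ : Finset H) (B : H → Bool)
    (hrow : ∀ (J : Finset H) (p : PB B q), ∑ p', RR Y a J B p p' ≤ RR Y a J B 0 0) :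
    ∑ φ₀ : H → Fin q, ∑ φ₁ : H → Fin q,
      wt a J₀ φ₀ * wt a J₁ φ₁ *
        (Y (fun x => if B x then φ₁ x else φ₀ x) φ₀ *
          Y (fun x => if B x then φ₀ x else φ₁ x) φ₁)
      ≤ Real.sqrt (RR Y a J₀ B 0 0) * Real.sqrt (RR Y a J₁ B 0 0) *
        Real.sqrt (TH Y a J₀ * TH Y a J₁) := by
  classical
  have hRnn : ∀ J (p p' : PB B q), 0 ≤ RR Y a J B p p' := fun J p p' =>
    Finset.sum_nonneg fun u _ => mul_nonneg (wU_nonneg _ _ _ _) (hnn _ _)
  have hRsymm : ∀ J (p p' : PB B q), RR Y a J B p p' = RR Y a J B p' p := by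
    intro J p p'
    unfold RR
    exact Finset.sum_congr rfl fun u _ => by rw [hsymm]
  have hsq : ∀ J (p : PB B q), ∑ p', RR Y a J B p p' ^ 2 ≤ RR Y a J B 0 0 * RR Y a J B p p :=
    fun J p => psd_row (RR Y a J B) (hRsymm J) (hRnn J) (RR_psd hpsd a J B) (hrow J) p
  have hTH : ∀ J, ∑ p : PB B q, wP a J B p * RR Y a J B p p = TH Y a J := by
    intro J
    unfold TH RR
    rw [sum_glue B]
    refine Finset.sum_congr rfl fun p _ => ?_
    rw [Finset.mul_sum]
    refine Finset.sum_congr rfl fun u _ => ?_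
    rw [wt_glue]
    ring
  -- rewrite the inner sum
  have hI : ∑ φ₀ : H → Fin q, ∑ φ₁ : H → Fin q,
      wt a J₀ φ₀ * wt a J₁ φ₁ *
        (Y (fun x => if B x then φ₁ x else φ₀ x) φ₀ *
          Y (fun x => if B x then φ₀ x else φ₁ x) φ₁) =
      ∑ p : PB B q, ∑ p' : PB B q, wP a J₀ B p * wP a J₁ B p' *
        (RR Y a J₀ B p' p * RR Y a J₁ B p p') := by
    rw [sum_glue B]
    refine Finset.sum_congr rfl fun p _ => ?_
    have h1 : ∀ u : UB B q, ∑ φ₁ : H → Fin q,
        wt a J₀ (glue B p u) * wt a J₁ φ₁ *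
        (Y (fun x => if B x then φ₁ x else (glue B p u) x) (glue B p u) *
          Y (fun x => if B x then (glue B p u) x else φ₁ x) φ₁) =
        ∑ p' : PB B q, ∑ v : UB B q, wP a J₀ B p * wP a J₁ B p' *
          ((wU a J₀ B u * Y (glue B p' u) (glue B p u)) *
          (wU a J₁ B v * Y (glue B p v) (glue B p' v))) := by
      intro u
      rw [sum_glue B]
      refine Finset.sum_congr rfl fun p' _ => Finset.sum_congr rfl fun v _ => ?_
      have g1 : (fun x => if B x = true then glue B p' v x else glue B p u x) =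
          glue B p' u := by
        funext x
        by_cases hx : B x = true
        · rw [if_pos hx, glue_pos B p' v hx, glue_pos B p' u hx]
        · rw [if_neg hx, glue_neg B p u hx, glue_neg B p' u hx]
      have g2 : (fun x => if B x = true then glue B p u x else glue B p' v x) =
          glue B p v := by
        funext x
        by_cases hx : B x = true
        · rw [if_pos hx, glue_pos B p u hx, glue_pos B p v hx]
        · rw [if_neg hx, glue_neg B p' v hx, glue_neg B p v hx]
      rw [g1, g2, wt_glue, wt_glue]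
      ring
    simp_rw [h1]
    rw [Finset.sum_comm]
    refine Finset.sum_congr rfl fun p' _ => ?_
    unfold RR
    rw [Finset.sum_mul_sum, Finset.mul_sum]
    refine Finset.sum_congr rfl fun u _ => ?_
    rw [Finset.mul_sum]
  rw [hI, ← Fintype.sum_prod_type']
  -- Cauchy-Schwarz
  have hCS := Real.sum_mul_le_sqrt_mul_sqrt (Finset.univ : Finset (PB B q × PB B q))
    (fun z => Real.sqrt (wP a J₀ B z.1 * wP a J₁ B z.2) * RR Y a J₀ B z.2 z.1)
    (fun z => Real.sqrt (wP a J₀ B z.1 * wP a J₁ B z.2) * RR Y a J₁ B z.1 z.2)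
  have hw : ∀ z : PB B q × PB B q, 0 ≤ wP a J₀ B z.1 * wP a J₁ B z.2 := fun z =>
    mul_nonneg (wP_nonneg _ _ _ _) (wP_nonneg _ _ _ _)
  have e1 : ∑ z : PB B q × PB B q, wP a J₀ B z.1 * wP a J₁ B z.2 *
        (RR Y a J₀ B z.2 z.1 * RR Y a J₁ B z.1 z.2) =
      ∑ z : PB B q × PB B q, (Real.sqrt (wP a J₀ B z.1 * wP a J₁ B z.2) * RR Y a J₀ B z.2 z.1) *
        (Real.sqrt (wP a J₀ B z.1 * wP a J₁ B z.2) * RR Y a J₁ B z.1 z.2) := by
    refine Finset.sum_congr rfl fun z _ => ?_
    have := Real.mul_self_sqrt (hw z)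
    calc _ = (Real.sqrt (wP a J₀ B z.1 * wP a J₁ B z.2) *
          Real.sqrt (wP a J₀ B z.1 * wP a J₁ B z.2)) *
          (RR Y a J₀ B z.2 z.1 * RR Y a J₁ B z.1 z.2) := by rw [this]
      _ = _ := by ring
  have b0 : ∑ z : PB B q × PB B q, (Real.sqrt (wP a J₀ B z.1 * wP a J₁ B z.2) *
      RR Y a J₀ B z.2 z.1) ^ 2 ≤ RR Y a J₀ B 0 0 * TH Y a J₀ := by
    rw [Fintype.sum_prod_type]
    calc _ ≤ ∑ p : PB B q, wP a J₀ B p * (RR Y a J₀ B 0 0 * RR Y a J₀ B p p) := by
          refine Finset.sum_le_sum fun p _ => ?_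
          calc _ ≤ ∑ p' : PB B q, wP a J₀ B p * RR Y a J₀ B p p' ^ 2 := by
                refine Finset.sum_le_sum fun p' _ => ?_
                rw [mul_pow, Real.sq_sqrt (hw (p, p')), hRsymm J₀ p' p]
                have h1 := wP_le_one a J₁ B p'
                have h2 := wP_nonneg a J₀ B p
                have h3 := sq_nonneg (RR Y a J₀ B p p')
                have h4 := wP_nonneg a J₁ B p'
                have h5 : wP a J₀ B p * wP a J₁ B p' ≤ wP a J₀ B p := by nlinarith
                exact mul_le_mul_of_nonneg_right h5 h3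
            _ = wP a J₀ B p * ∑ p' : PB B q, RR Y a J₀ B p p' ^ 2 := by rw [Finset.mul_sum]
            _ ≤ _ := mul_le_mul_of_nonneg_left (hsq J₀ p) (wP_nonneg _ _ _ _)
      _ = RR Y a J₀ B 0 0 * ∑ p : PB B q, wP a J₀ B p * RR Y a J₀ B p p := by
          rw [Finset.mul_sum]
          exact Finset.sum_congr rfl fun p _ => by ring
      _ = _ := by rw [hTH]
  have b1 : ∑ z : PB B q × PB B q, (Real.sqrt (wP a J₀ B z.1 * wP a J₁ B z.2) *
      RR Y a J₁ B z.1 z.2) ^ 2 ≤ RR Y a J₁ B 0 0 * TH Y a J₁ := by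
    rw [Fintype.sum_prod_type, Finset.sum_comm]
    calc _ ≤ ∑ p' : PB B q, wP a J₁ B p' * (RR Y a J₁ B 0 0 * RR Y a J₁ B p' p') := by
          refine Finset.sum_le_sum fun p' _ => ?_
          calc _ ≤ ∑ p : PB B q, wP a J₁ B p' * RR Y a J₁ B p' p ^ 2 := by
                refine Finset.sum_le_sum fun p _ => ?_
                rw [mul_pow, Real.sq_sqrt (hw (p, p')), hRsymm J₁ p p']
                have h1 := wP_le_one a J₀ B p
                have h2 := wP_nonneg a J₁ B p'
                have h3 := sq_nonneg (RR Y a J₁ B p' p)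
                have h4 := wP_nonneg a J₀ B p
                have h5 : wP a J₀ B p * wP a J₁ B p' ≤ wP a J₁ B p' := by nlinarith
                exact mul_le_mul_of_nonneg_right h5 h3
            _ = wP a J₁ B p' * ∑ p : PB B q, RR Y a J₁ B p' p ^ 2 := by rw [Finset.mul_sum]
            _ ≤ _ := mul_le_mul_of_nonneg_left (hsq J₁ p') (wP_nonneg _ _ _ _)
      _ = RR Y a J₁ B 0 0 * ∑ p : PB B q, wP a J₁ B p * RR Y a J₁ B p p := by
          rw [Finset.mul_sum]
          exact Finset.sum_congr rfl fun p _ => by ring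
      _ = _ := by rw [hTH]
  rw [e1]
  refine hCS.trans ?_
  have hT0 : 0 ≤ TH Y a J₀ := by
    rw [← hTH]
    exact Finset.sum_nonneg fun p _ => mul_nonneg (wP_nonneg _ _ _ _) (hRnn _ _ _)
  calc _ ≤ Real.sqrt (RR Y a J₀ B 0 0 * TH Y a J₀) * Real.sqrt (RR Y a J₁ B 0 0 * TH Y a J₁) :=
        mul_le_mul (Real.sqrt_le_sqrt b0) (Real.sqrt_le_sqrt b1) (Real.sqrt_nonneg _)
          (Real.sqrt_nonneg _)
    _ = _ := by
        rw [Real.sqrt_mul (hRnn J₀ 0 0), Real.sqrt_mul (hRnn J₁ 0 0), Real.sqrt_mul hT0]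
        ring

/-- average over `B` of `R(0,0)` -/
theorem avg_RR (Y : Matrix (H → Fin q) (H → Fin q) ℝ) (a : ℕ) (J : Finset H) :
    avg (fun B : H → Bool => RR Y a J B 0 0) = TH Y (a + 1) J := by
  classical
  -- `R(0,0)` as a sum over all colorings
  have h1 : ∀ B : H → Bool, RR Y a J B 0 0 =
      ∑ φ : H → Fin q, (if ∀ x, B x = true → φ x = 0 then (1:ℝ) else 0) *
        (wt a J φ * Y φ φ) := by
    intro B
    rw [sum_glue B]
    unfold RR
    rw [Finset.sum_eq_single (0 : PB B q)]
    · refine Finset.sum_congr rfl fun u _ => ?_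
      have : ∀ x, B x = true → glue B (0 : PB B q) u x = 0 := by
        intro x hx
        rw [glue_pos B 0 u hx]
        rfl
      rw [if_pos this, wt_glue, wP_zero]
      ring
    · intro p _ hp
      refine Finset.sum_eq_zero fun u _ => ?_
      rw [if_neg, zero_mul]
      intro h
      apply hp
      funext x
      have := h x.1 x.2
      rw [glue_pos B p u x.2] at this
      exact this
    · simp
  simp_rw [h1]
  rw [avg_sum]
  unfold TH
  refine Finset.sum_congr rfl fun φ _ => ?_
  rw [avg_mul_right]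
  have h2 : avg (fun B : H → Bool => if ∀ x, B x = true → φ x = 0 then (1:ℝ) else 0) =
      (1 / 2 : ℝ) ^ (supp φ).card := by
    have e1 : ∀ B : H → Bool, (if ∀ x, B x = true → φ x = 0 then (1:ℝ) else 0) =
        ∏ x, (if B x = true ∧ φ x ≠ 0 then (0:ℝ) else 1) := by
      intro B
      by_cases h : ∀ x, B x = true → φ x = 0
      · rw [if_pos h]
        symm
        apply Finset.prod_eq_one
        intro x _
        rw [if_neg]
        rintro ⟨hx, hne⟩
        exact hne (h x hx)
      · rw [if_neg h]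
        push Not at h
        obtain ⟨x, hx, hne⟩ := h
        symm
        apply Finset.prod_eq_zero (Finset.mem_univ x)
        rw [if_pos ⟨hx, hne⟩]
    unfold avg
    simp_rw [e1]
    have e2 : ∑ B : H → Bool, ∏ x, (if B x = true ∧ φ x ≠ 0 then (0:ℝ) else 1) =
        ∏ x, ∑ b : Bool, (if b = true ∧ φ x ≠ 0 then (0:ℝ) else 1) := by
      rw [Finset.prod_univ_sum, Fintype.piFinset_univ]
    rw [e2, Fintype.card_fun, Fintype.card_bool]
    have e3 : ∀ x, ∑ b : Bool, (if b = true ∧ φ x ≠ 0 then (0:ℝ) else 1) =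
        2 * (if x ∈ supp φ then (1 / 2 : ℝ) else 1) := by
      intro x
      rw [Fintype.sum_bool]
      unfold supp
      by_cases hx : φ x = 0
      · simp [hx]
        norm_num
      · simp [hx]
    simp_rw [e3]
    rw [Finset.prod_mul_distrib, Finset.prod_const, Finset.prod_ite_mem, Finset.univ_inter,
      Finset.prod_const, Finset.card_univ]
    push_cast
    rw [mul_div_assoc, mul_comm, div_mul_cancel₀]
    positivity
  rw [h2, ← mul_assoc]
  congr 1
  unfold wt
  by_cases hJ : supp φ ⊆ J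
  · rw [if_pos hJ, if_pos hJ, ← pow_add]
    congr 1
    ring
  · rw [if_neg hJ, if_neg hJ, mul_zero]

end glue

end CoreAux

open CoreAux

theorem two_copy_core {H Ω : Type} [Fintype H] [DecidableEq H] [Fintype Ω] [Nonempty Ω]
    {q : ℕ} [NeZero q] (g : Ω → Equiv.Perm H) (Y : Matrix (H → Fin q) (H → Fin q) ℝ)
    (hY : Y = ker (fun (ω : Ω) (φ : H → Fin q) => fun x => φ ((g ω).symm x)))
    (hpsd : Y.PosSemidef) (a : ℕ) (J₀ J₁ : Finset H) :
    avg (fun B : H → Bool => ∑ φ₀ : H → Fin q, ∑ φ₁ : H → Fin q,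
      wt a J₀ φ₀ * wt a J₁ φ₁ *
        (Y (fun x => if B x then φ₁ x else φ₀ x) φ₀ *
          Y (fun x => if B x then φ₀ x else φ₁ x) φ₁))
      ≤ Real.sqrt (TH Y (a + 1) J₀ * TH Y (a + 1) J₁ * TH Y a J₀ * TH Y a J₁) := by
  have hsymm : ∀ φ χ, Y φ χ = Y χ φ := by
    intro φ χ
    have := hpsd.1.apply χ φ
    simpa using this
  have hnn : ∀ φ χ, 0 ≤ Y φ χ := by
    intro φ χ
    rw [hY]
    unfold ker
    exact avg_nonneg fun ω => by split_ifs <;> norm_num
  have hrow : ∀ (B : H → Bool) (J : Finset H) (p : PB B q),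
      ∑ p', RR Y a J B p p' ≤ RR Y a J B 0 0 := by
    intro B J p
    rw [hY]
    exact RR_row g a J B p
  have hRnn : ∀ J (B : H → Bool), 0 ≤ RR Y a J B (0 : PB B q) 0 := fun J B =>
    Finset.sum_nonneg fun u _ => mul_nonneg (wU_nonneg _ _ _ _) (hnn _ _)
  have hwt : ∀ b J (φ : H → Fin q), 0 ≤ wt b J φ := by
    intro b J φ
    unfold wt
    split_ifs <;> positivity
  have hTHnn : ∀ b J, 0 ≤ TH Y b J := fun b J =>
    Finset.sum_nonneg fun φ _ => mul_nonneg (hwt _ _ _) (hnn _ _)
  refine (avg_le_avg fun B => inner_le hsymm hnn hpsd a J₀ J₁ B (hrow B)).trans ?_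
  rw [avg_mul_right]
  have hav : avg (fun B : H → Bool => Real.sqrt (RR Y a J₀ B 0 0) * Real.sqrt (RR Y a J₁ B 0 0)) ≤
      Real.sqrt (TH Y (a + 1) J₀) * Real.sqrt (TH Y (a + 1) J₁) := by
    rw [← avg_RR Y a J₀, ← avg_RR Y a J₁]
    unfold avg
    have hc : (0:ℝ) < (Fintype.card (H → Bool) : ℝ) := by
      exact_mod_cast Fintype.card_pos
    rw [Real.sqrt_div' _ hc.le, Real.sqrt_div' _ hc.le, div_mul_div_comm,
      Real.mul_self_sqrt hc.le]
    apply div_le_div_of_nonneg_right _ hc.le
    exact Real.sum_sqrt_mul_sqrt_le _ (fun B => hRnn J₀ B) (fun B => hRnn J₁ B)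
  calc _ ≤ (Real.sqrt (TH Y (a + 1) J₀) * Real.sqrt (TH Y (a + 1) J₁)) *
        Real.sqrt (TH Y a J₀ * TH Y a J₁) :=
        mul_le_mul_of_nonneg_right hav (Real.sqrt_nonneg _)
    _ = _ := by
        rw [← Real.sqrt_mul (hTHnn _ _), ← Real.sqrt_mul (mul_nonneg (hTHnn _ _) (hTHnn _ _))]
        congr 1
        ring

end Crest.Agent.R155
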