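import Crest.Prelude.Def_Shuffle

/-!
# PIECE COUNTING (row 155): statement S0223

`μ g = uniformProb {cs | iterPos m t cs = g}`; at most `2^{m t}` permutations `g` have `μ g > 0` (the image of
the coin space), call this set `Sup`.  `tv ≥ ∑_{g ∉ Sup} 1/(2m)!  `-type bound: `½ ∑ |μ - u| ≥ u(Supᶜ) =
1 - |Sup|/(2m)! ≥ 1 - 2^{m t}/(2m)!`.  (`½ ∑|μ-u| ≥ ∑_{g∉Sup} u(g)` because `∑ (u - μ) = 0`, i.e.
`½∑|μ-u| = ∑ (u-μ)⁺`, using `∑_g μ g = 1`: every `iterPos m t cs` is a bijection.)
-/

set_option autoImplicit false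

namespace Crest.Agent.R155

open Crest.ProbabilityR.Shuffle

theorem stepPos_injective (m : ℕ) (c : Fin m → Bool) : Function.Injective (stepPos m c) := by
  intro x y h
  have h' := congrArg Fin.val h
  simp only [stepPos] at h'
  have hx := x.isLt
  have hy := y.isLt
  have hm : 0 < m := by omega
  have h1 : x.val % m = y.val % m := by
    split at h' <;> split at h' <;> omega
  have h2 : (⟨x.val % m, Nat.mod_lt _ hm⟩ : Fin m) = ⟨y.val % m, Nat.mod_lt _ hm⟩ := Fin.ext h1
  rw [h2, h1] at h'
  have h3 : decide (m ≤ x.val) = decide (m ≤ y.val) := by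
    generalize c ⟨y.val % m, Nat.mod_lt _ hm⟩ = b at h'
    generalize decide (m ≤ x.val) = p at h'
    generalize decide (m ≤ y.val) = q at h'
    cases b <;> cases p <;> cases q <;> simp at h' ⊢
  have h4 : (m ≤ x.val) ↔ (m ≤ y.val) := by
    simpa using h3
  apply Fin.ext
  by_cases hmx : m ≤ x.val
  · have hmy := h4.1 hmx
    have e1 : x.val % m = x.val - m := by
      rw [Nat.mod_eq_sub_mod hmx, Nat.mod_eq_of_lt (by omega)]
    have e2 : y.val % m = y.val - m := by
      rw [Nat.mod_eq_sub_mod hmy, Nat.mod_eq_of_lt (by omega)]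
    omega
  · have hmy : ¬ m ≤ y.val := fun h => hmx (h4.2 h)
    have e1 : x.val % m = x.val := Nat.mod_eq_of_lt (by omega)
    have e2 : y.val % m = y.val := Nat.mod_eq_of_lt (by omega)
    omega

theorem iterPos_injective (m : ℕ) : ∀ (t : ℕ) (cs : Fin t → Fin m → Bool),
    Function.Injective (iterPos m t cs)
  | 0, _ => fun x y h => h
  | t + 1, cs => by
    intro x y h
    exact iterPos_injective m t _ (stepPos_injective m _ h)

/-- the permutation `iterPos m t cs` -/
noncomputable def iterPerm (m t : ℕ) (cs : Fin t → Fin m → Bool) : Equiv.Perm (Fin (2 * m)) :=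
  Equiv.ofBijective (iterPos m t cs) (Finite.injective_iff_bijective.1 (iterPos_injective m t cs))

@[simp] theorem coe_iterPerm (m t : ℕ) (cs : Fin t → Fin m → Bool) :
    ⇑(iterPerm m t cs) = iterPos m t cs := rfl

open Classical in
theorem uniformProb_iterPos (m t : ℕ) (g : Equiv.Perm (Fin (2 * m))) :
    Crest.FinProb.uniformProb {cs : Fin t → Fin m → Bool | iterPos m t cs = ⇑g} =
      ((Finset.univ.filter fun cs : Fin t → Fin m → Bool => iterPerm m t cs = g).card : ℝ) /
        (Fintype.card (Fin t → Fin m → Bool) : ℝ) := by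
  unfold Crest.FinProb.uniformProb
  congr 2
  have : ∀ cs : Fin t → Fin m → Bool, cs ∈ {cs : Fin t → Fin m → Bool | iterPos m t cs = ⇑g} ↔
      iterPerm m t cs = g := by
    intro cs
    rw [Set.mem_ofPred_eq, ← coe_iterPerm, DFunLike.coe_fn_eq]
  apply congrArg
  ext cs
  simp only [Finset.mem_filter, Finset.mem_univ, true_and]
  exact this cs

theorem uniformProb_nonneg' {Ω : Type*} [Fintype Ω] (E : Set Ω) :
    0 ≤ Crest.FinProb.uniformProb E := by
  unfold Crest.FinProb.uniformProb
  positivity

theorem sum_uniformProb_iterPos (m t : ℕ) :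
    ∑ g : Equiv.Perm (Fin (2 * m)),
      Crest.FinProb.uniformProb {cs : Fin t → Fin m → Bool | iterPos m t cs = ⇑g} = 1 := by
  classical
  simp_rw [uniformProb_iterPos]
  rw [← Finset.sum_div, ← Nat.cast_sum]
  rw [← Finset.card_eq_sum_card_fiberwise (f := fun cs : Fin t → Fin m → Bool => iterPerm m t cs)
    (s := Finset.univ) (t := Finset.univ) (fun _ _ => Finset.mem_univ _)]
  rw [Finset.card_univ]
  exact div_self (by exact_mod_cast Fintype.card_ne_zero)

theorem counting' (m t : ℕ) :
    1 - (2 : ℝ) ^ (m * t) / ((2 * m).factorial : ℝ)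
      ≤ Crest.ProbabilityR.Shuffle.tvFromUniform m t := by
  classical
  set N : ℝ := ((2 * m).factorial : ℝ) with hN
  have hNpos : 0 < N := by
    rw [hN]; exact_mod_cast Nat.factorial_pos _
  set μ : Equiv.Perm (Fin (2 * m)) → ℝ := fun g =>
    Crest.FinProb.uniformProb {cs : Fin t → Fin m → Bool | iterPos m t cs = ⇑g} with hμ
  have hcard : (Fintype.card (Equiv.Perm (Fin (2 * m))) : ℝ) = N := by
    rw [Fintype.card_perm, Fintype.card_fin]
  have hsum : ∑ g, μ g = 1 := sum_uniformProb_iterPos m t
  -- the set of permutations which are not attained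
  set Z : Finset (Equiv.Perm (Fin (2 * m))) := Finset.univ.filter fun g => μ g = 0 with hZ
  have key : ∀ g, (μ g - 1 / N) + (if μ g = 0 then 2 / N else 0) ≤ |μ g - 1 / N| := by
    intro g
    by_cases h : μ g = 0
    · rw [if_pos h, h]
      have : 0 < 1 / N := by positivity
      rw [zero_sub, abs_neg, abs_of_pos this]
      have h2 : 2 / N = 1 / N + 1 / N := by ring
      linarith
    · rw [if_neg h, add_zero]
      exact le_abs_self _
  have h1 := Finset.sum_le_sum (s := Finset.univ) (fun g _ => key g)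
  rw [Finset.sum_add_distrib, Finset.sum_sub_distrib, hsum, Finset.sum_const, Finset.card_univ,
    nsmul_eq_mul, hcard, ← Finset.sum_filter, ← hZ, Finset.sum_const, nsmul_eq_mul,
    mul_one_div_cancel hNpos.ne', sub_self, zero_add] at h1
  -- the number of attained permutations
  have hZc : (Fintype.card (Equiv.Perm (Fin (2 * m)))) ≤ Z.card + 2 ^ (m * t) := by
    have hsub : (Finset.univ : Finset (Equiv.Perm (Fin (2 * m)))) ⊆
        Z ∪ Finset.univ.image (iterPerm m t) := by
      intro g _
      rw [Finset.mem_union]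
      by_cases h : μ g = 0
      · left; rw [hZ]; simp [h]
      · right
        rw [Finset.mem_image]
        by_contra hcon
        push Not at hcon
        apply h
        rw [hμ]
        simp only
        rw [uniformProb_iterPos]
        rw [Finset.filter_eq_empty_iff.2]
        · simp
        · intro cs hcs
          exact hcon cs hcs
    have h2 := Finset.card_le_card hsub
    have h3 := Finset.card_union_le Z (Finset.univ.image (iterPerm m t))
    have h4 : (Finset.univ.image (iterPerm m t)).card ≤ 2 ^ (m * t) := by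
      refine Finset.card_image_le.trans ?_
      rw [Finset.card_univ]
      simp [pow_mul]
    rw [Finset.card_univ] at h2
    omega
  have hZr : N ≤ Z.card + 2 ^ (m * t) := by
    rw [← hcard]; exact_mod_cast hZc
  have h5 : 1 - (2 : ℝ) ^ (m * t) / N ≤ Z.card * (1 / N) := by
    rw [sub_le_iff_le_add, mul_one_div, ← add_div, le_div_iff₀ hNpos]
    linarith
  unfold Crest.ProbabilityR.Shuffle.tvFromUniform
  have h6 : (Z.card : ℝ) * (1 / N) ≤ 1 / 2 * ∑ g, |μ g - 1 / N| := by
    have : (Z.card : ℝ) * (2 / N) = 2 * (Z.card * (1 / N)) := by ring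
    linarith
  exact h5.trans h6

theorem counting (d t : ℕ) :
    1 - (2 : ℝ) ^ (2 ^ d * t) / ((2 * 2 ^ d).factorial : ℝ)
      ≤ Crest.ProbabilityR.Shuffle.tvFromUniform (2 ^ d) t :=
  counting' (2 ^ d) t

end Crest.Agent.R155
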