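import Mathlib

/-!
# Row 155 (Thorp shuffle), definitions

`Pos m = Fin m → Bool` are the `2^m` positions.  A *layer* in direction `i` swaps, for every pair
`{x, flip i x}`, its two elements according to a fair coin.  All the random objects are averages
(`avg`) over finite coin spaces.  `ker f` is the transition matrix of the random map `f ω`
(`ker f s t = P(f ω s = t)`), products of `ker`s are in time order.
-/

set_option autoImplicit false

namespace Crest.Agent.R155

/-- positions of a deck of `2^m` cards -/
abbrev Pos (m : ℕ) := Fin m → Bool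

/-- coins of one layer (only the coins at positions whose bit `i` is `false` are used) -/
abbrev Coin (m : ℕ) := Pos m → Bool

/-- flip bit `i` -/
def flip {m : ℕ} (i : Fin m) (x : Pos m) : Pos m := Function.update x i (!(x i))

@[simp] theorem flip_apply_self {m : ℕ} (i : Fin m) (x : Pos m) : flip i x i = !(x i) := by
  simp [flip]

@[simp] theorem flip_apply_ne {m : ℕ} {i k : Fin m} (h : k ≠ i) (x : Pos m) :
    flip i x k = x k := by
  simp [flip, h]

@[simp] theorem flip_flip {m : ℕ} (i : Fin m) (x : Pos m) : flip i (flip i x) = x := by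
  funext k
  by_cases h : k = i
  · subst h; simp
  · simp [h]

theorem flip_ne {m : ℕ} (i : Fin m) (x : Pos m) : flip i x ≠ x := by
  intro h
  have := congrFun h i
  simp at this

theorem update_flip {m : ℕ} (i : Fin m) (x : Pos m) (b : Bool) :
    Function.update (flip i x) i b = Function.update x i b := by
  simp [flip]

/-- the switch of direction `i` with coins `c` (as a function) -/
def swFun {m : ℕ} (i : Fin m) (c : Coin m) (x : Pos m) : Pos m :=
  if c (Function.update x i false) then flip i x else x

theorem swFun_involutive {m : ℕ} (i : Fin m) (c : Coin m) :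
    Function.Involutive (swFun i c) := by
  intro x
  unfold swFun
  by_cases h : c (Function.update x i false) = true
  · simp [h, update_flip]
  · simp [h]

/-- the switch of direction `i` with coins `c` -/
def sw {m : ℕ} (i : Fin m) (c : Coin m) : Equiv.Perm (Pos m) :=
  (swFun_involutive i c).toPerm (swFun i c)

theorem sw_apply {m : ℕ} (i : Fin m) (c : Coin m) (x : Pos m) :
    sw i c x = if c (Function.update x i false) then flip i x else x := rfl

@[simp] theorem sw_sw {m : ℕ} (i : Fin m) (c : Coin m) (x : Pos m) : sw i c (sw i c x) = x :=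
  swFun_involutive i c x

@[simp] theorem sw_symm {m : ℕ} (i : Fin m) (c : Coin m) : (sw i c).symm = sw i c := rfl

theorem sw_flip {m : ℕ} (i : Fin m) (c : Coin m) (x : Pos m) :
    sw i c (flip i x) = flip i (sw i c x) := by
  rw [sw_apply, sw_apply, update_flip]
  split <;> simp

theorem sw_apply_ne {m : ℕ} {i k : Fin m} (h : k ≠ i) (c : Coin m) (x : Pos m) :
    sw i c x k = x k := by
  rw [sw_apply]
  split
  · simp [h]
  · rfl

/-- average over a finite type -/
noncomputable def avg {Ω : Type*} [Fintype Ω] (f : Ω → ℝ) : ℝ :=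
  (∑ ω, f ω) / (Fintype.card Ω : ℝ)

theorem avg_const {Ω : Type*} [Fintype Ω] [Nonempty Ω] (a : ℝ) : avg (fun _ : Ω => a) = a := by
  unfold avg
  have : (Fintype.card Ω : ℝ) ≠ 0 := by exact_mod_cast Fintype.card_ne_zero
  simp

theorem avg_le_avg {Ω : Type*} [Fintype Ω] {f g : Ω → ℝ} (h : ∀ ω, f ω ≤ g ω) :
    avg f ≤ avg g := by
  unfold avg
  gcongr
  exact h _

theorem avg_nonneg {Ω : Type*} [Fintype Ω] {f : Ω → ℝ} (h : ∀ ω, 0 ≤ f ω) : 0 ≤ avg f :=
  div_nonneg (Finset.sum_nonneg fun ω _ => h ω) (by positivity)

theorem avg_add {Ω : Type*} [Fintype Ω] (f g : Ω → ℝ) :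
    avg (fun ω => f ω + g ω) = avg f + avg g := by
  unfold avg; rw [Finset.sum_add_distrib, add_div]

theorem avg_mul_left {Ω : Type*} [Fintype Ω] (a : ℝ) (f : Ω → ℝ) :
    avg (fun ω => a * f ω) = a * avg f := by
  unfold avg; rw [← Finset.mul_sum, mul_div_assoc]

theorem avg_mul_right {Ω : Type*} [Fintype Ω] (a : ℝ) (f : Ω → ℝ) :
    avg (fun ω => f ω * a) = avg f * a := by
  simp_rw [mul_comm _ a]; exact avg_mul_left a f

theorem avg_sum {Ω ι : Type*} [Fintype Ω] (s : Finset ι) (f : ι → Ω → ℝ) :
    avg (fun ω => ∑ i ∈ s, f i ω) = ∑ i ∈ s, avg (f i) := by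
  unfold avg; rw [Finset.sum_comm, Finset.sum_div]

theorem avg_prod_type {Ω Ω' : Type*} [Fintype Ω] [Fintype Ω'] (f : Ω × Ω' → ℝ) :
    avg f = avg (fun ω => avg (fun ω' => f (ω, ω'))) := by
  unfold avg
  rw [Fintype.sum_prod_type, Fintype.card_prod, ← Finset.sum_div, div_div]
  push_cast
  rw [mul_comm]

theorem avg_comm {Ω Ω' : Type*} [Fintype Ω] [Fintype Ω'] (f : Ω → Ω' → ℝ) :
    avg (fun ω => avg (f ω)) = avg (fun ω' => avg (fun ω => f ω ω')) := by
  unfold avg
  rw [← Finset.sum_div, ← Finset.sum_div, Finset.sum_comm, div_div, div_div, mul_comm]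

theorem avg_equiv {Ω Ω' : Type*} [Fintype Ω] [Fintype Ω'] (e : Ω ≃ Ω') (f : Ω' → ℝ) :
    avg (fun ω => f (e ω)) = avg f := by
  unfold avg
  rw [Fintype.card_congr e, Equiv.sum_comp e f]

/-- transition matrix of a random map: `ker f s t = P(f ω s = t)` -/
noncomputable def ker {Ω S : Type*} [Fintype Ω] [DecidableEq S] (f : Ω → S → S) :
    Matrix S S ℝ :=
  fun s t => avg (fun ω => if f ω s = t then (1 : ℝ) else 0)

/-- layer matrix in direction `i` for the states `S` on which permutations of `Pos m` act by `a` -/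
noncomputable def lay {m : ℕ} {S : Type*} [DecidableEq S] (a : Equiv.Perm (Pos m) → S → S)
    (i : Fin m) : Matrix S S ℝ :=
  ker (fun c : Coin m => a (sw i c))

/-- product (time order) of the layers of the list `L` -/
noncomputable def PL {m : ℕ} {S : Type*} [Fintype S] [DecidableEq S]
    (a : Equiv.Perm (Pos m) → S → S) (L : List (Fin m)) : Matrix S S ℝ :=
  (L.map (lay a)).prod

/-- palindromic product: the layers of `L` in time order and then in reversed order
(every layer matrix is symmetric) -/
noncomputable def XL {m : ℕ} {S : Type*} [Fintype S] [DecidableEq S]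
    (a : Equiv.Perm (Pos m) → S → S) (L : List (Fin m)) : Matrix S S ℝ :=
  PL a L * (PL a L).transpose

/-- directions `m-1, …, 1, 0` -/
def down (m : ℕ) : List (Fin m) := (List.finRange m).reverse

/-! ### the three kinds of states -/

/-- permutations of the positions act on the arrangements of the whole deck -/
def actG {m : ℕ} (g : Equiv.Perm (Pos m)) (s : Equiv.Perm (Pos m)) : Equiv.Perm (Pos m) := g * s

/-- permutations of the positions act on the positions of `k` cards -/
def actI {m k : ℕ} (g : Equiv.Perm (Pos m)) (x : Fin k ↪ Pos m) : Fin k ↪ Pos m :=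
  x.trans g.toEmbedding

/-- permutations of the positions act on colorings -/
def actC {m q : ℕ} (g : Equiv.Perm (Pos m)) (φ : Pos m → Fin q) : Pos m → Fin q :=
  fun x => φ (g.symm x)

/-- one pass (a butterfly; directions `m-1, …, 0`) on the whole deck -/
noncomputable def PG (m : ℕ) : Matrix (Equiv.Perm (Pos m)) (Equiv.Perm (Pos m)) ℝ :=
  PL actG (down m)

/-- the Benes network on `k` cards -/
noncomputable def XI (m k : ℕ) : Matrix (Fin k ↪ Pos m) (Fin k ↪ Pos m) ℝ :=
  XL actI (down m)

/-- `F m k = Tr (X^64)` on the positions of `k` cards -/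
noncomputable def F (m k : ℕ) : ℝ := ((XI m k) ^ 64).trace

/-- chi-square distance from uniform of the law of the deck after `1600` passes -/
noncomputable def chi2 (m : ℕ) : ℝ :=
  ((2 ^ m).factorial : ℝ) * ∑ g : Equiv.Perm (Pos m), ((PG m ^ 1600) 1 g) ^ 2 - 1

/-! ### the network -/

/-- the inner network with the levels `< j`: `N_0 = 1`, `N_{j+1} = out_j N_j in_j` -/
def net {m : ℕ} (cin cout : Fin m → Coin m) : ℕ → Equiv.Perm (Pos m)
  | 0 => 1
  | j + 1 => if h : j < m then sw ⟨j, h⟩ (cout ⟨j, h⟩) * net cin cout j * sw ⟨j, h⟩ (cin ⟨j, h⟩)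
      else net cin cout j

/-- the input side down to level `j` (included): `in_j * in_{j+1} * … * in_{m-1}` -/
def inPerm {m : ℕ} (cin : Fin m → Coin m) (j : ℕ) : Equiv.Perm (Pos m) :=
  (((List.finRange m).filter (fun i => j ≤ i.val)).map (fun i => sw i (cin i))).prod

/-- occupied positions at level `j` (after the input layer of level `j`), if the set `A` of
positions is occupied at the start of the pass -/
def occ {m : ℕ} (cin : Fin m → Coin m) (A : Finset (Pos m)) (j : ℕ) : Finset (Pos m) :=
  A.map (inPerm cin j).toEmbedding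

/-- a coloring is invariant under `flip i` -/
def Inv {m q : ℕ} (i : Fin m) (φ : Pos m → Fin q) : Prop := ∀ x, φ (flip i x) = φ x

open Classical in
/-- number of colorings with `q` colors, with support in the occupied positions, which are
`flip j`-invariant at the input and at the output of the inner network `N_j` -/
noncomputable def Wq {m : ℕ} (q : ℕ) [NeZero q] (cin cout : Fin m → Coin m)
    (A : Finset (Pos m)) (j : Fin m) : ℕ :=
  (Finset.univ.filter fun φ : Pos m → Fin q =>
    (∀ x, φ x ≠ 0 → x ∈ occ cin A j) ∧ Inv j φ ∧ Inv j (actC (net cin cout j) φ)).card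

/-- the weight of level `j` -/
noncomputable def W {m : ℕ} (cin cout : Fin m → Coin m) (A : Finset (Pos m)) (j : Fin m) : ℝ :=
  (Wq 2 cin cout A j : ℝ)

/-- the total weight of a pass -/
noncomputable def Wtot {m : ℕ} (cin cout : Fin m → Coin m) (A : Finset (Pos m)) : ℝ :=
  ∏ j : Fin m, W cin cout A j

/-- number of pairs `{x, flip j x}` contained in `B` -/
def dbl {m : ℕ} (j : Fin m) (B : Finset (Pos m)) : ℕ :=
  (B.filter fun x => x j = false ∧ flip j x ∈ B).card

/-- coins of the levels `< b` from `c₀`, the others from `c` -/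
def mix {m : ℕ} {Ω : Type*} (b : ℕ) (c₀ c : Fin m → Ω) : Fin m → Ω :=
  fun i => if i.val < b then c₀ i else c i

/-- support of a coloring -/
def supp {H : Type*} [Fintype H] {q : ℕ} [NeZero q] (φ : H → Fin q) : Finset H :=
  Finset.univ.filter fun x => φ x ≠ 0

/-- weight of a coloring: `2^{-a |supp φ|}` if `supp φ ⊆ J`, else `0` -/
noncomputable def wt {H : Type*} [Fintype H] [DecidableEq H] {q : ℕ} [NeZero q] (a : ℕ)
    (J : Finset H) (φ : H → Fin q) : ℝ :=
  if supp φ ⊆ J then (1 / 2 : ℝ) ^ (a * (supp φ).card) else 0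

/-- the generating function `T_L(a; J)` -/
noncomputable def T {m : ℕ} (q : ℕ) [NeZero q] (L : List (Fin m)) (a : ℕ) (J : Finset (Pos m)) :
    ℝ :=
  ∑ φ : Pos m → Fin q, wt a J φ * XL actC L φ φ

/-- `Tr (X^2 M_a)` on the colorings with two colors of `Pos j` -/
noncomputable def Tsq (j a : ℕ) : ℝ :=
  ∑ φ : Pos j → Fin 2, wt a Finset.univ φ *
    ((XL actC (down j)) * (XL actC (down j)) : Matrix (Pos j → Fin 2) (Pos j → Fin 2) ℝ) φ φ

/-- (technical) the equation and congruence lemmas of some definitions are generated here, once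
and for all, and not separately in several of the later modules -/
theorem defs_aux : True := by
  have _h1 := @net.eq_def
  have _h2 := @net.eq_1
  have _h3 := @net.eq_2
  have _h4 := @ker.congr_simp.{0, 0}
  have _h5 := @supp.congr_simp.{0}
  have _h6 := @XL.congr_simp.{0}
  have _h7 := @Fin.snocEquiv.eq_1.{0}
  trivial

end Crest.Agent.R155
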