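import Crest.Agent.R155.Defs

/-!
# PIECE KER (row 155): basic properties of transition matrices

All easy.  `a` is an action of the permutations of `Pos m` on the finite set `S`
(hypotheses `a 1 s = s`, `a (g * h) s = a g (a h s)`).

* `ker_mul`: product of two kernels = kernel of the composition in time order
  (`(ker f * ker g) s u = ∑ t, avg (1[f ω s = t]) * avg (1[g ω' t = u])`, use `avg_prod_type`).
* `lay_transpose`: a layer matrix is symmetric, since `sw i c` is an involution
  (`a (sw i c) s = t ↔ a (sw i c) t = s`).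
* `lay_mul_self`: a layer matrix is idempotent: `sw i c' (sw i c x)` has coins `xor (c x̂) (c' x̂)`;
  for fixed `c`, `c' ↦ xor c c'` is a bijection of the coins.
* `PL_row`: rows sum to one, entries are nonnegative.
* `XL_psd`: `M * Mᵀ` is positive semidefinite.
* `XL_cons`: `XL a (b :: L) = lay a b * XL a L * lay a b`.
* `XL_down_eq_ker`: the Benes network.  `XL a (down m) = PL a (down m) * (PL a (down m))ᵀ`, and
  `(PL a (down m))ᵀ = PL a (finRange m)`.  So it is the kernel of the map
  `s ↦ a (out_{m-1} … out_0 in_0 … in_{m-1}) s`, which is `net cin cout m`.  The coins of different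
  layers are independent.  Suggested: prove more generally, by induction on `j ≤ m`, that
  `ker (fun ω => a (net ω.1 ω.2 j)) = PL (levels j-1, …, 0) * PL (levels 0, …, j-1)`
  (`net (j+1) = out_j * net j * in_j`; `net j` does not depend on the coins of level `j`).
* `out_eq_ker`: the out layers of the levels `b ≤ i < j`.
-/

set_option autoImplicit false

namespace Crest.Agent.R155

theorem avg_split_coord {ι Γ : Type*} [Fintype ι] [DecidableEq ι] [Fintype Γ] [Nonempty Γ]
    (j : ι) (F : Γ → (ι → Γ) → ℝ)
    (hF : ∀ x c y, F x (Function.update c j y) = F x c) :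
    avg (fun c => F (c j) c) = avg (fun x => avg (fun c => F x c)) := by
  classical
  let e : Γ × (ι → Γ) ≃ Γ × (ι → Γ) :=
    { toFun := fun p => (p.2 j, Function.update p.2 j p.1)
      invFun := fun p => (p.2 j, Function.update p.2 j p.1)
      left_inv := fun p => by
        ext
        · simp
        · simp
      right_inv := fun p => by
        ext
        · simp
        · simp }
  rw [← avg_prod_type (fun p : Γ × (ι → Γ) => F p.1 p.2), ← avg_equiv e]
  have h1 : (fun ω : Γ × (ι → Γ) => (fun p : Γ × (ι → Γ) => F p.1 p.2) (e ω)) =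
      fun p => F (p.2 j) p.2 := by
    funext p
    simp [e, hF]
  rw [h1, avg_prod_type]
  exact (avg_const _).symm

theorem avg_coin {m : ℕ} (p : Pos m) (h : Bool → ℝ) :
    avg (fun c : Coin m => h (c p)) = (h true + h false) / 2 := by
  have := avg_split_coord (Γ := Bool) (ι := Pos m) p (fun x _ => h x) (fun _ _ _ => rfl)
  rw [this]
  simp only [avg_const]
  unfold avg
  simp

theorem ker_mul {Ω Ω' S : Type*} [Fintype Ω] [Fintype Ω'] [Fintype S] [DecidableEq S]
    (f : Ω → S → S) (g : Ω' → S → S) :
    ker f * ker g = ker (fun (ω : Ω × Ω') (s : S) => g ω.2 (f ω.1 s)) := by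
  ext s u
  rw [Matrix.mul_apply]
  unfold ker
  rw [avg_prod_type]
  simp_rw [← avg_mul_right]
  rw [← avg_sum]
  congr 1
  funext ω
  rw [Finset.sum_eq_single (f ω s)]
  · simp
  · intro b _ hb
    rw [if_neg (Ne.symm hb), zero_mul]
  · intro h; exact absurd (Finset.mem_univ _) h

theorem ker_nonneg {Ω S : Type*} [Fintype Ω] [DecidableEq S] (f : Ω → S → S) (s t : S) :
    0 ≤ ker f s t := by
  unfold ker
  apply avg_nonneg
  intro ω
  split_ifs <;> norm_num

theorem ker_row {Ω S : Type*} [Fintype Ω] [Nonempty Ω] [Fintype S] [DecidableEq S]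
    (f : Ω → S → S) (s : S) : ∑ t, ker f s t = 1 := by
  unfold ker
  rw [← avg_sum]
  have : (fun ω => ∑ i : S, if f ω s = i then (1 : ℝ) else 0) = fun _ => 1 := by
    funext ω
    simp
  rw [this, avg_const]

/-- expectation of a function of the new state -/
theorem ker_mulVec {Ω S : Type*} [Fintype Ω] [Fintype S] [DecidableEq S]
    (f : Ω → S → S) (v : S → ℝ) (s : S) :
    (ker f).mulVec v s = avg (fun ω => v (f ω s)) := by
  unfold Matrix.mulVec dotProduct ker
  simp_rw [← avg_mul_right]
  rw [← avg_sum]
  congr 1
  funext ω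
  simp

theorem lay_transpose {m : ℕ} {S : Type*} [DecidableEq S]
    (a : Equiv.Perm (Pos m) → S → S) (h1 : ∀ s, a 1 s = s)
    (hmul : ∀ g h s, a (g * h) s = a g (a h s)) (i : Fin m) :
    (lay a i).transpose = lay a i := by
  ext s t
  rw [Matrix.transpose_apply]
  unfold lay ker
  congr 1
  funext c
  have hinv : ∀ u, a (sw i c) (a (sw i c) u) = u := by
    intro u
    rw [← hmul]
    have : sw i c * sw i c = 1 := by
      ext x
      simp
    rw [this, h1]
  have : (a (sw i c) t = s) ↔ (a (sw i c) s = t) := by
    constructor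
    · intro h; rw [← h, hinv]
    · intro h; rw [← h, hinv]
  simp only [this]

theorem lay_mul_self {m : ℕ} {S : Type*} [Fintype S] [DecidableEq S]
    (a : Equiv.Perm (Pos m) → S → S) (h1 : ∀ s, a 1 s = s)
    (hmul : ∀ g h s, a (g * h) s = a g (a h s)) (i : Fin m) :
    lay a i * lay a i = lay a i := by
  unfold lay
  rw [ker_mul]
  ext s t
  unfold ker
  rw [avg_prod_type]
  have key : ∀ c c' : Coin m, a (sw i c') (a (sw i c) s) =
      a (sw i (fun x => xor (c x) (c' x))) s := by
    intro c c'
    rw [← hmul]
    congr 2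
    ext x k
    rw [Equiv.Perm.mul_apply, sw_apply i (fun x => xor (c x) (c' x)) x]
    rw [sw_apply i c x]
    by_cases h : c (Function.update x i false) = true
    · rw [if_pos h, sw_apply, update_flip]
      by_cases h' : c' (Function.update x i false) = true
      · simp [h, h']
      · simp [h, h']
    · rw [if_neg h, sw_apply]
      by_cases h' : c' (Function.update x i false) = true
      · simp [h, h']
      · simp [h, h']
  have h2 : ∀ c : Coin m, avg (fun c' : Coin m => if a (sw i c') (a (sw i c) s) = t then (1 : ℝ) else 0)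
      = avg (fun c' : Coin m => if a (sw i c') s = t then (1 : ℝ) else 0) := by
    intro c
    let e : Coin m ≃ Coin m :=
      { toFun := fun c' x => xor (c x) (c' x)
        invFun := fun c' x => xor (c x) (c' x)
        left_inv := fun c' => by funext x; simp
        right_inv := fun c' => by funext x; simp }
    have h3 := avg_equiv e (fun c' : Coin m => if a (sw i c') s = t then (1 : ℝ) else 0)
    simp only [key]
    exact h3
  simp only [h2]
  exact avg_const _

theorem PL_nil {m : ℕ} {S : Type*} [Fintype S] [DecidableEq S]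
    (a : Equiv.Perm (Pos m) → S → S) : PL a [] = 1 := rfl

theorem PL_cons {m : ℕ} {S : Type*} [Fintype S] [DecidableEq S]
    (a : Equiv.Perm (Pos m) → S → S) (i : Fin m) (L : List (Fin m)) :
    PL a (i :: L) = lay a i * PL a L := by
  simp [PL]

theorem PL_append {m : ℕ} {S : Type*} [Fintype S] [DecidableEq S]
    (a : Equiv.Perm (Pos m) → S → S) (L L' : List (Fin m)) :
    PL a (L ++ L') = PL a L * PL a L' := by
  simp [PL]

theorem PL_transpose {m : ℕ} {S : Type*} [Fintype S] [DecidableEq S]
    (a : Equiv.Perm (Pos m) → S → S) (h1 : ∀ s, a 1 s = s)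
    (hmul : ∀ g h s, a (g * h) s = a g (a h s)) (L : List (Fin m)) :
    (PL a L).transpose = PL a L.reverse := by
  induction L with
  | nil => simp [PL]
  | cons i L ih =>
    rw [PL_cons, Matrix.transpose_mul, ih, lay_transpose a h1 hmul, List.reverse_cons, PL_append]
    simp [PL]

theorem lay_nonneg {m : ℕ} {S : Type*} [DecidableEq S]
    (a : Equiv.Perm (Pos m) → S → S) (i : Fin m) (s t : S) : 0 ≤ lay a i s t :=
  ker_nonneg _ _ _

theorem lay_row {m : ℕ} {S : Type*} [Fintype S] [DecidableEq S]
    (a : Equiv.Perm (Pos m) → S → S) (i : Fin m) (s : S) : ∑ t, lay a i s t = 1 :=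
  ker_row _ _

theorem PL_nonneg {m : ℕ} {S : Type*} [Fintype S] [DecidableEq S]
    (a : Equiv.Perm (Pos m) → S → S) (L : List (Fin m)) (s t : S) : 0 ≤ PL a L s t := by
  induction L generalizing s with
  | nil =>
    rw [PL_nil, Matrix.one_apply]
    split_ifs <;> norm_num
  | cons i L ih =>
    rw [PL_cons, Matrix.mul_apply]
    exact Finset.sum_nonneg fun u _ => mul_nonneg (lay_nonneg a i s u) (ih u)

theorem mul_row {S : Type*} [Fintype S] (A B : Matrix S S ℝ)
    (hA : ∀ s, ∑ t, A s t = 1) (hB : ∀ s, ∑ t, B s t = 1) (s : S) :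
    ∑ t, (A * B) s t = 1 := by
  simp_rw [Matrix.mul_apply]
  rw [Finset.sum_comm]
  simp_rw [← Finset.mul_sum, hB, mul_one]
  exact hA s

theorem PL_row {m : ℕ} {S : Type*} [Fintype S] [DecidableEq S]
    (a : Equiv.Perm (Pos m) → S → S) (L : List (Fin m)) (s : S) : ∑ t, PL a L s t = 1 := by
  induction L generalizing s with
  | nil =>
    rw [PL_nil]
    simp [Matrix.one_apply]
  | cons i L ih =>
    rw [PL_cons]
    exact mul_row _ _ (lay_row a i) ih s

theorem XL_nonneg {m : ℕ} {S : Type*} [Fintype S] [DecidableEq S]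
    (a : Equiv.Perm (Pos m) → S → S) (L : List (Fin m)) (s t : S) : 0 ≤ XL a L s t := by
  unfold XL
  rw [Matrix.mul_apply]
  exact Finset.sum_nonneg fun u _ => mul_nonneg (PL_nonneg a L s u) (PL_nonneg a L t u)

theorem XL_row {m : ℕ} {S : Type*} [Fintype S] [DecidableEq S]
    (a : Equiv.Perm (Pos m) → S → S) (h1 : ∀ s, a 1 s = s)
    (hmul : ∀ g h s, a (g * h) s = a g (a h s)) (L : List (Fin m)) (s : S) :
    ∑ t, XL a L s t = 1 := by
  unfold XL
  rw [PL_transpose a h1 hmul]
  exact mul_row _ _ (PL_row a L) (PL_row a L.reverse) s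

theorem XL_psd {m : ℕ} {S : Type*} [Fintype S] [DecidableEq S]
    (a : Equiv.Perm (Pos m) → S → S) (L : List (Fin m)) : (XL a L).PosSemidef := by
  unfold XL
  have := Matrix.posSemidef_self_mul_conjTranspose (PL a L)
  rwa [Matrix.conjTranspose_eq_transpose_of_trivial] at this

theorem XL_cons {m : ℕ} {S : Type*} [Fintype S] [DecidableEq S]
    (a : Equiv.Perm (Pos m) → S → S) (h1 : ∀ s, a 1 s = s)
    (hmul : ∀ g h s, a (g * h) s = a g (a h s)) (b : Fin m) (L : List (Fin m)) :
    XL a (b :: L) = lay a b * XL a L * lay a b := by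
  unfold XL
  rw [PL_cons, Matrix.transpose_mul, lay_transpose a h1 hmul]
  simp only [Matrix.mul_assoc]

/-- the inner network of the levels `< j` does not depend on the coins of the level `j` -/
theorem net_update_left {m : ℕ} (cin cout : Fin m → Coin m) (j : ℕ) (i : Fin m) (hi : j ≤ i.val)
    (x : Coin m) : net (Function.update cin i x) cout j = net cin cout j := by
  induction j with
  | zero => rfl
  | succ j ih =>
    have hne : ∀ h : j < m, (⟨j, h⟩ : Fin m) ≠ i := by
      intro h he
      rw [← he] at hi
      simp at hi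
    unfold net
    rw [ih (by omega)]
    split_ifs with h
    · rw [Function.update_of_ne (hne h)]
    · rfl

theorem net_update_right {m : ℕ} (cin cout : Fin m → Coin m) (j : ℕ) (i : Fin m) (hi : j ≤ i.val)
    (x : Coin m) : net cin (Function.update cout i x) j = net cin cout j := by
  induction j with
  | zero => rfl
  | succ j ih =>
    have hne : ∀ h : j < m, (⟨j, h⟩ : Fin m) ≠ i := by
      intro h he
      rw [← he] at hi
      simp at hi
    unfold net
    rw [ih (by omega)]
    split_ifs with h
    · rw [Function.update_of_ne (hne h)]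
    · rfl

/-- kernels of independent compositions -/
theorem ker_mul_of_indep {ι Γ Ω S : Type*} [Fintype ι] [DecidableEq ι] [Fintype Γ] [Nonempty Γ]
    [Fintype S] [DecidableEq S] [Fintype Ω]
    (j : ι) (f : Γ → S → S) (g : (ι → Γ) → S → S)
    (hg : ∀ c y, g (Function.update c j y) = g c) :
    ker (fun (c : ι → Γ) (s : S) => g c (f (c j) s)) = ker f * ker g := by
  rw [ker_mul]
  ext s t
  unfold ker
  rw [avg_prod_type]
  have := avg_split_coord j (fun (x : Γ) (c : ι → Γ) => if g c (f x s) = t then (1 : ℝ) else 0)
    (fun x c y => by simp only [hg])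
  exact this

theorem net_ker {m : ℕ} {S : Type*} [Fintype S] [DecidableEq S]
    (a : Equiv.Perm (Pos m) → S → S) (h1 : ∀ s, a 1 s = s)
    (hmul : ∀ g h s, a (g * h) s = a g (a h s)) (j : ℕ) (hj : j ≤ m) :
    ker (fun (ω : (Fin m → Coin m) × (Fin m → Coin m)) => a (net ω.1 ω.2 j)) =
      PL a ((List.finRange m).take j).reverse * PL a ((List.finRange m).take j) := by
  induction j with
  | zero =>
    ext s t
    simp only [List.take_zero, List.reverse_nil, PL_nil, Matrix.one_mul]
    unfold ker net
    simp only [h1]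
    rw [avg_const, Matrix.one_apply]
  | succ j ih =>
    have hjm : j < m := hj
    have htake : (List.finRange m).take (j + 1) = (List.finRange m).take j ++ [⟨j, hjm⟩] := by
      rw [List.take_add_one]
      congr 1
      simp [hjm]
    rw [htake, List.reverse_append, PL_append, PL_append]
    have hs : PL a [(⟨j, hjm⟩ : Fin m)] = lay a ⟨j, hjm⟩ := by simp [PL]
    rw [List.reverse_singleton, hs]
    rw [show lay a ⟨j, hjm⟩ * PL a ((List.finRange m).take j).reverse *
      (PL a ((List.finRange m).take j) * lay a ⟨j, hjm⟩) =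
      lay a ⟨j, hjm⟩ * (PL a ((List.finRange m).take j).reverse *
      PL a ((List.finRange m).take j)) * lay a ⟨j, hjm⟩ by simp only [Matrix.mul_assoc]]
    rw [← ih (by omega)]
    unfold lay
    rw [ker_mul, ker_mul]
    ext s t
    unfold ker
    have hnet : ∀ ω : (Fin m → Coin m) × (Fin m → Coin m), net ω.1 ω.2 (j + 1) =
        sw ⟨j, hjm⟩ (ω.2 ⟨j, hjm⟩) * net ω.1 ω.2 j * sw ⟨j, hjm⟩ (ω.1 ⟨j, hjm⟩) := by
      intro ω
      conv_lhs => unfold net
      rw [dif_pos hjm]
    simp only [hnet, hmul]
    rw [avg_prod_type, avg_prod_type, avg_prod_type]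
    -- first coin of the input layer
    have e1 := avg_split_coord (⟨j, hjm⟩ : Fin m)
      (fun (x : Coin m) (cin : Fin m → Coin m) => avg (fun cout : Fin m → Coin m =>
        if a (sw ⟨j, hjm⟩ (cout ⟨j, hjm⟩)) (a (net cin cout j) (a (sw ⟨j, hjm⟩ x) s)) = t
        then (1 : ℝ) else 0))
      (fun x c y => by
        simp only [net_update_left c _ j ⟨j, hjm⟩ le_rfl y])
    refine e1.trans ?_
    congr 1
    funext x
    have e2 : ∀ cin : Fin m → Coin m, avg (fun cout : Fin m → Coin m =>
        if a (sw ⟨j, hjm⟩ (cout ⟨j, hjm⟩)) (a (net cin cout j) (a (sw ⟨j, hjm⟩ x) s)) = t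
        then (1 : ℝ) else 0) = avg (fun y : Coin m => avg (fun cout : Fin m → Coin m =>
        if a (sw ⟨j, hjm⟩ y) (a (net cin cout j) (a (sw ⟨j, hjm⟩ x) s)) = t
        then (1 : ℝ) else 0)) := by
      intro cin
      exact avg_split_coord (⟨j, hjm⟩ : Fin m)
        (fun (y : Coin m) (cout : Fin m → Coin m) =>
          if a (sw ⟨j, hjm⟩ y) (a (net cin cout j) (a (sw ⟨j, hjm⟩ x) s)) = t
          then (1 : ℝ) else 0)
        (fun y c z => by simp only [net_update_right cin c j ⟨j, hjm⟩ le_rfl z])
    simp only [e2]
    rw [avg_prod_type]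
    congr 1
    funext cin
    rw [avg_comm]

/-- the Benes network as a random map -/
theorem XL_down_eq_ker {m : ℕ} {S : Type*} [Fintype S] [DecidableEq S]
    (a : Equiv.Perm (Pos m) → S → S) (h1 : ∀ s, a 1 s = s)
    (hmul : ∀ g h s, a (g * h) s = a g (a h s)) :
    XL a (down m) =
      ker (fun (ω : (Fin m → Coin m) × (Fin m → Coin m)) => a (net ω.1 ω.2 m)) := by
  rw [net_ker a h1 hmul m le_rfl]
  have : (List.finRange m).take m = List.finRange m := by
    apply List.take_of_length_le
    simp
  rw [this]
  unfold XL down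
  rw [PL_transpose a h1 hmul, List.reverse_reverse]

/-- the out layers of the levels `b ≤ i < j`: `out_{j-1} * … * out_b` (level `b` acts first) -/
def outPerm {m : ℕ} (c : Fin m → Coin m) (b j : ℕ) : Equiv.Perm (Pos m) :=
  (((List.finRange m).filter (fun i => b ≤ i.val ∧ i.val < j)).reverse.map
    (fun i => sw i (c i))).prod

theorem prodRev_ker {m : ℕ} {S : Type*} [Fintype S] [DecidableEq S]
    (a : Equiv.Perm (Pos m) → S → S) (h1 : ∀ s, a 1 s = s)
    (hmul : ∀ g h s, a (g * h) s = a g (a h s)) (L : List (Fin m)) (hL : L.Nodup) :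
    ker (fun (c : Fin m → Coin m) => a ((L.reverse.map (fun i => sw i (c i))).prod)) =
      PL a L := by
  induction L with
  | nil =>
    ext s t
    rw [PL_nil]
    unfold ker
    simp only [List.reverse_nil, List.map_nil, List.prod_nil, h1]
    rw [avg_const, Matrix.one_apply]
  | cons i L ih =>
    have hi : i ∉ L := (List.nodup_cons.mp hL).1
    rw [PL_cons, ← ih (List.nodup_cons.mp hL).2]
    unfold lay
    rw [← ker_mul_of_indep (Ω := Unit) i (fun c : Coin m => a (sw i c))
      (fun c : Fin m → Coin m => a ((L.reverse.map (fun i => sw i (c i))).prod))]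
    · congr 1
      funext c s
      rw [List.reverse_cons, List.map_append, List.prod_append, hmul]
      simp
    · intro c y
      congr 2
      apply List.map_congr_left
      intro k hk
      have : k ≠ i := by
        rintro rfl
        exact hi (List.mem_reverse.mp hk)
      rw [Function.update_of_ne this]

theorem outPerm_eq_ker {m : ℕ} {S : Type*} [Fintype S] [DecidableEq S]
    (a : Equiv.Perm (Pos m) → S → S) (h1 : ∀ s, a 1 s = s)
    (hmul : ∀ g h s, a (g * h) s = a g (a h s)) (b j : ℕ) :
    ker (fun (c : Fin m → Coin m) => a (outPerm c b j)) =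
      PL a ((List.finRange m).filter (fun i => b ≤ i.val ∧ i.val < j)) := by
  unfold outPerm
  exact prodRev_ker a h1 hmul _ ((List.nodup_finRange m).filter _)

theorem lay_actI_one {m : ℕ} (i : Fin m) (s t : Fin 1 ↪ Pos m) :
    lay actI i s t = if (∀ k, k ≠ i → s 0 k = t 0 k) then (1 / 2 : ℝ) else 0 := by
  have hst : ∀ c : Coin m, (actI (sw i c) s = t) ↔ (sw i c (s 0) = t 0) := by
    intro c
    constructor
    · intro h; rw [← h]; rfl
    · intro h
      ext k
      have : k = 0 := Subsingleton.elim _ _
      rw [this, ← h]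
      rfl
  unfold lay ker
  simp only [hst, sw_apply]
  have := avg_coin (Function.update (s 0) i false)
    (fun b => if (if b = true then flip i (s 0) else s 0) = t 0 then (1 : ℝ) else 0)
  refine this.trans ?_
  simp only [if_true, Bool.false_eq_true, if_false]
  by_cases h : ∀ k, k ≠ i → s 0 k = t 0 k
  · rw [if_pos h]
    by_cases hi : s 0 i = t 0 i
    · have e1 : s 0 = t 0 := by
        funext k
        by_cases hk : k = i
        · rw [hk, hi]
        · exact h k hk
      have e2 : flip i (s 0) ≠ t 0 := by
        rw [← e1]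
        exact flip_ne i _
      rw [if_neg e2, if_pos e1]
      norm_num
    · have e1 : s 0 ≠ t 0 := fun he => hi (by rw [he])
      have e2 : flip i (s 0) = t 0 := by
        funext k
        by_cases hk : k = i
        · rw [hk, flip_apply_self]
          cases h1 : s 0 i <;> cases h2 : t 0 i <;> simp_all
        · rw [flip_apply_ne hk]
          exact h k hk
      rw [if_pos e2, if_neg e1]
      norm_num
  · rw [if_neg h]
    have e1 : s 0 ≠ t 0 := fun he => h (fun k _ => by rw [he])
    have e2 : flip i (s 0) ≠ t 0 := by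
      intro he
      apply h
      intro k hk
      rw [← he, flip_apply_ne hk]
    rw [if_neg e2, if_neg e1]
    norm_num

theorem PL_actI_one {m : ℕ} (L : List (Fin m)) (hL : L.Nodup) (s t : Fin 1 ↪ Pos m) :
    PL actI L s t = if (∀ k, k ∉ L → s 0 k = t 0 k) then (1 / 2 : ℝ) ^ L.length else 0 := by
  induction L generalizing s with
  | nil =>
    rw [PL_nil, Matrix.one_apply]
    have : (s = t) ↔ (∀ k, k ∉ ([] : List (Fin m)) → s 0 k = t 0 k) := by
      constructor
      · intro h k _; rw [h]
      · intro h
        ext j k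
        have : j = 0 := Subsingleton.elim _ _
        rw [this, h k (by simp)]
    simp only [this]
    simp
  | cons i L ih =>
    have hi : i ∉ L := (List.nodup_cons.mp hL).1
    rw [PL_cons, Matrix.mul_apply]
    simp only [ih (List.nodup_cons.mp hL).2, lay_actI_one]
    -- the only contributing state
    let u₀ : Fin 1 ↪ Pos m := ⟨fun _ => Function.update (s 0) i (t 0 i),
      fun x y _ => Subsingleton.elim x y⟩
    have hu₀ : ∀ k, u₀ 0 k = Function.update (s 0) i (t 0 i) k := fun _ => rfl
    by_cases h : ∀ k, k ∉ i :: L → s 0 k = t 0 k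
    · rw [if_pos h, Finset.sum_eq_single u₀]
      · rw [if_pos, if_pos]
        · simp [pow_succ]; ring
        · intro k hk
          by_cases hki : k = i
          · subst hki; simp [hu₀]
          · have := h k (by simp [hki, hk])
            simp [hu₀, hki, this]
        · intro k hk
          simp [hu₀, hk]
      · intro u _ hu
        by_cases h1 : ∀ k, k ≠ i → s 0 k = u 0 k
        · by_cases h2 : ∀ k, k ∉ L → u 0 k = t 0 k
          · exfalso
            apply hu
            ext j k
            have : j = 0 := Subsingleton.elim _ _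
            rw [this]
            by_cases hki : k = i
            · subst hki
              simp [hu₀, h2 k hi]
            · simp [hu₀, hki, h1 k hki]
          · rw [if_neg h2, mul_zero]
        · rw [if_neg h1, zero_mul]
      · intro h; exact absurd (Finset.mem_univ _) h
    · rw [if_neg h]
      apply Finset.sum_eq_zero
      intro u _
      by_cases h1 : ∀ k, k ≠ i → s 0 k = u 0 k
      · by_cases h2 : ∀ k, k ∉ L → u 0 k = t 0 k
        · exfalso
          apply h
          intro k hk
          rw [List.mem_cons, not_or] at hk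
          rw [h1 k hk.1, h2 k hk.2]
        · rw [if_neg h2, mul_zero]
      · rw [if_neg h1, zero_mul]

/-- one card is uniformly distributed after one pass, hence `F m 1 = 1` -/
theorem F_one (m : ℕ) : F m 1 = 1 := by
  have hPL : ∀ s t : Fin 1 ↪ Pos m, PL actI (down m) s t = (1 / 2 : ℝ) ^ m := by
    intro s t
    rw [PL_actI_one (down m) (by unfold down; exact List.nodup_reverse.mpr (List.nodup_finRange m))]
    rw [if_pos]
    · simp [down]
    · intro k hk
      exact absurd (by simp [down]) hk
  have hcard : Fintype.card (Fin 1 ↪ Pos m) = 2 ^ m := by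
    rw [Fintype.card_embedding_eq]
    simp [Pos]
  have hpow : (2 : ℝ) ^ m * (1 / 2 : ℝ) ^ m = 1 := by
    rw [← mul_pow]; norm_num
  have hX : ∀ s t : Fin 1 ↪ Pos m, XI m 1 s t = (1 / 2 : ℝ) ^ m := by
    intro s t
    unfold XI XL
    rw [Matrix.mul_apply]
    simp only [Matrix.transpose_apply, hPL]
    rw [Finset.sum_const, Finset.card_univ, hcard, nsmul_eq_mul]
    push_cast
    rw [← mul_assoc, hpow, one_mul]
  have hXX : XI m 1 * XI m 1 = XI m 1 := by
    ext s t
    rw [Matrix.mul_apply]
    simp only [hX]
    rw [Finset.sum_const, Finset.card_univ, hcard, nsmul_eq_mul]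
    push_cast
    rw [← mul_assoc, hpow, one_mul]
  have hP : ∀ n : ℕ, XI m 1 ^ (n + 1) = XI m 1 := by
    intro n
    induction n with
    | zero => simp
    | succ n ih => rw [pow_succ, ih, hXX]
  unfold F
  rw [hP 63]
  unfold Matrix.trace
  simp only [Matrix.diag_apply, hX]
  rw [Finset.sum_const, Finset.card_univ, hcard, nsmul_eq_mul]
  push_cast
  exact hpow

end Crest.Agent.R155
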