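import Crest.Agent.R155.Split
import Crest.Agent.R155.Ker

/-!
# Auxiliary file for PIECE TSQBASE: binary trees of natural numbers and the computation
-/

set_option autoImplicit false

namespace Crest.Agent.R155.TsqBaseaux

/-- complete binary trees of depth `n` with leaves in `ℕ` -/
def V : ℕ → Type
  | 0 => ℕ
  | n + 1 => V n × V n

def addV : (n : ℕ) → V n → V n → V n
  | 0, a, b => Nat.add a b
  | n + 1, a, b => (addV n a.1 b.1, addV n a.2 b.2)

/-- `l`, `r` are the subtrees for the first bit `0`, `1`; the second bit has depth `k` inside. -/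
def mixV : (n : ℕ) → (k : ℕ) → V n → V n → V n × V n
  | 0, _, l, r => (l, r)
  | n + 1, 0, l, r =>
      ((addV n l.1 l.1, addV n l.2 r.1), (addV n r.1 l.2, addV n r.2 r.2))
  | n + 1, k + 1, l, r =>
      (((mixV n k l.1 r.1).1, (mixV n k l.2 r.2).1), ((mixV n k l.1 r.1).2, (mixV n k l.2 r.2).2))

def stepV : (n : ℕ) → (a b : ℕ) → V n → V n
  | 0, _, _, v => v
  | n + 1, 0, b, v => mixV n (b - 1) v.1 v.2
  | n + 1, a + 1, b, v => (stepV n a (b - 1) v.1, stepV n a (b - 1) v.2)

def baseV (B : ℕ) : (n : ℕ) → (e m : ℕ) → V n
  | 0, e, _ => B ^ e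
  | n + 1, e, m => (baseV B n e (2 * m), baseV B n (e + m) (2 * m))

def addL : List ℕ → List ℕ → List ℕ
  | [], l => l
  | l, [] => l
  | a :: l, b :: l' => Nat.add a b :: addL l l'

def coefV (B : ℕ) : (n : ℕ) → V n → (e m : ℕ) → List ℕ
  | 0, v, e, _ => [Nat.mod (Nat.div v (B ^ e)) B]
  | n + 1, v, e, m => addL (coefV B n v.1 e (2 * m)) (0 :: coefV B n v.2 (e + m) (2 * m))

def runV (n : ℕ) : List (ℕ × ℕ) → V n → V n
  | [], v => v
  | p :: l, v => stepV n p.1 p.2 (runV n l v)

def ip (m i : ℕ) : List (ℕ × ℕ) :=
  ((List.range (2 ^ m)).filter (fun k => !(Nat.testBit k i))).map (fun k => (k, k + 2 ^ i))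

def steps (m : ℕ) (L : List ℕ) : List (ℕ × ℕ) := L.flatMap (ip m)

section sem
variable {H : Type} [DecidableEq H]

def get : (ps : List H) → V ps.length → (H → Fin 2) → ℕ
  | [], v, _ => v
  | p :: ps, v, φ => if φ p = 0 then get ps (Prod.fst (α := V ps.length) (β := V ps.length) v) φ
      else get ps (Prod.snd (α := V ps.length) (β := V ps.length) v) φ

def code : List H → (H → Fin 2) → ℕ
  | [], _ => 0
  | p :: ps, φ => (φ p).val + 2 * code ps φ

theorem get_congr (ps : List H) (v : V ps.length) (φ φ' : H → Fin 2)
    (h : ∀ x ∈ ps, φ x = φ' x) : get ps v φ = get ps v φ' := by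
  induction ps with
  | nil => rfl
  | cons p ps ih =>
    have hp := h p (by simp)
    have h' : ∀ x ∈ ps, φ x = φ' x := fun x hx => h x (by simp [hx])
    unfold get
    rw [hp, ih _ h', ih _ h']

theorem get_add (ps : List H) (v w : V ps.length) (φ : H → Fin 2) :
    get ps (addV ps.length v w) φ = get ps v φ + get ps w φ := by
  induction ps with
  | nil => rfl
  | cons p ps ih =>
    unfold get
    split
    · exact ih _ _
    · exact ih _ _

theorem get_base (B : ℕ) (ps : List H) (e m : ℕ) (φ : H → Fin 2) :
    get ps (baseV B ps.length e m) φ = B ^ (e + m * code ps φ) := by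
  induction ps generalizing e m with
  | nil => simp [get, baseV, code]
  | cons p ps ih =>
    unfold get
    split
    · rename_i h
      have := ih e (2 * m)
      refine this.trans ?_
      simp only [code, h]
      congr 1
      simp
      ring
    · rename_i h
      have := ih (e + m) (2 * m)
      refine this.trans ?_
      have h1 : (φ p).val = 1 := by
        have := (φ p).isLt
        have h2 : (φ p).val ≠ 0 := fun h3 => h (Fin.ext h3)
        omega
      simp only [code, h1]
      congr 1
      ring

theorem get_mix (ps : List H) (k : ℕ) (hk : k < ps.length) (hnd : ps.Nodup)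
    (l r : V ps.length) (φ : H → Fin 2) :
    get ps (mixV ps.length k l r).1 φ = get ps l φ +
        (if φ ps[k] = 0 then get ps l φ else get ps r (Function.update φ ps[k] 0)) ∧
    get ps (mixV ps.length k l r).2 φ = get ps r φ +
        (if φ ps[k] = 0 then get ps l (Function.update φ ps[k] 1) else get ps r φ) := by
  induction ps generalizing k with
  | nil => simp at hk
  | cons p ps ih =>
    have hp : p ∉ ps := (List.nodup_cons.mp hnd).1
    have hnd' : ps.Nodup := (List.nodup_cons.mp hnd).2
    have hcong : ∀ (v : V ps.length) (b : Fin 2), get ps v (Function.update φ p b) = get ps v φ := by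
      intro v b
      apply get_congr
      intro x hx
      rw [Function.update_of_ne]
      rintro rfl
      exact hp hx
    cases k with
    | zero =>
      simp only [List.getElem_cons_zero]
      constructor
      · unfold get
        by_cases h : φ p = 0
        · simp only [h, if_true, Function.update_self]
          exact get_add _ _ _ _
        · simp only [h, if_false, Function.update_self, if_true]
          rw [hcong]
          exact get_add _ _ _ _
      · unfold get
        by_cases h : φ p = 0
        · simp only [h, if_true, Function.update_self]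
          rw [if_neg (by decide), hcong]
          exact (get_add _ _ _ _).trans (by rw [add_comm])
        · simp only [h, if_false]
          exact get_add _ _ _ _
    | succ k =>
      have hk' : k < ps.length := by simpa using hk
      have hne : ps[k] ≠ p := fun h => hp (h ▸ List.getElem_mem hk')
      simp only [List.getElem_cons_succ]
      have ih1 := ih k hk' hnd'
      constructor
      · unfold get
        rw [Function.update_of_ne hne.symm]
        by_cases h : φ p = 0
        · simp only [h, if_true]
          exact (ih1 _ _).1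
        · simp only [h, if_false]
          exact (ih1 _ _).1
      · unfold get
        rw [Function.update_of_ne hne.symm]
        by_cases h : φ p = 0
        · simp only [h, if_true]
          exact (ih1 _ _).2
        · simp only [h, if_false]
          exact (ih1 _ _).2

theorem get_step (ps : List H) (a b : ℕ) (hab : a < b) (hb : b < ps.length) (hnd : ps.Nodup)
    (v : V ps.length) (φ : H → Fin 2) :
    get ps (stepV ps.length a b v) φ =
      get ps v φ + get ps v (φ ∘ Equiv.swap (ps[a]'(hab.trans hb)) ps[b]) := by
  induction ps generalizing a b with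
  | nil => simp at hb
  | cons p ps ih =>
    have hp : p ∉ ps := (List.nodup_cons.mp hnd).1
    have hnd' : ps.Nodup := (List.nodup_cons.mp hnd).2
    obtain ⟨b, rfl⟩ : ∃ b', b = b' + 1 := ⟨b - 1, by omega⟩
    have hb' : b < ps.length := by simpa using hb
    cases a with
    | zero =>
      simp only [List.getElem_cons_zero, List.getElem_cons_succ]
      have hne : ps[b] ≠ p := fun h => hp (h ▸ List.getElem_mem hb')
      set y := ps[b] with hy
      have hm := get_mix ps b hb' hnd' (Prod.fst (α := V ps.length) (β := V ps.length) v)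
        (Prod.snd (α := V ps.length) (β := V ps.length) v) φ
      unfold get
      have e1 : (φ ∘ Equiv.swap p y) p = φ y := by simp
      rw [e1]
      by_cases h : φ p = 0
      · simp only [h, if_true]
        refine (hm.1).trans ?_
        rw [← hy]
        congr 1
        by_cases h2 : φ y = 0
        · simp only [h2, if_true]
          apply get_congr
          intro x hx
          have hxp : x ≠ p := fun h => hp (h ▸ hx)
          by_cases hxy : x = y
          · subst hxy; simp [h, h2]
          · simp [Equiv.swap_apply_of_ne_of_ne hxp hxy]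
        · simp only [h2, if_false]
          apply get_congr
          intro x hx
          have hxp : x ≠ p := fun h => hp (h ▸ hx)
          by_cases hxy : x = y
          · subst hxy; simp [h]
          · simp [Equiv.swap_apply_of_ne_of_ne hxp hxy, hxy]
      · simp only [h, if_false]
        refine (hm.2).trans ?_
        rw [← hy]
        congr 1
        have h1 : φ p = 1 := by
          have := (φ p).isLt
          have h2 : (φ p).val ≠ 0 := fun h3 => h (Fin.ext h3)
          exact Fin.ext (by show (φ p).val = 1; omega)
        by_cases h2 : φ y = 0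
        · simp only [h2, if_true]
          apply get_congr
          intro x hx
          have hxp : x ≠ p := fun h => hp (h ▸ hx)
          by_cases hxy : x = y
          · subst hxy; simp [h1]
          · simp [Equiv.swap_apply_of_ne_of_ne hxp hxy, hxy]
        · simp only [h2, if_false]
          have h3 : φ y = 1 := by
            have := (φ y).isLt
            have h4 : (φ y).val ≠ 0 := fun h3 => h2 (Fin.ext h3)
            exact Fin.ext (by show (φ y).val = 1; omega)
          apply get_congr
          intro x hx
          have hxp : x ≠ p := fun h => hp (h ▸ hx)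
          by_cases hxy : x = y
          · subst hxy; simp [h1, h3]
          · simp [Equiv.swap_apply_of_ne_of_ne hxp hxy]
    | succ a =>
      have hab' : a < b := by omega
      simp only [List.getElem_cons_succ]
      have hne1 : ps[b] ≠ p := fun h => hp (h ▸ List.getElem_mem hb')
      have hne2 : ps[a] ≠ p := fun h => hp (h ▸ List.getElem_mem (hab'.trans hb'))
      have e1 : (φ ∘ Equiv.swap (ps[a]) ps[b]) p = φ p := by
        simp [Equiv.swap_apply_of_ne_of_ne hne2.symm hne1.symm]
      unfold get
      rw [e1]
      by_cases h : φ p = 0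
      · simp only [h, if_true]
        exact ih a b hab' hb' hnd' _
      · simp only [h, if_false]
        exact ih a b hab' hb' hnd' _


/-! ### steps -/

def stp {R : Type*} [Add R] : List (H × H) → ((H → Fin 2) → R) → ((H → Fin 2) → R)
  | [], u => u
  | p :: L, u => fun φ => stp L u φ + stp L u (φ ∘ Equiv.swap p.1 p.2)

theorem stp_append {R : Type*} [Add R] (L L' : List (H × H)) (u : (H → Fin 2) → R) :
    stp (L ++ L') u = stp L (stp L' u) := by
  induction L with
  | nil => rfl
  | cons p L ih =>
    funext φ
    simp only [List.cons_append, stp, ih]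

theorem get_run [Inhabited H] (ps : List H) (hnd : ps.Nodup) (L : List (ℕ × ℕ))
    (hL : ∀ p ∈ L, p.1 < p.2 ∧ p.2 < ps.length) (v : V ps.length) (φ : H → Fin 2) :
    get ps (runV ps.length L v) φ =
      stp (L.map fun p => (ps[p.1]!, ps[p.2]!)) (get ps v) φ := by
  induction L generalizing φ with
  | nil => rfl
  | cons p L ih =>
    obtain ⟨h1, h2⟩ := hL p (by simp)
    have ih' := fun φ => ih (fun q hq => hL q (by simp [hq])) φ
    simp only [runV, List.map_cons, stp]
    rw [get_step ps p.1 p.2 h1 h2 hnd, ih', ih']
    rw [getElem!_pos ps p.1 (h1.trans h2), getElem!_pos ps p.2 h2]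

theorem stp_cast (L : List (H × H)) (u : (H → Fin 2) → ℕ) (φ : H → Fin 2) :
    ((stp L u φ : ℕ) : ℝ) = stp L (fun χ => (u χ : ℝ)) φ := by
  induction L generalizing φ with
  | nil => rfl
  | cons p L ih => simp only [stp]; push_cast; rw [ih, ih]

variable [Fintype H]

theorem stp_linear (L : List (H × H)) (u : (H → Fin 2) → ℕ) (φ : H → Fin 2) :
    stp L u φ = ∑ χ, stp L (Pi.single χ 1) φ * u χ := by
  induction L generalizing φ with
  | nil => simp [stp, Pi.single_apply]
  | cons p L ih => simp only [stp]; rw [ih, ih, ← Finset.sum_add_distrib]; simp_rw [add_mul]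

theorem stp_one (L : List (H × H)) (φ : H → Fin 2) :
    stp L (fun _ => (1 : ℕ)) φ = 2 ^ L.length := by
  induction L generalizing φ with
  | nil => rfl
  | cons p L ih => simp only [stp]; rw [ih, ih, List.length_cons, pow_succ]; ring

theorem stp_le (L : List (H × H)) (φ χ : H → Fin 2) :
    stp L (Pi.single χ (1 : ℕ)) φ ≤ 2 ^ L.length := by
  rw [← stp_one L φ, stp_linear L (fun _ => 1) φ]
  simp only [mul_one]
  exact Finset.single_le_sum (f := fun χ => stp L (Pi.single χ (1 : ℕ)) φ)
    (fun _ _ => Nat.zero_le _) (Finset.mem_univ χ)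

theorem digit {S : Type*} [Fintype S] [DecidableEq S] (B : ℕ) (hB : 1 < B) (c : S → ℕ)
    (hc : Function.Injective c) (f : S → ℕ) (hf : ∀ s, f s < B) (s : S) :
    (∑ t, f t * B ^ c t) / B ^ c s % B = f s := by
  have h1 : (∑ t, f t * B ^ c t) = (∑ t ∈ Finset.univ.filter (fun t => c t < c s), f t * B ^ c t)
      + f s * B ^ c s + (∑ t ∈ Finset.univ.filter (fun t => c s < c t), f t * B ^ c t) := by
    rw [← Finset.sum_filter_add_sum_filter_not Finset.univ (fun t => c t < c s), add_assoc]
    congr 1
    rw [← Finset.sum_filter_add_sum_filter_not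
      (Finset.univ.filter fun t => ¬ c t < c s) (fun t => t = s), Finset.filter_filter,
      Finset.filter_filter]
    congr 1
    · rw [Finset.sum_eq_single s]
      · intro t ht hts
        simp only [Finset.mem_filter, Finset.mem_univ, true_and] at ht
        exact absurd ht.2 hts
      · intro h
        simp at h
    · apply Finset.sum_congr _ (fun _ _ => rfl)
      ext t
      simp only [Finset.mem_filter, Finset.mem_univ, true_and]
      constructor
      · rintro ⟨h, h'⟩
        have : c t ≠ c s := fun h'' => h' (hc h'')
        omega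
      · intro h
        exact ⟨by omega, by rintro rfl; omega⟩
  have h2 : (∑ t ∈ Finset.univ.filter (fun t => c t < c s), f t * B ^ c t) < B ^ c s := by
    have h3 : (∑ t ∈ Finset.univ.filter (fun t => c t < c s), f t * B ^ c t) ≤
        ∑ k ∈ Finset.range (c s), (B - 1) * B ^ k := by
      calc _ ≤ ∑ t ∈ Finset.univ.filter (fun t => c t < c s), (B - 1) * B ^ c t := by
            apply Finset.sum_le_sum
            intro t _
            apply Nat.mul_le_mul_right
            have := hf t
            omega
        _ = ∑ k ∈ (Finset.univ.filter (fun t => c t < c s)).image c, (B - 1) * B ^ k := by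
            rw [Finset.sum_image]
            intro a _ b _ h
            exact hc h
        _ ≤ _ := by
            apply Finset.sum_le_sum_of_subset
            intro k hk
            simp only [Finset.mem_image, Finset.mem_filter, Finset.mem_univ, true_and] at hk
            obtain ⟨t, ht, rfl⟩ := hk
            simpa using ht
    have h4 : ∀ n : ℕ, (∑ k ∈ Finset.range n, (B - 1) * B ^ k) + 1 = B ^ n := by
      intro n
      induction n with
      | zero => simp
      | succ n ih =>
        rw [Finset.sum_range_succ, add_right_comm, ih, pow_succ]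
        obtain ⟨b, rfl⟩ : ∃ b, B = b + 1 := ⟨B - 1, by omega⟩
        simp
        ring
    have := h4 (c s)
    omega
  have h5 : B ^ (c s + 1) ∣ (∑ t ∈ Finset.univ.filter (fun t => c s < c t), f t * B ^ c t) := by
    apply Finset.dvd_sum
    intro t ht
    simp only [Finset.mem_filter, Finset.mem_univ, true_and] at ht
    exact Dvd.dvd.mul_left (pow_dvd_pow _ ht) _
  obtain ⟨q, hq⟩ := h5
  rw [h1, hq]
  have hpos : 0 < B ^ c s := Nat.pow_pos (by omega)
  have h6 : (∑ t ∈ Finset.univ.filter (fun t => c t < c s), f t * B ^ c t)
      + f s * B ^ c s + B ^ (c s + 1) * q =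
      (∑ t ∈ Finset.univ.filter (fun t => c t < c s), f t * B ^ c t)
        + B ^ c s * (f s + B * q) := by
    rw [pow_succ]; ring
  rw [h6, Nat.add_mul_div_left _ _ hpos, Nat.div_eq_of_lt h2, zero_add, Nat.add_mul_mod_self_left,
    Nat.mod_eq_of_lt (hf s)]

theorem code_inj (ps : List H) (φ φ' : H → Fin 2) (h : code ps φ = code ps φ') :
    ∀ x ∈ ps, φ x = φ' x := by
  induction ps with
  | nil => simp
  | cons p ps ih =>
    simp only [code] at h
    have h1 := (φ p).isLt
    have h2 := (φ' p).isLt
    have h3 : (φ p).val = (φ' p).val := by omega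
    have h4 : code ps φ = code ps φ' := by omega
    intro x hx
    rcases List.mem_cons.mp hx with rfl | hx
    · exact Fin.ext h3
    · exact ih h4 x hx

/-! ### sums over the colorings -/

def sumS {R : Type*} [Add R] : List H → ((H → Fin 2) → R) → (H → Fin 2) → R
  | [], G, β => G β
  | p :: ps, G, β => sumS ps G (Function.update β p 0) + sumS ps G (Function.update β p 1)

theorem sumS_eq {R : Type*} [AddCommMonoid R] (ps : List H) (hnd : ps.Nodup)
    (G : (H → Fin 2) → R) (β : H → Fin 2) :
    sumS ps G β = ∑ φ ∈ Finset.univ.filter (fun φ : H → Fin 2 => ∀ x, x ∉ ps → φ x = β x), G φ := by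
  induction ps generalizing β with
  | nil =>
    have : (Finset.univ.filter (fun φ : H → Fin 2 => ∀ x, x ∉ ([] : List H) → φ x = β x)) = {β} := by
      ext φ
      simp only [Finset.mem_filter, Finset.mem_univ, true_and, Finset.mem_singleton]
      constructor
      · intro h; funext x; exact h x (by simp)
      · rintro rfl x _; rfl
    rw [this, Finset.sum_singleton]; rfl
  | cons p ps ih =>
    have hp : p ∉ ps := (List.nodup_cons.mp hnd).1
    have hnd' : ps.Nodup := (List.nodup_cons.mp hnd).2
    simp only [sumS]
    rw [ih hnd', ih hnd', ← Finset.sum_filter_add_sum_filter_not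
      (Finset.univ.filter (fun φ : H → Fin 2 => ∀ x, x ∉ p :: ps → φ x = β x)) (fun φ => φ p = 0),
      Finset.filter_filter, Finset.filter_filter]
    congr 1
    · apply Finset.sum_congr _ (fun _ _ => rfl)
      ext φ
      simp only [Finset.mem_filter, Finset.mem_univ, true_and]
      constructor
      · intro h
        refine ⟨fun x hx => ?_, ?_⟩
        · rw [List.mem_cons, not_or] at hx
          have := h x hx.2
          rwa [Function.update_of_ne hx.1] at this
        · have := h p hp
          simpa using this
      · rintro ⟨h, h0⟩ x hx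
        by_cases hxp : x = p
        · subst hxp; simpa using h0
        · rw [Function.update_of_ne hxp]
          exact h x (by simp [hxp, hx])
    · apply Finset.sum_congr _ (fun _ _ => rfl)
      ext φ
      simp only [Finset.mem_filter, Finset.mem_univ, true_and]
      constructor
      · intro h
        refine ⟨fun x hx => ?_, ?_⟩
        · rw [List.mem_cons, not_or] at hx
          have := h x hx.2
          rwa [Function.update_of_ne hx.1] at this
        · have := h p hp
          rw [Function.update_self] at this
          rw [this]; decide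
      · rintro ⟨h, h0⟩ x hx
        by_cases hxp : x = p
        · subst hxp
          rw [Function.update_self]
          have h1 := (φ x).isLt
          have h2 : (φ x).val ≠ 0 := fun h3 => h0 (Fin.ext h3)
          exact Fin.ext (by show (φ x).val = 1; omega)
        · rw [Function.update_of_ne hxp]
          exact h x (by simp [hxp, hx])

theorem sumS_congr {R : Type*} [Add R] (ps : List H) (G G' : (H → Fin 2) → R)
    (β : H → Fin 2) (h : ∀ φ : H → Fin 2, (∀ x, x ∉ ps → φ x = β x) → G φ = G' φ) :
    sumS ps G β = sumS ps G' β := by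
  induction ps generalizing β with
  | nil => exact h β (fun _ _ => rfl)
  | cons p ps ih =>
    simp only [sumS]
    by_cases hp : p ∈ ps
    · rw [ih, ih]
      · intro φ hφ
        apply h
        intro x hx
        rw [List.mem_cons, not_or] at hx
        have := hφ x hx.2
        rwa [Function.update_of_ne hx.1] at this
      · intro φ hφ
        apply h
        intro x hx
        rw [List.mem_cons, not_or] at hx
        have := hφ x hx.2
        rwa [Function.update_of_ne hx.1] at this
    · rw [ih, ih]
      · intro φ hφ
        apply h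
        intro x hx
        rw [List.mem_cons, not_or] at hx
        have := hφ x hx.2
        rwa [Function.update_of_ne hx.1] at this
      · intro φ hφ
        apply h
        intro x hx
        rw [List.mem_cons, not_or] at hx
        have := hφ x hx.2
        rwa [Function.update_of_ne hx.1] at this

def cnt : List H → (H → Fin 2) → ℕ
  | [], _ => 0
  | p :: ps, φ => (φ p).val + cnt ps φ

noncomputable def evalL (z : ℝ) : List ℕ → ℝ
  | [] => 0
  | c :: l => (c : ℝ) + z * evalL z l

theorem evalL_addL (z : ℝ) (l l' : List ℕ) : evalL z (addL l l') = evalL z l + evalL z l' := by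
  induction l generalizing l' with
  | nil => simp [addL, evalL]
  | cons a l ih =>
    cases l' with
    | nil => simp [addL, evalL]
    | cons b l' =>
      simp only [addL, evalL, ih]
      have : ((Nat.add a b : ℕ) : ℝ) = (a : ℝ) + b := by
        rw [Nat.add_eq]; push_cast; rfl
      rw [this]; ring

theorem get_cons (p : H) (ps : List H) (v : V (p :: ps).length) (φ : H → Fin 2) :
    get (p :: ps) v φ = if φ p = 0 then get ps (Prod.fst (α := V ps.length) (β := V ps.length) v) φ
      else get ps (Prod.snd (α := V ps.length) (β := V ps.length) v) φ := rfl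

theorem cnt_cons (p : H) (ps : List H) (φ : H → Fin 2) :
    cnt (p :: ps) φ = (φ p).val + cnt ps φ := rfl

theorem code_cons (p : H) (ps : List H) (φ : H → Fin 2) :
    code (p :: ps) φ = (φ p).val + 2 * code ps φ := rfl

theorem mul_sumS (z : ℝ) (G : (H → Fin 2) → ℝ) (β' : H → Fin 2) (ps' : List H) :
    z * sumS ps' G β' = sumS ps' (fun φ => z * G φ) β' := by
  induction ps' generalizing β' with
  | nil => rfl
  | cons q ps' ih' => simp only [sumS]; rw [mul_add, ih', ih']

theorem coef_eq (B : ℕ) (z : ℝ) (ps : List H) (hnd : ps.Nodup) (v : V ps.length) (e m : ℕ)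
    (β : H → Fin 2) :
    evalL z (coefV B ps.length v e m) =
      sumS ps (fun φ => z ^ cnt ps φ * ((get ps v φ / B ^ (e + m * code ps φ) % B : ℕ) : ℝ)) β := by
  induction ps generalizing e m β with
  | nil =>
    simp only [sumS, cnt, code, get]
    show evalL z [Nat.mod (Nat.div v (B ^ e)) B] = _
    simp [evalL]
    rfl
  | cons p ps ih =>
    have hp : p ∉ ps := (List.nodup_cons.mp hnd).1
    have hnd' : ps.Nodup := (List.nodup_cons.mp hnd).2
    simp only [sumS]
    have h1 := ih hnd' (Prod.fst (α := V ps.length) (β := V ps.length) v) e (2 * m)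
      (Function.update β p 0)
    have h2 := ih hnd' (Prod.snd (α := V ps.length) (β := V ps.length) v) (e + m) (2 * m)
      (Function.update β p 1)
    show evalL z (addL (coefV B ps.length (Prod.fst (α := V ps.length) (β := V ps.length) v) e (2 * m))
      (0 :: coefV B ps.length (Prod.snd (α := V ps.length) (β := V ps.length) v) (e + m) (2 * m))) = _
    rw [evalL_addL, evalL, h1, h2]
    congr 1
    · apply sumS_congr
      intro φ hφ
      have h0 : φ p = 0 := by
        have := hφ p hp
        simpa using this
      rw [get_cons, cnt_cons, code_cons, if_pos h0, h0]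
      have e1 : (e + 2 * m * code ps φ) = e + m * ((0 : Fin 2).val + 2 * code ps φ) := by
        simp; ring
      have e2 : ((0 : Fin 2).val + cnt ps φ) = cnt ps φ := by simp
      rw [e1, e2]
    · have h3 : (((0 : ℕ) : ℝ)) = 0 := by simp
      rw [h3, zero_add, mul_sumS]
      apply sumS_congr
      intro φ hφ
      have h0 : φ p = 1 := by
        have := hφ p hp
        simpa using this
      have h4 : ¬ (φ p = 0) := by rw [h0]; decide
      rw [get_cons, cnt_cons, code_cons, if_neg h4, h0]
      have e1 : (e + m + 2 * m * code ps φ) = e + m * ((1 : Fin 2).val + 2 * code ps φ) := by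
        simp; ring
      have e2 : z ^ ((1 : Fin 2).val + cnt ps φ) = z * z ^ cnt ps φ := by
        rw [pow_add]; simp
      rw [e1, e2]
      ring

theorem cnt_eq (ps : List H) (hnd : ps.Nodup) (hall : ∀ x, x ∈ ps) (φ : H → Fin 2) :
    cnt ps φ = (supp φ).card := by
  have h : ∀ ps : List H, ps.Nodup → cnt ps φ = (ps.toFinset.filter fun x => φ x ≠ 0).card := by
    intro ps
    induction ps with
    | nil => simp [cnt]
    | cons p ps ih =>
      intro hnd
      have hp : p ∉ ps := (List.nodup_cons.mp hnd).1
      have hnd' : ps.Nodup := (List.nodup_cons.mp hnd).2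
      rw [cnt_cons, ih hnd', List.toFinset_cons, Finset.filter_insert]
      split
      · rename_i h
        rw [Finset.card_insert_of_notMem (by simp [hp])]
        have h1 := (φ p).isLt
        have h2 : (φ p).val ≠ 0 := fun h3 => h (Fin.ext h3)
        omega
      · rename_i h
        have : φ p = 0 := not_not.mp h
        rw [this]; simp
  rw [h ps hnd, supp]
  congr 1
  ext x
  simp [hall x]

/-- the diagonal entries of the product of the steps, from the tree computation -/
theorem main_comp [Inhabited H] (ps : List H) (hnd : ps.Nodup) (hall : ∀ x, x ∈ ps)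
    (L : List (ℕ × ℕ)) (hL : ∀ p ∈ L, p.1 < p.2 ∧ p.2 < ps.length) (B : ℕ)
    (hB : 2 ^ L.length < B) (z : ℝ) :
    evalL z (coefV B ps.length (runV ps.length L (baseV B ps.length 0 1)) 0 1) =
      ∑ φ : H → Fin 2, z ^ (supp φ).card *
        (stp (L.map fun p => (ps[p.1]!, ps[p.2]!)) (Pi.single φ (1 : ℕ)) φ : ℕ) := by
  have hB1 : 1 < B := lt_of_le_of_lt Nat.one_le_two_pow hB
  rw [coef_eq B z ps hnd _ 0 1 (fun _ => 0), sumS_eq ps hnd]
  have hf : (Finset.univ.filter
      (fun φ : H → Fin 2 => ∀ x, x ∉ ps → φ x = (fun _ => (0 : Fin 2)) x)) = Finset.univ := by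
    ext φ
    simp [hall]
  rw [hf]
  apply Finset.sum_congr rfl
  intro φ _
  rw [cnt_eq ps hnd hall]
  congr 2
  rw [get_run ps hnd L hL, stp_linear]
  simp only [get_base, zero_add, one_mul]
  set M := L.map fun p => (ps[p.1]!, ps[p.2]!) with hM
  have hlen : M.length = L.length := by simp [hM]
  refine digit B hB1 (code ps) ?_ (fun χ => stp M (Pi.single χ 1) φ) ?_ φ
  · intro φ φ' h
    funext x
    exact code_inj ps φ φ' h x (hall x)
  · intro χ
    refine lt_of_le_of_lt (stp_le M φ χ) ?_
    rw [hlen]; exact hB

end sem

/-! ### a layer as a product of pair steps -/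

section layer
variable {m : ℕ}

/-- toggle the coin at `x` -/
def toggle (x : Pos m) : Coin m ≃ Coin m where
  toFun c := Function.update c x (!(c x))
  invFun c := Function.update c x (!(c x))
  left_inv c := by funext y; by_cases h : y = x <;> simp [h]
  right_inv c := by funext y; by_cases h : y = x <;> simp [h]

theorem avg_toggle (x : Pos m) (G : Coin m → ℝ) :
    avg G = avg (fun c : Coin m =>
      (1 / 2 : ℝ) * (G (Function.update c x false) + G (Function.update c x true))) := by
  have h1 : avg G = avg (fun c => G (toggle x c)) := (avg_equiv (toggle x) G).symm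
  have h2 : avg G = (1 / 2 : ℝ) * (avg G + avg (fun c => G (toggle x c))) := by
    rw [← h1]; ring
  rw [h2, ← avg_add, ← avg_mul_left]
  congr 1
  funext c
  congr 1
  show G c + G (Function.update c x (!(c x))) = _
  cases h : c x
  · have : Function.update c x false = c := by rw [← h]; exact Function.update_eq_self x c
    rw [this]; rfl
  · have : Function.update c x true = c := by rw [← h]; exact Function.update_eq_self x c
    rw [this, add_comm]; rfl

/-- the coins restricted to `L` -/
def cut (L : List (Pos m)) (c : Coin m) : Coin m := fun y => if y ∈ L then c y else false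

theorem sw_cut_true (i : Fin m) (x : Pos m) (hx : x i = false) (c : Coin m) (hc : c x = false)
    (y : Pos m) :
    sw i (Function.update c x true) y = Equiv.swap x (flip i x) (sw i c y) := by
  have hxx : Function.update x i false = x := by rw [← hx]; exact Function.update_eq_self i x
  by_cases hy : Function.update y i false = x
  · -- y is x or flip i x
    have hy2 : y = x ∨ y = flip i x := by
      rcases Bool.eq_false_or_eq_true (y i) with h | h
      · right
        funext k
        by_cases hk : k = i
        · subst hk; simp [h, hx]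
        · have := congrFun hy k
          simp [hk] at this ⊢
          exact this
      · left
        rw [← hy, ← h]; exact (Function.update_eq_self i y).symm
    have e1 : sw i (Function.update c x true) y = flip i y := by
      rw [sw_apply, hy]; simp
    have e2 : sw i c y = y := by
      rw [sw_apply, hy, hc]; simp
    rw [e1, e2]
    rcases hy2 with rfl | rfl
    · simp
    · simp
  · have e1 : sw i (Function.update c x true) y = sw i c y := by
      rw [sw_apply, sw_apply, Function.update_of_ne hy]
    rw [e1]
    have h3 : Function.update (sw i c y) i false ≠ x := by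
      rw [sw_apply]
      split
      · rw [update_flip]; exact hy
      · exact hy
    symm
    apply Equiv.swap_apply_of_ne_of_ne
    · intro h; apply h3; rw [h]; exact hxx
    · intro h; apply h3; rw [h, update_flip]; exact hxx

theorem layer_aux (i : Fin m) (L : List (Pos m)) (hnd : L.Nodup) (hL : ∀ x ∈ L, x i = false)
    (u : (Pos m → Fin 2) → ℝ) (φ : Pos m → Fin 2) :
    avg (fun c : Coin m => u (actC (sw i (cut L c)) φ)) =
      (1 / 2 : ℝ) ^ L.length * stp (L.map fun x => (x, flip i x)) u φ := by
  induction L generalizing φ with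
  | nil =>
    have : ∀ c : Coin m, actC (sw i (cut [] c)) φ = φ := by
      intro c
      funext y
      show φ (sw i (cut [] c) y) = φ y
      rw [sw_apply]; simp [cut]
    simp only [this, avg_const]
    simp [stp]
  | cons x L ih =>
    have hx : x ∉ L := (List.nodup_cons.mp hnd).1
    have hnd' : L.Nodup := (List.nodup_cons.mp hnd).2
    have hxi := hL x (by simp)
    have ih' := ih hnd' (fun y hy => hL y (by simp [hy]))
    rw [avg_toggle x]
    have key : ∀ c : Coin m,
        (1 / 2 : ℝ) * (u (actC (sw i (cut (x :: L) (Function.update c x false))) φ) +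
          u (actC (sw i (cut (x :: L) (Function.update c x true))) φ)) =
        (1 / 2 : ℝ) * (u (actC (sw i (cut L c)) φ) +
          u (actC (sw i (cut L c)) (φ ∘ Equiv.swap x (flip i x)))) := by
      intro c
      have e1 : cut (x :: L) (Function.update c x false) = cut L c := by
        funext y
        by_cases hy : y = x
        · subst hy; simp [cut, hx]
        · simp [cut, hy]
      have e2 : cut (x :: L) (Function.update c x true) = Function.update (cut L c) x true := by
        funext y
        by_cases hy : y = x
        · subst hy; simp [cut]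
        · simp [cut, hy]
      have e3 : actC (sw i (Function.update (cut L c) x true)) φ =
          actC (sw i (cut L c)) (φ ∘ Equiv.swap x (flip i x)) := by
        funext y
        show φ (sw i (Function.update (cut L c) x true) y) =
          φ (Equiv.swap x (flip i x) (sw i (cut L c) y))
        rw [sw_cut_true i x hxi (cut L c) (by simp [cut, hx])]
      rw [e1, e2, e3]
    have key2 := funext key
    rw [key2, avg_mul_left, avg_add, ih', ih']
    simp only [List.map_cons, stp, List.length_cons, pow_succ]
    ring

theorem layer (i : Fin m) (L : List (Pos m)) (hnd : L.Nodup) (hL : ∀ x, x ∈ L ↔ x i = false)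
    (u : (Pos m → Fin 2) → ℝ) (φ : Pos m → Fin 2) :
    (lay actC i : Matrix (Pos m → Fin 2) (Pos m → Fin 2) ℝ).mulVec u φ =
      (1 / 2 : ℝ) ^ L.length * stp (L.map fun x => (x, flip i x)) u φ := by
  rw [← layer_aux i L hnd (fun x hx => (hL x).1 hx)]
  unfold lay
  rw [ker_mulVec]
  congr 1
  funext c
  congr 2
  apply Equiv.ext
  intro y
  rw [sw_apply, sw_apply]
  have : cut L c (Function.update y i false) = c (Function.update y i false) := by
    unfold cut
    rw [if_pos ((hL _).2 (by simp))]
  rw [this]

theorem PL_stp (ps : List (Pos m)) (IP : Fin m → List (ℕ × ℕ))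
    (hI : ∀ i, ((IP i).map fun p => ps[p.1]!).Nodup)
    (hI2 : ∀ i, ∀ x, x ∈ ((IP i).map fun p => ps[p.1]!) ↔ x i = false)
    (hI3 : ∀ i, ∀ p ∈ IP i, ps[p.2]! = flip i ps[p.1]!)
    (L : List (Fin m)) (u : (Pos m → Fin 2) → ℝ) (φ : Pos m → Fin 2) :
    (PL actC L : Matrix (Pos m → Fin 2) (Pos m → Fin 2) ℝ).mulVec u φ =
      (1 / 2 : ℝ) ^ (L.flatMap IP).length *
        stp ((L.flatMap IP).map fun p => (ps[p.1]!, ps[p.2]!)) u φ := by
  have stp_mul : ∀ (M : List (Pos m × Pos m)) (a : ℝ) (u : (Pos m → Fin 2) → ℝ)
      (φ : Pos m → Fin 2), stp M (fun χ => a * u χ) φ = a * stp M u φ := by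
    intro M a u
    induction M with
    | nil => intro φ; rfl
    | cons p M ih => intro φ; simp only [stp]; rw [ih, ih, mul_add]
  induction L generalizing φ with
  | nil => simp [PL, stp, Matrix.one_mulVec]
  | cons i L ih =>
    have e1 : (PL actC (i :: L) : Matrix (Pos m → Fin 2) (Pos m → Fin 2) ℝ) =
        lay actC i * PL actC L := by simp [PL]
    rw [e1, ← Matrix.mulVec_mulVec, layer i _ (hI i) (hI2 i)]
    have e2 : (PL actC L : Matrix (Pos m → Fin 2) (Pos m → Fin 2) ℝ).mulVec u = fun χ =>
        (1 / 2 : ℝ) ^ (L.flatMap IP).length *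
        stp ((L.flatMap IP).map fun p => (ps[p.1]!, ps[p.2]!)) u χ := funext ih
    rw [e2, stp_mul]
    have e3 : (List.map (fun x => (x, flip i x)) (List.map (fun p => ps[p.1]!) (IP i))) =
        (IP i).map fun p => (ps[p.1]!, ps[p.2]!) := by
      rw [List.map_map]
      apply List.map_congr_left
      intro p hp
      simp [hI3 i p hp]
    rw [e3, ← mul_assoc, ← pow_add, List.flatMap_cons, List.map_append, stp_append,
      List.length_append, List.length_map]

theorem actC_one (φ : Pos m → Fin 2) : actC 1 φ = φ := rfl
theorem actC_mul (g h : Equiv.Perm (Pos m)) (φ : Pos m → Fin 2) :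
    actC (g * h) φ = actC g (actC h φ) := rfl

theorem Tsq_comp (ps : List (Pos m)) (hnd : ps.Nodup) (hall : ∀ x, x ∈ ps)
    (IP : Fin m → List (ℕ × ℕ))
    (hI : ∀ i, ((IP i).map fun p => ps[p.1]!).Nodup)
    (hI2 : ∀ i, ∀ x, x ∈ ((IP i).map fun p => ps[p.1]!) ↔ x i = false)
    (hI3 : ∀ i, ∀ p ∈ IP i, ps[p.2]! = flip i ps[p.1]!)
    (hI4 : ∀ i, ∀ p ∈ IP i, p.1 < p.2 ∧ p.2 < ps.length)
    (M : List (ℕ × ℕ))
    (hM : M = (down m ++ (down m).reverse ++ (down m ++ (down m).reverse)).flatMap IP)
    (B : ℕ) (hB : 2 ^ M.length < B) (a : ℕ) :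
    Tsq m a = (1 / 2 : ℝ) ^ M.length *
      evalL ((1 / 2 : ℝ) ^ a) (coefV B ps.length (runV ps.length M (baseV B ps.length 0 1)) 0 1) := by
  have hM4 : ∀ p ∈ M, p.1 < p.2 ∧ p.2 < ps.length := by
    intro p hp
    rw [hM, List.mem_flatMap] at hp
    obtain ⟨i, _, hi⟩ := hp
    exact hI4 i p hi
  rw [main_comp ps hnd hall M hM4 B hB]
  have hX : (XL actC (down m) * XL actC (down m) :
      Matrix (Pos m → Fin 2) (Pos m → Fin 2) ℝ) =
      PL actC (down m ++ (down m).reverse ++ (down m ++ (down m).reverse)) := by
    have h1 : (XL actC (down m) : Matrix (Pos m → Fin 2) (Pos m → Fin 2) ℝ) =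
        PL actC (down m) * PL actC (down m).reverse := by
      unfold XL
      rw [PL_transpose actC actC_one actC_mul]
    rw [h1]
    simp [PL, List.map_append, List.prod_append, mul_assoc]
  unfold Tsq
  rw [hX, Finset.mul_sum]
  apply Finset.sum_congr rfl
  intro φ _
  have h2 : (PL actC (down m ++ (down m).reverse ++ (down m ++ (down m).reverse)) :
      Matrix (Pos m → Fin 2) (Pos m → Fin 2) ℝ) φ φ =
      (PL actC (down m ++ (down m).reverse ++ (down m ++ (down m).reverse)) :
      Matrix (Pos m → Fin 2) (Pos m → Fin 2) ℝ).mulVec (Pi.single φ 1) φ := by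
    rw [Matrix.mulVec_single_one]; rfl
  rw [h2, PL_stp ps IP hI hI2 hI3, ← hM, stp_cast]
  have h3 : (fun χ => (((Pi.single φ (1 : ℕ) : (Pos m → Fin 2) → ℕ) χ : ℕ) : ℝ)) =
      (Pi.single φ 1 : (Pos m → Fin 2) → ℝ) := by
    funext χ
    by_cases h : χ = φ
    · subst h; simp
    · simp [h]
  rw [h3]
  have h4 : wt a Finset.univ φ = ((1 / 2 : ℝ) ^ a) ^ (supp φ).card := by
    unfold wt
    rw [if_pos (Finset.subset_univ _), pow_mul]
  rw [h4]
  ring

end layer

/-! ### the three computations -/

def psm (m : ℕ) : List (Pos m) := (List.range (2 ^ m)).map fun k => fun i => Nat.testBit k i.val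

end Crest.Agent.R155.TsqBaseaux

namespace Crest.Agent.R155
open TsqBaseaux

set_option maxRecDepth 100000

theorem Tsq_one_val (a : ℕ) : Tsq 1 a = 1 + (1 / 2 : ℝ) ^ a + ((1 / 2 : ℝ) ^ a) ^ 2 := by
  rw [Tsq_comp (psm 1) (by decide) (by decide) (fun i => ip 1 i.val) (by decide) (by decide)
    (by decide) (by decide) (steps 1 [0,0,0,0]) (by decide) (2 ^ 64) (by decide +kernel) a]
  have hlen : (steps 1 [0,0,0,0]).length = 4 := by decide
  have hc : coefV (2 ^ 64) (psm 1).length (runV (psm 1).length (steps 1 [0,0,0,0])
      (baseV (2 ^ 64) (psm 1).length 0 1)) 0 1 = [16, 16, 16] := by decide +kernel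
  rw [hlen, hc]
  simp only [evalL]
  push_cast
  ring

theorem Tsq_two_val (a : ℕ) : Tsq 2 a = 1 + (1 / 2 : ℝ) ^ a + 17 / 16 * ((1 / 2 : ℝ) ^ a) ^ 2
    + ((1 / 2 : ℝ) ^ a) ^ 3 + ((1 / 2 : ℝ) ^ a) ^ 4 := by
  rw [Tsq_comp (psm 2) (by decide) (by decide +kernel) (fun i => ip 2 i.val) (by decide +kernel)
    (by decide +kernel) (by decide +kernel) (by decide +kernel)
    (steps 2 [1,0,0,1,1,0,0,1]) (by decide +kernel) (2 ^ 64) (by decide +kernel) a]
  have hlen : (steps 2 [1,0,0,1,1,0,0,1]).length = 16 := by decide +kernel
  have hc : coefV (2 ^ 64) (psm 2).length (runV (psm 2).length (steps 2 [1,0,0,1,1,0,0,1])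
      (baseV (2 ^ 64) (psm 2).length 0 1)) 0 1 = [65536, 65536, 69632, 65536, 65536] := by
    decide +kernel
  rw [hlen, hc]
  simp only [evalL]
  push_cast
  ring

theorem Tsq_three_val (a : ℕ) : Tsq 3 a =
    1 + (1 / 2 : ℝ) ^ a + 33 / 32 * ((1 / 2 : ℝ) ^ a) ^ 2 + 33 / 32 * ((1 / 2 : ℝ) ^ a) ^ 3
      + 68081 / 65536 * ((1 / 2 : ℝ) ^ a) ^ 4 + 33 / 32 * ((1 / 2 : ℝ) ^ a) ^ 5
      + 33 / 32 * ((1 / 2 : ℝ) ^ a) ^ 6 + ((1 / 2 : ℝ) ^ a) ^ 7 + ((1 / 2 : ℝ) ^ a) ^ 8 := by
  rw [Tsq_comp (psm 3) (by decide +kernel) (by decide +kernel) (fun i => ip 3 i.val)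
    (by decide +kernel) (by decide +kernel) (by decide +kernel) (by decide +kernel)
    (steps 3 [2,1,0,0,1,2,2,1,0,0,1,2]) (by decide +kernel) (2 ^ 64) (by decide +kernel) a]
  have hlen : (steps 3 [2,1,0,0,1,2,2,1,0,0,1,2]).length = 48 := by decide +kernel
  have hc : coefV (2 ^ 64) (psm 3).length
      (runV (psm 3).length (steps 3 [2,1,0,0,1,2,2,1,0,0,1,2])
      (baseV (2 ^ 64) (psm 3).length 0 1)) 0 1 = [281474976710656, 281474976710656,
        290271069732864, 290271069732864, 292405668478976, 290271069732864, 290271069732864,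
        281474976710656, 281474976710656] := by
    decide +kernel
  rw [hlen, hc]
  simp only [evalL]
  push_cast
  ring

end Crest.Agent.R155
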