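import Crest.Agent.R155.Split
import Crest.Agent.R155.Ker
import Crest.Agent.R155.TsqBaseAux

/-!
# PIECE TSQBASE (row 155): exact values of `Tsq` for `j ≤ 3` (a finite computation)

`Tsq j a = ∑_φ 2^{-a |supp φ|} (X_j²)(φ, φ) = ∑_{φ, χ} 2^{-a|φ|} X_j(φ, χ)²`, where `X_j` is the
transition matrix of the Benes network on the subsets (2-colorings) of `Pos j`.  With
`t_h = ∑_{|φ| = h} ∑_χ X_j(φ,χ)²` (exact values, computed independently in Python):
* `j = 1`: `t = 1, 1, 1`
* `j = 2`: `t = 1, 1, 17/16, 1, 1`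
* `j = 3`: `t = 1, 1, 33/32, 33/32, 68081/65536, 33/32, 33/32, 1, 1`.
Only the inequality `≤` is needed.  Method: `X_{j+1} = E (X_j ⊗ X_j) E` after splitting along a
coordinate (see TwoCopy.lean): a 2-coloring of `Pos (j+1)` = a pair of 2-colorings of `Pos j`, i.e. a
coloring of the sites of `Pos j` by `{0,1,2a,2b}`; `E` averages over the placement of the singly occupied
sites.  If `φ` has singly occupied set `D1` and doubly occupied set `D2`, and `χ` similarly `D1', D2'`,
`X_{j+1}(φ,χ) = 2^{-|D1|-|D1'|} ∑_{C ⊆ D1, C' ⊆ D1'} X_j(D2∪C → D2'∪C') X_j(D2∪(D1∖C) → D2'∪(D1'∖C'))`.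
Numbering the subsets of `Pos j` (bit masks), define computable integer matrices
`x1 : 4×4` (entries `2·X_1`), `x2 : 16×16` (entries `2^6 X_2`), and a computable function giving
`t_h` for `j = 3` (65536 products are enough: sum over the pairs of classes `(D1,D2), (D1',D2')`
with multiplicity `2^{|D1|+|D1'|}`), and evaluate with `decide +kernel` (no `native_decide`!); then
connect it with `XL actC (down j)`.  Feel free to choose another way (e.g. direct reduction to
laws on permutations of 4 elements: `X_2` is the kernel of a random permutation of 4 points).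
-/

set_option autoImplicit false

namespace Crest.Agent.R155

theorem Tsq_one_zero : Tsq 1 0 ≤ 3 := by
  rw [Tsq_one_val]; norm_num

theorem Tsq_two_zero : Tsq 2 0 ≤ 81 / 16 := by
  rw [Tsq_two_val]; norm_num

theorem Tsq_three (a : ℕ) : Tsq 3 a ≤
    1 + (1 / 2 : ℝ) ^ a + 33 / 32 * ((1 / 2 : ℝ) ^ a) ^ 2 + 33 / 32 * ((1 / 2 : ℝ) ^ a) ^ 3
      + 68081 / 65536 * ((1 / 2 : ℝ) ^ a) ^ 4 + 33 / 32 * ((1 / 2 : ℝ) ^ a) ^ 5
      + 33 / 32 * ((1 / 2 : ℝ) ^ a) ^ 6 + ((1 / 2 : ℝ) ^ a) ^ 7 + ((1 / 2 : ℝ) ^ a) ^ 8 := by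
  exact (Tsq_three_val a).le

end Crest.Agent.R155
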