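import Crest.Agent.R155.TsqRec
import Crest.Agent.R155.TsqBase

/-!
# PIECE DENSENUM (row 155): numerical bound of the exponent for the full deck

By `Tsq_succ_le` and induction: `log Tsq (3 + r) a ≤ G r a`, `G 0 a = ℓ a`, `G (r+1) a = G r a + G r (a+1)`,
`ℓ_i = log (bound of Tsq 3 i)` (`TsqBase.Tsq_three`, `x = 2^{-i}`), and
`∑_{r<R} 2^{-r} G r a ≤ 2 ∑_{i<R} ℓ (a+i)`.
-/

set_option autoImplicit false

namespace Crest.Agent.R155

namespace DNaux

/-- the polynomial of `Tsq_three` -/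
noncomputable def fp (x : ℝ) : ℝ :=
  1 + x + 33 / 32 * x ^ 2 + 33 / 32 * x ^ 3 + 68081 / 65536 * x ^ 4 + 33 / 32 * x ^ 5
    + 33 / 32 * x ^ 6 + x ^ 7 + x ^ 8

noncomputable def ell (a : ℕ) : ℝ := Real.log (fp ((1 / 2 : ℝ) ^ a))

theorem fp_ge_one (x : ℝ) (hx : 0 ≤ x) : 1 ≤ fp x := by
  unfold fp
  have : 0 ≤ x + 33 / 32 * x ^ 2 + 33 / 32 * x ^ 3 + 68081 / 65536 * x ^ 4 + 33 / 32 * x ^ 5
    + 33 / 32 * x ^ 6 + x ^ 7 + x ^ 8 := by positivity
  linarith

theorem ell_nonneg (a : ℕ) : 0 ≤ ell a :=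
  Real.log_nonneg (fp_ge_one _ (by positivity))

noncomputable def G : ℕ → ℕ → ℝ
  | 0, a => ell a
  | r + 1, a => G r a + G r (a + 1)

theorem G_nonneg (r : ℕ) : ∀ a, 0 ≤ G r a := by
  induction r with
  | zero => intro a; exact ell_nonneg a
  | succ r ih => intro a; exact add_nonneg (ih a) (ih (a + 1))

theorem G_sum (R : ℕ) : ∀ a, ∑ r ∈ Finset.range R, (1 / 2 : ℝ) ^ r * G r a ≤
    2 * ∑ i ∈ Finset.range R, ell (a + i) := by
  induction R with
  | zero => intro a; simp
  | succ R ih =>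
    intro a
    rw [Finset.sum_range_succ']
    have h1 : ∑ r ∈ Finset.range R, (1 / 2 : ℝ) ^ (r + 1) * G (r + 1) a =
        (1 / 2) * (∑ r ∈ Finset.range R, (1 / 2 : ℝ) ^ r * G r a +
          ∑ r ∈ Finset.range R, (1 / 2 : ℝ) ^ r * G r (a + 1)) := by
      rw [← Finset.sum_add_distrib, Finset.mul_sum]
      apply Finset.sum_congr rfl
      intro r _
      simp only [G]
      ring
    rw [h1]
    have h2 := ih a
    have h3 := ih (a + 1)
    have e1 : ∑ i ∈ Finset.range (R + 1), ell (a + i) =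
        ∑ i ∈ Finset.range R, ell (a + 1 + i) + ell a := by
      rw [Finset.sum_range_succ']
      simp only [add_zero]
      congr 1
      apply Finset.sum_congr rfl
      intro i _
      congr 1; ring
    have e2 : ∑ i ∈ Finset.range (R + 1), ell (a + i) =
        ∑ i ∈ Finset.range R, ell (a + i) + ell (a + R) := Finset.sum_range_succ _ _
    have hR := ell_nonneg (a + R)
    simp only [pow_zero, one_mul, G]
    linarith

end DNaux

open DNaux

theorem Tsq_pos (j a : ℕ) : 0 < Tsq j a := by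
  unfold Tsq
  have hX0 : ∀ φ χ : Pos j → Fin 2, 0 ≤ XL actC (down j) φ χ := XL_nonneg _ _
  have hXX : ∀ φ : Pos j → Fin 2, 0 ≤ ((XL actC (down j)) * (XL actC (down j)) :
      Matrix (Pos j → Fin 2) (Pos j → Fin 2) ℝ) φ φ := by
    intro φ
    rw [Matrix.mul_apply]
    exact Finset.sum_nonneg fun χ _ => mul_nonneg (hX0 _ _) (hX0 _ _)
  have hwt : ∀ φ : Pos j → Fin 2, 0 ≤ wt a Finset.univ φ := by
    intro φ; unfold wt; split <;> positivity
  apply Finset.sum_pos'
  · intro φ _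
    exact mul_nonneg (hwt φ) (hXX φ)
  · refine ⟨0, Finset.mem_univ _, ?_⟩
    apply mul_pos
    · unfold wt
      rw [if_pos (Finset.subset_univ _)]
      positivity
    · -- a positive entry in the row of `0`
      have hrow := XL_row (S := Pos j → Fin 2) actC (fun s => by funext x; rfl)
        (fun g h s => by funext x; rfl) (down j) 0
      obtain ⟨χ, hχ⟩ : ∃ χ, 0 < XL actC (down j) (0 : Pos j → Fin 2) χ := by
        by_contra hcon
        push Not at hcon
        have : ∑ t, XL actC (down j) (0 : Pos j → Fin 2) t ≤ 0 :=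
          Finset.sum_nonpos fun t _ => hcon t
        linarith
      have hsym : XL actC (down j) χ (0 : Pos j → Fin 2) = XL actC (down j) 0 χ := by
        have : (XL actC (down j) : Matrix (Pos j → Fin 2) (Pos j → Fin 2) ℝ).transpose =
            XL actC (down j) := by
          unfold XL
          rw [Matrix.transpose_mul, Matrix.transpose_transpose]
        calc XL actC (down j) χ (0 : Pos j → Fin 2)
            = (XL actC (down j) : Matrix (Pos j → Fin 2) (Pos j → Fin 2) ℝ).transpose 0 χ := rfl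
          _ = _ := by rw [this]
      rw [Matrix.mul_apply]
      apply Finset.sum_pos'
      · intro t _
        exact mul_nonneg (hX0 _ _) (hX0 _ _)
      · exact ⟨χ, Finset.mem_univ _, mul_pos hχ (by rw [hsym]; exact hχ)⟩

namespace DNaux

theorem log_Tsq_le (r : ℕ) : ∀ a, Real.log (Tsq (3 + r) a) ≤ G r a := by
  induction r with
  | zero =>
    intro a
    exact Real.log_le_log (Tsq_pos _ _) (Tsq_three a)
  | succ r ih =>
    intro a
    have h := Tsq_succ_le (3 + r) a
    have h1 : Real.log (Tsq (3 + (r + 1)) a) ≤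
        Real.log (Tsq (3 + r) a * Tsq (3 + r) (a + 1)) :=
      Real.log_le_log (Tsq_pos _ _) h
    rw [Real.log_mul (Tsq_pos _ _).ne' (Tsq_pos _ _).ne'] at h1
    have h2 := ih a
    have h3 := ih (a + 1)
    simp only [G]
    linarith

/-- upper bounds of the terms -/
noncomputable def ub (j : ℕ) : ℝ :=
  if j = 1 then (1 / 4) * Real.log 3 else if j = 2 then (1 / 8) * Real.log (81 / 16) else
    (1 / 2 : ℝ) ^ (j + 1) * G (j - 3) 0

theorem ub_nonneg (j : ℕ) : 0 ≤ ub j := by
  unfold ub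
  split_ifs
  · have := Real.log_pos (by norm_num : (1 : ℝ) < 3); positivity
  · have := Real.log_pos (by norm_num : (1 : ℝ) < 81 / 16); positivity
  · exact mul_nonneg (by positivity) (G_nonneg _ _)

theorem term_le (j : ℕ) (hj : 1 ≤ j) :
    (1 / 2 : ℝ) ^ (j + 1) * Real.log (Tsq j 0) ≤ ub j := by
  unfold ub
  split_ifs with h1 h2
  · subst h1
    have := Real.log_le_log (Tsq_pos _ _) Tsq_one_zero
    norm_num
    linarith
  · subst h2
    have := Real.log_le_log (Tsq_pos _ _) Tsq_two_zero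
    norm_num at this ⊢
    linarith
  · obtain ⟨r, rfl⟩ : ∃ r, j = 3 + r := ⟨j - 3, by omega⟩
    have := log_Tsq_le r 0
    have e : 3 + r - 3 = r := by omega
    rw [e]
    exact mul_le_mul_of_nonneg_left this (by positivity)

theorem ell_small (i : ℕ) : ell (6 + i) ≤ (102 / 100) * (1 / 64) * (1 / 2 : ℝ) ^ i := by
  unfold ell
  set x : ℝ := (1 / 2 : ℝ) ^ (6 + i) with hx
  have hx1 : x = (1 / 64) * (1 / 2 : ℝ) ^ i := by
    rw [hx, pow_add]; norm_num
  have hi : (1 / 2 : ℝ) ^ i ≤ 1 := pow_le_one₀ (by norm_num) (by norm_num)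
  have hx0 : 0 ≤ x := by positivity
  have hx64 : x ≤ 1 / 64 := by
    rw [hx1]; nlinarith
  have h1 : Real.log (fp x) ≤ fp x - 1 := by
    have := Real.log_le_sub_one_of_pos (lt_of_lt_of_le one_pos (fp_ge_one x hx0))
    linarith
  refine h1.trans ?_
  have h2 : fp x - 1 ≤ (102 / 100) * x := by
    unfold fp
    have a2 : x ^ 2 ≤ (1 / 64) * x := by nlinarith
    have a3 : x ^ 3 ≤ (1 / 64) ^ 2 * x := by
      have : x ^ 3 = x * x ^ 2 := by ring
      rw [this]; nlinarith
    have hle1 : x ≤ 1 := by linarith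
    have a4 : x ^ 4 ≤ x ^ 3 := pow_le_pow_of_le_one hx0 hle1 (by norm_num)
    have a5 : x ^ 5 ≤ x ^ 3 := pow_le_pow_of_le_one hx0 hle1 (by norm_num)
    have a6 : x ^ 6 ≤ x ^ 3 := pow_le_pow_of_le_one hx0 hle1 (by norm_num)
    have a7 : x ^ 7 ≤ x ^ 3 := pow_le_pow_of_le_one hx0 hle1 (by norm_num)
    have a8 : x ^ 8 ≤ x ^ 3 := pow_le_pow_of_le_one hx0 hle1 (by norm_num)
    have a30 : 0 ≤ x ^ 3 := by positivity
    nlinarith
  refine h2.trans (le_of_eq ?_)
  rw [hx1]; ring

theorem ell_sum : ∑ i ∈ Finset.range 29, ell (0 + i) ≤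
    Real.log (31012 / 1000) + (102 / 100) * (1 / 64) * 2 := by
  have hsplit : ∑ i ∈ Finset.range 29, ell (0 + i) =
      ∑ i ∈ Finset.range 6, ell i + ∑ i ∈ Finset.range 23, ell (6 + i) := by
    rw [show (29 : ℕ) = 6 + 23 by norm_num, Finset.sum_range_add]
    simp
  rw [hsplit]
  apply add_le_add
  · have hpos : ∀ i : ℕ, 0 < fp ((1 / 2 : ℝ) ^ i) := fun i =>
      lt_of_lt_of_le one_pos (fp_ge_one _ (by positivity))
    have : ∑ i ∈ Finset.range 6, ell i = Real.log (∏ i ∈ Finset.range 6, fp ((1 / 2 : ℝ) ^ i)) := by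
      rw [Real.log_prod (fun i _ => (hpos i).ne')]
      rfl
    rw [this]
    apply Real.log_le_log (Finset.prod_pos fun i _ => hpos i)
    simp only [Finset.prod_range_succ, Finset.prod_range_zero, fp]
    norm_num
  · calc ∑ i ∈ Finset.range 23, ell (6 + i)
        ≤ ∑ i ∈ Finset.range 23, (102 / 100) * (1 / 64) * (1 / 2 : ℝ) ^ i :=
          Finset.sum_le_sum fun i _ => ell_small i
      _ = (102 / 100) * (1 / 64) * ∑ i ∈ Finset.range 23, (1 / 2 : ℝ) ^ i := by
          rw [← Finset.mul_sum]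
      _ ≤ (102 / 100) * (1 / 64) * 2 := by
          apply mul_le_mul_of_nonneg_left _ (by norm_num)
          norm_num [Finset.sum_range_succ]

theorem log_big : Real.log (729 * (31012 / 1000)) ≤ 10 + 38 / 1000 := by
  rw [Real.log_le_iff_le_exp (by norm_num)]
  have h1 : Real.exp (10 + 38 / 1000) = Real.exp 1 ^ 10 * Real.exp (38 / 1000) := by
    rw [Real.exp_add, ← Real.exp_nat_mul]; norm_num
  rw [h1]
  have h2 : (2.7182818283 : ℝ) ≤ Real.exp 1 := Real.exp_one_gt_d9.le
  have h3 : (1 : ℝ) + 38 / 1000 ≤ Real.exp (38 / 1000) := by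
    have := Real.add_one_le_exp (38 / 1000 : ℝ); linarith
  calc (729 * (31012 / 1000) : ℝ) ≤ (2.7182818283 : ℝ) ^ 10 * (1 + 38 / 1000) := by norm_num
    _ ≤ Real.exp 1 ^ 10 * Real.exp (38 / 1000) := by gcongr

end DNaux

open DNaux

theorem dense_num (M : ℕ) (hM : M ≤ 32) :
    (1 / 2) * Real.log 2 + ∑ j ∈ Finset.Ico 1 M, (1 / 2 : ℝ) ^ (j + 1) * Real.log (Tsq j 0)
      + 25 / 20000 ≤ 63 / 50 := by
  have h1 : ∑ j ∈ Finset.Ico 1 M, (1 / 2 : ℝ) ^ (j + 1) * Real.log (Tsq j 0) ≤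
      ∑ j ∈ Finset.Ico 1 32, ub j := by
    calc ∑ j ∈ Finset.Ico 1 M, (1 / 2 : ℝ) ^ (j + 1) * Real.log (Tsq j 0)
        ≤ ∑ j ∈ Finset.Ico 1 M, ub j := by
          apply Finset.sum_le_sum
          intro j hj
          rw [Finset.mem_Ico] at hj
          exact term_le j hj.1
      _ ≤ ∑ j ∈ Finset.Ico 1 32, ub j := by
          apply Finset.sum_le_sum_of_subset_of_nonneg
          · exact Finset.Ico_subset_Ico le_rfl hM
          · intro j _ _; exact ub_nonneg j
  have h2 : ∑ j ∈ Finset.Ico 1 32, ub j = (1 / 4) * Real.log 3 + (1 / 8) * Real.log (81 / 16) +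
      (1 / 16) * ∑ r ∈ Finset.range 29, (1 / 2 : ℝ) ^ r * G r 0 := by
    have e1 : ub 1 = (1 / 4) * Real.log 3 := by simp [ub]
    have e2 : ub 2 = (1 / 8) * Real.log (81 / 16) := by simp [ub]
    rw [Finset.sum_eq_sum_Ico_succ_bot (by norm_num), Finset.sum_eq_sum_Ico_succ_bot (by norm_num),
      e1, e2, ← add_assoc]
    congr 1
    rw [Finset.sum_Ico_eq_sum_range, Finset.mul_sum]
    apply Finset.sum_congr (by norm_num)
    intro r _
    unfold ub
    rw [if_neg (by omega), if_neg (by omega)]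
    have : 1 + 1 + 1 + r - 3 = r := by omega
    rw [this]
    have e3 : (1 / 2 : ℝ) ^ (1 + 1 + 1 + r + 1) = (1 / 16) * (1 / 2) ^ r := by
      rw [show 1 + 1 + 1 + r + 1 = 4 + r by ring, pow_add]; norm_num
    rw [e3]; ring
  have h3 := G_sum 29 0
  have h4 := ell_sum
  have h5 := log_big
  have e6 : Real.log (729 * (31012 / 1000)) = 4 * Real.log 2 + 2 * Real.log 3 +
      Real.log (81 / 16) + Real.log (31012 / 1000) := by
    have a1 : 4 * Real.log 2 = Real.log (2 ^ 4) := by rw [Real.log_pow]; norm_num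
    have a2 : 2 * Real.log 3 = Real.log (3 ^ 2) := by rw [Real.log_pow]; norm_num
    rw [a1, a2, ← Real.log_mul (by norm_num) (by norm_num),
      ← Real.log_mul (by norm_num) (by norm_num), ← Real.log_mul (by norm_num) (by norm_num)]
    congr 1; norm_num
  rw [e6] at h5
  linarith

end Crest.Agent.R155
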