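import Crest.Agent.R155.Defs

/-!
# PIECE WBASIC (row 155): elementary properties of the weights `W`

* `W_ge_one`: the zero coloring is counted.
* `W_congr`: `net cin cout j` uses only the levels `< j`.
* `W_zero`: `net _ _ 0 = 1`; the `flip j`-invariant 2-colorings supported in `occ` are the subsets of the
  set of pairs `{x, flip j x} ⊆ occ`, so `W = 2^{dbl}` for the level `j = 0`.
* `W_pow`: `u`-tuples of 2-colorings = colorings with `2^u` colors (bijection
  `(Fin u → Fin 2) ≃ Fin (2^u)` which maps `0` to `0`).
* `dbl_le`: `2 * dbl j B ≤ |B|`; `dbl_univ`: `dbl j univ = 2^{m-1}`.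
* `occ_card`, `occ_univ`.
* `dbl_after`: the number of doubly occupied level-`j` pairs is the same before and after layer `j`.
-/

set_option autoImplicit false

namespace Crest.Agent.R155

namespace WBasicaux

theorem net_congr {m : ℕ} {cin cin' cout cout' : Fin m → Coin m} {j : ℕ}
    (h : ∀ l : Fin m, l.val < j → cin l = cin' l) (h' : ∀ l : Fin m, l.val < j → cout l = cout' l) :
    net cin cout j = net cin' cout' j := by
  induction j with
  | zero => rfl
  | succ j ih =>
    have ih' := ih (fun l hl => h l (by omega)) (fun l hl => h' l (by omega))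
    unfold net
    by_cases hj : j < m
    · rw [dif_pos hj, dif_pos hj, ih', h ⟨j, hj⟩ (by simp), h' ⟨j, hj⟩ (by simp)]
    · rw [dif_neg hj, dif_neg hj, ih']

theorem fin2_ext {a b : Fin 2} (h : a ≠ 0 ↔ b ≠ 0) : a = b := by
  omega

theorem piv_cases {m : ℕ} (j : Fin m) (p : Pos m) :
    p = Function.update p j false ∨ p = flip j (Function.update p j false) := by
  cases h : p j
  · left
    rw [← h, Function.update_eq_self]
  · right
    funext i
    by_cases hi : i = j
    · subst hi; simp [h]
    · simp [hi]

theorem update_false_of {m : ℕ} (j : Fin m) (p : Pos m) (h : p j = false) :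
    Function.update p j false = p := by
  rw [← h, Function.update_eq_self]

end WBasicaux

open WBasicaux

theorem W_ge_one {m : ℕ} (cin cout : Fin m → Coin m) (A : Finset (Pos m)) (j : Fin m) :
    1 ≤ W cin cout A j := by
  classical
  unfold W Wq
  rw [Nat.one_le_cast, Nat.one_le_iff_ne_zero, ← Nat.pos_iff_ne_zero, Finset.card_pos]
  refine ⟨fun _ => 0, Finset.mem_filter.2 ⟨Finset.mem_univ _, ?_, ?_, ?_⟩⟩
  · intro x hx
    exact absurd rfl hx
  · intro x; rfl
  · intro x; rfl

theorem Wtot_ge_one {m : ℕ} (cin cout : Fin m → Coin m) (A : Finset (Pos m)) :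
    1 ≤ Wtot cin cout A := by
  unfold Wtot
  calc (1 : ℝ) = ∏ _j : Fin m, (1 : ℝ) := by simp
    _ ≤ _ := Finset.prod_le_prod (fun _ _ => zero_le_one) (fun j _ => W_ge_one cin cout A j)

theorem W_congr {m : ℕ} (cin c c' : Fin m → Coin m) (A : Finset (Pos m)) (j : Fin m)
    (h : ∀ i : Fin m, i.val < j.val → c i = c' i) : W cin c A j = W cin c' A j := by
  unfold W Wq
  rw [net_congr (fun _ _ => rfl) h]

theorem W_zero {m : ℕ} (cin cout : Fin m → Coin m) (A : Finset (Pos m)) (j : Fin m)
    (hj : j.val = 0) : W cin cout A j = 2 ^ dbl j (occ cin A j) := by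
  classical
  have hnet : net cin cout (j : ℕ) = 1 := by rw [hj]; rfl
  set B := occ cin A (j : ℕ) with hB
  set P := B.filter fun x => x j = false ∧ flip j x ∈ B with hP
  have hdbl : dbl j B = P.card := by
    unfold dbl
    rfl
  rw [hdbl]
  unfold W
  have hc : ((2 : ℝ) ^ P.card) = ((P.powerset.card : ℕ) : ℝ) := by
    rw [Finset.card_powerset]; push_cast; rfl
  rw [hc, Nat.cast_inj]
  symm
  unfold Wq
  refine Finset.card_bij (fun U _ => fun p => if Function.update p j false ∈ U then 1 else 0)
    ?_ ?_ ?_
  · intro U hU
    rw [Finset.mem_powerset] at hU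
    refine Finset.mem_filter.2 ⟨Finset.mem_univ _, ?_, ?_, ?_⟩
    · intro p hp
      by_cases hq : Function.update p j false ∈ U
      · have h1 := hU hq
        rw [hP, Finset.mem_filter] at h1
        rcases piv_cases j p with h | h
        · rw [h]; exact h1.1
        · rw [h]; exact h1.2.2
      · simp [hq] at hp
    · intro p
      simp only [update_flip]
    · rw [hnet]
      intro p
      show (if Function.update (flip j p) j false ∈ U then (1 : Fin 2) else 0) =
        (if Function.update p j false ∈ U then (1 : Fin 2) else 0)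
      rw [update_flip]
  · intro U hU U' hU' h
    rw [Finset.mem_powerset] at hU hU'
    have key : ∀ (V V' : Finset (Pos m)), V ⊆ P →
        ((fun p => if Function.update p j false ∈ V then (1 : Fin 2) else 0) : Pos m → Fin 2) =
        ((fun p => if Function.update p j false ∈ V' then (1 : Fin 2) else 0) : Pos m → Fin 2) →
        V ⊆ V' := by
      intro V V' hV hVV p hp
      have h1 := hV hp
      rw [hP, Finset.mem_filter] at h1
      have h2 := congrFun hVV p
      simp only [update_false_of j p h1.2.1] at h2
      by_contra h3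
      simp [hp, h3] at h2
    exact Finset.Subset.antisymm (key U U' hU h) (key U' U hU' h.symm)
  · intro φ hφ
    rw [Finset.mem_filter] at hφ
    obtain ⟨-, h1, h2, -⟩ := hφ
    refine ⟨P.filter fun x => φ x ≠ 0, Finset.mem_powerset.2 (Finset.filter_subset _ _), ?_⟩
    funext p
    apply fin2_ext
    have hpq : φ p = φ (Function.update p j false) := by
      rcases piv_cases j p with h | h
      · rw [← h]
      · conv_lhs => rw [h]
        exact h2 _
    constructor
    · intro h
      by_cases hq : Function.update p j false ∈ P.filter fun x => φ x ≠ 0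
      · rw [Finset.mem_filter] at hq
        rw [hpq]; exact hq.2
      · simp only [if_neg hq] at h
        exact absurd rfl h
    · intro h
      have hq : Function.update p j false ∈ P.filter fun x => φ x ≠ 0 := by
        rw [Finset.mem_filter, hP, Finset.mem_filter]
        rw [hpq] at h
        refine ⟨⟨h1 _ h, by simp, h1 _ ?_⟩, h⟩
        rw [h2]; exact h
      simp only [if_pos hq]
      decide

theorem W_pow {m : ℕ} (cin cout : Fin m → Coin m) (A : Finset (Pos m)) (j : Fin m) (u : ℕ) :
    (W cin cout A j) ^ u = (Wq (2 ^ u) cin cout A j : ℝ) := by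
  classical
  have e0 : ∀ f : Fin u → Fin 2, finFunctionFinEquiv f = 0 ↔ f = 0 := by
    intro f
    have h0 : finFunctionFinEquiv (0 : Fin u → Fin 2) = 0 := by
      apply Fin.ext
      simp [finFunctionFinEquiv]
    constructor
    · intro h
      rw [← h0] at h
      exact finFunctionFinEquiv.injective h
    · rintro rfl
      exact h0
  unfold W
  rw [← Nat.cast_pow, Nat.cast_inj]
  set S := Finset.univ.filter fun φ : Pos m → Fin 2 =>
    (∀ x, φ x ≠ 0 → x ∈ occ cin A j) ∧ Inv j φ ∧ Inv j (actC (net cin cout j) φ) with hS
  have hW : Wq 2 cin cout A j = S.card := by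
    unfold Wq
    rw [hS]
  have hpi : S.card ^ u = (Fintype.piFinset fun _ : Fin u => S).card := by
    rw [Fintype.card_piFinset]
    simp
  rw [hW, hpi]
  unfold Wq
  refine Finset.card_bij (fun Φ _ => fun x => finFunctionFinEquiv (fun i => Φ i x)) ?_ ?_ ?_
  · intro Φ hΦ
    rw [Fintype.mem_piFinset] at hΦ
    simp only [hS, Finset.mem_filter, Finset.mem_univ, true_and] at hΦ
    refine Finset.mem_filter.2 ⟨Finset.mem_univ _, ?_, ?_, ?_⟩
    · intro x hx
      have : ∃ i, Φ i x ≠ 0 := by
        by_contra hcon
        push Not at hcon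
        apply hx
        rw [e0]
        funext i
        exact hcon i
      obtain ⟨i, hi⟩ := this
      exact (hΦ i).1 x hi
    · intro x
      show finFunctionFinEquiv (fun i => Φ i (flip j x)) = finFunctionFinEquiv (fun i => Φ i x)
      congr 1
      funext i
      exact (hΦ i).2.1 x
    · intro x
      show finFunctionFinEquiv (fun i => Φ i ((net cin cout j).symm (flip j x))) =
        finFunctionFinEquiv (fun i => Φ i ((net cin cout j).symm x))
      congr 1
      funext i
      exact (hΦ i).2.2 x
  · intro Φ hΦ Φ' hΦ' h
    funext i x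
    have h1 := congrFun h x
    have h2 := finFunctionFinEquiv.injective h1
    exact congrFun h2 i
  · intro Ψ hΨ
    rw [Finset.mem_filter] at hΨ
    obtain ⟨-, h1, h2, h3⟩ := hΨ
    refine ⟨fun i x => finFunctionFinEquiv.symm (Ψ x) i, ?_, ?_⟩
    · rw [Fintype.mem_piFinset]
      intro i
      simp only [hS, Finset.mem_filter, Finset.mem_univ, true_and]
      refine ⟨?_, ?_, ?_⟩
      · intro x hx
        apply h1
        intro h
        apply hx
        have h4 : finFunctionFinEquiv (finFunctionFinEquiv.symm (Ψ x)) = 0 := by
          rw [Equiv.apply_symm_apply]; exact h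
        rw [e0] at h4
        rw [h4]
        rfl
      · intro x
        show finFunctionFinEquiv.symm (Ψ (flip j x)) i = finFunctionFinEquiv.symm (Ψ x) i
        rw [h2 x]
      · intro x
        have := h3 x
        unfold actC at this
        show finFunctionFinEquiv.symm (Ψ ((net cin cout j).symm (flip j x))) i =
          finFunctionFinEquiv.symm (Ψ ((net cin cout j).symm x)) i
        rw [this]
    · funext x
      exact Equiv.apply_symm_apply _ _

theorem dbl_le {m : ℕ} (j : Fin m) (B : Finset (Pos m)) : 2 * dbl j B ≤ B.card := by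
  classical
  unfold dbl
  set P := B.filter fun x => x j = false ∧ flip j x ∈ B with hP
  have hinj : Function.Injective (flip j : Pos m → Pos m) := by
    intro x y h
    have := congrArg (flip j) h
    simpa using this
  have hdisj : Disjoint P (P.image (flip j)) := by
    rw [Finset.disjoint_left]
    intro x hx hx'
    rw [Finset.mem_image] at hx'
    obtain ⟨y, hy, hyx⟩ := hx'
    rw [hP, Finset.mem_filter] at hx hy
    have h1 := hx.2.1
    rw [← hyx] at h1
    simp [hy.2.1] at h1
  have hsub : P ∪ P.image (flip j) ⊆ B := by
    intro x hx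
    rw [Finset.mem_union, Finset.mem_image] at hx
    rcases hx with hx | ⟨y, hy, hyx⟩
    · exact (Finset.mem_filter.1 hx).1
    · rw [← hyx]
      exact (Finset.mem_filter.1 hy).2.2
  have h1 := Finset.card_le_card hsub
  rw [Finset.card_union_of_disjoint hdisj, Finset.card_image_of_injective _ hinj] at h1
  omega

theorem dbl_univ {m : ℕ} (j : Fin m) : dbl j (Finset.univ : Finset (Pos m)) = 2 ^ (m - 1) := by
  classical
  have hinj : Function.Injective (flip j : Pos m → Pos m) := by
    intro x y h
    have := congrArg (flip j) h
    simpa using this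
  unfold dbl
  have h1 : (Finset.univ.filter fun x : Pos m => x j = false ∧ flip j x ∈ (Finset.univ : Finset (Pos m)))
      = Finset.univ.filter fun x : Pos m => x j = false := by
    ext x; simp
  rw [h1]
  have h2 : (Finset.univ.filter fun x : Pos m => ¬ (x j = false)) =
      (Finset.univ.filter fun x : Pos m => x j = false).image (flip j) := by
    ext x
    simp only [Finset.mem_filter, Finset.mem_univ, true_and, Finset.mem_image]
    constructor
    · intro h
      refine ⟨flip j x, ?_, flip_flip j x⟩
      simp at h
      simp [h]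
    · rintro ⟨y, hy, rfl⟩
      simp [hy]
  have h3 := Finset.card_filter_add_card_filter_not (s := (Finset.univ : Finset (Pos m)))
    (fun x : Pos m => x j = false)
  rw [h2, Finset.card_image_of_injective _ hinj, Finset.card_univ] at h3
  have h4 : Fintype.card (Pos m) = 2 * 2 ^ (m - 1) := by
    have hm : 0 < m := lt_of_le_of_lt (Nat.zero_le _) j.isLt
    rw [Fintype.card_fun, Fintype.card_bool, Fintype.card_fin]
    conv_lhs => rw [← Nat.sub_add_cancel hm]
    rw [pow_succ]; ring
  omega

theorem occ_card {m : ℕ} (cin : Fin m → Coin m) (A : Finset (Pos m)) (j : ℕ) :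
    (occ cin A j).card = A.card := by
  unfold occ
  rw [Finset.card_map]

theorem occ_univ {m : ℕ} (cin : Fin m → Coin m) (j : ℕ) :
    occ cin (Finset.univ : Finset (Pos m)) j = Finset.univ := by
  unfold occ
  exact Finset.map_univ_equiv _

end Crest.Agent.R155
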