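import Crest.Agent.R155.Split
import Crest.Agent.R155.Ker
import Crest.Agent.R155.WBasic

/-!
# PIECE DENSEW (row 155): the average of `W_j` for the full deck

`W cin cout univ j` = number of 2-colorings `ψ` of `Pos m` which are `flip j`-invariant with
`actC (net cin cout j) ψ` `flip j`-invariant (`occ = univ`).

## Proof
Induction on `m ≥ j+1`.  If `m > j+1` split `Pos m` along the last coordinate `t = m-1 > j`
(`Split.lean` with `b = Fin.last`, `succAbove = castSucc`): `flip j` and all the layers of levels `< j`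
preserve the bit `t`, `net cin cout j` acts on the two halves as `net` of the restricted coins
(`sw_succAbove_ins`), which are independent and uniform; colorings split too; so the count is a
product of two independent copies and the average is the square.
Base `m = j+1`: split along `j = last`: `ψ` invariant = `(ψ₀, ψ₀)`; `actC (net j) ψ = (Φ⁰ψ₀, Φ¹ψ₀)` with
`Φ⁰, Φ¹` independent copies of the full network of `Pos j`; average
`= ∑_{ψ₀} ∑_χ P(Φψ₀ = χ)² = ∑_{ψ₀} (X_j X_j) ψ₀ ψ₀ = Tsq j 0`, as `X_j = XL actC (down j)` is symmetric and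
is the kernel of the network (`XL_down_eq_ker`).
-/

set_option autoImplicit false

namespace Crest.Agent.R155

namespace DenseWaux

open Classical in
/-- number of 2-colorings which are invariant before and after `g` -/
noncomputable def N {m : ℕ} (j : Fin m) (g : Equiv.Perm (Pos m)) : ℕ :=
  (Finset.univ.filter fun φ : Pos m → Fin 2 => Inv j φ ∧ Inv j (actC g φ)).card

theorem W_univ_eq {m : ℕ} (cin cout : Fin m → Coin m) (j : Fin m) :
    W cin cout Finset.univ j = (N j (net cin cout j) : ℝ) := by
  unfold W Wq N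
  congr 2
  ext φ
  simp only [Finset.mem_filter, Finset.mem_univ, true_and]
  rw [occ_univ]
  simp

/-- functions on `Pos (m+1)` = pairs of functions on `Pos m` -/
def funE {m : ℕ} (b : Fin (m + 1)) (α : Type*) : (Pos (m + 1) → α) ≃ (Pos m → α) × (Pos m → α) where
  toFun φ := (fun y => φ (ins b false y), fun y => φ (ins b true y))
  invFun p := fun x => if x b = true then p.2 (del b x) else p.1 (del b x)
  left_inv φ := by
    funext x
    by_cases h : x b = true
    · simp only [h, if_true]
      conv_rhs => rw [← ins_del b x, h]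
    · have h' : x b = false := by simpa using h
      simp only [h', Bool.false_eq_true, if_false]
      conv_rhs => rw [← ins_del b x, h']
  right_inv p := by
    ext y <;> simp

theorem funE_fst {m : ℕ} (b : Fin (m + 1)) (α : Type*) (φ : Pos (m + 1) → α) :
    (funE b α φ).1 = fun y => φ (ins b false y) := rfl

theorem funE_snd {m : ℕ} (b : Fin (m + 1)) (α : Type*) (φ : Pos (m + 1) → α) :
    (funE b α φ).2 = fun y => φ (ins b true y) := rfl

/-- restricted coins -/
def res {m : ℕ} (s : Bool) (c : Fin (m + 1) → Coin (m + 1)) : Fin m → Coin m :=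
  fun i y => c i.castSucc (ins (Fin.last m) s y)

theorem net_ins {m : ℕ} (cin cout : Fin (m + 1) → Coin (m + 1)) (n : ℕ) (hn : n ≤ m) (s : Bool)
    (y : Pos m) :
    net cin cout n (ins (Fin.last m) s y) =
      ins (Fin.last m) s (net (res s cin) (res s cout) n y) := by
  induction n generalizing y with
  | zero => simp [net]
  | succ n ih =>
    have h1 : n < m := hn
    have h2 : n < m + 1 := by omega
    have e : (⟨n, h2⟩ : Fin (m + 1)) = (Fin.last m).succAbove ⟨n, h1⟩ := by
      rw [Fin.succAbove_last]; rfl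
    have e' : (Fin.last m).succAbove ⟨n, h1⟩ = (⟨n, h1⟩ : Fin m).castSucc := by
      rw [Fin.succAbove_last]
    simp only [net, dif_pos h1, dif_pos h2, Equiv.Perm.mul_apply]
    rw [e, sw_succAbove_ins, ih (by omega), sw_succAbove_ins, e']
    rfl

theorem net_symm_ins {m : ℕ} (cin cout : Fin (m + 1) → Coin (m + 1)) (n : ℕ) (hn : n ≤ m)
    (s : Bool) (y : Pos m) :
    (net cin cout n).symm (ins (Fin.last m) s y) =
      ins (Fin.last m) s ((net (res s cin) (res s cout) n).symm y) := by
  rw [Equiv.symm_apply_eq, net_ins cin cout n hn, Equiv.apply_symm_apply]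

theorem inv_castSucc {m : ℕ} (j : Fin m) (φ : Pos (m + 1) → Fin 2) :
    Inv j.castSucc φ ↔ Inv j (fun y => φ (ins (Fin.last m) false y)) ∧
      Inv j (fun y => φ (ins (Fin.last m) true y)) := by
  have e : j.castSucc = (Fin.last m).succAbove j := by rw [Fin.succAbove_last]
  constructor
  · intro h
    refine ⟨fun y => ?_, fun y => ?_⟩
    · have := h (ins (Fin.last m) false y)
      rw [e, flip_succAbove_ins] at this
      exact this
    · have := h (ins (Fin.last m) true y)
      rw [e, flip_succAbove_ins] at this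
      exact this
  · rintro ⟨h0, h1⟩ x
    rw [e, ← ins_del (Fin.last m) x, flip_succAbove_ins]
    cases x (Fin.last m)
    · exact h0 _
    · exact h1 _

theorem inv_last {m : ℕ} (φ : Pos (m + 1) → Fin 2) :
    Inv (Fin.last m) φ ↔ (fun y => φ (ins (Fin.last m) false y)) =
      (fun y => φ (ins (Fin.last m) true y)) := by
  constructor
  · intro h
    funext y
    have := h (ins (Fin.last m) true y)
    rw [flip_ins] at this
    exact this
  · intro h x
    have h' : ∀ y, φ (ins (Fin.last m) false y) = φ (ins (Fin.last m) true y) := congrFun h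
    rw [← ins_del (Fin.last m) x, flip_ins]
    cases x (Fin.last m)
    · exact (h' _).symm
    · exact h' _

theorem actC_net_ins {m : ℕ} (cin cout : Fin (m + 1) → Coin (m + 1)) (n : ℕ) (hn : n ≤ m)
    (s : Bool) (φ : Pos (m + 1) → Fin 2) :
    (fun y => actC (net cin cout n) φ (ins (Fin.last m) s y)) =
      actC (net (res s cin) (res s cout) n) (fun y => φ (ins (Fin.last m) s y)) := by
  funext y
  simp only [actC]
  rw [net_symm_ins cin cout n hn]

theorem N_castSucc {m : ℕ} (j : Fin m) (cin cout : Fin (m + 1) → Coin (m + 1)) :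
    N j.castSucc (net cin cout j.castSucc) =
      N j (net (res false cin) (res false cout) j) * N j (net (res true cin) (res true cout) j) := by
  classical
  unfold N
  rw [← Finset.card_product]
  refine Finset.card_bij (fun φ _ => funE (Fin.last m) (Fin 2) φ) ?_ ?_ ?_
  · intro φ hφ
    simp only [Finset.mem_filter, Finset.mem_univ, true_and] at hφ
    simp only [Finset.mem_product, Finset.mem_filter, Finset.mem_univ, true_and]
    obtain ⟨h1, h2⟩ := hφ
    rw [inv_castSucc] at h1 h2
    rw [Fin.val_castSucc, actC_net_ins cin cout j.val j.isLt.le, actC_net_ins cin cout j.val j.isLt.le] at h2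
    exact ⟨⟨h1.1, h2.1⟩, ⟨h1.2, h2.2⟩⟩
  · intro a _ b _ h
    exact (funE (Fin.last m) (Fin 2)).injective h
  · intro p hp
    refine ⟨(funE (Fin.last m) (Fin 2)).symm p, ?_, by simp⟩
    obtain ⟨φ, rfl⟩ := (funE (Fin.last m) (Fin 2)).surjective p
    simp only [Finset.mem_product, Finset.mem_filter, Finset.mem_univ, true_and] at hp
    simp only [Finset.mem_filter, Finset.mem_univ, true_and, Equiv.symm_apply_apply]
    obtain ⟨⟨h1, h2⟩, ⟨h3, h4⟩⟩ := hp
    rw [inv_castSucc, inv_castSucc, Fin.val_castSucc, actC_net_ins cin cout j.val j.isLt.le,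
      actC_net_ins cin cout j.val j.isLt.le]
    exact ⟨⟨h1, h3⟩, ⟨h2, h4⟩⟩

theorem N_last {m : ℕ} (cin cout : Fin (m + 1) → Coin (m + 1)) :
    (N (Fin.last m) (net cin cout m) : ℝ) =
      ∑ φ : Pos m → Fin 2, if actC (net (res false cin) (res false cout) m) φ =
        actC (net (res true cin) (res true cout) m) φ then (1 : ℝ) else 0 := by
  classical
  rw [Finset.sum_boole]
  norm_cast
  unfold N
  refine Finset.card_bij (fun φ _ => (funE (Fin.last m) (Fin 2) φ).1) ?_ ?_ ?_
  · intro φ hφ
    simp only [Finset.mem_filter, Finset.mem_univ, true_and] at hφ ⊢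
    obtain ⟨h1, h2⟩ := hφ
    rw [inv_last] at h1 h2
    rw [actC_net_ins cin cout m le_rfl, actC_net_ins cin cout m le_rfl, ← h1] at h2
    exact h2
  · intro a ha b hb h
    simp only [Finset.mem_filter, Finset.mem_univ, true_and] at ha hb
    have ha1 := (inv_last _).1 ha.1
    have hb1 := (inv_last _).1 hb.1
    apply (funE (Fin.last m) (Fin 2)).injective
    ext1
    · exact h
    · rw [funE_snd, funE_snd, ← ha1, ← hb1]
      exact h
  · intro φ hφ
    simp only [Finset.mem_filter, Finset.mem_univ, true_and] at hφ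
    obtain ⟨ψ, hψ⟩ := (funE (Fin.last m) (Fin 2)).surjective (φ, φ)
    have e1 : (fun y => ψ (ins (Fin.last m) false y)) = φ := congrArg Prod.fst hψ
    have e2 : (fun y => ψ (ins (Fin.last m) true y)) = φ := congrArg Prod.snd hψ
    refine ⟨ψ, ?_, e1⟩
    simp only [Finset.mem_filter, Finset.mem_univ, true_and]
    rw [inv_last, inv_last, actC_net_ins cin cout m le_rfl, actC_net_ins cin cout m le_rfl, e1, e2]
    exact ⟨rfl, hφ⟩

/-- the coins of `m+1` levels on `Pos (m+1)` = two copies of the coins for `m` and the rest -/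
def coinE (m : ℕ) : (Fin (m + 1) → Coin (m + 1)) ≃
    ((Fin m → Coin m) × (Fin m → Coin m)) × Coin (m + 1) where
  toFun c := ((res false c, res true c), c (Fin.last m))
  invFun p := Fin.lastCases (motive := fun _ => Coin (m + 1)) p.2
    (fun i => (funE (Fin.last m) Bool).symm (p.1.1 i, p.1.2 i))
  left_inv c := by
    funext i
    refine Fin.lastCases ?_ (fun i => ?_) i
    · simp
    · simp only [Fin.lastCases_castSucc]
      rw [Equiv.symm_apply_eq]
      rfl
  right_inv p := by
    obtain ⟨⟨p1, p2⟩, p3⟩ := p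
    have h : ∀ i, funE (Fin.last m) Bool ((funE (Fin.last m) Bool).symm (p1 i, p2 i)) =
      (p1 i, p2 i) := fun i => Equiv.apply_symm_apply _ _
    refine Prod.ext (Prod.ext ?_ ?_) ?_
    · funext i
      refine Eq.trans ?_ (congrArg Prod.fst (h i))
      funext y
      change (Fin.lastCases (motive := fun _ => Coin (m + 1)) p3
        (fun i => (funE (Fin.last m) Bool).symm (p1 i, p2 i)) i.castSucc) _ = _
      rw [Fin.lastCases_castSucc]
      rfl
    · funext i
      refine Eq.trans ?_ (congrArg Prod.snd (h i))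
      funext y
      change (Fin.lastCases (motive := fun _ => Coin (m + 1)) p3
        (fun i => (funE (Fin.last m) Bool).symm (p1 i, p2 i)) i.castSucc) _ = _
      rw [Fin.lastCases_castSucc]
      rfl
    · simp

theorem avg_res {m : ℕ}
    (f : (Fin m → Coin m) × (Fin m → Coin m) → (Fin m → Coin m) × (Fin m → Coin m) → ℝ) :
    avg (fun ω : (Fin (m + 1) → Coin (m + 1)) × (Fin (m + 1) → Coin (m + 1)) =>
      f (res false ω.1, res false ω.2) (res true ω.1, res true ω.2)) =
      avg (fun x => avg (fun y => f x y)) := by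
  let E : ((Fin (m + 1) → Coin (m + 1)) × (Fin (m + 1) → Coin (m + 1))) ≃
      (((Fin m → Coin m) × (Fin m → Coin m)) × ((Fin m → Coin m) × (Fin m → Coin m))) ×
        (Coin (m + 1) × Coin (m + 1)) :=
    ((coinE m).prodCongr (coinE m)).trans
      { toFun := fun p => (((p.1.1.1, p.2.1.1), (p.1.1.2, p.2.1.2)), (p.1.2, p.2.2))
        invFun := fun p => (((p.1.1.1, p.1.2.1), p.2.1), ((p.1.1.2, p.1.2.2), p.2.2))
        left_inv := fun _ => rfl
        right_inv := fun _ => rfl }
  have h1 := avg_equiv E (fun p => f p.1.1 p.1.2)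
  have h2 : (fun ω : (Fin (m + 1) → Coin (m + 1)) × (Fin (m + 1) → Coin (m + 1)) =>
      f (res false ω.1, res false ω.2) (res true ω.1, res true ω.2)) =
      fun ω => (fun p : (((Fin m → Coin m) × (Fin m → Coin m)) ×
        ((Fin m → Coin m) × (Fin m → Coin m))) × (Coin (m + 1) × Coin (m + 1)) =>
          f p.1.1 p.1.2) (E ω) := rfl
  rw [h2, h1, avg_prod_type]
  simp_rw [avg_const]
  rw [avg_prod_type]

theorem avg_N_castSucc {m : ℕ} (j : Fin m) :
    avg (fun ω : (Fin (m + 1) → Coin (m + 1)) × (Fin (m + 1) → Coin (m + 1)) =>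
      (N j.castSucc (net ω.1 ω.2 j.castSucc) : ℝ)) =
      (avg (fun ω : (Fin m → Coin m) × (Fin m → Coin m) => (N j (net ω.1 ω.2 j) : ℝ))) ^ 2 := by
  simp_rw [N_castSucc]
  push_cast
  have := avg_res (m := m) (fun x y => (N j (net x.1 x.2 j) : ℝ) * (N j (net y.1 y.2 j) : ℝ))
  simp only at this
  rw [this]
  simp_rw [avg_mul_left, avg_mul_right]
  rw [sq]

theorem actC_one {m q : ℕ} (φ : Pos m → Fin q) : actC 1 φ = φ := rfl

theorem actC_mul {m q : ℕ} (g h : Equiv.Perm (Pos m)) (φ : Pos m → Fin q) :
    actC (g * h) φ = actC g (actC h φ) := rfl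

theorem avg_N_last (m : ℕ) :
    avg (fun ω : (Fin (m + 1) → Coin (m + 1)) × (Fin (m + 1) → Coin (m + 1)) =>
      (N (Fin.last m) (net ω.1 ω.2 (Fin.last m)) : ℝ)) = Tsq m 0 := by
  simp only [Fin.val_last]
  simp_rw [N_last]
  rw [avg_sum]
  unfold Tsq
  refine Finset.sum_congr rfl fun φ _ => ?_
  have h := avg_res (m := m) (fun x y => if actC (net x.1 x.2 m) φ =
        actC (net y.1 y.2 m) φ then (1 : ℝ) else 0)
  simp only at h
  rw [h]
  have hw : wt 0 Finset.univ φ = 1 := by simp [wt]
  have hX := XL_down_eq_ker (m := m) (S := Pos m → Fin 2) actC actC_one actC_mul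
  have hsymm : ∀ χ, XL actC (down m) χ φ = XL actC (down m) φ χ := by
    intro χ
    have : (XL (actC (q := 2)) (down m)).transpose = XL actC (down m) := by
      unfold XL
      rw [Matrix.transpose_mul, Matrix.transpose_transpose]
    conv_lhs => rw [← this]
    rfl
  rw [hw, one_mul, Matrix.mul_apply]
  simp_rw [hsymm]
  rw [hX]
  unfold ker
  have key : ∀ x : (Fin m → Coin m) × (Fin m → Coin m),
      avg (fun y : (Fin m → Coin m) × (Fin m → Coin m) =>
        if actC (net x.1 x.2 m) φ = actC (net y.1 y.2 m) φ then (1 : ℝ) else 0) =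
      ∑ χ, (if actC (net x.1 x.2 m) φ = χ then (1 : ℝ) else 0) *
        avg (fun y : (Fin m → Coin m) × (Fin m → Coin m) =>
          if actC (net y.1 y.2 m) φ = χ then (1 : ℝ) else 0) := by
    intro x
    simp only [ite_mul, one_mul, zero_mul, Finset.sum_ite_eq, Finset.mem_univ, if_true]
    congr 1
    funext y
    simp only [eq_comm]
  simp_rw [key]
  rw [avg_sum]
  simp_rw [avg_mul_right]

end DenseWaux

open DenseWaux in
theorem avg_W_univ {m : ℕ} (j : Fin m) :
    avg (fun ω : (Fin m → Coin m) × (Fin m → Coin m) => W ω.1 ω.2 Finset.univ j) =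
      (Tsq j.val 0) ^ (2 ^ (m - 1 - j.val)) := by
  simp_rw [W_univ_eq]
  induction m with
  | zero => exact j.elim0
  | succ m ih =>
    refine Fin.lastCases ?_ (fun i => ?_) j
    · rw [avg_N_last]
      simp
    · rw [avg_N_castSucc, ih i, ← pow_mul]
      congr 1
      rw [Fin.val_castSucc, ← pow_succ]
      congr 1
      have := i.isLt
      omega

end Crest.Agent.R155
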