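import Crest.Agent.R155.WBasic

/-!
# PIECE DENSITY (row 155): the exact density identity of the Benes network

## Proof
Induction on the level `j ≤ m`.  For injections `x y : Fin k ↪ Pos m` let
`Q_j(x,y) = avg_ω (∏_{i<j} w_i)⁻¹ 1[net j ∘ x = y]`, where `w_i` is the weight of level `i` of the
network `net j` started at `x`.  Claim: `Q_j(x,y) = 2^{-jk}` if `x a` and `y a` agree on the bits `≥ j`
for all cards `a`, and `0` otherwise.  `j = 0`: `net 0 = 1`.  Step: `net (j+1) = out_j net_j in_j`, the
coins of level `j` are independent of those of `net j`; with `x' = in_j x`, `y' = out_j y`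
(involutions) the event is `net j ∘ x' = y'` and then the weight of level `j` is
`w_j(x,y) = #{T ⊆ cards : x(T) and y(T) are flip_j-invariant}` (a 2-coloring supported in the occupied
positions = a set `T` of cards; `x'(T)` is `flip_j`-invariant iff `x(T)` is, since `sw j c` commutes with
`flip j`).  It only depends on `(x, y)`.  So
`Q_{j+1}(x,y) = w_j(x,y)⁻¹ 2^{-jk} P_{c,c'}(sw j c x and sw j c' y agree on the bits ≥ j)` and the
probability is `2^{-k} w_j(x,y)` if `x, y` agree on the bits `≥ j+1`, by `agree_prob` below.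
At `j = m` there is no condition, and the product of the weights is `Wtot` (the level `i` weight in
`Wtot` is defined with `occ cin A i = inPerm cin i (A)`, which is the position at the input of
`net i`).  It may be convenient to prove the claim in the form with `A` and `inPerm`.

`agree_prob` (Fourier): `1[bits agree for all cards] = ∏_a ½(1 + χ_a)`,
`χ_a = (-1)^{x_a(j) + c(x̂_a) + y_a(j) + c'(ŷ_a)}`, `x̂ = update x j false`; expand over `T ⊆ cards`:
`avg_c ∏_{a∈T} (-1)^{c(x̂_a)} = 1` if every fibre of `x̂` in `T` is even, i.e. (injectivity: fibres have at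
most two elements) `x(T)` is `flip_j`-invariant, else `0`; the same for `y`; and for invariant `T` the
sign `∏_{a∈T} (-1)^{x_a(j)+y_a(j)} = (-1)^{|T|/2+|T|/2} = 1`.
-/

set_option autoImplicit false

namespace Crest.Agent.R155

namespace Densityaux

/-- sign of a bit -/
def sg (b : Bool) : ℝ := if b then -1 else 1

@[simp] theorem sg_mul_self (b : Bool) : sg b * sg b = 1 := by cases b <;> simp [sg]

@[simp] theorem sg_not (b : Bool) : sg (!b) = - sg b := by cases b <;> simp [sg]

theorem sg_xor (a b : Bool) : sg (xor a b) = sg a * sg b := by cases a <;> cases b <;> simp [sg]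

theorem sg_ne_zero (b : Bool) : sg b ≠ 0 := by cases b <;> simp [sg]

/-- the pivot `update x j false` -/
def piv {m : ℕ} (j : Fin m) (x : Pos m) : Pos m := Function.update x j false

theorem piv_flip {m : ℕ} (j : Fin m) (x : Pos m) : piv j (flip j x) = piv j x := update_flip j x false

theorem sw_self {m : ℕ} (j : Fin m) (c : Coin m) (x : Pos m) :
    sw j c x j = xor (x j) (c (piv j x)) := by
  rw [sw_apply]
  cases h : c (Function.update x j false) <;> simp [piv, h]

theorem piv_eq {m : ℕ} {j : Fin m} {x y : Pos m} (h : piv j x = piv j y) : x = y ∨ x = flip j y := by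
  by_cases hj : x j = y j
  · left
    funext i
    by_cases hi : i = j
    · subst hi; exact hj
    · have := congrFun h i
      simpa [piv, hi] using this
  · right
    funext i
    by_cases hi : i = j
    · subst hi
      simp
      cases hx : x i <;> cases hy : y i <;> simp_all
    · have := congrFun h i
      simpa [piv, hi] using this

/-- `x(T)` is `flip j` invariant -/
def Fi {m k : ℕ} (j : Fin m) (x : Fin k → Pos m) (T : Finset (Fin k)) : Prop :=
  ∀ a ∈ T, ∃ b ∈ T, x b = flip j (x a)

theorem avg_sg_of_not {m k : ℕ} (j : Fin m) (x : Fin k ↪ Pos m) (T : Finset (Fin k))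
    (h : ¬ Fi j x T) : avg (fun c : Coin m => ∏ a ∈ T, sg (c (piv j (x a)))) = 0 := by
  classical
  unfold Fi at h
  push Not at h
  obtain ⟨a, ha, hb⟩ := h
  set p := piv j (x a) with hp
  -- involution
  have hinv : Function.Involutive (fun c : Coin m => Function.update c p (!(c p))) := by
    intro c
    funext q
    by_cases hq : q = p
    · subst hq; simp
    · simp [hq]
  let e : Coin m ≃ Coin m := hinv.toPerm _
  have h1 : avg (fun c : Coin m => ∏ a ∈ T, sg (c (piv j (x a)))) =
      avg (fun c : Coin m => (-1 : ℝ) * ∏ a ∈ T, sg (c (piv j (x a)))) := by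
    rw [← avg_equiv e]
    congr 1
    funext c
    rw [← Finset.mul_prod_erase T _ ha, ← Finset.mul_prod_erase T _ ha]
    have e1 : (e c) p = !(c p) := by
      show Function.update c p (!(c p)) p = _
      simp
    rw [← hp, e1, sg_not, ← mul_assoc]
    congr 1
    · ring
    · refine Finset.prod_congr rfl fun b hbT => ?_
      have hne : piv j (x b) ≠ p := by
        intro hh
        rcases piv_eq hh with h2 | h2
        · exact (Finset.ne_of_mem_erase hbT) (x.injective h2)
        · exact hb b (Finset.mem_of_mem_erase hbT) h2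
      show sg (Function.update c p (!(c p)) (piv j (x b))) = _
      rw [Function.update_of_ne hne]
  rw [avg_mul_left] at h1
  linarith

theorem prod_sg_of {m k : ℕ} (j : Fin m) (x : Fin k ↪ Pos m) (T : Finset (Fin k))
    (h : Fi j x T) (c : Coin m) : ∏ a ∈ T, sg (c (piv j (x a))) = 1 := by
  classical
  choose! σ hσ1 hσ2 using h
  refine Finset.prod_involution (fun a _ => σ a) ?_ ?_ ?_ ?_
  · intro a ha
    rw [hσ2 a ha, piv_flip, sg_mul_self]
  · intro a ha _ hh
    have := hσ2 a ha
    rw [hh] at this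
    exact flip_ne j (x a) this.symm
  · intro a ha; exact hσ1 a ha
  · intro a ha
    apply x.injective
    rw [hσ2 _ (hσ1 a ha), hσ2 a ha, flip_flip]

theorem prod_sg_self {m k : ℕ} (j : Fin m) (x : Fin k ↪ Pos m) (T : Finset (Fin k))
    (h : Fi j x T) : ∃ n : ℕ, 2 * n = T.card ∧ ∏ a ∈ T, sg (x a j) = (-1) ^ n := by
  classical
  choose! σ hσ1 hσ2 using h
  have hcard : (T.filter fun a => x a j = true).card = (T.filter fun a => ¬ (x a j = true)).card := by
    refine Finset.card_bij (fun a _ => σ a) ?_ ?_ ?_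
    · intro a ha
      rw [Finset.mem_filter] at ha ⊢
      refine ⟨hσ1 a ha.1, ?_⟩
      rw [hσ2 a ha.1]
      simp [ha.2]
    · intro a ha b hb hab
      rw [Finset.mem_filter] at ha hb
      have h1 := hσ2 a ha.1
      have h2 := hσ2 b hb.1
      rw [hab] at h1
      have h3 : flip j (x a) = flip j (x b) := h1.symm.trans h2
      apply x.injective
      have := congrArg (flip j) h3
      simpa using this
    · intro b hb
      rw [Finset.mem_filter] at hb
      refine ⟨σ b, ?_, ?_⟩
      · rw [Finset.mem_filter]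
        refine ⟨hσ1 b hb.1, ?_⟩
        rw [hσ2 b hb.1]
        simp only [flip_apply_self]
        simpa using hb.2
      · apply x.injective
        rw [hσ2 _ (hσ1 b hb.1), hσ2 b hb.1, flip_flip]
  refine ⟨(T.filter fun a => x a j = true).card, ?_, ?_⟩
  · have := Finset.card_filter_add_card_filter_not (s := T) (fun a => x a j = true)
    omega
  · rw [← Finset.prod_filter_mul_prod_filter_not T (fun a => x a j = true)]
    rw [Finset.prod_congr rfl (g := fun _ => (-1 : ℝ)), Finset.prod_const]
    · rw [Finset.prod_congr rfl (g := fun _ => (1 : ℝ)), Finset.prod_const_one, mul_one]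
      intro a ha
      rw [Finset.mem_filter] at ha
      simp [sg, ha.2]
    · intro a ha
      rw [Finset.mem_filter] at ha
      simp [sg, ha.2]

theorem ind_eq (a b : Bool) : (if a = b then (1 : ℝ) else 0) = (1 / 2) * (1 + sg a * sg b) := by
  cases a <;> cases b <;> norm_num [sg]

end Densityaux

open Densityaux

open Classical in
theorem agree_prob {m k : ℕ} (j : Fin m) (x y : Fin k ↪ Pos m) :
    avg (fun c : Coin m × Coin m =>
      if ∀ a, sw j c.1 (x a) j = sw j c.2 (y a) j then (1 : ℝ) else 0) =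
    (1 / 2) ^ k * ((Finset.univ.filter fun T : Finset (Fin k) =>
      (∀ a ∈ T, ∃ b ∈ T, x b = flip j (x a)) ∧ (∀ a ∈ T, ∃ b ∈ T, y b = flip j (y a))).card : ℝ) := by
  have h1 : ∀ c : Coin m × Coin m,
      (if ∀ a, sw j c.1 (x a) j = sw j c.2 (y a) j then (1 : ℝ) else 0) =
      (1 / 2) ^ k * ∑ T : Finset (Fin k),
        ((∏ a ∈ T, (sg (x a j) * sg (y a j))) * ∏ a ∈ T, sg (c.1 (piv j (x a)))) *
          ∏ a ∈ T, sg (c.2 (piv j (y a))) := by
    intro c
    have e1 : (if ∀ a, sw j c.1 (x a) j = sw j c.2 (y a) j then (1 : ℝ) else 0) =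
        ∏ a : Fin k, (if sw j c.1 (x a) j = sw j c.2 (y a) j then (1 : ℝ) else 0) := by
      by_cases h : ∀ a, sw j c.1 (x a) j = sw j c.2 (y a) j
      · rw [if_pos h, Finset.prod_eq_one]
        intro a _
        rw [if_pos (h a)]
      · rw [if_neg h]
        push Not at h
        obtain ⟨a, ha⟩ := h
        rw [Finset.prod_eq_zero (Finset.mem_univ a)]
        rw [if_neg ha]
    rw [e1]
    simp_rw [ind_eq]
    rw [Finset.prod_mul_distrib, Finset.prod_const, Finset.card_univ, Fintype.card_fin]
    congr 1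
    rw [Finset.prod_one_add, Finset.powerset_univ]
    refine Finset.sum_congr rfl fun T _ => ?_
    rw [← Finset.prod_mul_distrib, ← Finset.prod_mul_distrib]
    refine Finset.prod_congr rfl fun a _ => ?_
    rw [sw_self, sw_self, sg_xor, sg_xor]
    ring
  simp_rw [h1]
  rw [avg_mul_left, avg_sum]
  congr 1
  rw [Finset.card_filter]
  push_cast
  refine Finset.sum_congr rfl fun T _ => ?_
  rw [avg_prod_type]
  simp_rw [avg_mul_left]
  rw [avg_mul_right, avg_mul_left]
  by_cases hx : Fi j x T
  · by_cases hy : Fi j y T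
    · rw [if_pos ⟨hx, hy⟩]
      simp_rw [prod_sg_of j x T hx, prod_sg_of j y T hy]
      rw [avg_const, Finset.prod_mul_distrib]
      obtain ⟨n, hn, hn'⟩ := prod_sg_self j x T hx
      obtain ⟨n', hn1, hn1'⟩ := prod_sg_self j y T hy
      have : n = n' := by omega
      subst this
      rw [hn', hn1', ← mul_pow]
      simp
    · rw [if_neg (fun h => hy h.2), avg_sg_of_not j y T hy]
      simp
  · rw [if_neg (fun h => hx h.1), avg_sg_of_not j x T hx]
    simp


namespace Densityaux

/-- list of the levels in `[i, j)` -/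
def lv (m i j : ℕ) : List (Fin m) :=
  (List.finRange m).filter (fun l => decide (i ≤ l.val ∧ l.val < j))

theorem lv_pw (m i j : ℕ) : (lv m i j).Pairwise (· < ·) :=
  (List.pairwise_lt_finRange m).filter _

theorem mem_lv {m i j : ℕ} {l : Fin m} : l ∈ lv m i j ↔ i ≤ l.val ∧ l.val < j := by
  simp [lv]

theorem lv_succ {m i j : ℕ} (hij : i ≤ j) (hj : j < m) :
    lv m i (j + 1) = lv m i j ++ [⟨j, hj⟩] := by
  refine List.Pairwise.eq_of_mem_iff (r := (· < ·)) (lv_pw _ _ _) ?_ ?_
  · rw [List.pairwise_append]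
    refine ⟨lv_pw _ _ _, List.pairwise_singleton _ _, ?_⟩
    intro a ha b hb
    rw [List.mem_singleton] at hb
    subst hb
    exact (mem_lv.1 ha).2
  · intro a
    rw [List.mem_append, List.mem_singleton, mem_lv, mem_lv]
    rw [Fin.ext_iff]
    simp only
    omega

theorem lv_self (m j : ℕ) : lv m j j = [] := by
  rw [List.eq_nil_iff_forall_not_mem]
  intro a ha
  have := mem_lv.1 ha
  omega

/-- the input side from level `j` (excluded) down to level `i` (included) -/
def inP {m : ℕ} (cin : Fin m → Coin m) (i j : ℕ) : Equiv.Perm (Pos m) :=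
  ((lv m i j).map (fun l => sw l (cin l))).prod

theorem inP_succ {m : ℕ} (cin : Fin m → Coin m) {i j : ℕ} (hij : i ≤ j) (hj : j < m) :
    inP cin i (j + 1) = inP cin i j * sw ⟨j, hj⟩ (cin ⟨j, hj⟩) := by
  unfold inP
  rw [lv_succ hij hj]
  simp

theorem inP_self {m : ℕ} (cin : Fin m → Coin m) (j : ℕ) : inP cin j j = 1 := by
  unfold inP
  rw [lv_self]
  simp

theorem inP_top {m : ℕ} (cin : Fin m → Coin m) (i : ℕ) : inP cin i m = inPerm cin i := by
  unfold inP inPerm lv
  congr 3
  funext l
  have := l.isLt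
  simp [this]

theorem inP_congr {m : ℕ} {cin cin' : Fin m → Coin m} {i j : ℕ}
    (h : ∀ l : Fin m, l.val < j → cin l = cin' l) : inP cin i j = inP cin' i j := by
  unfold inP
  congr 1
  apply List.map_congr_left
  intro l hl
  rw [h l (mem_lv.1 hl).2]

theorem net_congr {m : ℕ} {cin cin' cout cout' : Fin m → Coin m} {j : ℕ}
    (h : ∀ l : Fin m, l.val < j → cin l = cin' l) (h' : ∀ l : Fin m, l.val < j → cout l = cout' l) :
    net cin cout j = net cin' cout' j := by
  induction j with
  | zero => rfl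
  | succ j ih =>
    have ih' := ih (fun l hl => h l (by omega)) (fun l hl => h' l (by omega))
    unfold net
    by_cases hj : j < m
    · rw [dif_pos hj, dif_pos hj, ih', h ⟨j, hj⟩ (by simp), h' ⟨j, hj⟩ (by simp)]
    · rw [dif_neg hj, dif_neg hj, ih']

open Classical in
/-- number of two-colorings supported in `B`, invariant before and after `N` -/
noncomputable def Wj {m : ℕ} (B : Finset (Pos m)) (N : Equiv.Perm (Pos m)) (i : Fin m) : ℕ :=
  (Finset.univ.filter fun φ : Pos m → Fin 2 =>
    (∀ x, φ x ≠ 0 → x ∈ B) ∧ Inv i φ ∧ Inv i (actC N φ)).card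

theorem W_eq_Wj {m : ℕ} (cin cout : Fin m → Coin m) (A : Finset (Pos m)) (j : Fin m) :
    W cin cout A j = (Wj (occ cin A j) (net cin cout j) j : ℝ) := rfl

open Classical in
/-- number of invariant sets of cards -/
noncomputable def wT {m k : ℕ} (i : Fin m) (x y : Fin k → Pos m) : ℕ :=
  (Finset.univ.filter fun T : Finset (Fin k) => Fi i x T ∧ Fi i y T).card

theorem wT_pos {m k : ℕ} (i : Fin m) (x y : Fin k → Pos m) : 0 < wT i x y := by
  classical
  unfold wT
  rw [Finset.card_pos]
  refine ⟨∅, Finset.mem_filter.2 ⟨Finset.mem_univ _, ?_, ?_⟩⟩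
  · intro a ha
    simp at ha
  · intro a ha
    simp at ha

/-- indicator coloring of `x(T)` -/
noncomputable def colT {m k : ℕ} (x : Fin k ↪ Pos m) (T : Finset (Fin k)) : Pos m → Fin 2 :=
  fun p => if p ∈ T.map x then 1 else 0

theorem colT_ne {m k : ℕ} (x : Fin k ↪ Pos m) (T : Finset (Fin k)) (p : Pos m) :
    colT x T p ≠ 0 ↔ ∃ a ∈ T, x a = p := by
  unfold colT
  by_cases h : p ∈ T.map x
  · rw [if_pos h]
    simp only [Finset.mem_map] at h
    simpa using h
  · rw [if_neg h]
    simp only [Finset.mem_map] at h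
    simpa using h

theorem fin2_ext {a b : Fin 2} (h : a ≠ 0 ↔ b ≠ 0) : a = b := by
  omega

theorem inv_colT {m k : ℕ} (i : Fin m) (x : Fin k ↪ Pos m) (T : Finset (Fin k)) :
    Inv i (colT x T) ↔ Fi i x T := by
  constructor
  · intro h a ha
    have h1 : colT x T (x a) ≠ 0 := (colT_ne x T _).2 ⟨a, ha, rfl⟩
    rw [← h (x a)] at h1
    exact (colT_ne x T _).1 h1
  · intro h p
    apply fin2_ext
    rw [colT_ne, colT_ne]
    constructor
    · rintro ⟨a, ha, hap⟩
      obtain ⟨b, hb, hb'⟩ := h a ha
      refine ⟨b, hb, ?_⟩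
      rw [hb', hap, flip_flip]
    · rintro ⟨a, ha, hap⟩
      obtain ⟨b, hb, hb'⟩ := h a ha
      exact ⟨b, hb, by rw [hb', hap]⟩

theorem actC_colT {m k : ℕ} (N : Equiv.Perm (Pos m)) (x : Fin k ↪ Pos m) (T : Finset (Fin k)) :
    actC N (colT x T) = colT (actI N x) T := by
  funext p
  apply fin2_ext
  show colT x T (N.symm p) ≠ 0 ↔ _
  rw [colT_ne, colT_ne]
  constructor
  · rintro ⟨a, ha, hap⟩
    exact ⟨a, ha, by simp [actI, hap]⟩
  · rintro ⟨a, ha, hap⟩
    refine ⟨a, ha, ?_⟩
    rw [← hap]
    simp [actI]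

theorem Wj_eq {m k : ℕ} (i : Fin m) (N : Equiv.Perm (Pos m)) (x y : Fin k ↪ Pos m)
    (h : actI N x = y) : Wj (Finset.univ.map x) N i = wT i x y := by
  classical
  unfold Wj wT
  symm
  refine Finset.card_bij (fun T _ => colT x T) ?_ ?_ ?_
  · intro T hT
    rw [Finset.mem_filter] at hT ⊢
    refine ⟨Finset.mem_univ _, ?_, (inv_colT i x T).2 hT.2.1, ?_⟩
    · intro p hp
      obtain ⟨a, ha, hap⟩ := (colT_ne x T p).1 hp
      rw [Finset.mem_map]
      exact ⟨a, Finset.mem_univ _, hap⟩
    · rw [actC_colT, h]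
      exact (inv_colT i y T).2 hT.2.2
  · intro T hT T' hT' hTT
    have hTT' : colT x T = colT x T' := hTT
    ext a
    have e1 : a ∈ T ↔ colT x T (x a) ≠ 0 := by
      rw [colT_ne]
      exact ⟨fun ha => ⟨a, ha, rfl⟩, fun ⟨b, hb, hb'⟩ => x.injective hb' ▸ hb⟩
    have e2 : a ∈ T' ↔ colT x T' (x a) ≠ 0 := by
      rw [colT_ne]
      exact ⟨fun ha => ⟨a, ha, rfl⟩, fun ⟨b, hb, hb'⟩ => x.injective hb' ▸ hb⟩
    rw [e1, e2, hTT']
  · intro φ hφ
    rw [Finset.mem_filter] at hφ
    obtain ⟨-, h1, h2, h3⟩ := hφ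
    have hcol : colT x (Finset.univ.filter fun a => φ (x a) ≠ 0) = φ := by
      funext p
      apply fin2_ext
      rw [colT_ne]
      constructor
      · rintro ⟨a, ha, hap⟩
        rw [Finset.mem_filter] at ha
        rw [← hap]
        exact ha.2
      · intro hp
        have := h1 p hp
        rw [Finset.mem_map] at this
        obtain ⟨a, -, ha⟩ := this
        refine ⟨a, ?_, ha⟩
        rw [Finset.mem_filter]
        exact ⟨Finset.mem_univ _, by rw [ha]; exact hp⟩
    refine ⟨Finset.univ.filter fun a => φ (x a) ≠ 0, ?_, hcol⟩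
    rw [Finset.mem_filter]
    refine ⟨Finset.mem_univ _, ?_, ?_⟩
    · rw [← inv_colT, hcol]; exact h2
    · rw [← inv_colT, ← h, ← actC_colT, hcol]; exact h3

theorem Fi_sw {m k : ℕ} (i : Fin m) (c : Coin m) (x : Fin k ↪ Pos m) (T : Finset (Fin k)) :
    Fi i (actI (sw i c) x) T ↔ Fi i x T := by
  unfold Fi
  refine forall₂_congr fun a _ => exists_congr fun b => and_congr_right fun _ => ?_
  show sw i c (x b) = flip i (sw i c (x a)) ↔ _
  rw [← sw_flip]
  exact (sw i c).injective.eq_iff

theorem wT_sw {m k : ℕ} (i : Fin m) (c c' : Coin m) (x y : Fin k ↪ Pos m) :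
    wT i (actI (sw i c) x) (actI (sw i c') y) = wT i x y := by
  classical
  unfold wT
  congr 1
  ext T
  rw [Finset.mem_filter, Finset.mem_filter, Fi_sw, Fi_sw]

/-- product of the weights of the levels `< j` -/
noncomputable def Wp {m k : ℕ} (cin cout : Fin m → Coin m) (x : Fin k ↪ Pos m) (j : ℕ) : ℝ :=
  ∏ i ∈ Finset.univ.filter (fun i : Fin m => i.val < j),
    (Wj ((Finset.univ.map x).map (inP cin i j).toEmbedding) (net cin cout i) i : ℝ)

theorem map_actI {m k : ℕ} (g : Equiv.Perm (Pos m)) (x : Fin k ↪ Pos m) :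
    (Finset.univ.map x).map g.toEmbedding = Finset.univ.map (actI g x) := by
  rw [Finset.map_map]; rfl

theorem Wp_top {m k : ℕ} (cin cout : Fin m → Coin m) (x : Fin k ↪ Pos m) :
    Wp cin cout x m = Wtot cin cout (Finset.univ.map x) := by
  unfold Wp Wtot
  have : (Finset.univ.filter (fun i : Fin m => i.val < m)) = Finset.univ := by
    ext i; simp
  rw [this]
  refine Finset.prod_congr rfl fun i _ => ?_
  rw [W_eq_Wj, inP_top]
  rfl

theorem Wp_zero {m k : ℕ} (cin cout : Fin m → Coin m) (x : Fin k ↪ Pos m) :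
    Wp cin cout x 0 = 1 := by
  unfold Wp
  simp

theorem Wp_congr {m k : ℕ} {cin cin' cout cout' : Fin m → Coin m} {j : ℕ} (x : Fin k ↪ Pos m)
    (h : ∀ l : Fin m, l.val < j → cin l = cin' l) (h' : ∀ l : Fin m, l.val < j → cout l = cout' l) :
    Wp cin cout x j = Wp cin' cout' x j := by
  unfold Wp
  refine Finset.prod_congr rfl fun i hi => ?_
  have hi' : i.val < j := by simpa using hi
  rw [inP_congr h, net_congr (fun l hl => h l (by omega)) (fun l hl => h' l (by omega))]

theorem Wp_succ {m k : ℕ} (cin cout : Fin m → Coin m) (x : Fin k ↪ Pos m) {j : ℕ} (hj : j < m) :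
    Wp cin cout x (j + 1) =
      (Wj (Finset.univ.map (actI (sw ⟨j, hj⟩ (cin ⟨j, hj⟩)) x)) (net cin cout j) ⟨j, hj⟩ : ℝ) *
        Wp cin cout (actI (sw ⟨j, hj⟩ (cin ⟨j, hj⟩)) x) j := by
  unfold Wp
  have hs : (Finset.univ.filter (fun i : Fin m => i.val < j + 1)) =
      insert (⟨j, hj⟩ : Fin m) (Finset.univ.filter (fun i : Fin m => i.val < j)) := by
    ext i
    simp only [Finset.mem_filter, Finset.mem_univ, true_and, Finset.mem_insert, Fin.ext_iff]
    omega
  rw [hs, Finset.prod_insert (by simp)]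
  congr 1
  · rw [inP_succ cin (le_refl j) hj, inP_self, one_mul, map_actI]
  · refine Finset.prod_congr rfl fun i hi => ?_
    have hi' : i.val < j := by simpa using hi
    rw [inP_succ cin (le_of_lt hi') hj, ← map_actI]
    conv_rhs => rw [Finset.map_map]
    rfl

theorem resample {m : ℕ} {Ω : Type} [Fintype Ω] [Nonempty Ω] (j : Fin m) (H : (Fin m → Ω) → ℝ) :
    avg H = avg (fun c : Ω => avg (fun ω => H (Function.update ω j c))) := by
  classical
  have hinv : Function.Involutive
      (fun p : Ω × (Fin m → Ω) => (p.2 j, Function.update p.2 j p.1)) := by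
    rintro ⟨c, ω⟩
    simp
  rw [← avg_prod_type (fun p : Ω × (Fin m → Ω) => H (Function.update p.2 j p.1))]
  have h1 := avg_equiv (hinv.toPerm _) (fun p : Ω × (Fin m → Ω) => H p.2)
  have h2 : avg (fun p : Ω × (Fin m → Ω) => H p.2) = avg H := by
    rw [avg_prod_type]
    exact avg_const (Ω := Ω) (avg H)
  rw [← h2, ← h1]
  rfl

theorem resample2 {m : ℕ} {Ω : Type} [Fintype Ω] [Nonempty Ω] (j : Fin m)
    (H : (Fin m → Ω) × (Fin m → Ω) → ℝ) :
    avg H = avg (fun c : Ω × Ω => avg (fun ω : (Fin m → Ω) × (Fin m → Ω) =>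
      H (Function.update ω.1 j c.1, Function.update ω.2 j c.2))) := by
  rw [avg_prod_type, resample j]
  rw [avg_prod_type (fun c : Ω × Ω => avg (fun ω : (Fin m → Ω) × (Fin m → Ω) =>
      H (Function.update ω.1 j c.1, Function.update ω.2 j c.2)))]
  congr 1
  funext c
  have h1 : (fun ω : Fin m → Ω => avg fun ω' : Fin m → Ω => H (Function.update ω j c, ω')) =
      fun ω : Fin m → Ω => avg (fun c' : Ω => avg (fun ω' : Fin m → Ω =>
        H (Function.update ω j c, Function.update ω' j c'))) := by
    funext ω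
    exact resample j (fun ω' => H (Function.update ω j c, ω'))
  rw [h1, avg_comm]
  congr 1
  funext c'
  rw [avg_prod_type]

theorem actI_mul {m k : ℕ} (g h : Equiv.Perm (Pos m)) (x : Fin k ↪ Pos m) :
    actI (g * h) x = actI g (actI h x) := by
  ext a; rfl

theorem actI_sw_eq {m k : ℕ} (i : Fin m) (c : Coin m) (x y : Fin k ↪ Pos m) :
    actI (sw i c) x = y ↔ x = actI (sw i c) y := by
  constructor
  · rintro rfl
    ext a i
    simp [actI]
  · rintro rfl
    ext a i
    simp [actI]

open Classical in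
theorem claim (m k : ℕ) (j : ℕ) (hjm : j ≤ m) : ∀ x y : Fin k ↪ Pos m,
    avg (fun ω : (Fin m → Coin m) × (Fin m → Coin m) =>
      (Wp ω.1 ω.2 x j)⁻¹ * (if actI (net ω.1 ω.2 j) x = y then (1 : ℝ) else 0)) =
    if ∀ a, ∀ i : Fin m, j ≤ i.val → x a i = y a i then (1 / 2 ^ j : ℝ) ^ k else 0 := by
  induction j with
  | zero =>
    intro x y
    have h1 : ∀ ω : (Fin m → Coin m) × (Fin m → Coin m),
        (Wp ω.1 ω.2 x 0)⁻¹ * (if actI (net ω.1 ω.2 0) x = y then (1 : ℝ) else 0) =
        if ∀ a, ∀ i : Fin m, 0 ≤ i.val → x a i = y a i then (1 / 2 ^ 0 : ℝ) ^ k else 0 := by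
      intro ω
      rw [Wp_zero, inv_one, one_mul]
      have h2 : actI (net ω.1 ω.2 0) x = x := by ext a; rfl
      rw [h2]
      have h3 : x = y ↔ ∀ a, ∀ i : Fin m, 0 ≤ i.val → x a i = y a i := by
        constructor
        · rintro rfl a i _; rfl
        · intro h
          ext a i
          rw [h a i (Nat.zero_le _)]
      by_cases h : x = y
      · rw [if_pos h, if_pos (h3.1 h)]; simp
      · rw [if_neg h, if_neg (fun h' => h (h3.2 h'))]
    simp_rw [h1]
    exact avg_const _
  | succ j ih =>
    intro x y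
    have hj : j < m := hjm
    have ih := ih hj.le
    set J : Fin m := ⟨j, hj⟩ with hJ
    rw [resample2 J]
    have h1 : ∀ c : Coin m × Coin m, ∀ ω : (Fin m → Coin m) × (Fin m → Coin m),
        (Wp (Function.update ω.1 J c.1) (Function.update ω.2 J c.2) x (j + 1))⁻¹ *
          (if actI (net (Function.update ω.1 J c.1) (Function.update ω.2 J c.2) (j + 1)) x = y
            then (1 : ℝ) else 0) =
        (wT J x y : ℝ)⁻¹ * ((Wp ω.1 ω.2 (actI (sw J c.1) x) j)⁻¹ *
          (if actI (net ω.1 ω.2 j) (actI (sw J c.1) x) = actI (sw J c.2) y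
            then (1 : ℝ) else 0)) := by
      intro c ω
      have hu1 : ∀ l : Fin m, l.val < j → Function.update ω.1 J c.1 l = ω.1 l := by
        intro l hl
        rw [Function.update_of_ne]
        intro h
        rw [h] at hl
        simp [hJ] at hl
      have hu2 : ∀ l : Fin m, l.val < j → Function.update ω.2 J c.2 l = ω.2 l := by
        intro l hl
        rw [Function.update_of_ne]
        intro h
        rw [h] at hl
        simp [hJ] at hl
      have hnet : net (Function.update ω.1 J c.1) (Function.update ω.2 J c.2) j =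
          net ω.1 ω.2 j := net_congr hu1 hu2
      have hnet' : net (Function.update ω.1 J c.1) (Function.update ω.2 J c.2) (j + 1) =
          sw J c.2 * net ω.1 ω.2 j * sw J c.1 := by
        rw [net, dif_pos hj, hnet]
        simp [← hJ]
      have hW : Wp (Function.update ω.1 J c.1) (Function.update ω.2 J c.2) x (j + 1) =
          (Wj (Finset.univ.map (actI (sw J c.1) x)) (net ω.1 ω.2 j) J : ℝ) *
            Wp ω.1 ω.2 (actI (sw J c.1) x) j := by
        rw [Wp_succ _ _ _ hj, hnet, Wp_congr _ hu1 hu2]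
        simp [← hJ]
      rw [hnet', hW, actI_mul, actI_mul]
      by_cases h : actI (net ω.1 ω.2 j) (actI (sw J c.1) x) = actI (sw J c.2) y
      · rw [if_pos h, if_pos ((actI_sw_eq _ _ _ _).2 h), Wj_eq J _ _ _ h, wT_sw, mul_inv]
        ring
      · rw [if_neg h, if_neg (fun h' => h ((actI_sw_eq _ _ _ _).1 h'))]
        ring
    simp_rw [h1, avg_mul_left, ih]
    have h2 : ∀ c : Coin m × Coin m,
        (if ∀ a, ∀ i : Fin m, j ≤ i.val → actI (sw J c.1) x a i = actI (sw J c.2) y a i
          then (1 / 2 ^ j : ℝ) ^ k else 0) =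
        (if ∀ a, ∀ i : Fin m, j + 1 ≤ i.val → x a i = y a i then (1 / 2 ^ j : ℝ) ^ k else 0) *
        (if ∀ a, sw J c.1 (x a) J = sw J c.2 (y a) J then (1 : ℝ) else 0) := by
      intro c
      have h3 : (∀ a, ∀ i : Fin m, j ≤ i.val → actI (sw J c.1) x a i = actI (sw J c.2) y a i) ↔
          (∀ a, ∀ i : Fin m, j + 1 ≤ i.val → x a i = y a i) ∧
            ∀ a, sw J c.1 (x a) J = sw J c.2 (y a) J := by
        constructor
        · intro h
          refine ⟨?_, fun a => h a J (by simp [hJ])⟩
          intro a i hi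
          have hne : i ≠ J := by
            intro h'
            rw [h'] at hi
            simp [hJ] at hi
          have := h a i (by omega)
          change sw J c.1 (x a) i = sw J c.2 (y a) i at this
          rwa [sw_apply_ne hne, sw_apply_ne hne] at this
        · rintro ⟨h, h'⟩ a i hi
          by_cases hne : i = J
          · subst hne
            exact h' a
          · change sw J c.1 (x a) i = sw J c.2 (y a) i
            rw [sw_apply_ne hne, sw_apply_ne hne]
            refine h a i ?_
            have : i.val ≠ j := fun h'' => hne (Fin.ext h'')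
            omega
      by_cases hA : ∀ a, ∀ i : Fin m, j + 1 ≤ i.val → x a i = y a i
      · by_cases hB : ∀ a, sw J c.1 (x a) J = sw J c.2 (y a) J
        · rw [if_pos (h3.2 ⟨hA, hB⟩), if_pos hA, if_pos hB, mul_one]
        · rw [if_neg (fun h => hB (h3.1 h).2), if_neg hB, mul_zero]
      · rw [if_neg (fun h => hA (h3.1 h).1), if_neg hA, zero_mul]
    simp_rw [h2, avg_mul_left]
    rw [agree_prob J x y]
    have h4 : ((Finset.univ.filter fun T : Finset (Fin k) =>
      (∀ a ∈ T, ∃ b ∈ T, x b = flip J (x a)) ∧ (∀ a ∈ T, ∃ b ∈ T, y b = flip J (y a))).card : ℝ)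
        = (wT J x y : ℝ) := by
      unfold wT Fi
      congr 3
    rw [h4]
    have h5 : (wT J x y : ℝ) ≠ 0 := by
      have := wT_pos J x y
      positivity
    by_cases hA : ∀ a, ∀ i : Fin m, j + 1 ≤ i.val → x a i = y a i
    · rw [if_pos hA, if_pos hA]
      have h6 : (1 / 2 ^ (j + 1) : ℝ) ^ k = (1 / 2 ^ j) ^ k * (1 / 2) ^ k := by
        rw [← mul_pow]
        congr 1
        rw [pow_succ]
        field_simp
      rw [h6]
      field_simp
    · rw [if_neg hA, if_neg hA]
      simp

end Densityaux

theorem density (m k : ℕ) (x y : Fin k ↪ Pos m) :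
    avg (fun ω : (Fin m → Coin m) × (Fin m → Coin m) =>
      (Wtot ω.1 ω.2 (Finset.univ.map x))⁻¹ *
        (if actI (net ω.1 ω.2 m) x = y then (1 : ℝ) else 0)) = (1 / 2 ^ m : ℝ) ^ k := by
  classical
  have h := claim m k m le_rfl x y
  simp_rw [Wp_top] at h
  rw [if_pos (fun a i hi => absurd i.isLt (by omega))] at h
  convert h using 3

end Crest.Agent.R155
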