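import Crest.Agent.R155.Defs

/-!
# PIECE HOLDER (row 155): combination of the levels (abstract)

Levels `0..m-1` with independent coins `c i ∈ Ω`; `W j c ≥ 1` depends only on the coins of the levels
`< j`; `θ = 1/(2Q-1)`, `Q = 2^q`.

## Proof
Hölder with the weights `θ` for `j = 1..Q-1` and `Qθ` for the tail `T = ∏_{j ≥ Q} W_j`
(`(Q-1)θ + Qθ = 1`): `avg ∏ W_j^θ ≤ ∏_{1≤j<Q} (avg W_j)^θ * (avg T^{1/Q})^{Qθ}`.
(If `m < Q` the extra factors `(avg W_j)^θ ≥ 1`.)
Tail: dyadic groups `G_i = {j : log2 j = i}`, `i ≥ q`; classes by the parity of `i`; Cauchy-Schwarz: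
`avg T^{1/Q} ≤ √(avg T_even^{2/Q}) √(avg T_odd^{2/Q})`.
For one class: `avg ∏_i G_i^{2/Q} ≤ ∏_i C_i`, by induction from the top group: `b_i = 0` if `i = q`, else
`2^{i-1}`; the lower groups of the same class (`i' ≤ i-2`) depend only on levels `< 2^{i-1}`; average
first over the coins of the levels `≥ b_i`, with those `< b_i` fixed:
`C_i = sup_{c₀} avg_c G_i(mix b_i c₀ c)^{2/Q}`.  Hölder inside the group (`2^i` levels, weights `2^{-i}`,
pad with the constant 1 if the group is truncated by `m`):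
`avg_c G_i^{2/Q} ≤ ∏_{j ∈ G_i} (avg_c W_j^{2^i · 2/Q})^{2^{-i}}`, `2^i·2/Q = 2^{i+1-q} =: u` (integer), and
`hwin` gives `≤ exp(∑_{j∈G_i} 2^{-i} d_j 2^u (3/4)^{j-b_i}) = exp(∑_{j ∈ G_i} kap q j * d_j)`.
Total: `(avg T^{1/Q})^{Qθ} ≤ exp(θ (Q/2) ∑_{j≥Q} kap q j d_j)`.
Useful: generalised Hölder `Real.inner_le_nnorm_mul_nnorm`, `MeasureTheory...` or
`Finset.inner_le_Lp_mul_Lq`, `Real.inner_le_Lp_mul_Lq`; weighted AM-GM
(`Real.inner_le_...`, `Real.geom_mean_le_arith_mean_weighted`) proves generalised Hölder directly: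
`avg ∏ f_j^{w_j} ≤ ∏ (avg f_j)^{w_j}` for `∑ w_j = 1` (normalise `f_j` to average one).
-/

set_option autoImplicit false

namespace Crest.Agent.R155

/-- generalised Hölder inequality for averages -/
theorem avg_prod_rpow_le {Ω ι : Type*} [Fintype Ω] [Nonempty Ω] (s : Finset ι)
    (f : ι → Ω → ℝ) (hf : ∀ i ∈ s, ∀ ω, 0 ≤ f i ω) (w : ι → ℝ) (hw : ∀ i ∈ s, 0 ≤ w i)
    (hsum : ∑ i ∈ s, w i ≤ 1) :
    avg (fun ω => ∏ i ∈ s, (f i ω) ^ (w i)) ≤ ∏ i ∈ s, (avg (f i)) ^ (w i) := by
  classical
  have hAnn : ∀ i ∈ s, 0 ≤ avg (f i) := fun i hi => avg_nonneg (hf i hi)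
  by_cases hz : ∃ i ∈ s, avg (f i) = 0 ∧ 0 < w i
  · obtain ⟨i, hi, h0, hwi⟩ := hz
    have hfi : ∀ ω, f i ω = 0 := by
      have hc : (0 : ℝ) < (Fintype.card Ω : ℝ) := by exact_mod_cast Fintype.card_pos
      have hs : ∑ ω, f i ω = 0 := by
        unfold avg at h0
        rcases div_eq_zero_iff.mp h0 with h | h
        · exact h
        · exact absurd h hc.ne'
      intro ω
      exact (Finset.sum_eq_zero_iff_of_nonneg (fun ω _ => hf i hi ω)).mp hs ω (Finset.mem_univ _)
    have h1 : (fun ω => ∏ i ∈ s, (f i ω) ^ (w i)) = fun _ : Ω => (0 : ℝ) := by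
      funext ω
      refine Finset.prod_eq_zero hi ?_
      rw [hfi ω, Real.zero_rpow hwi.ne']
    rw [h1, avg_const]
    exact Finset.prod_nonneg fun j hj => Real.rpow_nonneg (hAnn j hj) _
  · push Not at hz
    have hcase : ∀ i ∈ s, w i = 0 ∨ 0 < avg (f i) := by
      intro i hi
      rcases (hAnn i hi).eq_or_lt with h | h
      · left
        exact le_antisymm (hz i hi h.symm) (hw i hi)
      · right; exact h
    have hfac : ∀ ω, ∏ i ∈ s, (f i ω) ^ (w i) =
        (∏ i ∈ s, (avg (f i)) ^ (w i)) * ∏ i ∈ s, (f i ω / avg (f i)) ^ (w i) := by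
      intro ω
      rw [← Finset.prod_mul_distrib]
      refine Finset.prod_congr rfl fun i hi => ?_
      rcases hcase i hi with h | h
      · simp [h]
      · rw [← Real.mul_rpow h.le (div_nonneg (hf i hi ω) h.le), mul_div_cancel₀ _ h.ne']
    have hamgm : ∀ ω, ∏ i ∈ s, (f i ω / avg (f i)) ^ (w i) ≤
        ∑ i ∈ s, w i * (f i ω / avg (f i)) + (1 - ∑ i ∈ s, w i) := by
      intro ω
      have h := Real.geom_mean_le_arith_mean_weighted (insert none (s.map Function.Embedding.some))
        (fun o : Option ι => o.elim (1 - ∑ i ∈ s, w i) w)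
        (fun o : Option ι => o.elim 1 (fun i => f i ω / avg (f i)))
        (by
          intro o ho
          cases o with
          | none => simp; exact hsum
          | some i =>
            have : i ∈ s := by simpa using ho
            exact hw i this)
        (by
          rw [Finset.sum_insert (by simp)]
          simp)
        (by
          intro o ho
          cases o with
          | none => simp
          | some i =>
            have : i ∈ s := by simpa using ho
            exact div_nonneg (hf i this ω) (hAnn i this))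
      rw [Finset.prod_insert (by simp), Finset.sum_insert (by simp)] at h
      simp only [Option.elim, Finset.prod_map, Finset.sum_map, Function.Embedding.some_apply,
        Real.one_rpow, one_mul, mul_one] at h
      linarith
    have hP : 0 ≤ ∏ i ∈ s, (avg (f i)) ^ (w i) :=
      Finset.prod_nonneg fun j hj => Real.rpow_nonneg (hAnn j hj) _
    calc avg (fun ω => ∏ i ∈ s, (f i ω) ^ (w i))
        = (∏ i ∈ s, (avg (f i)) ^ (w i)) *
          avg (fun ω => ∏ i ∈ s, (f i ω / avg (f i)) ^ (w i)) := by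
          rw [← avg_mul_left]
          congr 1
          funext ω
          exact hfac ω
      _ ≤ (∏ i ∈ s, (avg (f i)) ^ (w i)) * 1 := by
          refine mul_le_mul_of_nonneg_left ?_ hP
          refine (avg_le_avg hamgm).trans ?_
          rw [avg_add, avg_const, avg_sum]
          have h2 : ∀ i ∈ s, avg (fun ω => w i * (f i ω / avg (f i))) ≤ w i := by
            intro i hi
            rw [avg_mul_left]
            rcases hcase i hi with h | h
            · simp [h]
            · have : avg (fun ω => f i ω / avg (f i)) = 1 := by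
                have h3 : (fun ω => f i ω / avg (f i)) = fun ω => f i ω * (avg (f i))⁻¹ := by
                  funext ω; rw [div_eq_mul_inv]
                rw [h3, avg_mul_right, mul_inv_cancel₀ h.ne']
              rw [this, mul_one]
          have := Finset.sum_le_sum h2
          linarith
      _ = _ := mul_one _

theorem mix_mix_swap {m : ℕ} {Ω : Type*} (b : ℕ) (c₀ c : Fin m → Ω) :
    mix b (mix b c₀ c) (mix b c c₀) = c₀ := by
  funext i
  unfold mix
  by_cases h : i.val < b <;> simp [h]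

/-- swapping the coordinates `≥ b` of a pair -/
def mixEquiv {m : ℕ} {Ω : Type*} (b : ℕ) : ((Fin m → Ω) × (Fin m → Ω)) ≃
    ((Fin m → Ω) × (Fin m → Ω)) where
  toFun p := (mix b p.1 p.2, mix b p.2 p.1)
  invFun p := (mix b p.1 p.2, mix b p.2 p.1)
  left_inv p := by
    ext1
    · exact mix_mix_swap b p.1 p.2
    · exact mix_mix_swap b p.2 p.1
  right_inv p := by
    ext1
    · exact mix_mix_swap b p.1 p.2
    · exact mix_mix_swap b p.2 p.1

theorem avg_mix {m : ℕ} {Ω : Type} [Fintype Ω] [Nonempty Ω] (b : ℕ) (h : (Fin m → Ω) → ℝ) :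
    avg h = avg (fun c₀ => avg (fun c => h (mix b c₀ c))) := by
  have h1 := avg_prod_type (fun p : (Fin m → Ω) × (Fin m → Ω) => h (mix b p.1 p.2))
  have h2 := avg_equiv (mixEquiv (m := m) (Ω := Ω) b)
    (fun p : (Fin m → Ω) × (Fin m → Ω) => h p.1)
  have h3 := avg_prod_type (fun p : (Fin m → Ω) × (Fin m → Ω) => h p.1)
  have h4 : (fun p : (Fin m → Ω) × (Fin m → Ω) => h (mix b p.1 p.2)) =
      fun p => (fun p : (Fin m → Ω) × (Fin m → Ω) => h p.1) (mixEquiv (m := m) (Ω := Ω) b p) := by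
    funext p; rfl
  rw [← h1, h4, h2, h3]
  simp only [avg_const]


/-- tail constants -/
noncomputable def kap (q j : ℕ) : ℝ :=
  (1 / 2 : ℝ) ^ (Nat.log 2 j) * (2 : ℝ) ^ (2 ^ (Nat.log 2 j + 1 - q)) *
    (3 / 4 : ℝ) ^ (j - (if Nat.log 2 j = q then 0 else 2 ^ (Nat.log 2 j - 1)))

theorem kap_nonneg (q j : ℕ) : 0 ≤ kap q j := by
  unfold kap; positivity

theorem one_le_prod_real {ι : Type*} (s : Finset ι) (f : ι → ℝ) (h : ∀ i ∈ s, 1 ≤ f i) :
    1 ≤ ∏ i ∈ s, f i :=
  Finset.prod_induction f (fun x => (1 : ℝ) ≤ x) (fun _ _ ha hb => one_le_mul_of_one_le_of_one_le ha hb)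
    le_rfl h

theorem prod_le_prod_subset_real {ι : Type*} [DecidableEq ι] {s t : Finset ι} (hst : s ⊆ t)
    (f : ι → ℝ) (h : ∀ i ∈ t, 1 ≤ f i) : ∏ i ∈ s, f i ≤ ∏ i ∈ t, f i := by
  rw [← Finset.prod_sdiff hst]
  have h1 : 1 ≤ ∏ i ∈ t \ s, f i :=
    one_le_prod_real _ _ fun i hi => h i (Finset.mem_sdiff.mp hi).1
  have h2 : 1 ≤ ∏ i ∈ s, f i := one_le_prod_real _ _ fun i hi => h i (hst hi)
  nlinarith

/-- the indices of the class `ε` with `log2 < n` -/
def cls (q m ε n : ℕ) : Finset ℕ :=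
  (Finset.Ico (2 ^ q) m).filter (fun j => Nat.log 2 j < n ∧ Nat.log 2 j % 2 = ε)

theorem class_bound {m : ℕ} {Ω : Type} [Fintype Ω] [Nonempty Ω] (q : ℕ)
    (W : ℕ → (Fin m → Ω) → ℝ) (hW1 : ∀ j c, 1 ≤ W j c)
    (hdep : ∀ j (c c' : Fin m → Ω), (∀ i : Fin m, i.val < j → c i = c' i) → W j c = W j c')
    (d : ℕ → ℝ)
    (hwin : ∀ j b u : ℕ, b ≤ j → j < m → ∀ c₀ : Fin m → Ω,
      avg (fun c => (W j (mix b c₀ c)) ^ u) ≤
        Real.exp (d j * (2 : ℝ) ^ u * (3 / 4) ^ (j - b))) (ε n : ℕ) :
    avg (fun c => ∏ j ∈ cls q m ε n, (W j c) ^ (2 / 2 ^ q : ℝ)) ≤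
      Real.exp (∑ j ∈ cls q m ε n, kap q j * d j) := by
  classical
  have hW0 : ∀ j c, 0 ≤ W j c := fun j c => zero_le_one.trans (hW1 j c)
  induction n with
  | zero =>
    have : cls q m ε 0 = ∅ := by
      unfold cls
      ext j; simp
    rw [this]
    simp [avg_const]
  | succ n ih =>
    by_cases hn : n % 2 = ε
    · set G : Finset ℕ := (Finset.Ico (2 ^ q) m).filter (fun j => Nat.log 2 j = n) with hG
      have hun : cls q m ε (n + 1) = cls q m ε n ∪ G := by
        unfold cls
        ext j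
        simp only [Finset.mem_filter, Finset.mem_Ico, Finset.mem_union, hG]
        constructor
        · rintro ⟨h1, h2, h3⟩
          by_cases h : Nat.log 2 j = n
          · right; exact ⟨h1, h⟩
          · left; exact ⟨h1, by omega, h3⟩
        · rintro (⟨h1, h2, h3⟩ | ⟨h1, h2⟩)
          · exact ⟨h1, by omega, h3⟩
          · exact ⟨h1, by omega, by rw [h2]; exact hn⟩
      have hdisj : Disjoint (cls q m ε n) G := by
        rw [Finset.disjoint_left]
        intro j h1 h2
        simp only [cls, Finset.mem_filter, hG] at h1 h2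
        omega
      set b : ℕ := if n = q then 0 else 2 ^ (n - 1) with hb
      have hF : ∀ c₀ c : Fin m → Ω, ∀ j ∈ cls q m ε n, W j (mix b c₀ c) = W j c₀ := by
        intro c₀ c j hj
        simp only [cls, Finset.mem_filter, Finset.mem_Ico] at hj
        obtain ⟨⟨hj1, hj2⟩, hj3, hj4⟩ := hj
        have hlog : q ≤ Nat.log 2 j := by
          have hj0 : j ≠ 0 := by
            have : 0 < 2 ^ q := by positivity
            omega
          exact (Nat.le_log_iff_pow_le (by norm_num) hj0).mpr hj1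
        have hnq : n ≠ q := by omega
        have hlog2 : Nat.log 2 j < n - 1 := by omega
        have hjb : j < b := by
          rw [hb, if_neg hnq]
          exact Nat.lt_pow_of_log_lt (by norm_num) hlog2
        refine hdep j _ _ fun i hi => ?_
        unfold mix
        rw [if_pos (by omega)]
      have hinner : ∀ c₀ : Fin m → Ω,
          avg (fun c => ∏ j ∈ G, (W j (mix b c₀ c)) ^ (2 / 2 ^ q : ℝ)) ≤
            Real.exp (∑ j ∈ G, kap q j * d j) := by
        intro c₀
        rcases G.eq_empty_or_nonempty with hGe | hGne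
        · rw [hGe]; simp [avg_const]
        have hqn : q ≤ n := by
          obtain ⟨j, hj⟩ := hGne
          simp only [hG, Finset.mem_filter, Finset.mem_Ico] at hj
          have hj0 : j ≠ 0 := by
            have : 0 < 2 ^ q := by positivity
            omega
          rw [← hj.2]
          exact (Nat.le_log_iff_pow_le (by norm_num) hj0).mpr hj.1.1
        have hcard : (G.card : ℝ) ≤ 2 ^ n := by
          have hsub : G ⊆ Finset.Ico (2 ^ n) (2 ^ (n + 1)) := by
            intro j hj
            simp only [hG, Finset.mem_filter, Finset.mem_Ico] at hj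
            have hj0 : j ≠ 0 := by
              have : 0 < 2 ^ q := by positivity
              omega
            rw [Finset.mem_Ico]
            constructor
            · rw [← hj.2]; exact Nat.pow_log_le_self 2 hj0
            · rw [← hj.2]; exact Nat.lt_pow_succ_log_self (by norm_num) j
          have h1 := Finset.card_le_card hsub
          rw [Nat.card_Ico] at h1
          have h2 : 2 ^ (n + 1) - 2 ^ n = 2 ^ n := by rw [pow_succ]; omega
          rw [h2] at h1
          exact_mod_cast h1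
        have hrw : (fun c => ∏ j ∈ G, (W j (mix b c₀ c)) ^ (2 / 2 ^ q : ℝ)) =
            fun c => ∏ j ∈ G, ((W j (mix b c₀ c)) ^ (2 ^ (n + 1 - q))) ^ ((1 / 2 : ℝ) ^ n) := by
          funext c
          refine Finset.prod_congr rfl fun j _ => ?_
          rw [← Real.rpow_natCast (W j (mix b c₀ c)) (2 ^ (n + 1 - q)), ← Real.rpow_mul (hW0 _ _)]
          congr 1
          push_cast
          have h3 : (2 : ℝ) ^ (n + 1 - q) * 2 ^ q = 2 ^ (n + 1) := by
            rw [← pow_add]; congr 1; omega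
          have h2q : (2 : ℝ) ^ q ≠ 0 := by positivity
          rw [one_div, inv_pow, ← div_eq_mul_inv, div_eq_div_iff h2q (by positivity), h3]
          ring
        rw [hrw]
        refine (avg_prod_rpow_le G (fun j c => (W j (mix b c₀ c)) ^ (2 ^ (n + 1 - q)))
          (fun j _ c => pow_nonneg (hW0 _ _) _) (fun _ => (1 / 2 : ℝ) ^ n)
          (fun _ _ => by positivity) ?_).trans ?_
        · rw [Finset.sum_const, nsmul_eq_mul]
          calc (G.card : ℝ) * (1 / 2) ^ n ≤ 2 ^ n * (1 / 2) ^ n := by gcongr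
            _ = 1 := by rw [← mul_pow]; norm_num
        · rw [Real.exp_sum]
          refine Finset.prod_le_prod (fun j _ => Real.rpow_nonneg
            (avg_nonneg fun c => pow_nonneg (hW0 _ _) _) _) fun j hj => ?_
          simp only [hG, Finset.mem_filter, Finset.mem_Ico] at hj
          have hj0 : j ≠ 0 := by
            have : 0 < 2 ^ q := by positivity
            omega
          have hbj : b ≤ j := by
            rw [hb]
            split
            · exact Nat.zero_le _
            · have : 2 ^ n ≤ j := by rw [← hj.2]; exact Nat.pow_log_le_self 2 hj0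
              exact (Nat.pow_le_pow_right (by norm_num) (Nat.sub_le n 1)).trans this
          have h4 := hwin j b (2 ^ (n + 1 - q)) hbj hj.1.2 c₀
          have h5 : kap q j * d j =
              (d j * (2 : ℝ) ^ (2 ^ (n + 1 - q)) * (3 / 4) ^ (j - b)) * (1 / 2 : ℝ) ^ n := by
            unfold kap
            rw [hj.2, ← hb]
            ring
          rw [h5, Real.exp_mul]
          exact Real.rpow_le_rpow (avg_nonneg fun c => pow_nonneg (hW0 _ _) _) h4 (by positivity)
      rw [hun]
      have hprod : (fun c : Fin m → Ω => ∏ j ∈ cls q m ε n ∪ G, (W j c) ^ (2 / 2 ^ q : ℝ)) =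
          fun c => (∏ j ∈ cls q m ε n, (W j c) ^ (2 / 2 ^ q : ℝ)) *
            ∏ j ∈ G, (W j c) ^ (2 / 2 ^ q : ℝ) := by
        funext c
        rw [Finset.prod_union hdisj]
      rw [hprod, Finset.sum_union hdisj, Real.exp_add, avg_mix b]
      have h6 : ∀ c₀ : Fin m → Ω,
          avg (fun c => (∏ j ∈ cls q m ε n, (W j (mix b c₀ c)) ^ (2 / 2 ^ q : ℝ)) *
            ∏ j ∈ G, (W j (mix b c₀ c)) ^ (2 / 2 ^ q : ℝ)) ≤
          (∏ j ∈ cls q m ε n, (W j c₀) ^ (2 / 2 ^ q : ℝ)) * Real.exp (∑ j ∈ G, kap q j * d j) := by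
        intro c₀
        have h7 : (fun c => (∏ j ∈ cls q m ε n, (W j (mix b c₀ c)) ^ (2 / 2 ^ q : ℝ)) *
            ∏ j ∈ G, (W j (mix b c₀ c)) ^ (2 / 2 ^ q : ℝ)) =
            fun c => (∏ j ∈ cls q m ε n, (W j c₀) ^ (2 / 2 ^ q : ℝ)) *
            ∏ j ∈ G, (W j (mix b c₀ c)) ^ (2 / 2 ^ q : ℝ) := by
          funext c
          congr 1
          exact Finset.prod_congr rfl fun j hj => by rw [hF c₀ c j hj]
        rw [h7, avg_mul_left]
        exact mul_le_mul_of_nonneg_left (hinner c₀)
          (Finset.prod_nonneg fun j _ => Real.rpow_nonneg (hW0 _ _) _)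
      refine (avg_le_avg h6).trans ?_
      rw [avg_mul_right]
      exact mul_le_mul_of_nonneg_right ih (Real.exp_pos _).le
    · have : cls q m ε (n + 1) = cls q m ε n := by
        unfold cls
        ext j
        simp only [Finset.mem_filter, Finset.mem_Ico]
        constructor
        · rintro ⟨h1, h2, h3⟩
          have : Nat.log 2 j ≠ n := by
            intro h; rw [h] at h3; exact hn h3
          exact ⟨h1, by omega, h3⟩
        · rintro ⟨h1, h2, h3⟩
          exact ⟨h1, by omega, h3⟩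
      rw [this]
      exact ih

theorem holder_tail {m : ℕ} {Ω : Type} [Fintype Ω] [Nonempty Ω] (q : ℕ) (hq : 1 ≤ q)
    (W : ℕ → (Fin m → Ω) → ℝ) (hW1 : ∀ j c, 1 ≤ W j c)
    (hdep : ∀ j (c c' : Fin m → Ω), (∀ i : Fin m, i.val < j → c i = c' i) → W j c = W j c')
    (d : ℕ → ℝ) (hd : ∀ j, 0 ≤ d j)
    (hwin : ∀ j b u : ℕ, b ≤ j → j < m → ∀ c₀ : Fin m → Ω,
      avg (fun c => (W j (mix b c₀ c)) ^ u) ≤
        Real.exp (d j * (2 : ℝ) ^ u * (3 / 4) ^ (j - b))) :
    avg (fun c => ∏ j ∈ Finset.Ico 1 m, (W j c) ^ (1 / (2 ^ (q + 1) - 1) : ℝ)) ≤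
      (∏ j ∈ Finset.Ico 1 (2 ^ q), (avg (W j)) ^ (1 / (2 ^ (q + 1) - 1) : ℝ)) *
        Real.exp ((1 / (2 ^ (q + 1) - 1) : ℝ) * (2 ^ q / 2) *
          ∑ j ∈ Finset.Ico (2 ^ q) m, kap q j * d j) := by
  classical
  have hW0 : ∀ j c, 0 ≤ W j c := fun j c => zero_le_one.trans (hW1 j c)
  have hQ1 : (1 : ℝ) ≤ 2 ^ q := one_le_pow₀ (by norm_num)
  have hQ0 : (0 : ℝ) < 2 ^ q := by positivity
  have h2Q : (2 : ℝ) ^ (q + 1) = 2 * 2 ^ q := by rw [pow_succ]; ring
  have hden : (0 : ℝ) < 2 ^ (q + 1) - 1 := by rw [h2Q]; linarith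
  set θ : ℝ := 1 / (2 ^ (q + 1) - 1) with hθ
  have hθ0 : 0 < θ := by positivity
  have hθ1 : θ * (2 * 2 ^ q - 1) = 1 := by
    rw [hθ, h2Q, one_div, inv_mul_cancel₀]
    linarith
  set T : (Fin m → Ω) → ℝ := fun c => ∏ j ∈ Finset.Ico (2 ^ q) m, W j c with hT
  have hT0 : ∀ c, 0 ≤ T c := fun c => Finset.prod_nonneg fun j _ => hW0 j c
  -- the tail
  have htail : avg (fun c => (T c) ^ (1 / 2 ^ q : ℝ)) ≤
      Real.exp ((1 / 2) * ∑ j ∈ Finset.Ico (2 ^ q) m, kap q j * d j) := by
    have hsplit : ∀ g : ℕ → ℝ, (∏ j ∈ Finset.Ico (2 ^ q) m, g j) =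
        ∏ e ∈ Finset.range 2, ∏ j ∈ cls q m e (m + 1), g j := by
      intro g
      rw [Finset.prod_range_succ, Finset.prod_range_one,
        ← Finset.prod_filter_mul_prod_filter_not (Finset.Ico (2 ^ q) m)
          (fun j => Nat.log 2 j % 2 = 0)]
      congr 1
      · refine Finset.prod_congr ?_ fun _ _ => rfl
        ext j
        simp only [cls, Finset.mem_filter, Finset.mem_Ico]
        have := Nat.log_le_self 2 j
        constructor
        · rintro ⟨h1, h2⟩; exact ⟨h1, by omega, h2⟩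
        · rintro ⟨h1, h2, h3⟩; exact ⟨h1, h3⟩
      · refine Finset.prod_congr ?_ fun _ _ => rfl
        ext j
        simp only [cls, Finset.mem_filter, Finset.mem_Ico]
        have := Nat.log_le_self 2 j
        constructor
        · rintro ⟨h1, h2⟩; exact ⟨h1, by omega, by omega⟩
        · rintro ⟨h1, h2, h3⟩; exact ⟨h1, by omega⟩
    have hsplit' : ∀ g : ℕ → ℝ, (∑ j ∈ Finset.Ico (2 ^ q) m, g j) =
        ∑ e ∈ Finset.range 2, ∑ j ∈ cls q m e (m + 1), g j := by
      intro g
      rw [Finset.sum_range_succ, Finset.sum_range_one,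
        ← Finset.sum_filter_add_sum_filter_not (Finset.Ico (2 ^ q) m)
          (fun j => Nat.log 2 j % 2 = 0)]
      congr 1
      · refine Finset.sum_congr ?_ fun _ _ => rfl
        ext j
        simp only [cls, Finset.mem_filter, Finset.mem_Ico]
        have := Nat.log_le_self 2 j
        constructor
        · rintro ⟨h1, h2⟩; exact ⟨h1, by omega, h2⟩
        · rintro ⟨h1, h2, h3⟩; exact ⟨h1, h3⟩
      · refine Finset.sum_congr ?_ fun _ _ => rfl
        ext j
        simp only [cls, Finset.mem_filter, Finset.mem_Ico]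
        have := Nat.log_le_self 2 j
        constructor
        · rintro ⟨h1, h2⟩; exact ⟨h1, by omega, by omega⟩
        · rintro ⟨h1, h2, h3⟩; exact ⟨h1, by omega⟩
    have hrw : (fun c => (T c) ^ (1 / 2 ^ q : ℝ)) = fun c =>
        ∏ e ∈ Finset.range 2, (∏ j ∈ cls q m e (m + 1), (W j c) ^ (2 / 2 ^ q : ℝ)) ^ (1 / 2 : ℝ) := by
      funext c
      rw [hT]
      simp only
      rw [← Real.finsetProd_rpow _ _ (fun j _ => hW0 j c), hsplit]
      refine Finset.prod_congr rfl fun e _ => ?_
      rw [← Real.finsetProd_rpow _ _ (fun j _ => Real.rpow_nonneg (hW0 j c) _)]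
      refine Finset.prod_congr rfl fun j _ => ?_
      rw [← Real.rpow_mul (hW0 j c)]
      congr 1
      ring
    rw [hrw]
    refine (avg_prod_rpow_le (Finset.range 2)
      (fun e c => ∏ j ∈ cls q m e (m + 1), (W j c) ^ (2 / 2 ^ q : ℝ))
      (fun e _ c => Finset.prod_nonneg fun j _ => Real.rpow_nonneg (hW0 j c) _)
      (fun _ => (1 / 2 : ℝ)) (fun _ _ => by norm_num) (by norm_num)).trans ?_
    rw [hsplit', Finset.mul_sum, Real.exp_sum]
    refine Finset.prod_le_prod (fun e _ => Real.rpow_nonneg (avg_nonneg fun c =>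
      Finset.prod_nonneg fun j _ => Real.rpow_nonneg (hW0 j c) _) _) fun e _ => ?_
    rw [mul_comm (1 / 2 : ℝ), Real.exp_mul]
    exact Real.rpow_le_rpow (avg_nonneg fun c =>
      Finset.prod_nonneg fun j _ => Real.rpow_nonneg (hW0 j c) _)
      (class_bound q W hW1 hdep d hwin e (m + 1)) (by norm_num)
  -- the combination
  have hpt : ∀ c : Fin m → Ω, ∏ j ∈ Finset.Ico 1 m, (W j c) ^ θ ≤
      ∏ j ∈ insert 0 (Finset.Ico 1 (2 ^ q)),
        (if j = 0 then (T c) ^ (1 / 2 ^ q : ℝ) else W j c) ^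
          (if j = 0 then 2 ^ q * θ else θ) := by
    intro c
    rw [Finset.prod_insert (by simp)]
    have h1 : (∏ j ∈ Finset.Ico 1 (2 ^ q), (if j = 0 then (T c) ^ (1 / 2 ^ q : ℝ) else W j c) ^
        (if j = 0 then 2 ^ q * θ else θ)) = ∏ j ∈ Finset.Ico 1 (2 ^ q), (W j c) ^ θ := by
      refine Finset.prod_congr rfl fun j hj => ?_
      have : j ≠ 0 := by rw [Finset.mem_Ico] at hj; omega
      simp [this]
    rw [h1]
    simp only [if_true]
    rw [← Real.rpow_mul (hT0 c)]
    have h2 : (1 / 2 ^ q : ℝ) * (2 ^ q * θ) = θ := by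
      field_simp
    rw [h2, hT]
    simp only
    rw [← Real.finsetProd_rpow _ _ (fun j _ => hW0 j c)]
    have h3 : Disjoint (Finset.Ico (2 ^ q) m) (Finset.Ico 1 (2 ^ q)) := by
      rw [Finset.disjoint_left]
      intro j hj1 hj2
      rw [Finset.mem_Ico] at hj1 hj2
      omega
    rw [← Finset.prod_union h3]
    refine prod_le_prod_subset_real ?_ _ fun j _ => Real.one_le_rpow (hW1 j c) hθ0.le
    intro j hj
    rw [Finset.mem_Ico] at hj
    rw [Finset.mem_union, Finset.mem_Ico, Finset.mem_Ico]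
    by_cases h : j < 2 ^ q
    · right; exact ⟨hj.1, h⟩
    · left; exact ⟨by omega, hj.2⟩
  refine (avg_le_avg hpt).trans ?_
  refine (avg_prod_rpow_le (insert 0 (Finset.Ico 1 (2 ^ q)))
    (fun j c => if j = 0 then (T c) ^ (1 / 2 ^ q : ℝ) else W j c)
    (fun j _ c => by
      by_cases h : j = 0
      · simp only [h, if_true]; exact Real.rpow_nonneg (hT0 c) _
      · simp only [h, if_false]; exact hW0 j c)
    (fun j => if j = 0 then 2 ^ q * θ else θ)
    (fun j _ => by by_cases h : j = 0 <;> simp [h] <;> positivity) ?_).trans ?_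
  · rw [Finset.sum_insert (by simp)]
    have h1 : (∑ j ∈ Finset.Ico 1 (2 ^ q), (if j = 0 then 2 ^ q * θ else θ)) =
        (2 ^ q - 1) * θ := by
      rw [Finset.sum_congr rfl (g := fun _ => θ)]
      · rw [Finset.sum_const, Nat.card_Ico, nsmul_eq_mul, Nat.cast_sub Nat.one_le_two_pow]
        push_cast
        ring
      · intro j hj
        have : j ≠ 0 := by rw [Finset.mem_Ico] at hj; omega
        simp [this]
    rw [h1]
    simp only [if_true]
    nlinarith
  · rw [Finset.prod_insert (by simp)]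
    have h1 : (∏ j ∈ Finset.Ico 1 (2 ^ q),
        (avg (fun c => if j = 0 then (T c) ^ (1 / 2 ^ q : ℝ) else W j c)) ^
        (if j = 0 then 2 ^ q * θ else θ)) = ∏ j ∈ Finset.Ico 1 (2 ^ q), (avg (W j)) ^ θ := by
      refine Finset.prod_congr rfl fun j hj => ?_
      have : j ≠ 0 := by rw [Finset.mem_Ico] at hj; omega
      simp [this]
    rw [h1, mul_comm]
    simp only [if_true]
    refine mul_le_mul_of_nonneg_left ?_
      (Finset.prod_nonneg fun j _ => Real.rpow_nonneg (avg_nonneg fun c => hW0 j c) _)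
    have h2 : θ * (2 ^ q / 2) * ∑ j ∈ Finset.Ico (2 ^ q) m, kap q j * d j =
        ((1 / 2) * ∑ j ∈ Finset.Ico (2 ^ q) m, kap q j * d j) * (2 ^ q * θ) := by ring
    rw [h2, Real.exp_mul]
    exact Real.rpow_le_rpow (avg_nonneg fun c => Real.rpow_nonneg (hT0 c) _) htail (by positivity)

end Crest.Agent.R155
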