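import Crest.Agent.R155.HolderTail

/-!
# PIECE KAPSUM (row 155): numerical bounds of the tail constants (pure real arithmetic)

`q = 4`: `8 ∑_{j ≥ 16} kap 4 j ≤ 0.26`: group `i = log2 j`:
`i = 4` : `8/16 · 2^2 · ∑_{j≥16} (3/4)^j = 2·4·(3/4)^16 = 0.0802`
`i = 5` : `8/32 · 2^4 · ∑_{j≥32} (3/4)^{j-16} = 4·4·(3/4)^16 = 0.1604`
`i = 6` : `8/64 · 2^8 · 4 (3/4)^32 = 0.0129`;  `i = 7`: `8/128·2^16·4·(3/4)^64 = 1.7e-4`;
`i ≥ 8`: `8·2^{-i} 2^{2^{i-3}} 4 (3/4)^{2^{i-1}} = 32·2^{-i} (2^{1/4}·3/4)^{2^{i-1}} ≤ 32·2^{-i} (9/10)^{2^{i-1}}`.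
`q = 5`: `16 ∑_{j ≥ 32} kap 5 j ≤ 0.0025` (`i=5`: `2·4·(3/4)^32 = 8.04e-4`, `i=6`:
`16/64·2^4·4·(3/4)^32 = 1.607e-3`, `i = 7`: `16/128·2^8·4·(3/4)^64 = 1.3e-6`, then negligible).
-/

set_option autoImplicit false

namespace Crest.Agent.R155

namespace KapSumaux

lemma geom_le (n : ℕ) : ∑ k ∈ Finset.range n, (3 / 4 : ℝ) ^ k ≤ 4 := by
  have h : ∑ k ∈ Finset.range n, (3 / 4 : ℝ) ^ k = 4 - 4 * (3 / 4) ^ n := by
    induction n with
    | zero => simp
    | succ n ih => rw [Finset.sum_range_succ, ih, pow_succ]; ring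
  rw [h]
  have : (0:ℝ) ≤ (3 / 4) ^ n := by positivity
  linarith

/-- the sum over one dyadic group -/
lemma group (q i b : ℕ) (hb : b = if i = q then 0 else 2 ^ (i - 1)) (hi : 1 ≤ i) :
    ∑ j ∈ Finset.Ico (2 ^ i) (2 ^ (i + 1)), kap q j ≤
      (1 / 2 : ℝ) ^ i * (2 : ℝ) ^ (2 ^ (i + 1 - q)) * (3 / 4 : ℝ) ^ (2 ^ i - b) * 4 := by
  have hb2 : b ≤ 2 ^ i := by
    rw [hb]
    split_ifs
    · exact Nat.zero_le _
    · exact Nat.pow_le_pow_right (by norm_num) (Nat.sub_le _ _)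
  have h1 : ∀ j ∈ Finset.Ico (2 ^ i) (2 ^ (i + 1)), kap q j =
      (1 / 2 : ℝ) ^ i * (2 : ℝ) ^ (2 ^ (i + 1 - q)) * (3 / 4 : ℝ) ^ (2 ^ i - b) *
        (3 / 4 : ℝ) ^ (j - 2 ^ i) := by
    intro j hj
    rw [Finset.mem_Ico] at hj
    have hl : Nat.log 2 j = i := Nat.log_eq_of_pow_le_of_lt_pow hj.1 hj.2
    unfold kap
    rw [hl, ← hb, mul_assoc _ ((3 / 4 : ℝ) ^ (2 ^ i - b)), ← pow_add]
    congr 2
    omega
  rw [Finset.sum_congr rfl h1, ← Finset.mul_sum]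
  apply mul_le_mul_of_nonneg_left _ (by positivity)
  rw [Finset.sum_Ico_eq_sum_range]
  simp only [Nat.add_sub_cancel_left]
  exact geom_le _

lemma mono (q a m n : ℕ) (h : m ≤ n) :
    ∑ j ∈ Finset.Ico a m, kap q j ≤ ∑ j ∈ Finset.Ico a n, kap q j := by
  apply Finset.sum_le_sum_of_subset_of_nonneg
  · exact Finset.Ico_subset_Ico_right h
  · intro j _ _
    exact kap_nonneg q j

lemma split (q a i : ℕ) (h : a ≤ 2 ^ i) :
    ∑ j ∈ Finset.Ico a (2 ^ (i + 1)), kap q j =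
      ∑ j ∈ Finset.Ico a (2 ^ i), kap q j +
        ∑ j ∈ Finset.Ico (2 ^ i) (2 ^ (i + 1)), kap q j := by
  rw [Finset.sum_Ico_consecutive _ h (Nat.pow_le_pow_right (by norm_num) (by omega))]

/-- groups `i ≥ q + 1`, closed form -/
lemma group' (q i : ℕ) (hq : 3 ≤ q + 1) (hi : q < i) :
    ∑ j ∈ Finset.Ico (2 ^ i) (2 ^ (i + 1)), kap q j ≤
      (1 / 2 : ℝ) ^ i * (2 * (3 / 4 : ℝ) ^ (2 ^ (q - 2))) ^ (2 ^ (i + 1 - q)) * 4 := by
  refine (group q i (2 ^ (i - 1)) (by rw [if_neg (by omega)]) (by omega)).trans ?_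
  apply le_of_eq
  congr 1
  rw [mul_pow, ← pow_mul, mul_assoc]
  congr 2
  rw [← pow_add]
  congr 1
  have h1 : q - 2 + (i + 1 - q) = i - 1 := by omega
  rw [h1]
  have h2 : 2 ^ i = 2 * 2 ^ (i - 1) := by
    rw [← pow_succ']
    congr 1
    omega
  omega

end KapSumaux

open KapSumaux

theorem kap_four (m : ℕ) : 8 * ∑ j ∈ Finset.Ico 16 m, kap 4 j ≤ 26 / 100 := by
  have h4 := group 4 4 0 (by simp) (by norm_num)
  have h5 := group' 4 5 (by norm_num) (by norm_num)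
  have h6 := group' 4 6 (by norm_num) (by norm_num)
  have h7 := group' 4 7 (by norm_num) (by norm_num)
  have s4 := split 4 16 4 (by norm_num)
  have s5 := split 4 16 5 (by norm_num)
  have s6 := split 4 16 6 (by norm_num)
  have s7 := split 4 16 7 (by norm_num)
  have key : ∀ I : ℕ, ∑ j ∈ Finset.Ico 16 (2 ^ (8 + I)), kap 4 j +
      (1 / 100000) * 2 * (1 / 2 : ℝ) ^ (8 + I) ≤ 26 / 800 := by
    intro I
    induction I with
    | zero =>
      have e0 : ∑ j ∈ Finset.Ico 16 (2 ^ 4), kap 4 j = 0 := by simp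
      simp only [Nat.reduceAdd, Nat.reduceSub, Nat.reducePow, Finset.Ico_self, Finset.sum_empty,
        add_zero, zero_add] at *
      rw [s7, s6, s5]
      norm_num at h4 h5 h6 h7 ⊢
      linarith
    | succ I ih =>
      have hg := group' 4 (8 + I) (by norm_num) (by omega)
      have hs := split 4 16 (8 + I) (by
        calc 16 ≤ 2 ^ 8 := by norm_num
          _ ≤ 2 ^ (8 + I) := Nat.pow_le_pow_right (by norm_num) (by omega))
      rw [show 8 + (I + 1) = 8 + I + 1 from by ring, hs, pow_succ (1 / 2 : ℝ)]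
      have hx : (2 * (3 / 4 : ℝ) ^ (2 ^ (4 - 2))) ^ (2 ^ (8 + I + 1 - 4)) ≤ 1 / 400000 := by
        calc (2 * (3 / 4 : ℝ) ^ (2 ^ (4 - 2))) ^ (2 ^ (8 + I + 1 - 4))
            ≤ (2 * (3 / 4 : ℝ) ^ (2 ^ (4 - 2))) ^ 32 := by
              apply pow_le_pow_of_le_one (by positivity) (by norm_num)
              calc 32 = 2 ^ 5 := by norm_num
                _ ≤ 2 ^ (8 + I + 1 - 4) := Nat.pow_le_pow_right (by norm_num) (by omega)
          _ ≤ 1 / 400000 := by norm_num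
      have h2 : (0:ℝ) < (1 / 2) ^ (8 + I) := by positivity
      have hg2 : ∑ j ∈ Finset.Ico (2 ^ (8 + I)) (2 ^ (8 + I + 1)), kap 4 j ≤
          (1 / 2 : ℝ) ^ (8 + I) * (1 / 400000) * 4 := by
        refine hg.trans ?_
        gcongr
      linarith
  have hm : ∑ j ∈ Finset.Ico 16 m, kap 4 j ≤ ∑ j ∈ Finset.Ico 16 (2 ^ (8 + m)), kap 4 j := by
    apply mono
    exact ((Nat.lt_two_pow_self (n := m)).le).trans (Nat.pow_le_pow_right (by norm_num) (by omega))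
  have hk := key m
  have hp : (0:ℝ) < (1 / 2) ^ (8 + m) := by positivity
  linarith

theorem kap_five (m : ℕ) : 16 * ∑ j ∈ Finset.Ico 32 m, kap 5 j ≤ 25 / 10000 := by
  have h5 := group 5 5 0 (by simp) (by norm_num)
  have h6 := group' 5 6 (by norm_num) (by norm_num)
  have h7 := group' 5 7 (by norm_num) (by norm_num)
  have s5 := split 5 32 5 (by norm_num)
  have s6 := split 5 32 6 (by norm_num)
  have s7 := split 5 32 7 (by norm_num)
  have key : ∀ I : ℕ, ∑ j ∈ Finset.Ico 32 (2 ^ (8 + I)), kap 5 j +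
      (1 / 100000) * 2 * (1 / 2 : ℝ) ^ (8 + I) ≤ 25 / 160000 := by
    intro I
    induction I with
    | zero =>
      simp only [Nat.reduceAdd, Nat.reduceSub, Nat.reducePow, Finset.Ico_self, Finset.sum_empty,
        add_zero, zero_add] at *
      rw [s7, s6]
      norm_num at h5 h6 h7 ⊢
      linarith
    | succ I ih =>
      have hg := group' 5 (8 + I) (by norm_num) (by omega)
      have hs := split 5 32 (8 + I) (by
        calc 32 ≤ 2 ^ 8 := by norm_num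
          _ ≤ 2 ^ (8 + I) := Nat.pow_le_pow_right (by norm_num) (by omega))
      rw [show 8 + (I + 1) = 8 + I + 1 from by ring, hs, pow_succ (1 / 2 : ℝ)]
      have hx : (2 * (3 / 4 : ℝ) ^ (2 ^ (5 - 2))) ^ (2 ^ (8 + I + 1 - 5)) ≤ 1 / 400000 := by
        calc (2 * (3 / 4 : ℝ) ^ (2 ^ (5 - 2))) ^ (2 ^ (8 + I + 1 - 5))
            ≤ (2 * (3 / 4 : ℝ) ^ (2 ^ (5 - 2))) ^ 16 := by
              apply pow_le_pow_of_le_one (by positivity) (by norm_num)
              calc 16 = 2 ^ 4 := by norm_num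
                _ ≤ 2 ^ (8 + I + 1 - 5) := Nat.pow_le_pow_right (by norm_num) (by omega)
          _ ≤ 1 / 400000 := by norm_num
      have h2 : (0:ℝ) < (1 / 2) ^ (8 + I) := by positivity
      have hg2 : ∑ j ∈ Finset.Ico (2 ^ (8 + I)) (2 ^ (8 + I + 1)), kap 5 j ≤
          (1 / 2 : ℝ) ^ (8 + I) * (1 / 400000) * 4 := by
        refine hg.trans ?_
        gcongr
      linarith
  have hm : ∑ j ∈ Finset.Ico 32 m, kap 5 j ≤ ∑ j ∈ Finset.Ico 32 (2 ^ (8 + m)), kap 5 j := by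
    apply mono
    exact ((Nat.lt_two_pow_self (n := m)).le).trans (Nat.pow_le_pow_right (by norm_num) (by omega))
  have hk := key m
  have hp : (0:ℝ) < (1 / 2) ^ (8 + m) := by positivity
  linarith

end Crest.Agent.R155
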