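import Crest.Agent.R155.Density

/-!
# PIECE OCC (row 155): exponential moments of the number of doubly occupied pairs

## Proof
(1) `occ_subset`: Let `R = s_r * … * s_1` be a product of independent layers in directions `i_1..i_r`
(`s_1` acts first) and `ρ_t : Pos m → ℝ` defined by `ρ_0 = 1_A`, `ρ_t(p) = ½(ρ_{t-1}(p) + ρ_{t-1}(flip i_t p))`.
Then for every finite set `S`: `P(S ⊆ R_t(A)) ≤ ∏_{p∈S} ρ_t(p)`.  Induction on `t`:
`P(S ⊆ R_t A) = avg_c P(s_c S ⊆ R_{t-1} A) ≤ avg_c ∏_{p∈S} ρ_{t-1}(s_c p) ≤ ∏_{p∈S} ρ_t(p)`, the last
step pair by pair (coins of different pairs `{p, flip p}` are independent): if `S` contains exactly one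
element of the pair the factor is `½(ρ(p)+ρ(flip p))`, if both: `ρ(p)ρ(flip p) ≤ (½(ρ(p)+ρ(flip p)))²`.
(2) If all the directions occur among the layers then `ρ_r = |A|/2^m` constant (after direction `i` the
function no longer depends on the bit `i`, later layers keep this, and the total mass is preserved).
The map of this piece, `occ cin' (net cin cout m A) j` contains the out layers `0..m-1` of the first pass,
so all directions occur.  Hence `P(S ⊆ occ …) ≤ (k/2^m)^{|S|}`, `k = |A|`.
(3) With `D` = `dbl j (occ …)` and the `2^{m-1}` pairs `π = {x, flip j x}` (`x j = false`):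
`exp(λ D) = ∏_π (1 + (e^λ - 1) 1[π ⊆ occ])`, expand over sets of pairs:
`E exp(λD) ≤ ∑_{𝒟} (e^λ-1)^{|𝒟|} (k/2^m)^{2|𝒟|} = (1 + (e^λ-1)(k/2^m)²)^{2^{m-1}} ≤ exp((e^λ-1) k²/(2·2^m))`.
-/

set_option autoImplicit false

namespace Crest.Agent.R155

namespace Occaux

open Densityaux

/-- expectation of `f` of the product of independent layers in the directions `L` -/
noncomputable def EL {m : ℕ} : List (Fin m) → (Equiv.Perm (Pos m) → ℝ) → ℝ
  | [], f => f 1
  | i :: L, f => avg (fun c : Coin m => EL L (fun g => f (sw i c * g)))

theorem avg_EL {m : ℕ} (L : List (Fin m)) (hL : L.Nodup) (f : Equiv.Perm (Pos m) → ℝ) :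
    avg (fun cin : Fin m → Coin m => f ((L.map (fun i => sw i (cin i))).prod)) = EL L f := by
  induction L generalizing f with
  | nil =>
    simp only [List.map_nil, List.prod_nil, EL]
    exact avg_const _
  | cons i L ih =>
    rw [List.nodup_cons] at hL
    rw [resample i, EL]
    congr 1
    funext c
    rw [← ih hL.2]
    congr 1
    funext cin
    rw [List.map_cons, List.prod_cons, Function.update_self]
    congr 3
    apply List.map_congr_left
    intro l hl
    rw [Function.update_of_ne]
    rintro rfl
    exact hL.1 hl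

theorem EL_append {m : ℕ} (L L' : List (Fin m)) (f : Equiv.Perm (Pos m) → ℝ) :
    EL (L ++ L') f = EL L (fun g => EL L' (fun h => f (g * h))) := by
  induction L generalizing f with
  | nil =>
    rw [List.nil_append, EL]
    simp
  | cons i L ih =>
    rw [List.cons_append, EL, EL]
    congr 1
    funext c
    rw [ih]
    simp only [mul_assoc]

theorem net_eq {m : ℕ} (cin cout : Fin m → Coin m) (j : ℕ) (hj : j ≤ m) :
    net cin cout j = (((lv m 0 j).reverse).map (fun i => sw i (cout i))).prod *
      ((lv m 0 j).map (fun i => sw i (cin i))).prod := by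
  induction j with
  | zero =>
    rw [lv_self]
    simp [net]
  | succ j ih =>
    have hj' : j < m := hj
    rw [net, dif_pos hj', ih hj'.le, lv_succ (Nat.zero_le _) hj']
    simp [mul_assoc]

/-- the densities -/
noncomputable def rho {m : ℕ} (A : Finset (Pos m)) : List (Fin m) → Pos m → ℝ
  | [], p => if p ∈ A then 1 else 0
  | i :: L, p => (rho A L p + rho A L (flip i p)) / 2

theorem rho_nonneg {m : ℕ} (A : Finset (Pos m)) (L : List (Fin m)) (p : Pos m) :
    0 ≤ rho A L p := by
  induction L generalizing p with
  | nil => rw [rho]; split <;> norm_num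
  | cons i L ih =>
    rw [rho]
    have := ih p
    have := ih (flip i p)
    positivity

theorem flip_comm {m : ℕ} (i l : Fin m) (p : Pos m) : flip i (flip l p) = flip l (flip i p) := by
  funext k
  by_cases h1 : k = i
  · subst h1
    by_cases h2 : k = l
    · subst h2; rfl
    · simp [h2]
  · by_cases h2 : k = l
    · subst h2
      simp [h1]
    · simp [h1, h2]

theorem rho_flip {m : ℕ} (A : Finset (Pos m)) (L : List (Fin m)) (l : Fin m) (hl : l ∈ L)
    (p : Pos m) : rho A L (flip l p) = rho A L p := by
  induction L generalizing p with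
  | nil => simp at hl
  | cons i L ih =>
    rw [rho, rho]
    by_cases h : l = i
    · subst h
      rw [flip_flip, add_comm]
    · have hl' : l ∈ L := by
        rcases List.mem_cons.1 hl with h' | h'
        · exact absurd h' h
        · exact h'
      rw [flip_comm, ih hl', ih hl']

theorem rho_sum {m : ℕ} (A : Finset (Pos m)) (L : List (Fin m)) :
    ∑ p, rho A L p = A.card := by
  induction L with
  | nil =>
    simp only [rho]
    simp
  | cons i L ih =>
    simp only [rho]
    rw [← Finset.sum_div, Finset.sum_add_distrib]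
    have hinv : Function.Involutive (flip i : Pos m → Pos m) := flip_flip i
    have h2 : ∑ p, rho A L (flip i p) = ∑ p, rho A L p :=
      Equiv.sum_comp (hinv.toPerm _) (rho A L)
    rw [h2, ih]
    ring

theorem const_of_flip {m : ℕ} (f : Pos m → ℝ) (h : ∀ l p, f (flip l p) = f p) (p q : Pos m) :
    f p = f q := by
  have key : ∀ s : Finset (Fin m), f (fun i => if i ∈ s then q i else p i) = f p := by
    intro s
    induction s using Finset.induction_on with
    | empty => simp
    | insert l s hl ih =>
      rw [← ih]
      by_cases hpq : p l = q l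
      · congr 1
        funext i
        by_cases hi : i = l
        · subst hi; simp [hl, hpq]
        · simp [hi]
      · rw [← h l]
        congr 1
        funext i
        by_cases hi : i = l
        · subst hi
          simp only [flip_apply_self, Finset.mem_insert, true_or, if_true, if_neg hl]
          cases hp : p i <;> cases hq : q i <;> simp_all
        · simp [hi]
  have := key Finset.univ
  simpa using this.symm

theorem rho_const {m : ℕ} (A : Finset (Pos m)) (L : List (Fin m)) (hL : ∀ l, l ∈ L) (p : Pos m) :
    rho A L p = (A.card : ℝ) / 2 ^ m := by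
  have h1 : ∀ q, rho A L q = rho A L p := fun q =>
    const_of_flip _ (fun l p => rho_flip A L l (hL l) p) q p
  have h2 := rho_sum A L
  simp_rw [h1] at h2
  rw [Finset.sum_const, Finset.card_univ, nsmul_eq_mul] at h2
  have h3 : (Fintype.card (Pos m) : ℝ) = 2 ^ m := by
    simp
  rw [h3] at h2
  rw [← h2]
  field_simp

theorem avg_pi {m : ℕ} (h : Pos m → Bool → ℝ) :
    avg (fun c : Coin m => ∏ q, h q (c q)) = ∏ q, ((h q false + h q true) / 2) := by
  unfold avg
  have h1 := Finset.prod_univ_sum (fun _ : Pos m => (Finset.univ : Finset Bool)) h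
  rw [Fintype.piFinset_univ] at h1
  rw [← h1]
  rw [Finset.prod_div_distrib, Finset.prod_const]
  congr 1
  · refine Finset.prod_congr rfl fun q _ => ?_
    rw [Fintype.sum_bool, add_comm]
  · rw [Fintype.card_fun, Fintype.card_bool, Finset.card_univ]
    push_cast
    rfl

theorem pair_cases {α : Type*} [DecidableEq α] {T : Finset α} {a b : α} (h : T ⊆ {a, b}) :
    T = ∅ ∨ T = {a} ∨ T = {b} ∨ T = {a, b} := by
  by_cases ha : a ∈ T
  · by_cases hb : b ∈ T
    · right; right; right
      refine Finset.Subset.antisymm h ?_
      intro x hx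
      rw [Finset.mem_insert, Finset.mem_singleton] at hx
      rcases hx with rfl | rfl <;> assumption
    · right; left
      ext x
      rw [Finset.mem_singleton]
      constructor
      · intro hx
        have := h hx
        rw [Finset.mem_insert, Finset.mem_singleton] at this
        rcases this with h1 | h1
        · exact h1
        · exact absurd (h1 ▸ hx) hb
      · rintro rfl; exact ha
  · by_cases hb : b ∈ T
    · right; right; left
      ext x
      rw [Finset.mem_singleton]
      constructor
      · intro hx
        have := h hx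
        rw [Finset.mem_insert, Finset.mem_singleton] at this
        rcases this with h1 | h1
        · exact absurd (h1 ▸ hx) ha
        · exact h1
      · rintro rfl; exact hb
    · left
      rw [Finset.eq_empty_iff_forall_notMem]
      intro x hx
      have := h hx
      rw [Finset.mem_insert, Finset.mem_singleton] at this
      rcases this with h1 | h1
      · exact ha (h1 ▸ hx)
      · exact hb (h1 ▸ hx)

theorem layer_bound {m : ℕ} (i : Fin m) (ρ : Pos m → ℝ) (hρ : ∀ p, 0 ≤ ρ p) (S : Finset (Pos m)) :
    avg (fun c : Coin m => ∏ p ∈ S, ρ (sw i c p)) ≤ ∏ p ∈ S, ((ρ p + ρ (flip i p)) / 2) := by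
  classical
  have h1 : ∀ c : Coin m, ∏ p ∈ S, ρ (sw i c p) =
      ∏ q : Pos m, ∏ p ∈ S with piv i p = q, ρ (if c q then flip i p else p) := by
    intro c
    rw [← Finset.prod_fiberwise S (piv i)]
    refine Finset.prod_congr rfl fun q _ => Finset.prod_congr rfl fun p hp => ?_
    rw [Finset.mem_filter] at hp
    rw [sw_apply, ← hp.2]
    rfl
  simp_rw [h1]
  rw [avg_pi (fun q b => ∏ p ∈ S with piv i p = q, ρ (if b then flip i p else p))]
  rw [← Finset.prod_fiberwise S (piv i) (fun p => (ρ p + ρ (flip i p)) / 2)]
  refine Finset.prod_le_prod ?_ ?_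
  · intro q _
    have a1 : 0 ≤ ∏ p ∈ S with piv i p = q, ρ (if false = true then flip i p else p) :=
      Finset.prod_nonneg fun p _ => hρ _
    have a2 : 0 ≤ ∏ p ∈ S with piv i p = q, ρ (if true = true then flip i p else p) :=
      Finset.prod_nonneg fun p _ => hρ _
    positivity
  · intro q _
    have hsub : (S.filter fun p => piv i p = q) ⊆ {q, flip i q} := by
      intro p hp
      rw [Finset.mem_filter] at hp
      have h2 : piv i (piv i p) = piv i p := by simp [piv]
      rw [Finset.mem_insert, Finset.mem_singleton]
      have h3 : piv i p = piv i q := by rw [← hp.2, h2]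
      exact piv_eq h3
    simp only [Bool.false_eq_true, if_false, if_true]
    rcases pair_cases hsub with h | h | h | h
    · rw [h]; simp
    · rw [h]; simp
    · rw [h]; simp
    · rw [h, Finset.prod_pair (flip_ne i q).symm, Finset.prod_pair (flip_ne i q).symm,
        Finset.prod_pair (flip_ne i q).symm, flip_flip]
      nlinarith [sq_nonneg (ρ q - ρ (flip i q))]

theorem EL_le {m : ℕ} (A : Finset (Pos m)) (L : List (Fin m)) (S : Finset (Pos m)) :
    EL L (fun g => if S ⊆ A.map g.toEmbedding then (1 : ℝ) else 0) ≤ ∏ p ∈ S, rho A L p := by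
  induction L generalizing S with
  | nil =>
    rw [EL]
    by_cases h : S ⊆ A.map (1 : Equiv.Perm (Pos m)).toEmbedding
    · rw [if_pos h]
      have h1 : A.map (1 : Equiv.Perm (Pos m)).toEmbedding = A := by
        ext x
        rw [Finset.mem_map_equiv]
        exact Iff.rfl
      rw [h1] at h
      rw [Finset.prod_congr rfl (g := fun _ => (1 : ℝ)), Finset.prod_const_one]
      intro p hp
      rw [rho, if_pos (h hp)]
    · rw [if_neg h]
      exact Finset.prod_nonneg fun p _ => rho_nonneg A [] p
  | cons i L ih =>
    rw [EL]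
    have h1 : ∀ c : Coin m, EL L (fun g =>
        if S ⊆ A.map (sw i c * g).toEmbedding then (1 : ℝ) else 0) ≤
        ∏ p ∈ S, rho A L (sw i c p) := by
      intro c
      have h2 := ih (S.map (sw i c).toEmbedding)
      rw [Finset.prod_map] at h2
      refine le_trans (le_of_eq ?_) h2
      congr 1
      funext g
      have h3 : S ⊆ A.map (sw i c * g).toEmbedding ↔
          S.map (sw i c).toEmbedding ⊆ A.map g.toEmbedding := by
        constructor
        · intro h p hp
          rw [Finset.mem_map] at hp
          obtain ⟨s, hs, rfl⟩ := hp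
          have := h hs
          rw [Finset.mem_map] at this ⊢
          obtain ⟨a, ha, hs'⟩ := this
          refine ⟨a, ha, ?_⟩
          rw [← hs']
          simp
        · intro h s hs
          have h4 := h (Finset.mem_map_of_mem _ hs)
          rw [Finset.mem_map] at h4 ⊢
          obtain ⟨a, ha, hs'⟩ := h4
          refine ⟨a, ha, ?_⟩
          show sw i c (g a) = s
          change g a = sw i c s at hs'
          rw [hs']
          simp
      simp only [h3]
    refine le_trans (avg_le_avg h1) ?_
    refine le_trans (layer_bound i (rho A L) (rho_nonneg A L) S) (le_of_eq ?_)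
    rfl

end Occaux

open Occaux Densityaux

theorem occ_subset {m : ℕ} (A S : Finset (Pos m)) (j : ℕ) :
    avg (fun ω : ((Fin m → Coin m) × (Fin m → Coin m)) × (Fin m → Coin m) =>
      if S ⊆ occ ω.2 (A.map (net ω.1.1 ω.1.2 m).toEmbedding) j then (1 : ℝ) else 0) ≤
      ((A.card : ℝ) / 2 ^ m) ^ S.card := by
  classical
  rw [avg_prod_type, avg_prod_type]
  have key : ∀ cin : Fin m → Coin m,
      avg (fun cout : Fin m → Coin m => avg (fun cin' : Fin m → Coin m =>
        if S ⊆ occ cin' (A.map (net cin cout m).toEmbedding) j then (1 : ℝ) else 0)) ≤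
      ((A.card : ℝ) / 2 ^ m) ^ S.card := by
    intro cin
    set A' := A.map ((lv m 0 m).map (fun i => sw i (cin i))).prod.toEmbedding with hA'
    set L2 := (List.finRange m).filter (fun i => j ≤ i.val) with hL2
    have h1 : ∀ cout cin' : Fin m → Coin m,
        occ cin' (A.map (net cin cout m).toEmbedding) j =
        A'.map ((L2.map (fun i => sw i (cin' i))).prod *
          (((lv m 0 m).reverse).map (fun i => sw i (cout i))).prod).toEmbedding := by
      intro cout cin'
      rw [net_eq cin cout m le_rfl]
      unfold occ inPerm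
      rw [hA', Finset.map_map, Finset.map_map]
      rfl
    simp_rw [h1]
    rw [avg_comm]
    have h2 : ∀ cin' : Fin m → Coin m, avg (fun cout : Fin m → Coin m =>
        if S ⊆ A'.map ((L2.map (fun i => sw i (cin' i))).prod *
          (((lv m 0 m).reverse).map (fun i => sw i (cout i))).prod).toEmbedding then (1 : ℝ) else 0)
        = EL (lv m 0 m).reverse (fun h =>
        if S ⊆ A'.map ((L2.map (fun i => sw i (cin' i))).prod * h).toEmbedding
          then (1 : ℝ) else 0) := by
      intro cin'
      exact avg_EL (lv m 0 m).reverse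
        (List.nodup_reverse.2 ((lv_pw m 0 m).imp (fun h => ne_of_lt h))) (fun h =>
        if S ⊆ A'.map ((L2.map (fun i => sw i (cin' i))).prod * h).toEmbedding
          then (1 : ℝ) else 0)
    simp_rw [h2]
    have h3 := avg_EL L2 ((List.nodup_finRange m).filter _) (fun g =>
      EL (lv m 0 m).reverse (fun h =>
        if S ⊆ A'.map (g * h).toEmbedding then (1 : ℝ) else 0))
    rw [h3, ← EL_append L2 (lv m 0 m).reverse
      (fun g => if S ⊆ A'.map g.toEmbedding then (1 : ℝ) else 0)]
    refine le_trans (EL_le A' _ S) ?_
    rw [Finset.prod_congr rfl (g := fun _ => (A'.card : ℝ) / 2 ^ m)]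
    · rw [Finset.prod_const, hA', Finset.card_map]
    · intro p _
      apply rho_const
      intro l
      rw [List.mem_append, List.mem_reverse]
      right
      exact mem_lv.2 ⟨Nat.zero_le _, l.isLt⟩
  refine le_trans (avg_le_avg key) (le_of_eq ?_)
  exact avg_const _

theorem occ_exp {m : ℕ} (A : Finset (Pos m)) (j : Fin m) (lam : ℝ) (hlam : 0 ≤ lam) :
    avg (fun ω : ((Fin m → Coin m) × (Fin m → Coin m)) × (Fin m → Coin m) =>
      Real.exp (lam * (dbl j (occ ω.2 (A.map (net ω.1.1 ω.1.2 m).toEmbedding) j) : ℝ))) ≤
      Real.exp ((Real.exp lam - 1) * (A.card : ℝ) ^ 2 / (2 * 2 ^ m)) := by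
  classical
  have hinj : Function.Injective (flip j : Pos m → Pos m) := by
    intro x y h
    have := congrArg (flip j) h
    simpa using this
  set Q := Finset.univ.filter (fun x : Pos m => x j = false) with hQ
  have hQcard : Q.card = 2 ^ (m - 1) := by
    rw [← dbl_univ j]
    unfold dbl
    congr 1
    ext x; simp [hQ]
  set e := Real.exp lam - 1 with he
  have he0 : 0 ≤ e := by
    have := Real.one_le_exp hlam
    linarith
  -- expansion
  have h1 : ∀ B : Finset (Pos m), Real.exp (lam * (dbl j B : ℝ)) =
      ∑ D ∈ Q.powerset, e ^ D.card * (if D ∪ D.image (flip j) ⊆ B then (1 : ℝ) else 0) := by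
    intro B
    have a1 : Real.exp (lam * (dbl j B : ℝ)) =
        ∏ x ∈ Q, (1 + e * (if x ∈ B ∧ flip j x ∈ B then (1 : ℝ) else 0)) := by
      have a2 : ∀ x ∈ Q, (1 + e * (if x ∈ B ∧ flip j x ∈ B then (1 : ℝ) else 0)) =
          Real.exp (lam * (if x ∈ B ∧ flip j x ∈ B then (1 : ℝ) else 0)) := by
        intro x _
        by_cases h : x ∈ B ∧ flip j x ∈ B
        · rw [if_pos h, mul_one, mul_one, he]; ring
        · rw [if_neg h]; simp
      rw [Finset.prod_congr rfl a2, ← Real.exp_sum, ← Finset.mul_sum]
      congr 2
      rw [← Finset.sum_filter, Finset.sum_const, nsmul_eq_mul, mul_one]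
      unfold dbl
      congr 2
      ext x
      simp only [hQ, Finset.mem_filter, Finset.mem_univ, true_and]
      tauto
    rw [a1, Finset.prod_one_add]
    refine Finset.sum_congr rfl fun D hD => ?_
    rw [Finset.prod_mul_distrib, Finset.prod_const]
    congr 1
    by_cases h : D ∪ D.image (flip j) ⊆ B
    · rw [if_pos h, Finset.prod_eq_one]
      intro x hx
      rw [if_pos]
      refine ⟨h (Finset.mem_union_left _ hx), h (Finset.mem_union_right _ ?_)⟩
      exact Finset.mem_image_of_mem _ hx
    · rw [if_neg h]
      rw [Finset.not_subset] at h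
      obtain ⟨p, hp, hpB⟩ := h
      rw [Finset.mem_union, Finset.mem_image] at hp
      rcases hp with hp | ⟨x, hx, rfl⟩
      · rw [Finset.prod_eq_zero hp]
        rw [if_neg]
        exact fun h => hpB h.1
      · rw [Finset.prod_eq_zero hx]
        rw [if_neg]
        exact fun h => hpB h.2
  simp_rw [h1]
  rw [avg_sum]
  simp_rw [avg_mul_left]
  have h2 : ∀ D ∈ Q.powerset, (D ∪ D.image (flip j)).card = 2 * D.card := by
    intro D hD
    rw [Finset.mem_powerset] at hD
    rw [Finset.card_union_of_disjoint, Finset.card_image_of_injective _ hinj]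
    · ring
    · rw [Finset.disjoint_left]
      intro x hx hx'
      rw [Finset.mem_image] at hx'
      obtain ⟨y, hy, rfl⟩ := hx'
      have b1 := hD hx
      have b2 := hD hy
      rw [hQ, Finset.mem_filter] at b1 b2
      have := b1.2
      simp [b2.2] at this
  set r := (A.card : ℝ) / 2 ^ m with hr
  calc ∑ D ∈ Q.powerset, e ^ D.card *
        avg (fun ω : ((Fin m → Coin m) × (Fin m → Coin m)) × (Fin m → Coin m) =>
          if D ∪ D.image (flip j) ⊆ occ ω.2 (A.map (net ω.1.1 ω.1.2 m).toEmbedding) j
            then (1 : ℝ) else 0)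
      ≤ ∑ D ∈ Q.powerset, e ^ D.card * r ^ (2 * D.card) := by
        refine Finset.sum_le_sum fun D hD => ?_
        refine mul_le_mul_of_nonneg_left ?_ (by positivity)
        rw [← h2 D hD]
        exact occ_subset A _ j
    _ = ∑ D ∈ Q.powerset, ∏ _x ∈ D, (e * r ^ 2) := by
        refine Finset.sum_congr rfl fun D _ => ?_
        rw [Finset.prod_const, mul_pow, pow_mul]
    _ = (1 + e * r ^ 2) ^ Q.card := by
        rw [← Finset.prod_one_add, Finset.prod_const]
    _ ≤ (Real.exp (e * r ^ 2)) ^ Q.card := by
        refine pow_le_pow_left₀ (by positivity) ?_ _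
        rw [add_comm]
        exact Real.add_one_le_exp _
    _ = Real.exp (e * (A.card : ℝ) ^ 2 / (2 * 2 ^ m)) := by
        rw [← Real.exp_nat_mul, hQcard]
        congr 1
        have hm : 0 < m := lt_of_le_of_lt (Nat.zero_le _) j.isLt
        have h5 : (2 : ℝ) ^ m = 2 * 2 ^ (m - 1) := by
          conv_lhs => rw [← Nat.sub_add_cancel hm]
          rw [pow_succ]; ring
        rw [hr]
        push_cast
        rw [h5]
        field_simp
        try ring

end Crest.Agent.R155
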