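import Crest.Agent.R155.Window
import Crest.Agent.R155.HolderTail
import Crest.Agent.R155.KapSum
import Crest.Agent.R155.Density
import Crest.Agent.R155.AmGm
import Crest.Agent.R155.Occ
import Crest.Agent.R155.DenseW
import Crest.Agent.R155.DenseNum

/-!
# PIECE FBOUNDS (row 155): the two bounds of `F m k`

## `F_le`
`amgm_pair` with `I = Fin k ↪ Pos m`, `Ω` = pairs of coins, `f ω x = actI (net ω.1 ω.2 m) x`
(`XL_down_eq_ker`), `W ω x = Wtot ω.1 ω.2 (univ.map x)`, `δ = (1/2^m)^k` (`density`),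
`|I| = (2^m).descFactorial k ≤ (2^m)^k`, so `F m k ≤ g^31`.
For fixed `cin'` and start `x'` (`A = univ.map x'`, `D_j = dbl j (occ cin' A j)`), `Wtot^{1/31} =
W_0^{1/31} ∏_{1≤j<m} W_j^{1/31}`; `W_0 = 2^{D_0}` (`W_zero`); `holder_tail` with `q = 4`, `d j = D_j`
(extend by `W = 1`, `d = 0` for `j ≥ m`), `hwin` from `window`; `avg W_j ≤ exp(D_j (3/4)^j)`
(`window` with `u = 1`, `b = 0`).  So
`avg_cout' Wtot^{1/31} ≤ exp((1/31) ∑_j c_j D_j)`, `c_0 = log 2`, `c_j = (3/4)^j (j < 16)`, `c_j = 8 kap 4 j (j ≥ 16)`,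
`∑ c_j ≤ log 2 + 3 + 0.26 ≤ 4` (`kap_four`).  Then (`avg_prod_rpow_le`, weights `c_j/4`, functions
`exp((4/31) D_j)`) and `occ_exp` (`A` = start of the first pass, `|A| = k`):
`avg_ω avg_cin' exp((1/31) ∑ c_j D_j) ≤ exp((e^{4/31} - 1) k²/(2·2^m)) =: g`;
`31 (e^{4/31} - 1)/2 ≤ 2.14 ≤ 9/4`.

## `Fn_le`
`amgm_all`, `k = 2^m`: `|I| = (2^m)!`, `univ.map x = univ`, `occ = univ`, `D_j = 2^{m-1}`.
`holder_tail` with `q = 5` for fixed `cin`, then average over `cin` with `avg_prod_rpow_le`
(31 weights `1/63`): `g^63 ≤ 2^{2^{m-1}} ∏_{1≤j<32, j<m} avg W_j · exp(16 ∑_{j≥32} kap 5 j 2^{m-1})`,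
`avg W_j = (Tsq j 0)^{2^{m-1-j}}` (`avg_W_univ`), so the logarithm is
`2^m [½ log 2 + ∑_{1≤j<min(32,m)} 2^{-(j+1)} log (Tsq j 0) + ½·16 ∑ kap 5] ≤ 2^m · 63/50`
(`kap_five`, `dense_num`).
-/

set_option autoImplicit false

namespace Crest.Agent.R155

namespace FBaux

theorem actI_one {m k : ℕ} (s : Fin k ↪ Pos m) : actI 1 s = s := by
  ext a; simp [actI]

theorem actI_mul {m k : ℕ} (g h : Equiv.Perm (Pos m)) (s : Fin k ↪ Pos m) :
    actI (g * h) s = actI g (actI h s) := by
  ext a; simp [actI]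

/-- extended weights -/
noncomputable def We {m : ℕ} (cin : Fin m → Coin m) (A : Finset (Pos m)) (j : ℕ)
    (c : Fin m → Coin m) : ℝ :=
  if h : j < m then W cin c A ⟨j, h⟩ else 1

/-- extended numbers of pairs -/
noncomputable def de {m : ℕ} (cin : Fin m → Coin m) (A : Finset (Pos m)) (j : ℕ) : ℝ :=
  if h : j < m then (dbl ⟨j, h⟩ (occ cin A j) : ℝ) else 0

theorem We_ge_one {m : ℕ} (cin : Fin m → Coin m) (A : Finset (Pos m)) (j : ℕ)
    (c : Fin m → Coin m) : 1 ≤ We cin A j c := by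
  unfold We; split
  · exact W_ge_one _ _ _ _
  · exact le_rfl

theorem de_nonneg {m : ℕ} (cin : Fin m → Coin m) (A : Finset (Pos m)) (j : ℕ) :
    0 ≤ de cin A j := by
  unfold de; split
  · positivity
  · exact le_rfl

theorem We_dep {m : ℕ} (cin : Fin m → Coin m) (A : Finset (Pos m)) (j : ℕ)
    (c c' : Fin m → Coin m) (h : ∀ i : Fin m, i.val < j → c i = c' i) :
    We cin A j c = We cin A j c' := by
  unfold We; split
  · exact W_congr _ _ _ _ _ h
  · rfl

theorem We_win {m : ℕ} (cin : Fin m → Coin m) (A : Finset (Pos m)) (j b u : ℕ) (hb : b ≤ j)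
    (hj : j < m) (c₀ : Fin m → Coin m) :
    avg (fun c => (We cin A j (mix b c₀ c)) ^ u) ≤
      Real.exp (de cin A j * (2 : ℝ) ^ u * (3 / 4) ^ (j - b)) := by
  have h := window u cin c₀ A ⟨j, hj⟩ b hb
  have e1 : (fun c : Fin m → Coin m => (We cin A j (mix b c₀ c)) ^ u) =
      fun c => (W cin (mix b c₀ c) A ⟨j, hj⟩) ^ u := by
    funext c; simp [We, hj]
  rw [e1]
  refine h.trans ?_
  apply Real.exp_le_exp.mpr
  have e2 : de cin A j = (dbl ⟨j, hj⟩ (occ cin A j) : ℝ) := by simp [de, hj]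
  rw [e2]
  have hd : (0 : ℝ) ≤ (dbl ⟨j, hj⟩ (occ cin A j) : ℝ) := by positivity
  have hp : (0 : ℝ) ≤ (3 / 4 : ℝ) ^ (j - b) := by positivity
  have : ((2 : ℝ) ^ u - 1) ≤ 2 ^ u := by linarith
  exact mul_le_mul_of_nonneg_right (mul_le_mul_of_nonneg_left this hd) hp

theorem avg_We_le {m : ℕ} (cin : Fin m → Coin m) (A : Finset (Pos m)) (j : ℕ) :
    avg (We cin A j) ≤ Real.exp (de cin A j * (3 / 4) ^ j) := by
  by_cases hj : j < m
  · have h := window 1 cin (fun _ _ => false) A ⟨j, hj⟩ 0 (Nat.zero_le _)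
    have e1 : (We cin A j) =
        fun c => (W cin (mix 0 (fun _ _ => false) c) A ⟨j, hj⟩) ^ 1 := by
      funext c
      have : mix 0 (fun _ _ => false) c = c := by funext i; simp [mix]
      rw [this, pow_one]
      simp [We, hj]
    rw [e1]
    refine h.trans ?_
    apply Real.exp_le_exp.mpr
    have e2 : de cin A j = (dbl ⟨j, hj⟩ (occ cin A j) : ℝ) := by simp [de, hj]
    rw [e2]
    norm_num
  · have e1 : (We cin A j) = fun _ => (1 : ℝ) := by
      funext c; simp [We, hj]
    rw [e1, avg_const]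
    apply Real.one_le_exp
    exact mul_nonneg (de_nonneg _ _ _) (by positivity)

theorem Wtot_eq {m : ℕ} (cin c : Fin m → Coin m) (A : Finset (Pos m)) :
    Wtot cin c A = ∏ j ∈ Finset.range m, We cin A j c := by
  unfold Wtot
  rw [← Fin.prod_univ_eq_prod_range (fun j => We cin A j c) m]
  apply Finset.prod_congr rfl
  intro j _
  simp [We]

theorem We_zero {m : ℕ} (cin : Fin m → Coin m) (A : Finset (Pos m)) (c : Fin m → Coin m) :
    We cin A 0 c = (2 : ℝ) ^ (de cin A 0) := by
  unfold We de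
  split
  · rw [W_zero _ _ _ _ rfl, Real.rpow_natCast]
  · simp

/-- average over the output coins, general `q` -/
theorem level_avg {m : ℕ} (q : ℕ) (hq : 1 ≤ q) (cin : Fin m → Coin m) (A : Finset (Pos m)) :
    avg (fun c => (Wtot cin c A) ^ (1 / (2 ^ (q + 1) - 1) : ℝ)) ≤
      ((2 : ℝ) ^ (de cin A 0)) ^ (1 / (2 ^ (q + 1) - 1) : ℝ) *
      ((∏ j ∈ Finset.Ico 1 (2 ^ q), (avg (We cin A j)) ^ (1 / (2 ^ (q + 1) - 1) : ℝ)) *
        Real.exp ((1 / (2 ^ (q + 1) - 1) : ℝ) * (2 ^ q / 2) *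
          ∑ j ∈ Finset.Ico (2 ^ q) m, kap q j * de cin A j)) := by
  set θ : ℝ := (1 / (2 ^ (q + 1) - 1) : ℝ) with hθ
  have h := holder_tail q hq (We cin A) (We_ge_one cin A) (We_dep cin A) (de cin A)
    (de_nonneg cin A) (fun j b u hb hj c₀ => We_win cin A j b u hb hj c₀)
  have e : (fun c => (Wtot cin c A) ^ θ) =
      fun c => ((2 : ℝ) ^ (de cin A 0)) ^ θ * ∏ j ∈ Finset.Ico 1 m, (We cin A j c) ^ θ := by
    funext c
    rw [Wtot_eq]
    rcases Nat.eq_zero_or_pos m with hm | hm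
    · subst hm
      simp [de]
    · rw [Finset.range_eq_Ico, Finset.prod_eq_prod_Ico_succ_bot hm, We_zero,
        Real.mul_rpow (by positivity) (Finset.prod_nonneg fun j _ =>
          zero_le_one.trans (We_ge_one cin A j c)),
        Real.finsetProd_rpow _ _ (fun j _ => zero_le_one.trans (We_ge_one cin A j c))]
  rw [e, avg_mul_left]
  exact mul_le_mul_of_nonneg_left h (by positivity)

/-- the coefficients of the levels -/
noncomputable def cc (j : ℕ) : ℝ :=
  if j = 0 then Real.log 2 else if j < 16 then (3 / 4 : ℝ) ^ j else 8 * kap 4 j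

theorem cc_nonneg (j : ℕ) : 0 ≤ cc j := by
  unfold cc
  split_ifs
  · exact (Real.log_pos (by norm_num)).le
  · positivity
  · exact mul_nonneg (by norm_num) (kap_nonneg 4 j)

theorem cc_sum (M : ℕ) (hM : 16 ≤ M) : ∑ j ∈ Finset.range M, cc j ≤ 4 := by
  rw [Finset.range_eq_Ico, ← Finset.sum_Ico_consecutive _ (Nat.zero_le 16) hM]
  have h1 : ∑ j ∈ Finset.Ico 0 16, cc j = Real.log 2 + ∑ j ∈ Finset.Ico 1 16, (3 / 4 : ℝ) ^ j := by
    rw [Finset.sum_eq_sum_Ico_succ_bot (by norm_num)]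
    have e0 : cc 0 = Real.log 2 := by simp [cc]
    have e1 : ∑ j ∈ Finset.Ico (0 + 1) 16, cc j = ∑ j ∈ Finset.Ico 1 16, (3 / 4 : ℝ) ^ j := by
      apply Finset.sum_congr rfl
      intro j hj
      rw [Finset.mem_Ico] at hj
      unfold cc
      rw [if_neg (by omega), if_pos hj.2]
    rw [e0, e1]
  have h2 : ∑ j ∈ Finset.Ico 16 M, cc j = 8 * ∑ j ∈ Finset.Ico 16 M, kap 4 j := by
    rw [Finset.mul_sum]
    apply Finset.sum_congr rfl
    intro j hj
    rw [Finset.mem_Ico] at hj
    unfold cc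
    rw [if_neg (by omega), if_neg (by omega)]
  rw [h1, h2]
  have h3 := kap_four M
  have h4 : Real.log 2 ≤ 0.6931471808 := Real.log_two_lt_d9.le
  have h5 : ∑ j ∈ Finset.Ico 1 16, (3 / 4 : ℝ) ^ j ≤ 3 := by
    norm_num [Finset.sum_Ico_succ_top]
  linarith

theorem level_four {m : ℕ} (cin : Fin m → Coin m) (A : Finset (Pos m)) :
    avg (fun c => (Wtot cin c A) ^ (1 / 31 : ℝ)) ≤
      Real.exp ((1 / 31) * ∑ j ∈ Finset.range (max 16 m), cc j * de cin A j) := by
  have h := level_avg 4 (by norm_num) cin A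
  have hθ : (1 / (2 ^ (4 + 1) - 1) : ℝ) = 1 / 31 := by norm_num
  rw [hθ] at h
  refine h.trans ?_
  have h1 : ((2 : ℝ) ^ (de cin A 0)) ^ (1 / 31 : ℝ) =
      Real.exp ((1 / 31) * (Real.log 2 * de cin A 0)) := by
    rw [Real.rpow_def_of_pos (by norm_num : (0 : ℝ) < 2), ← Real.exp_mul]
    ring_nf
  have h2 : ∏ j ∈ Finset.Ico 1 (2 ^ 4), (avg (We cin A j)) ^ (1 / 31 : ℝ) ≤
      Real.exp ((1 / 31) * ∑ j ∈ Finset.Ico 1 16, (3 / 4 : ℝ) ^ j * de cin A j) := by
    rw [Finset.mul_sum, Real.exp_sum]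
    apply Finset.prod_le_prod
    · intro j _
      apply Real.rpow_nonneg
      exact avg_nonneg fun c => zero_le_one.trans (We_ge_one cin A j c)
    · intro j _
      calc (avg (We cin A j)) ^ (1 / 31 : ℝ)
          ≤ (Real.exp (de cin A j * (3 / 4) ^ j)) ^ (1 / 31 : ℝ) := by
            apply Real.rpow_le_rpow _ (avg_We_le cin A j) (by norm_num)
            exact avg_nonneg fun c => zero_le_one.trans (We_ge_one cin A j c)
        _ = Real.exp ((1 / 31) * ((3 / 4 : ℝ) ^ j * de cin A j)) := by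
            rw [← Real.exp_mul]; ring_nf
  have h3 : Real.exp ((1 / 31 : ℝ) * (2 ^ 4 / 2) * ∑ j ∈ Finset.Ico (2 ^ 4) m, kap 4 j * de cin A j)
      = Real.exp ((1 / 31) * ∑ j ∈ Finset.Ico 16 (max 16 m), 8 * kap 4 j * de cin A j) := by
    congr 1
    have hI : Finset.Ico (2 ^ 4) m = Finset.Ico 16 (max 16 m) := by
      ext j; simp only [Finset.mem_Ico]; constructor
      · intro hj; exact ⟨by omega, lt_of_lt_of_le hj.2 (le_max_right _ _)⟩
      · intro hj
        refine ⟨by omega, ?_⟩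
        rcases lt_max_iff.mp hj.2 with h | h
        · omega
        · exact h
    rw [hI]
    have : ∑ j ∈ Finset.Ico 16 (max 16 m), 8 * kap 4 j * de cin A j =
        8 * ∑ j ∈ Finset.Ico 16 (max 16 m), kap 4 j * de cin A j := by
      rw [Finset.mul_sum]
      apply Finset.sum_congr rfl
      intro j _; ring
    rw [this]; ring
  rw [h1, h3]
  have hsum : ∑ j ∈ Finset.range (max 16 m), cc j * de cin A j =
      Real.log 2 * de cin A 0 + ∑ j ∈ Finset.Ico 1 16, (3 / 4 : ℝ) ^ j * de cin A j +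
        ∑ j ∈ Finset.Ico 16 (max 16 m), 8 * kap 4 j * de cin A j := by
    have e1 : ∑ j ∈ Finset.Ico 1 16, cc j * de cin A j =
        ∑ j ∈ Finset.Ico 1 16, (3 / 4 : ℝ) ^ j * de cin A j := by
      apply Finset.sum_congr rfl
      intro j hj
      rw [Finset.mem_Ico] at hj
      unfold cc
      rw [if_neg (by omega), if_pos hj.2]
    have e2 : ∑ j ∈ Finset.Ico 16 (max 16 m), cc j * de cin A j =
        ∑ j ∈ Finset.Ico 16 (max 16 m), 8 * kap 4 j * de cin A j := by
      apply Finset.sum_congr rfl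
      intro j hj
      rw [Finset.mem_Ico] at hj
      unfold cc
      rw [if_neg (by omega), if_neg (by omega)]
    rw [Finset.range_eq_Ico,
      ← Finset.sum_Ico_consecutive _ (Nat.zero_le 16) (le_max_left 16 m),
      Finset.sum_eq_sum_Ico_succ_bot (by norm_num : 0 < 16), e1, e2]
    rfl
  rw [hsum]
  calc Real.exp ((1 / 31) * (Real.log 2 * de cin A 0)) *
        ((∏ j ∈ Finset.Ico 1 (2 ^ 4), (avg (We cin A j)) ^ (1 / 31 : ℝ)) *
          Real.exp ((1 / 31) * ∑ j ∈ Finset.Ico 16 (max 16 m), 8 * kap 4 j * de cin A j))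
      ≤ Real.exp ((1 / 31) * (Real.log 2 * de cin A 0)) *
        (Real.exp ((1 / 31) * ∑ j ∈ Finset.Ico 1 16, (3 / 4 : ℝ) ^ j * de cin A j) *
          Real.exp ((1 / 31) * ∑ j ∈ Finset.Ico 16 (max 16 m), 8 * kap 4 j * de cin A j)) := by
        gcongr
    _ = _ := by
        rw [← Real.exp_add, ← Real.exp_add]
        ring_nf

end FBaux

open FBaux

theorem F_eq_trace_ker (m k : ℕ) : F m k =
    ((ker (fun (ω : (Fin m → Coin m) × (Fin m → Coin m)) (x : Fin k ↪ Pos m) =>
      actI (net ω.1 ω.2 m) x)) ^ 64).trace := by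
  unfold F XI
  rw [XL_down_eq_ker actI actI_one actI_mul]

theorem F_nonneg (m k : ℕ) : 0 ≤ F m k := by
  unfold F
  have hpow : ∀ (N : ℕ) (s t : Fin k ↪ Pos m), 0 ≤ ((XI m k) ^ N) s t := by
    intro N
    induction N with
    | zero =>
      intro s t
      rw [pow_zero, Matrix.one_apply]
      split <;> norm_num
    | succ N ih =>
      intro s t
      rw [pow_succ, Matrix.mul_apply]
      exact Finset.sum_nonneg fun u _ => mul_nonneg (ih s u) (XL_nonneg _ _ _ _)
  exact Finset.sum_nonneg fun s _ => hpow 64 s s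

theorem F_le (m k : ℕ) (_hk : k ≤ 2 ^ m) : F m k ≤ Real.exp (9 / 4 * (k : ℝ) ^ 2 / 2 ^ m) := by
  rw [F_eq_trace_ker]
  set G : ℝ := Real.exp ((Real.exp (4 / 31) - 1) * (k : ℝ) ^ 2 / (2 * 2 ^ m)) with hG
  have hG1 : 1 ≤ G := by
    apply Real.one_le_exp
    have : (1 : ℝ) ≤ Real.exp (4 / 31) := Real.one_le_exp (by norm_num)
    have h' : 0 ≤ Real.exp (4 / 31) - 1 := by linarith
    positivity
  have hmain := amgm_pair
    (fun (ω : (Fin m → Coin m) × (Fin m → Coin m)) (x : Fin k ↪ Pos m) =>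
      actI (net ω.1 ω.2 m) x)
    (fun ω x => Wtot ω.1 ω.2 (Finset.univ.map x))
    (fun ω x => lt_of_lt_of_le one_pos (Wtot_ge_one _ _ _))
    ((1 / 2 ^ m : ℝ) ^ k) G (fun x y => density m k x y) (by
      intro x
      -- average over the two passes
      have step1 : ∀ ω : (Fin m → Coin m) × (Fin m → Coin m),
          avg (fun ω' : (Fin m → Coin m) × (Fin m → Coin m) =>
            (Wtot ω'.1 ω'.2 (Finset.univ.map (actI (net ω.1 ω.2 m) x))) ^ (1 / 31 : ℝ)) ≤
          avg (fun cin : Fin m → Coin m => Real.exp ((1 / 31) *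
            ∑ j ∈ Finset.range (max 16 m), cc j *
              de cin ((Finset.univ.map x).map (net ω.1 ω.2 m).toEmbedding) j)) := by
        intro ω
        rw [avg_prod_type]
        apply avg_le_avg
        intro cin
        have hA : Finset.univ.map (actI (net ω.1 ω.2 m) x) =
            (Finset.univ.map x).map (net ω.1 ω.2 m).toEmbedding := by
          rw [Finset.map_map]; rfl
        simp only [hA]
        exact level_four cin _
      refine (avg_le_avg step1).trans ?_
      rw [← avg_prod_type (fun p : ((Fin m → Coin m) × (Fin m → Coin m)) × (Fin m → Coin m) =>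
        Real.exp ((1 / 31) * ∑ j ∈ Finset.range (max 16 m), cc j *
              de p.2 ((Finset.univ.map x).map (net p.1.1 p.1.2 m).toEmbedding) j))]
      have e : (fun p : ((Fin m → Coin m) × (Fin m → Coin m)) × (Fin m → Coin m) =>
        Real.exp ((1 / 31) * ∑ j ∈ Finset.range (max 16 m), cc j *
              de p.2 ((Finset.univ.map x).map (net p.1.1 p.1.2 m).toEmbedding) j)) =
          fun p => ∏ j ∈ Finset.range (max 16 m), (Real.exp ((4 / 31) *
            de p.2 ((Finset.univ.map x).map (net p.1.1 p.1.2 m).toEmbedding) j)) ^ (cc j / 4) := by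
        funext p
        rw [Finset.mul_sum, Real.exp_sum]
        apply Finset.prod_congr rfl
        intro j _
        rw [← Real.exp_mul]
        congr 1; ring
      rw [e]
      refine (avg_prod_rpow_le _ _ (fun j _ p => (Real.exp_pos _).le) _
        (fun j _ => div_nonneg (cc_nonneg j) (by norm_num)) ?_).trans ?_
      · rw [← Finset.sum_div]
        have := cc_sum (max 16 m) (le_max_left _ _)
        linarith
      · have hfac : ∀ j ∈ Finset.range (max 16 m),
            (avg (fun p : ((Fin m → Coin m) × (Fin m → Coin m)) × (Fin m → Coin m) =>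
              Real.exp ((4 / 31) *
                de p.2 ((Finset.univ.map x).map (net p.1.1 p.1.2 m).toEmbedding) j))) ^ (cc j / 4)
              ≤ G ^ (cc j / 4) := by
          intro j _
          apply Real.rpow_le_rpow (avg_nonneg fun p => (Real.exp_pos _).le) _
            (div_nonneg (cc_nonneg j) (by norm_num))
          by_cases hj : j < m
          · have ho := occ_exp (Finset.univ.map x) ⟨j, hj⟩ (4 / 31) (by norm_num)
            have e2 : (fun p : ((Fin m → Coin m) × (Fin m → Coin m)) × (Fin m → Coin m) =>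
              Real.exp ((4 / 31) *
                de p.2 ((Finset.univ.map x).map (net p.1.1 p.1.2 m).toEmbedding) j)) =
                fun ω => Real.exp (4 / 31 * (dbl ⟨j, hj⟩ (occ ω.2
                  ((Finset.univ.map x).map (net ω.1.1 ω.1.2 m).toEmbedding) j) : ℝ)) := by
              funext p; simp [de, hj]
            rw [e2]
            refine ho.trans (le_of_eq ?_)
            rw [hG]
            simp
          · have e2 : (fun p : ((Fin m → Coin m) × (Fin m → Coin m)) × (Fin m → Coin m) =>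
              Real.exp ((4 / 31) *
                de p.2 ((Finset.univ.map x).map (net p.1.1 p.1.2 m).toEmbedding) j)) =
                fun _ => (1 : ℝ) := by
              funext p; simp [de, hj]
            rw [e2, avg_const]
            exact hG1
        refine (Finset.prod_le_prod (fun j _ => Real.rpow_nonneg
          (avg_nonneg fun p => (Real.exp_pos _).le) _) hfac).trans ?_
        rw [← Real.rpow_sum_of_pos (lt_of_lt_of_le one_pos hG1)]
        calc G ^ (∑ j ∈ Finset.range (max 16 m), cc j / 4) ≤ G ^ (1 : ℝ) := by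
              apply Real.rpow_le_rpow_of_exponent_le hG1
              rw [← Finset.sum_div]
              have := cc_sum (max 16 m) (le_max_left _ _)
              linarith
          _ = G := Real.rpow_one G)
  refine hmain.trans ?_
  have hcard : (1 / 2 ^ m : ℝ) ^ k * (Fintype.card (Fin k ↪ Pos m) : ℝ) ≤ 1 := by
    rw [Fintype.card_embedding_eq]
    have h1 : (Fintype.card (Pos m)) = 2 ^ m := by simp [Pos]
    rw [h1, Fintype.card_fin]
    have h2 : ((2 ^ m).descFactorial k : ℝ) ≤ ((2 : ℝ) ^ m) ^ k := by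
      exact_mod_cast Nat.descFactorial_le_pow (2 ^ m) k
    calc (1 / 2 ^ m : ℝ) ^ k * ((2 ^ m).descFactorial k : ℝ)
        ≤ (1 / 2 ^ m : ℝ) ^ k * ((2 : ℝ) ^ m) ^ k := by gcongr
      _ = 1 := by rw [← mul_pow]; simp
  have hG0 : 0 ≤ G ^ 31 := by positivity
  calc (1 / 2 ^ m : ℝ) ^ k * (Fintype.card (Fin k ↪ Pos m) : ℝ) * G ^ 31
      ≤ 1 * G ^ 31 := by gcongr
    _ = Real.exp (31 * ((Real.exp (4 / 31) - 1) * (k : ℝ) ^ 2 / (2 * 2 ^ m))) := by
        rw [one_mul, hG, ← Real.exp_nat_mul]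
        norm_num
    _ ≤ Real.exp (9 / 4 * (k : ℝ) ^ 2 / 2 ^ m) := by
        apply Real.exp_le_exp.mpr
        have hexp : Real.exp (4 / 31) ≤ 1 + 9 / 62 := by
          have hb := Real.exp_bound' (x := (4 / 31 : ℝ)) (by norm_num) (by norm_num)
            (n := 2) (by norm_num)
          refine hb.trans ?_
          norm_num [Finset.sum_range_succ, Nat.factorial]
        have hk2 : 0 ≤ (k : ℝ) ^ 2 / 2 ^ m := by positivity
        have : 31 * ((Real.exp (4 / 31) - 1) * (k : ℝ) ^ 2 / (2 * 2 ^ m)) =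
            (31 * (Real.exp (4 / 31) - 1) / 2) * ((k : ℝ) ^ 2 / 2 ^ m) := by
          field_simp
        rw [this]
        have h9 : 9 / 4 * (k : ℝ) ^ 2 / 2 ^ m = 9 / 4 * ((k : ℝ) ^ 2 / 2 ^ m) := by ring
        rw [h9]
        apply mul_le_mul_of_nonneg_right _ hk2
        linarith

theorem de_univ {m : ℕ} (cin : Fin m → Coin m) (j : ℕ) (hj : j < m) :
    de cin (Finset.univ : Finset (Pos m)) j = (2 : ℝ) ^ (m - 1) := by
  unfold de
  rw [dif_pos hj, occ_univ, dbl_univ]
  push_cast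
  rfl

theorem Fn_le (m : ℕ) : F m (2 ^ m) ≤
    ((2 ^ m).factorial : ℝ) / ((2 : ℝ) ^ m) ^ (2 ^ m) * Real.exp (63 / 50 * 2 ^ m) := by
  rcases Nat.eq_zero_or_pos m with hm0 | hm
  · subst hm0
    simp only [pow_zero, Nat.factorial_one, Nat.cast_one, pow_one, div_one, one_mul, mul_one]
    rw [F_one]
    exact Real.one_le_exp (by norm_num)
  rw [F_eq_trace_ker]
  -- the constant of one pass
  set P : ℝ := ∏ j ∈ Finset.Ico 1 (min 32 m), (Tsq j 0) ^ (2 ^ (m - 1 - j)) with hP
  set K : ℝ := Real.exp (16 * (∑ j ∈ Finset.Ico 32 m, kap 5 j) * 2 ^ (m - 1)) with hK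
  set Z : ℝ := (2 : ℝ) ^ ((2 : ℝ) ^ (m - 1)) * (P * K) with hZ
  have hTpos : ∀ j : ℕ, 0 < Tsq j 0 := fun j => Tsq_pos j 0
  have hPpos : 0 < P := Finset.prod_pos fun j _ => pow_pos (hTpos j) _
  have hKpos : 0 < K := Real.exp_pos _
  have hZpos : 0 < Z := by positivity
  have huniv : ∀ x : Fin (2 ^ m) ↪ Pos m, Finset.univ.map x = (Finset.univ : Finset (Pos m)) := by
    intro x
    apply Finset.eq_univ_of_card
    rw [Finset.card_map, Finset.card_univ, Fintype.card_fin]
    simp [Pos]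
  have hlevel : ∀ cin : Fin m → Coin m,
      avg (fun c => (Wtot cin c Finset.univ) ^ (1 / 63 : ℝ)) ≤
        ((2 : ℝ) ^ ((2 : ℝ) ^ (m - 1))) ^ (1 / 63 : ℝ) * (K ^ (1 / 63 : ℝ) *
          ∏ j ∈ Finset.Ico 1 32, (avg (We cin Finset.univ j)) ^ (1 / 63 : ℝ)) := by
    intro cin
    have h := level_avg 5 (by norm_num) cin (Finset.univ : Finset (Pos m))
    have hθ : (1 / (2 ^ (5 + 1) - 1) : ℝ) = 1 / 63 := by norm_num
    rw [hθ] at h
    refine h.trans (le_of_eq ?_)
    rw [de_univ cin 0 hm]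
    have e1 : Real.exp ((1 / 63 : ℝ) * (2 ^ 5 / 2) *
        ∑ j ∈ Finset.Ico (2 ^ 5) m, kap 5 j * de cin Finset.univ j) = K ^ (1 / 63 : ℝ) := by
      rw [hK, ← Real.exp_mul]
      congr 1
      have : ∑ j ∈ Finset.Ico (2 ^ 5) m, kap 5 j * de cin Finset.univ j =
          (∑ j ∈ Finset.Ico 32 m, kap 5 j) * 2 ^ (m - 1) := by
        rw [Finset.sum_mul]
        apply Finset.sum_congr (by norm_num)
        intro j hj
        rw [Finset.mem_Ico] at hj
        rw [de_univ cin j hj.2]
      rw [this]; ring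
    rw [e1]
    have hI : (2 : ℕ) ^ 5 = 32 := by norm_num
    rw [hI]
    ring
  have hmain := amgm_all
    (fun (ω : (Fin m → Coin m) × (Fin m → Coin m)) (x : Fin (2 ^ m) ↪ Pos m) =>
      actI (net ω.1 ω.2 m) x)
    (fun ω x => Wtot ω.1 ω.2 (Finset.univ.map x))
    (fun ω x => lt_of_lt_of_le one_pos (Wtot_ge_one _ _ _))
    ((1 / 2 ^ m : ℝ) ^ (2 ^ m)) (Z ^ (1 / 63 : ℝ)) (fun x y => density m (2 ^ m) x y) (by
      intro x
      simp only [huniv]
      rw [avg_prod_type]
      refine (avg_le_avg hlevel).trans ?_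
      rw [avg_mul_left, avg_mul_left]
      have hprod : avg (fun cin : Fin m → Coin m =>
          ∏ j ∈ Finset.Ico 1 32, (avg (We cin Finset.univ j)) ^ (1 / 63 : ℝ)) ≤
          ∏ j ∈ Finset.Ico 1 32, (avg (fun cin : Fin m → Coin m =>
            avg (We cin Finset.univ j))) ^ (1 / 63 : ℝ) := by
        apply avg_prod_rpow_le (Finset.Ico 1 32)
          (fun j (cin : Fin m → Coin m) => avg (We cin Finset.univ j))
          (fun j _ cin => avg_nonneg fun c => zero_le_one.trans (We_ge_one cin _ j c))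
          (fun _ => (1 / 63 : ℝ)) (fun _ _ => by norm_num)
        simp
        norm_num
      have hval : ∏ j ∈ Finset.Ico 1 32, (avg (fun cin : Fin m → Coin m =>
            avg (We cin Finset.univ j))) ^ (1 / 63 : ℝ) = P ^ (1 / 63 : ℝ) := by
        have hsub : Finset.Ico 1 (min 32 m) ⊆ Finset.Ico 1 32 := by
          apply Finset.Ico_subset_Ico le_rfl (min_le_left _ _)
        rw [← Finset.prod_subset hsub]
        · rw [hP, ← Real.finsetProd_rpow _ _ (fun j _ => (pow_pos (hTpos j) _).le)]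
          apply Finset.prod_congr rfl
          intro j hj
          apply congrArg (fun z : ℝ => z ^ (1 / 63 : ℝ))
          rw [Finset.mem_Ico] at hj
          have hjm : j < m := lt_of_lt_of_le hj.2 (min_le_right _ _)
          have := avg_W_univ (m := m) ⟨j, hjm⟩
          rw [avg_prod_type] at this
          rw [← this]
          apply congrArg avg
          funext cin
          apply congrArg avg
          funext c
          simp [We, hjm]
        · intro j hj hj'
          rw [Finset.mem_Ico] at hj hj'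
          have hjm : ¬ j < m := by
            intro h
            exact hj' ⟨hj.1, lt_min hj.2 h⟩
          have e2 : (fun cin : Fin m → Coin m => avg (We cin Finset.univ j)) = fun _ => (1 : ℝ) := by
            funext cin
            have : (We cin (Finset.univ : Finset (Pos m)) j) = fun _ => (1 : ℝ) := by
              funext c; simp [We, hjm]
            rw [this, avg_const]
          rw [e2, avg_const, Real.one_rpow]
      calc ((2 : ℝ) ^ ((2 : ℝ) ^ (m - 1))) ^ (1 / 63 : ℝ) * (K ^ (1 / 63 : ℝ) *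
            avg (fun cin : Fin m → Coin m =>
              ∏ j ∈ Finset.Ico 1 32, (avg (We cin Finset.univ j)) ^ (1 / 63 : ℝ)))
          ≤ ((2 : ℝ) ^ ((2 : ℝ) ^ (m - 1))) ^ (1 / 63 : ℝ) * (K ^ (1 / 63 : ℝ) *
              P ^ (1 / 63 : ℝ)) := by
            rw [← hval]
            gcongr
        _ = Z ^ (1 / 63 : ℝ) := by
            rw [hZ, Real.mul_rpow (by positivity) (by positivity),
              Real.mul_rpow hPpos.le hKpos.le]
            ring)
  refine hmain.trans ?_
  have hcard : (Fintype.card (Fin (2 ^ m) ↪ Pos m) : ℝ) = ((2 ^ m).factorial : ℝ) := by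
    rw [Fintype.card_embedding_eq]
    have h1 : (Fintype.card (Pos m)) = 2 ^ m := by simp [Pos]
    rw [h1, Fintype.card_fin, Nat.descFactorial_self]
  have hZ63 : (Z ^ (1 / 63 : ℝ)) ^ 63 = Z := by
    rw [← Real.rpow_natCast, ← Real.rpow_mul hZpos.le]
    norm_num
  rw [hcard, hZ63]
  have hZle : Z ≤ Real.exp (63 / 50 * 2 ^ m) := by
    rw [← Real.exp_log hZpos]
    apply Real.exp_le_exp.mpr
    have hlog : Real.log Z = 2 ^ (m - 1) * Real.log 2 +
        ((∑ j ∈ Finset.Ico 1 (min 32 m), (2 : ℝ) ^ (m - 1 - j) * Real.log (Tsq j 0)) +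
          16 * (∑ j ∈ Finset.Ico 32 m, kap 5 j) * 2 ^ (m - 1)) := by
      rw [hZ, Real.log_mul (by positivity) (by positivity), Real.log_mul hPpos.ne' hKpos.ne',
        Real.log_rpow (by norm_num), hK, Real.log_exp, hP, Real.log_prod]
      · congr 2
        apply Finset.sum_congr rfl
        intro j _
        rw [Real.log_pow]
        push_cast
        rfl
      · intro j _
        exact (pow_pos (hTpos j) _).ne'
    rw [hlog]
    have hnum := dense_num (min 32 m) (min_le_left _ _)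
    have hkap := kap_five m
    have h2m : (2 : ℝ) ^ m = 2 * 2 ^ (m - 1) := by
      rw [← pow_succ']
      congr 1; omega
    have hpos : (0 : ℝ) < 2 ^ (m - 1) := by positivity
    have hterm : ∑ j ∈ Finset.Ico 1 (min 32 m), (2 : ℝ) ^ (m - 1 - j) * Real.log (Tsq j 0) =
        2 * 2 ^ (m - 1) * ∑ j ∈ Finset.Ico 1 (min 32 m), (1 / 2 : ℝ) ^ (j + 1) *
          Real.log (Tsq j 0) := by
      rw [Finset.mul_sum]
      apply Finset.sum_congr rfl
      intro j hj
      rw [Finset.mem_Ico] at hj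
      have hjm : j < m := lt_of_lt_of_le hj.2 (min_le_right _ _)
      have : (2 : ℝ) ^ (m - 1) = 2 ^ (m - 1 - j) * 2 ^ j := by
        rw [← pow_add]; congr 1; omega
      rw [this, pow_succ]
      have h2j : (1 / 2 : ℝ) ^ j * 2 ^ j = 1 := by
        rw [← mul_pow]; norm_num
      calc (2 : ℝ) ^ (m - 1 - j) * Real.log (Tsq j 0)
          = 2 ^ (m - 1 - j) * ((1 / 2 : ℝ) ^ j * 2 ^ j) * Real.log (Tsq j 0) := by
            rw [h2j, mul_one]
        _ = _ := by ring
    rw [hterm, h2m]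
    nlinarith [hnum, hkap, hpos]
  have e3 : (1 / 2 ^ m : ℝ) ^ (2 ^ m) * ((2 ^ m).factorial : ℝ) =
      ((2 ^ m).factorial : ℝ) / ((2 : ℝ) ^ m) ^ (2 ^ m) := by
    rw [one_div, inv_pow]
    field_simp
  rw [e3]
  exact mul_le_mul_of_nonneg_left hZle (by positivity)

end Crest.Agent.R155
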