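import Crest.Agent.R155.FinalA

/-!
# PIECE FINALB (row 155): the middle part and the last term of the final sum (pure real analysis)

* `sumB`: `n/64 ≤ j < n/8`, `k = 2j`: `C(2j,j) ≥ 4^j/(2j+1)` (`Nat.four_pow_le_two_mul_add_one_mul_central_binom`
  or similar), `C(n,j) ≤ (e n/j)^j`; the logarithm of the term is
  `≤ 24 (9 j²/n - j log 4 + log(2j+1)) + j (1 + log(n/j)) + 9/4 j²/n ≤ -2.9 j + 24 log(2j+1)`:
  with `κ = j/n ∈ [1/64, 1/8]`: `24(9κ - 1.38629) + 1 - log κ + 2.25 κ` is increasing in `κ`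
  (derivative `218.25 - 1/κ > 0`), at `κ = 1/8` it is `-6.271 + 1 + 2.0795 + 0.2813 = -2.910`.
  At most `n` terms, `j ≥ n/64`.
* `choose_four`: induction on `r`: the ratio of consecutive left sides is `256/27`, and
  `C(4r+4, r+1)(4r+5) / (C(4r,r)(4r+1)) = 4(4r+3)(4r+2)(4r+1)(4r+5)/((3r+3)(3r+2)(3r+1)(4r+1)) ≥ 256/27`
  (cross-multiply; polynomial inequality in `r ≥ 0`).
* `lastC`: `n! ≤ e √n (n/e)^n` (or any bound `n! ≤ C n (n/e)^n`), so `Fb m ≤ e √n e^{0.26 n}`;
  with `n = 8r`, `C(4r, r) ≥ (256/27)^r/(4r+1)`; logarithm of the product: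
  `25 (0.26 n + log(e√n)) - 24 (n · 0.281167 - log(n/2+1)) = -0.248 n + O(log n)`
  (`log(256/27) = 2.24934`, `/8 = 0.2811675`).
-/

set_option autoImplicit false

namespace Crest.Agent.R155

namespace FinalBaux

lemma choose_le (n j : ℕ) (hj : 0 < j) :
    ((n.choose j : ℕ) : ℝ) ≤ (Real.exp 1 * n / j) ^ j := by
  have h1 : ((n.choose j : ℕ) : ℝ) ≤ (n : ℝ) ^ j / (j.factorial : ℝ) := Nat.choose_le_pow_div j n
  have h2 := Real.pow_div_factorial_le_exp (j : ℝ) (by positivity) j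
  have hj' : (0 : ℝ) < j := by exact_mod_cast hj
  have hf : (0 : ℝ) < (j.factorial : ℝ) := by exact_mod_cast Nat.factorial_pos j
  have h3 : (n : ℝ) ^ j / (j.factorial : ℝ) = ((n : ℝ) / j) ^ j * ((j : ℝ) ^ j / (j.factorial : ℝ)) := by
    rw [div_pow]; field_simp
  have h4 : (Real.exp 1 * n / j) ^ j = ((n : ℝ) / j) ^ j * Real.exp j := by
    rw [mul_div_assoc, mul_pow, ← Real.exp_nat_mul]; ring_nf
  rw [h4]
  refine h1.trans ?_
  rw [h3]
  exact mul_le_mul_of_nonneg_left h2 (by positivity)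

lemma log_ineq (k : ℝ) (h1 : 1 / 64 ≤ k) (h2 : k ≤ 1 / 8) :
    Real.log (1 / k) ≤ 3 * Real.log 2 + 8 - 64 * k := by
  have hk : 0 < k := by linarith
  have h3 : Real.log ((1 / k) / 8) ≤ (1 / k) / 8 - 1 := Real.log_le_sub_one_of_pos (by positivity)
  have h4 : Real.log ((1 / k) / 8) = Real.log (1 / k) - 3 * Real.log 2 := by
    rw [Real.log_div (by positivity) (by norm_num)]
    have : (8 : ℝ) = 2 ^ 3 := by norm_num
    rw [this, Real.log_pow]; norm_num
  have h5 : (1 / k) / 8 - 1 ≤ 64 * (1 / 8 - k) := by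
    have h6 : (1 / k) / 8 - 1 = (1 / k) * (1 / 8 - k) := by field_simp
    rw [h6]
    have h7 : 1 / k ≤ 64 := by
      rw [div_le_iff₀ hk]; linarith
    exact mul_le_mul_of_nonneg_right h7 (by linarith)
  linarith

lemma term_le (m j : ℕ) (hj : 2 ≤ j) (h1 : 2 ^ m ≤ 64 * j) (h2 : 8 * j ≤ 2 ^ m) :
    tm m j (2 * j) ≤ (2 * (j : ℝ)) ^ 24 * Real.exp (-(29 / 10) * j) := by
  unfold tm
  set n : ℝ := (2 : ℝ) ^ m with hn
  have hn0 : 0 < n := by positivity
  have hj0 : (0 : ℝ) < j := by exact_mod_cast (by omega : 0 < j)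
  have h1' : n ≤ 64 * j := by rw [hn]; exact_mod_cast h1
  have h2' : 8 * (j : ℝ) ≤ n := by rw [hn]; exact_mod_cast h2
  have hnc : (((2 ^ m : ℕ) : ℕ) : ℝ) = n := by rw [hn]; push_cast; rfl
  -- central binomial
  have hc : (4 : ℝ) ^ j / (2 * j) ≤ (((2 * j).choose j : ℕ) : ℝ) := by
    have := Nat.four_pow_le_two_mul_self_mul_centralBinom j (by omega)
    rw [Nat.centralBinom_eq_two_mul_choose] at this
    have h' : (4 : ℝ) ^ j ≤ 2 * j * (((2 * j).choose j : ℕ) : ℝ) := by exact_mod_cast this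
    rw [div_le_iff₀ (by positivity)]
    linarith
  have hc0 : (0 : ℝ) < (4 : ℝ) ^ j / (2 * j) := by positivity
  have e1 : Real.exp (9 / 4 * (((2 * j : ℕ)) : ℝ) ^ 2 / n) / (((2 * j).choose j : ℕ) : ℝ)
      ≤ Real.exp (9 * (j : ℝ) ^ 2 / n) * (2 * j) / (4 : ℝ) ^ j := by
    have : (9 / 4 * (((2 * j : ℕ)) : ℝ) ^ 2 / n) = 9 * (j : ℝ) ^ 2 / n := by push_cast; ring
    rw [this]
    calc Real.exp (9 * (j : ℝ) ^ 2 / n) / (((2 * j).choose j : ℕ) : ℝ)
        ≤ Real.exp (9 * (j : ℝ) ^ 2 / n) / ((4 : ℝ) ^ j / (2 * j)) :=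
          div_le_div_of_nonneg_left (Real.exp_pos _).le hc0 hc
      _ = Real.exp (9 * (j : ℝ) ^ 2 / n) * (2 * j) / (4 : ℝ) ^ j := by field_simp
  have e2 : (((2 ^ m).choose j : ℕ) : ℝ) ≤ (Real.exp 1 * n / j) ^ j := by
    have := choose_le (2 ^ m) j (by omega)
    rw [hnc] at this
    exact this
  have e0 : 0 ≤ Real.exp (9 / 4 * (((2 * j : ℕ)) : ℝ) ^ 2 / n) / (((2 * j).choose j : ℕ) : ℝ) := by
    positivity
  calc (Real.exp (9 / 4 * (((2 * j : ℕ)) : ℝ) ^ 2 / n) / (((2 * j).choose j : ℕ) : ℝ)) ^ 24 *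
        ((((2 ^ m).choose j : ℕ) : ℝ) * Real.exp (9 / 4 * (j : ℝ) ^ 2 / n))
      ≤ (Real.exp (9 * (j : ℝ) ^ 2 / n) * (2 * j) / (4 : ℝ) ^ j) ^ 24 *
        ((Real.exp 1 * n / j) ^ j * Real.exp (9 / 4 * (j : ℝ) ^ 2 / n)) := by
        refine mul_le_mul (pow_le_pow_left₀ e0 e1 24) ?_ (by positivity) (by positivity)
        exact mul_le_mul_of_nonneg_right e2 (Real.exp_pos _).le
    _ = (2 * (j : ℝ)) ^ 24 * Real.exp (24 * (9 * (j : ℝ) ^ 2 / n) - 24 * (j * (2 * Real.log 2))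
          + j * (1 + Real.log (n / j)) + 9 / 4 * (j : ℝ) ^ 2 / n) := by
        have f1 : (4 : ℝ) ^ j = Real.exp (j * (2 * Real.log 2)) := by
          rw [← Real.rpow_natCast 4 j, Real.rpow_def_of_pos (by norm_num)]
          have : (4 : ℝ) = 2 ^ 2 := by norm_num
          rw [this, Real.log_pow]; push_cast; ring_nf
        have f2 : (Real.exp 1 * n / j) ^ j = Real.exp (j * (1 + Real.log (n / j))) := by
          rw [Real.exp_nat_mul, Real.exp_add, Real.exp_log (by positivity), mul_div_assoc]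
        rw [f1, f2, div_pow, mul_pow, ← Real.exp_nat_mul, ← Real.exp_nat_mul]
        rw [Real.exp_add, Real.exp_add, Real.exp_sub]
        push_cast
        field_simp
    _ ≤ (2 * (j : ℝ)) ^ 24 * Real.exp (-(29 / 10) * j) := by
        refine mul_le_mul_of_nonneg_left (Real.exp_le_exp.mpr ?_) (by positivity)
        set k : ℝ := j / n with hk
        have hk1 : 1 / 64 ≤ k := by
          rw [hk, le_div_iff₀ hn0]; linarith
        have hk2 : k ≤ 1 / 8 := by
          rw [hk, div_le_iff₀ hn0]; linarith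
        have hl : Real.log (n / j) ≤ 3 * Real.log 2 + 8 - 64 * k := by
          have := log_ineq k hk1 hk2
          have h' : 1 / k = n / j := by rw [hk]; field_simp
          rwa [h'] at this
        have hj2 : (j : ℝ) ^ 2 / n = j * k := by rw [hk]; ring
        have hlog := Real.log_two_gt_d9
        have hfin : 24 * (9 * k) - 24 * (2 * Real.log 2) + (1 + Real.log (n / j)) + 9 / 4 * k
            ≤ -(29 / 10) := by
          nlinarith
        have : 24 * (9 * (j : ℝ) ^ 2 / n) - 24 * (j * (2 * Real.log 2))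
          + j * (1 + Real.log (n / j)) + 9 / 4 * (j : ℝ) ^ 2 / n
          = j * (24 * (9 * k) - 24 * (2 * Real.log 2) + (1 + Real.log (n / j)) + 9 / 4 * k) := by
          rw [mul_div_assoc 9, mul_div_assoc (9 / 4), hj2]; ring
        rw [this]
        calc (j : ℝ) * (24 * (9 * k) - 24 * (2 * Real.log 2) + (1 + Real.log (n / j)) + 9 / 4 * k)
            ≤ j * (-(29 / 10)) := mul_le_mul_of_nonneg_left hfin hj0.le
          _ = -(29 / 10) * j := by ring

lemma tm_nonneg (m j k : ℕ) : 0 ≤ tm m j k := by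
  unfold tm; positivity

lemma tendsto_aux (s : ℕ) (b : ℝ) (hb : 0 < b) :
    Filter.Tendsto (fun m : ℕ => ((2 : ℝ) ^ m) ^ s * Real.exp (-b * (2 : ℝ) ^ m))
      Filter.atTop (nhds 0) := by
  have h1 := tendsto_rpow_mul_exp_neg_mul_atTop_nhds_zero (s : ℝ) b hb
  have h2 : Filter.Tendsto (fun m : ℕ => (2 : ℝ) ^ m) Filter.atTop Filter.atTop :=
    tendsto_pow_atTop_atTop_of_one_lt (by norm_num)
  have h3 := h1.comp h2
  refine h3.congr ?_
  intro m
  simp [Function.comp, Real.rpow_natCast]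

end FinalBaux

open FinalBaux

theorem sumB : Filter.Tendsto (fun m : ℕ =>
    ∑ j ∈ (Finset.Ico 2 (2 ^ (m - 3))).filter (fun j => ¬ 64 * j < 2 ^ m),
      tm m j (2 * j)) Filter.atTop (nhds 0) := by
  refine squeeze_zero' (Filter.Eventually.of_forall fun m => Finset.sum_nonneg fun j _ =>
    tm_nonneg m j _) ?_ (tendsto_aux 25 (29 / 640) (by norm_num))
  filter_upwards [Filter.eventually_ge_atTop 3] with m hm
  have h8 : 8 * 2 ^ (m - 3) = 2 ^ m := by
    have : 2 ^ m = 2 ^ (m - 3) * 2 ^ 3 := by rw [← pow_add]; congr 1; omega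
    rw [this]; ring
  have hb : ∀ j ∈ (Finset.Ico 2 (2 ^ (m - 3))).filter (fun j => ¬ 64 * j < 2 ^ m),
      tm m j (2 * j) ≤ ((2 : ℝ) ^ m) ^ 24 * Real.exp (-(29 / 640) * (2 : ℝ) ^ m) := by
    intro j hj
    rw [Finset.mem_filter, Finset.mem_Ico] at hj
    obtain ⟨⟨hj1, hj2⟩, hj3⟩ := hj
    have h64 : 2 ^ m ≤ 64 * j := by omega
    have h8j : 8 * j ≤ 2 ^ m := by omega
    refine (term_le m j hj1 h64 h8j).trans ?_
    have h64' : (2 : ℝ) ^ m ≤ 64 * j := by exact_mod_cast h64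
    have h8' : 8 * (j : ℝ) ≤ (2 : ℝ) ^ m := by exact_mod_cast h8j
    have hj0 : (0 : ℝ) ≤ j := by positivity
    refine mul_le_mul (pow_le_pow_left₀ (by positivity) (by linarith) 24)
      (Real.exp_le_exp.mpr (by linarith)) (Real.exp_pos _).le (by positivity)
  calc ∑ j ∈ (Finset.Ico 2 (2 ^ (m - 3))).filter (fun j => ¬ 64 * j < 2 ^ m), tm m j (2 * j)
      ≤ ((Finset.Ico 2 (2 ^ (m - 3))).filter (fun j => ¬ 64 * j < 2 ^ m)).card •
        (((2 : ℝ) ^ m) ^ 24 * Real.exp (-(29 / 640) * (2 : ℝ) ^ m)) :=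
        Finset.sum_le_card_nsmul _ _ _ hb
    _ ≤ (2 : ℝ) ^ m * (((2 : ℝ) ^ m) ^ 24 * Real.exp (-(29 / 640) * (2 : ℝ) ^ m)) := by
        rw [nsmul_eq_mul]
        refine mul_le_mul_of_nonneg_right ?_ (by positivity)
        have hcard : ((Finset.Ico 2 (2 ^ (m - 3))).filter (fun j => ¬ 64 * j < 2 ^ m)).card
            ≤ 2 ^ m := by
          refine (Finset.card_filter_le _ _).trans ?_
          rw [Nat.card_Ico]
          have : 2 ^ (m - 3) ≤ 2 ^ m := Nat.pow_le_pow_right (by norm_num) (by omega)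
          omega
        exact_mod_cast hcard
    _ = ((2 : ℝ) ^ m) ^ 25 * Real.exp (-(29 / 640) * (2 : ℝ) ^ m) := by ring

theorem choose_four (r : ℕ) : (256 / 27 : ℝ) ^ r ≤ ((4 * r).choose r : ℝ) * (4 * r + 1) := by
  induction r with
  | zero => simp
  | succ r ih =>
    -- C(4r+4, r+1) * ((r+1) (3r+3)(3r+2)(3r+1)) = C(4r,r) * (4r+4)(4r+3)(4r+2)(4r+1)
    have key : (4 * (r + 1)).choose (r + 1) * ((r + 1) * ((3 * r + 3) * (3 * r + 2) * (3 * r + 1)))
        = (4 * r).choose r * ((4 * r + 4) * (4 * r + 3) * (4 * r + 2) * (4 * r + 1)) := by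
      have a1 : (4 * (r + 1)).choose (r + 1) * (r + 1).factorial * (3 * r + 3).factorial
          = (4 * r + 4).factorial := by
        have := Nat.choose_mul_factorial_mul_factorial (show r + 1 ≤ 4 * (r + 1) by omega)
        have h' : 4 * (r + 1) - (r + 1) = 3 * r + 3 := by omega
        rw [h'] at this
        have h'' : 4 * (r + 1) = 4 * r + 4 := by ring
        rw [this, h'']
      have a2 : (4 * r).choose r * r.factorial * (3 * r).factorial = (4 * r).factorial := by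
        have := Nat.choose_mul_factorial_mul_factorial (show r ≤ 4 * r by omega)
        have h' : 4 * r - r = 3 * r := by omega
        rwa [h'] at this
      have b1 : (r + 1).factorial = (r + 1) * r.factorial := Nat.factorial_succ r
      have b2 : (3 * r + 3).factorial
          = (3 * r + 3) * ((3 * r + 2) * ((3 * r + 1) * (3 * r).factorial)) := by
        rw [Nat.factorial_succ, Nat.factorial_succ, Nat.factorial_succ]
      have b3 : (4 * r + 4).factorial
          = (4 * r + 4) * ((4 * r + 3) * ((4 * r + 2) * ((4 * r + 1) * (4 * r).factorial))) := by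
        rw [Nat.factorial_succ, Nat.factorial_succ, Nat.factorial_succ, Nat.factorial_succ]
      rw [b1, b2, b3, ← a2] at a1
      have hpos : 0 < r.factorial * (3 * r).factorial :=
        Nat.mul_pos (Nat.factorial_pos _) (Nat.factorial_pos _)
      apply Nat.eq_of_mul_eq_mul_right hpos
      linear_combination a1
    have key' : (((4 * (r + 1)).choose (r + 1) : ℕ) : ℝ) *
        (((r : ℝ) + 1) * ((3 * r + 3) * (3 * r + 2) * (3 * r + 1)))
        = (((4 * r).choose r : ℕ) : ℝ) * ((4 * r + 4) * (4 * r + 3) * (4 * r + 2) * (4 * r + 1)) := by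
      exact_mod_cast key
    have hr : (0 : ℝ) ≤ r := by positivity
    set A : ℝ := (((4 * (r + 1)).choose (r + 1) : ℕ) : ℝ) with hA
    set B : ℝ := (((4 * r).choose r : ℕ) : ℝ) with hB
    have hB0 : 0 ≤ B := by rw [hB]; positivity
    have hA0 : 0 ≤ A := by rw [hA]; positivity
    have hD : (0 : ℝ) < ((r : ℝ) + 1) * ((3 * r + 3) * (3 * r + 2) * (3 * r + 1)) := by positivity
    rw [pow_succ]
    have h1 : (256 / 27 : ℝ) ^ r * (256 / 27) ≤ B * (4 * r + 1) * (256 / 27) :=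
      mul_le_mul_of_nonneg_right ih (by norm_num)
    refine h1.trans ?_
    push_cast
    have hAeq : A = B * ((4 * r + 4) * (4 * r + 3) * (4 * r + 2) * (4 * r + 1)) /
        (((r : ℝ) + 1) * ((3 * r + 3) * (3 * r + 2) * (3 * r + 1))) := by
      rw [eq_div_iff hD.ne']; exact key'
    rw [hAeq]
    rw [div_mul_eq_mul_div, le_div_iff₀ hD]
    have hpoly : (256 / 27 : ℝ) * (((r : ℝ) + 1) * ((3 * r + 3) * (3 * r + 2) * (3 * r + 1)))
        ≤ (4 * r + 4) * (4 * r + 3) * (4 * r + 2) * (4 * (r + 1) + 1) := by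
      nlinarith [mul_nonneg hr hr, mul_nonneg (mul_nonneg hr hr) hr,
        mul_nonneg (mul_nonneg hr hr) (mul_nonneg hr hr)]
    have hB1 : 0 ≤ B * (4 * r + 1) := by positivity
    calc B * (4 * (r : ℝ) + 1) * (256 / 27) *
          (((r : ℝ) + 1) * ((3 * r + 3) * (3 * r + 2) * (3 * r + 1)))
        = (B * (4 * r + 1)) * ((256 / 27 : ℝ) *
          (((r : ℝ) + 1) * ((3 * r + 3) * (3 * r + 2) * (3 * r + 1)))) := by ring
      _ ≤ (B * (4 * r + 1)) * ((4 * r + 4) * (4 * r + 3) * (4 * r + 2) * (4 * (r + 1) + 1)) :=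
          mul_le_mul_of_nonneg_left hpoly hB1
      _ = B * ((4 * r + 4) * (4 * r + 3) * (4 * r + 2) * (4 * r + 1)) * (4 * (r + 1) + 1) := by
          ring

/-- the bound of `F m (2^m)` -/
noncomputable def Fb (m : ℕ) : ℝ :=
  ((2 ^ m).factorial : ℝ) / ((2 : ℝ) ^ m) ^ (2 ^ m) * Real.exp (63 / 50 * 2 ^ m)

namespace FinalBaux

lemma factorial_le (n : ℕ) (hn : 0 < n) :
    (n.factorial : ℝ) ≤ Real.exp 1 * n * ((n : ℝ) / Real.exp 1) ^ n := by
  have h := Stirling.stirlingSeq'_antitone (Nat.zero_le (n - 1))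
  simp only [Function.comp] at h
  have h1 : Nat.succ (n - 1) = n := by omega
  rw [h1, show Nat.succ 0 = 1 from rfl, Stirling.stirlingSeq_one] at h
  unfold Stirling.stirlingSeq at h
  have hn' : (0 : ℝ) < n := by exact_mod_cast hn
  have hn1 : (1 : ℝ) ≤ n := by exact_mod_cast hn
  rw [div_le_iff₀ (by positivity)] at h
  refine h.trans ?_
  have h2 : √(2 * (n : ℝ)) = √2 * √n := Real.sqrt_mul (by norm_num) _
  have h3 : √(n : ℝ) ≤ n := by
    rw [Real.sqrt_le_left hn'.le]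
    nlinarith
  rw [h2]
  have h4 : Real.exp 1 / √2 * (√2 * √(n : ℝ) * ((n : ℝ) / Real.exp 1) ^ n)
      = Real.exp 1 * √(n : ℝ) * ((n : ℝ) / Real.exp 1) ^ n := by
    have : √(2 : ℝ) ≠ 0 := by positivity
    field_simp
  rw [h4]
  gcongr

lemma Fb_nonneg (m : ℕ) : 0 ≤ Fb m := by unfold Fb; positivity

lemma Fb_le (m : ℕ) : Fb m ≤ Real.exp 1 * (2 : ℝ) ^ m * Real.exp (13 / 50 * 2 ^ m) := by
  unfold Fb
  have h := factorial_le (2 ^ m) (by positivity)
  push_cast at h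
  set n : ℝ := (2 : ℝ) ^ m with hn
  have hn0 : 0 < n := by positivity
  have hp : 0 < n ^ (2 ^ m) := by positivity
  have h1 : ((2 ^ m).factorial : ℝ) / n ^ (2 ^ m) ≤ Real.exp 1 * n * Real.exp (-n) := by
    rw [div_le_iff₀ hp]
    refine h.trans (le_of_eq ?_)
    rw [div_pow, ← Real.exp_nat_mul, Real.exp_neg]
    have : (((2 ^ m : ℕ)) : ℝ) = n := by rw [hn]; push_cast; rfl
    rw [this, mul_one]
    field_simp
  calc ((2 ^ m).factorial : ℝ) / n ^ (2 ^ m) * Real.exp (63 / 50 * n)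
      ≤ Real.exp 1 * n * Real.exp (-n) * Real.exp (63 / 50 * n) :=
        mul_le_mul_of_nonneg_right h1 (Real.exp_pos _).le
    _ = Real.exp 1 * n * Real.exp (13 / 50 * n) := by
        rw [mul_assoc (Real.exp 1 * n), ← Real.exp_add]; ring_nf

lemma num67 : Real.exp (67 / 10) ≤ (256 / 27 : ℝ) ^ 3 := by
  have h1 : (Real.exp (67 / 10)) ^ 10 ≤ ((256 / 27 : ℝ) ^ 3) ^ 10 := by
    rw [← Real.exp_nat_mul]
    have : ((10 : ℕ) : ℝ) * (67 / 10) = ((67 : ℕ) : ℝ) * 1 := by norm_num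
    rw [this, Real.exp_nat_mul]
    calc Real.exp 1 ^ 67 ≤ (2.7182818286 : ℝ) ^ 67 :=
          pow_le_pow_left₀ (Real.exp_pos _).le Real.exp_one_lt_d9.le 67
      _ ≤ ((256 / 27 : ℝ) ^ 3) ^ 10 := by norm_num
  exact le_of_pow_le_pow_left₀ (by norm_num) (by positivity) h1

end FinalBaux

theorem lastC : Filter.Tendsto (fun m : ℕ =>
    (Fb m / ((2 ^ (m - 1)).choose (2 ^ (m - 3)) : ℝ)) ^ 24 * Fb m) Filter.atTop (nhds 0) := by
  have hlim := (tendsto_aux 49 (1 / 5) (by norm_num)).const_mul (Real.exp 25)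
  rw [mul_zero] at hlim
  refine squeeze_zero' (Filter.Eventually.of_forall fun m => ?_) ?_ hlim
  · have := Fb_nonneg m
    positivity
  filter_upwards [Filter.eventually_ge_atTop 3] with m hm
  set r : ℕ := 2 ^ (m - 3) with hr
  have h8 : 8 * r = 2 ^ m := by
    have : 2 ^ m = 2 ^ (m - 3) * 2 ^ 3 := by rw [← pow_add]; congr 1; omega
    rw [hr, this]; ring
  have h4 : 2 ^ (m - 1) = 4 * r := by
    have : 2 ^ (m - 1) = 2 ^ (m - 3) * 2 ^ 2 := by rw [← pow_add]; congr 1; omega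
    rw [hr, this]; ring
  have hr1 : 1 ≤ r := by rw [hr]; exact Nat.one_le_two_pow
  set n : ℝ := (2 : ℝ) ^ m with hn
  have hnr : n = 8 * r := by rw [hn]; exact_mod_cast h8.symm
  have hr1' : (1 : ℝ) ≤ r := by exact_mod_cast hr1
  have hn0 : 0 < n := by positivity
  have hc := choose_four r
  rw [h4]
  set C : ℝ := (((4 * r).choose r : ℕ) : ℝ) with hC
  have hC1 : (256 / 27 : ℝ) ^ r / n ≤ C := by
    rw [div_le_iff₀ hn0]
    refine hc.trans ?_
    have : (0 : ℝ) ≤ C := by rw [hC]; positivity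
    refine mul_le_mul_of_nonneg_left ?_ this
    rw [hnr]; linarith
  have hC0 : (0 : ℝ) < (256 / 27 : ℝ) ^ r / n := by positivity
  have hFb := Fb_le m
  have hFb0 := Fb_nonneg m
  set G : ℝ := Real.exp 1 * n * Real.exp (13 / 50 * n) with hG
  have hG0 : 0 ≤ G := by positivity
  have h1 : Fb m / C ≤ G / ((256 / 27 : ℝ) ^ r / n) := div_le_div₀ hG0 hFb hC0 hC1
  have hCpos : 0 < C := lt_of_lt_of_le hC0 hC1
  calc (Fb m / C) ^ 24 * Fb m ≤ (G / ((256 / 27 : ℝ) ^ r / n)) ^ 24 * G :=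
        mul_le_mul (pow_le_pow_left₀ (by positivity) h1 24) hFb hFb0 (by positivity)
    _ = G ^ 25 * n ^ 24 / ((256 / 27 : ℝ) ^ 3) ^ (8 * r) := by
        have : ((256 / 27 : ℝ) ^ 3) ^ (8 * r) = ((256 / 27 : ℝ) ^ r) ^ 24 := by
          rw [← pow_mul, ← pow_mul]; congr 1; ring
        rw [this]
        field_simp
    _ ≤ G ^ 25 * n ^ 24 / (Real.exp (67 / 10)) ^ (8 * r) := by
        refine div_le_div_of_nonneg_left (by positivity) (by positivity) ?_
        exact pow_le_pow_left₀ (Real.exp_pos _).le num67 _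
    _ = Real.exp 25 * (n ^ 49 * Real.exp (-(1 / 5) * n)) := by
        rw [hG, mul_pow, mul_pow, ← Real.exp_nat_mul, ← Real.exp_nat_mul, ← Real.exp_nat_mul]
        have e1 : (((8 * r : ℕ)) : ℝ) = n := by rw [hnr]; push_cast; rfl
        rw [e1]
        rw [div_eq_mul_inv, ← Real.exp_neg]
        have e2 : Real.exp (((25 : ℕ) : ℝ) * 1) = Real.exp 25 := by norm_num
        rw [e2]
        have e3 : Real.exp (-(1 / 5) * n)
            = Real.exp (((25 : ℕ) : ℝ) * (13 / 50 * n)) * Real.exp (-(n * (67 / 10))) := by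
          rw [← Real.exp_add]; congr 1; push_cast; ring
        rw [e3]; ring

end Crest.Agent.R155
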