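import Crest.Agent.R155.LinkAux

/-!
# PIECE LINK (row 155): from the statement to `chi2`

Let `m = d + 1`, `n = 2^m = 2 * 2^d`, `e : Fin (2 * 2^d) ≃ Pos m` the binary digits
(`e x i = x.testBit i`).
(1) One step: `stepPos (2^d) c` is, after transport by `e`, `rot ∘ sw top c'`, where `top = d`,
`c' (y) = c (index of y without the top bit)` and `rot` moves bit `i` to bit `i+1` and the top bit to bit `0`.
(2) `Q = ker (fun c s => (step c) * s)` satisfies `Q^m = PG m`, `Q^(m * 1600) = (PG m)^1600`, and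
`uniformProb {cs | iterPos (2^d) t cs = g} = (Q^t) 1 (e g e⁻¹)`.
(3) Cauchy-Schwarz.
-/

set_option autoImplicit false

namespace Crest.Agent.R155

open Crest.ProbabilityR.Shuffle

theorem tv_nonneg (d t : ℕ) : 0 ≤ Crest.ProbabilityR.Shuffle.tvFromUniform d t := by
  unfold Crest.ProbabilityR.Shuffle.tvFromUniform
  positivity

theorem tv_le (d : ℕ) :
    Crest.ProbabilityR.Shuffle.tvFromUniform (2 ^ d) (1600 * (d + 1)) ≤
      (1 / 2) * Real.sqrt (chi2 (d + 1)) := by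
  classical
  set N : ℝ := ((2 * 2 ^ d).factorial : ℝ) with hN
  have hNpos : 0 < N := by
    rw [hN]; exact_mod_cast Nat.factorial_pos _
  set μ : Equiv.Perm (Fin (2 * 2 ^ d)) → ℝ := fun g =>
    Crest.FinProb.uniformProb {cs : Fin (1600 * (d + 1)) → Fin (2 ^ d) → Bool |
      iterPos (2 ^ d) (1600 * (d + 1)) cs = ⇑g} with hμ
  have hcard : (Fintype.card (Equiv.Perm (Fin (2 * 2 ^ d))) : ℝ) = N := by
    rw [Fintype.card_perm, Fintype.card_fin]
  have hsum : ∑ g, μ g = 1 := sum_uniformProb_iterPos _ _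
  have hμ2 : ∀ g, μ g = (PG (d + 1) ^ 1600) 1 (Equiv.permCongr (eb d) g) := by
    intro g
    rw [hμ]
    simp only
    rw [uniformProb_eq, ← Qm_pow_m, ← pow_mul, mul_comm (d + 1) 1600]
  have hchi : chi2 (d + 1) = N * ∑ g, μ g ^ 2 - 1 := by
    unfold chi2
    rw [hN, pow_succ']
    simp_rw [hμ2]
    rw [Equiv.sum_comp (Equiv.permCongr (eb d))
      (fun g => ((PG (d + 1) ^ 1600) 1 g) ^ 2)]
  have hCS : (∑ g, |μ g - 1 / N|) ^ 2 ≤ chi2 (d + 1) := by
    have h1 := sq_sum_le_card_mul_sum_sq (s := Finset.univ) (f := fun g => |μ g - 1 / N|)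
    rw [Finset.card_univ, hcard] at h1
    refine h1.trans (le_of_eq ?_)
    rw [hchi]
    have h2 : ∑ g, |μ g - 1 / N| ^ 2 = ∑ g, μ g ^ 2 - 1 / N := by
      have : ∀ g, |μ g - 1 / N| ^ 2 = μ g ^ 2 - (2 / N) * μ g + (1 / N) ^ 2 := by
        intro g; rw [sq_abs]; ring
      simp_rw [this]
      rw [Finset.sum_add_distrib, Finset.sum_sub_distrib, ← Finset.mul_sum, hsum,
        Finset.sum_const, Finset.card_univ, nsmul_eq_mul, hcard]
      field_simp
      ring
    rw [h2, mul_sub, mul_one_div_cancel hNpos.ne']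
  unfold Crest.ProbabilityR.Shuffle.tvFromUniform
  have h3 : ∑ g, |μ g - 1 / N| ≤ Real.sqrt (chi2 (d + 1)) := Real.le_sqrt_of_sq_le hCS
  have h4 : (1 / 2 : ℝ) * ∑ g, |μ g - 1 / N| ≤ 1 / 2 * Real.sqrt (chi2 (d + 1)) := by
    linarith
  exact h4

end Crest.Agent.R155
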