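import Crest.Agent.R155.Spec
import Crest.Agent.R155.FBounds
import Crest.Agent.R155.Ker
import Crest.Agent.R155.FinalB
import Crest.Agent.R155.Link

/-!
# Row 155: final assembly (helper94)
-/

set_option autoImplicit false

namespace Crest.Agent.R155

/-- choice of the number of cards -/
def kk (m j : ℕ) : ℕ :=
  if j = 1 then 1 else if 64 * j < 2 ^ m then Nat.sqrt (j * 2 ^ m) / 2 else 2 * j

theorem kk_spec (m : ℕ) (hm : 3 ≤ m) (j : ℕ) (h1 : 1 ≤ j) (h2 : j < 2 ^ (m - 3)) :
    j ≤ kk m j ∧ kk m j + j ≤ 2 ^ m := by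
  obtain ⟨r, rfl⟩ : ∃ r, m = r + 3 := ⟨m - 3, by omega⟩
  have hn : 2 ^ (r + 3) = 8 * 2 ^ r := by rw [pow_add]; ring
  have h2' : j < 2 ^ r := by simpa using h2
  unfold kk
  rw [hn]
  split_ifs with ha hb
  · subst ha
    have : 1 ≤ 2 ^ r := Nat.one_le_two_pow
    constructor <;> omega
  · have hs1 : 2 * j ≤ Nat.sqrt (j * (8 * 2 ^ r)) := by
      rw [Nat.le_sqrt]
      nlinarith
    have hs2 : Nat.sqrt (j * (8 * 2 ^ r)) ≤ 8 * 2 ^ r := by
      have : Nat.sqrt (j * (8 * 2 ^ r)) ≤ Nat.sqrt ((8 * 2 ^ r) * (8 * 2 ^ r)) :=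
        Nat.sqrt_le_sqrt (Nat.mul_le_mul_right _ (by omega))
      rwa [Nat.sqrt_eq] at this
    constructor
    · omega
    · omega
  · constructor <;> omega

theorem F_ge_one (m k : ℕ) (hk : k ≤ 2 ^ m) : 1 ≤ F m k := by
  have := mult_le m k 1 hk le_rfl 0 le_rfl ⊥ bot_le (by
    intro v hv
    rw [Submodule.mem_bot] at hv
    subst hv
    simp) (Classical.choose (Finset.exists_subset_card_eq (s := (Finset.univ : Finset (Pos m)))
      (n := 2 ^ m - k) (by simp)))
    (Classical.choose_spec (Finset.exists_subset_card_eq (s := (Finset.univ : Finset (Pos m)))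
      (n := 2 ^ m - k) (by simp))).2
  simp at this
  exact this

theorem chi2_le_sum (m : ℕ) (hm : 3 ≤ m) : chi2 m ≤
    (∑ j ∈ (Finset.Ico 2 (2 ^ (m - 3))).filter (fun j => 64 * j < 2 ^ m),
      tm m j (Nat.sqrt (j * 2 ^ m) / 2)) +
    (∑ j ∈ (Finset.Ico 2 (2 ^ (m - 3))).filter (fun j => ¬ 64 * j < 2 ^ m), tm m j (2 * j)) +
    (Fb m / ((2 ^ (m - 1)).choose (2 ^ (m - 3)) : ℝ)) ^ 24 * Fb m := by
  have hspec := spec m hm (kk m) (fun j h1 h2 => kk_spec m hm j h1 h2)
  refine hspec.trans ?_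
  have hlast : (F m (2 ^ m) / ((2 ^ (m - 1)).choose (2 ^ (m - 3)) : ℝ)) ^ 24 * F m (2 ^ m) ≤
      (Fb m / ((2 ^ (m - 1)).choose (2 ^ (m - 3)) : ℝ)) ^ 24 * Fb m := by
    have h1 : F m (2 ^ m) ≤ Fb m := Fn_le m
    have h0 : 0 ≤ F m (2 ^ m) := F_nonneg m _
    gcongr
  refine add_le_add ?_ hlast
  have hterm : ∀ j, 1 ≤ j → j < 2 ^ (m - 3) →
      ((F m (kk m j) - 1) / ((kk m j).choose j : ℝ)) ^ 24 * (((2 ^ m).choose j : ℝ) * F m j) ≤
        tm m j (kk m j) := by
    intro j h1 h2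
    obtain ⟨hk1, hk2⟩ := kk_spec m hm j h1 h2
    have hkm : kk m j ≤ 2 ^ m := by omega
    have hjm : j ≤ 2 ^ m := by omega
    have hF1 : 0 ≤ F m (kk m j) - 1 := by
      have := F_ge_one m (kk m j) hkm
      linarith
    have hF2 : F m (kk m j) - 1 ≤ Real.exp (9 / 4 * (kk m j : ℝ) ^ 2 / 2 ^ m) := by
      have := F_le m (kk m j) hkm
      linarith
    have hF3 : F m j ≤ Real.exp (9 / 4 * (j : ℝ) ^ 2 / 2 ^ m) := F_le m j hjm
    have hF4 : 0 ≤ F m j := F_nonneg m j
    unfold tm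
    gcongr
  have hone : ((F m (kk m 1) - 1) / ((kk m 1).choose 1 : ℝ)) ^ 24 *
      (((2 ^ m).choose 1 : ℝ) * F m 1) = 0 := by
    have : kk m 1 = 1 := by simp [kk]
    rw [this, F_one]
    simp
  have hpos : ∀ j, 0 ≤ tm m j (kk m j) := by
    intro j; unfold tm; positivity
  rcases Nat.lt_or_ge (2 ^ (m - 3)) 2 with hsmall | hbig
  · have hIco : Finset.Ico 1 (2 ^ (m - 3)) = ∅ := by
      apply Finset.Ico_eq_empty
      omega
    rw [hIco, Finset.sum_empty]
    apply add_nonneg <;> exact Finset.sum_nonneg (fun j _ => by unfold tm; positivity)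
  · rw [Finset.sum_eq_sum_Ico_succ_bot (by omega), hone, zero_add]
    calc ∑ j ∈ Finset.Ico (1 + 1) (2 ^ (m - 3)),
          ((F m (kk m j) - 1) / ((kk m j).choose j : ℝ)) ^ 24 *
            (((2 ^ m).choose j : ℝ) * F m j)
        ≤ ∑ j ∈ Finset.Ico 2 (2 ^ (m - 3)), tm m j (kk m j) := by
          apply Finset.sum_le_sum
          intro j hj
          rw [Finset.mem_Ico] at hj
          exact hterm j (by omega) hj.2
      _ = (∑ j ∈ (Finset.Ico 2 (2 ^ (m - 3))).filter (fun j => 64 * j < 2 ^ m),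
            tm m j (kk m j)) +
          ∑ j ∈ (Finset.Ico 2 (2 ^ (m - 3))).filter (fun j => ¬ 64 * j < 2 ^ m),
            tm m j (kk m j) := (Finset.sum_filter_add_sum_filter_not _ _ _).symm
      _ = _ := by
          congr 1
          · apply Finset.sum_congr rfl
            intro j hj
            rw [Finset.mem_filter, Finset.mem_Ico] at hj
            have : kk m j = Nat.sqrt (j * 2 ^ m) / 2 := by
              unfold kk
              rw [if_neg (by omega), if_pos hj.2]
            rw [this]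
          · apply Finset.sum_congr rfl
            intro j hj
            rw [Finset.mem_filter, Finset.mem_Ico] at hj
            have : kk m j = 2 * j := by
              unfold kk
              rw [if_neg (by omega), if_neg hj.2]
            rw [this]

theorem chi2_tendsto : Filter.Tendsto (fun m : ℕ => chi2 m) Filter.atTop (nhds 0) := by
  have hsum := (sumA.add sumB).add lastC
  rw [add_zero, add_zero] at hsum
  refine tendsto_of_tendsto_of_tendsto_of_le_of_le' tendsto_const_nhds hsum ?_ ?_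
  · exact Filter.Eventually.of_forall (fun m => chi2_nonneg m)
  · filter_upwards [Filter.eventually_ge_atTop 3] with m hm
    exact chi2_le_sum m hm

theorem thorp : Filter.Tendsto
    (fun d : ℕ => Crest.ProbabilityR.Shuffle.tvFromUniform (2 ^ d) (1600 * (d + 1)))
      Filter.atTop (nhds 0) := by
  have h1 : Filter.Tendsto (fun d : ℕ => (1 / 2 : ℝ) * Real.sqrt (chi2 (d + 1)))
      Filter.atTop (nhds 0) := by
    have h2 : Filter.Tendsto (fun d : ℕ => chi2 (d + 1)) Filter.atTop (nhds 0) :=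
      chi2_tendsto.comp (Filter.tendsto_add_atTop_nat 1)
    have h3 := (Real.continuous_sqrt.tendsto 0).comp h2
    rw [Real.sqrt_zero] at h3
    have h4 := h3.const_mul (1 / 2 : ℝ)
    rw [mul_zero] at h4
    exact h4
  exact tendsto_of_tendsto_of_tendsto_of_le_of_le tendsto_const_nhds h1
    (fun d => tv_nonneg _ _) (fun d => tv_le d)

end Crest.Agent.R155
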