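import Mathlib

/-!
# PIECE FINALA (row 155): the sparse part of the final sum (pure real analysis)

`n = 2^m`, `k = ⌊⌊√(jn)⌋/2⌋`.  For `2 ≤ j`, `64 j < n`: `k² ≤ j n/4`; `C(k,j) ≥ (k/j)^j`
(`(k/j)^j ≤ C(k,j)`, see `Nat.choose` bounds in Mathlib, e.g. `Nat.pow_le_choose`; `k ≥ j`),
`k ≥ √(jn)/2 - 1 ≥ (3/8)√(jn)` (as `√(jn) ≥ 8`: `j n ≥ 64 j² ≥ 64·4`), `C(n,j) ≤ (e n/j)^j`
(`Nat.choose_le_pow_div` and `j! ≥ (j/e)^j`).  With `Λ = log(n/j) ≥ log 64` the logarithm of the term is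
  `≤ 24 (9/4 · j/4 - j(Λ/2 + log(3/8))) + j(1 + Λ) + 9/4 j²/n ≤ j (13.5 + 23.54 + 1 + 0.04 - 11 Λ)`
  `= j (38.08 - 11Λ)`, and `11 log 64 = 45.74`.  So the term is `≤ (e^{38.1} (j/n)^{11})^j`, which is
  `≤ e^{-7.6 j}`, and for fixed `j` it tends to `0` as `n → ∞`.  Sum over `j → 0`: Tannery's theorem
  (`tendsto_tsum_of_dominated_convergence`) or split at `j ≤ √n`:
  for `j ≤ √n` the term is `≤ (e^{38.1} n^{-5.5})^j ≤ (e^{38.1} n^{-5.5})^2` for large `n`, number of terms `≤ √n`;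
  for `j > √n`: `≤ e^{-7.6 √n}` each, number of terms `≤ n`.
-/

set_option autoImplicit false

namespace Crest.Agent.R155

/-- the terms of the final sum -/
noncomputable def tm (m j k : ℕ) : ℝ :=
  (Real.exp (9 / 4 * (k : ℝ) ^ 2 / 2 ^ m) / (k.choose j : ℝ)) ^ 24 *
    (((2 ^ m).choose j : ℝ) * Real.exp (9 / 4 * (j : ℝ) ^ 2 / 2 ^ m))

namespace FinalAaux

/-- `(k/j)^j ≤ C(k,j)` -/
theorem div_pow_le_choose (k j : ℕ) (hj : 0 < j) (hjk : j ≤ k) :
    ((k : ℝ) / j) ^ j ≤ (k.choose j : ℝ) := by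
  have key : ∀ i : ℕ, i ≤ j → (k : ℝ) ^ i * (j.descFactorial i : ℝ) ≤
      (j : ℝ) ^ i * (k.descFactorial i : ℝ) := by
    intro i
    induction i with
    | zero => intro _; simp
    | succ i ih =>
      intro hi
      have h1 := ih (by omega)
      rw [Nat.descFactorial_succ, Nat.descFactorial_succ, Nat.cast_mul, Nat.cast_mul,
        Nat.cast_sub (by omega : i ≤ j), Nat.cast_sub (by omega : i ≤ k)]
      have h2 : (k : ℝ) * ((j : ℝ) - i) ≤ (j : ℝ) * ((k : ℝ) - i) := by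
        have h3 : (j : ℝ) ≤ k := by exact_mod_cast hjk
        have h4 : (0 : ℝ) ≤ i := Nat.cast_nonneg i
        nlinarith
      have h5 : (0:ℝ) ≤ (k : ℝ) * ((j : ℝ) - i) := by
        have : (i : ℝ) ≤ j := by exact_mod_cast (by omega : i ≤ j)
        have h6 : (0:ℝ) ≤ k := Nat.cast_nonneg k
        exact mul_nonneg h6 (by linarith)
      calc (k : ℝ) ^ (i + 1) * (((j : ℝ) - i) * (j.descFactorial i : ℝ))
          = ((k : ℝ) * ((j : ℝ) - i)) * ((k : ℝ) ^ i * (j.descFactorial i : ℝ)) := by ring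
        _ ≤ ((j : ℝ) * ((k : ℝ) - i)) * ((j : ℝ) ^ i * (k.descFactorial i : ℝ)) := by
            apply mul_le_mul h2 h1 (by positivity) (h5.trans h2)
        _ = (j : ℝ) ^ (i + 1) * (((k : ℝ) - i) * (k.descFactorial i : ℝ)) := by ring
  have h1 := key j le_rfl
  rw [Nat.descFactorial_self, Nat.descFactorial_eq_factorial_mul_choose] at h1
  push_cast at h1
  have hj' : (0 : ℝ) < (j : ℝ) ^ j := by positivity
  have hf : (0 : ℝ) < (j.factorial : ℝ) := by exact_mod_cast j.factorial_pos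
  rw [div_pow, div_le_iff₀ hj']
  have h2 : (k : ℝ) ^ j * (j.factorial : ℝ) ≤ ((k.choose j : ℝ) * (j : ℝ) ^ j) * (j.factorial : ℝ) := by
    calc _ ≤ _ := h1
      _ = _ := by ring
  exact le_of_mul_le_mul_right h2 hf

/-- `C(n,j) ≤ (n/j)^j e^j` -/
theorem choose_le_exp (n j : ℕ) (hj : 0 < j) :
    (n.choose j : ℝ) ≤ ((n : ℝ) / j) ^ j * Real.exp j := by
  have h1 : (n.choose j : ℝ) ≤ (n : ℝ) ^ j / (j.factorial : ℝ) := Nat.choose_le_pow_div j n
  have h2 := Real.pow_div_factorial_le_exp (x := (j : ℝ)) (Nat.cast_nonneg j) j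
  have hj' : (0 : ℝ) < (j : ℝ) ^ j := by positivity
  calc (n.choose j : ℝ) ≤ (n : ℝ) ^ j / (j.factorial : ℝ) := h1
    _ = ((n : ℝ) / j) ^ j * ((j : ℝ) ^ j / (j.factorial : ℝ)) := by
        rw [div_pow]; field_simp
    _ ≤ _ := mul_le_mul_of_nonneg_left h2 (by positivity)

/-- the numerical constant -/
theorem const_le : Real.exp 15 * (256 / 49) ^ 12 ≤ (64 : ℝ) ^ 9 := by
  have h1 : Real.exp 15 = Real.exp 1 ^ 15 := by
    rw [← Real.exp_nat_mul]; norm_num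
  have h2 : Real.exp 1 ≤ 2.7182818286 := Real.exp_one_lt_d9.le
  rw [h1]
  calc Real.exp 1 ^ 15 * (256 / 49) ^ 12 ≤ (2.7182818286 : ℝ) ^ 15 * (256 / 49) ^ 12 := by
        gcongr
    _ ≤ _ := by norm_num

theorem nat_bound (j : ℕ) (hj : 1 ≤ j) : (j : ℝ) ^ 2 ≤ ((64 : ℝ) ^ 2) ^ (j - 1) := by
  have h1 : j ≤ 64 ^ (j - 1) := by
    have h2 : j - 1 < 64 ^ (j - 1) := Nat.lt_pow_self (by norm_num)
    omega
  have h3 : (j : ℝ) ≤ (64 : ℝ) ^ (j - 1) := by exact_mod_cast h1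
  calc (j : ℝ) ^ 2 ≤ ((64 : ℝ) ^ (j - 1)) ^ 2 := by gcongr
    _ = _ := by rw [← pow_mul, ← pow_mul, mul_comm]

theorem term_le (n j k : ℕ) (hj : 2 ≤ j) (hn : 64 * j < n) (hk : k = Nat.sqrt (j * n) / 2) :
    (Real.exp (9 / 4 * (k : ℝ) ^ 2 / n) / (k.choose j : ℝ)) ^ 24 *
    ((n.choose j : ℝ) * Real.exp (9 / 4 * (j : ℝ) ^ 2 / n)) ≤ 1 / (n : ℝ) ^ 2 := by
  have hj0 : (0 : ℝ) < j := by exact_mod_cast (by omega : 0 < j)
  have hn0 : (0 : ℝ) < n := by exact_mod_cast (by omega : 0 < n)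
  have hjn : 64 * (j : ℝ) < n := by exact_mod_cast hn
  set x : ℝ := (n : ℝ) / j with hx
  have hx64 : 64 < x := by rw [hx, lt_div_iff₀ hj0]; exact hjn
  have hx0 : 0 < x := by linarith
  -- upper bound of `k`
  have hk1 : (2 * k) * (2 * k) ≤ j * n := by
    have h1 : 2 * k ≤ Nat.sqrt (j * n) := by omega
    calc (2 * k) * (2 * k) ≤ Nat.sqrt (j * n) * Nat.sqrt (j * n) := Nat.mul_le_mul h1 h1
      _ ≤ j * n := Nat.sqrt_le (j * n)
  have hk1' : 4 * (k : ℝ) ^ 2 ≤ j * n := by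
    have h : (((2 * k) * (2 * k) : ℕ) : ℝ) ≤ ((j * n : ℕ) : ℝ) := by exact_mod_cast hk1
    push_cast at h
    nlinarith
  -- lower bound of `k`
  have hk2 : j * n < (2 * k + 2) * (2 * k + 2) := by
    have h1 : Nat.sqrt (j * n) + 1 ≤ 2 * k + 2 := by omega
    calc j * n < (Nat.sqrt (j * n) + 1) * (Nat.sqrt (j * n) + 1) := Nat.lt_succ_sqrt (j * n)
      _ ≤ _ := Nat.mul_le_mul h1 h1
  have hk2' : (j : ℝ) * n < (2 * k + 2) ^ 2 := by
    have h : ((j * n : ℕ) : ℝ) < (((2 * k + 2) * (2 * k + 2) : ℕ) : ℝ) := by exact_mod_cast hk2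
    push_cast at h
    nlinarith
  have hk3 : 8 * (j : ℝ) < 2 * k + 2 := by
    have h1 : (8 * (j : ℝ)) ^ 2 < (2 * k + 2) ^ 2 := by
      calc (8 * (j : ℝ)) ^ 2 = j * (64 * j) := by ring
        _ < j * n := by
          apply mul_lt_mul_of_pos_left hjn hj0
        _ < _ := hk2'
    have h2 : (0:ℝ) ≤ 2 * k + 2 := by positivity
    exact lt_of_pow_lt_pow_left₀ 2 h2 h1
  have hj2 : (2 : ℝ) ≤ j := by exact_mod_cast hj
  have hk4 : (7 : ℝ) ≤ k := by linarith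
  have hkj : j ≤ k := by
    have : (j : ℝ) ≤ k := by nlinarith
    exact_mod_cast this
  -- `k² ≥ 49/256 j n`
  have hk5 : 49 / 256 * ((j : ℝ) * n) ≤ (k : ℝ) ^ 2 := by
    have h1 : (2 * (k : ℝ) + 2) ≤ 16 / 7 * k := by linarith
    have h2 : (2 * (k : ℝ) + 2) ^ 2 ≤ (16 / 7 * k) ^ 2 := by gcongr
    nlinarith
  -- lower bound of `C(k,j)^24`
  have hC1 := div_pow_le_choose k j (by omega) hkj
  have hC0 : (0:ℝ) < (k.choose j : ℝ) := by exact_mod_cast Nat.choose_pos hkj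
  have hC2 : ((49 / 256 * x) ^ 12) ^ j ≤ (k.choose j : ℝ) ^ 24 := by
    have h1 : 49 / 256 * x ≤ ((k : ℝ) / j) ^ 2 := by
      rw [div_pow, le_div_iff₀ (by positivity), hx]
      calc 49 / 256 * ((n : ℝ) / j) * (j : ℝ) ^ 2 = 49 / 256 * ((j : ℝ) * n) := by
            field_simp
        _ ≤ _ := hk5
    calc ((49 / 256 * x) ^ 12) ^ j ≤ ((((k : ℝ) / j) ^ 2) ^ 12) ^ j := by gcongr
      _ = (((k : ℝ) / j) ^ j) ^ 24 := by
          rw [← pow_mul, ← pow_mul, ← pow_mul]; congr 1; ring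
      _ ≤ _ := by gcongr
  have hC3 := choose_le_exp n j (by omega)
  -- exponentials
  have he1 : Real.exp (9 / 4 * (k : ℝ) ^ 2 / n) ^ 24 ≤ Real.exp (27 / 2 * j) := by
    rw [← Real.exp_nat_mul]
    apply Real.exp_le_exp.mpr
    push_cast
    rw [mul_div_assoc', div_le_iff₀ hn0]
    nlinarith
  have he2 : Real.exp (9 / 4 * (j : ℝ) ^ 2 / n) ≤ Real.exp (1 / 2 * j) := by
    apply Real.exp_le_exp.mpr
    rw [div_le_iff₀ hn0]
    nlinarith
  have hpos : (0:ℝ) < ((49 / 256 * x) ^ 12) ^ j := by positivity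
  calc (Real.exp (9 / 4 * (k : ℝ) ^ 2 / n) / (k.choose j : ℝ)) ^ 24 *
      ((n.choose j : ℝ) * Real.exp (9 / 4 * (j : ℝ) ^ 2 / n))
      = Real.exp (9 / 4 * (k : ℝ) ^ 2 / n) ^ 24 / (k.choose j : ℝ) ^ 24 *
      ((n.choose j : ℝ) * Real.exp (9 / 4 * (j : ℝ) ^ 2 / n)) := by rw [div_pow]
    _ ≤ Real.exp (27 / 2 * j) / ((49 / 256 * x) ^ 12) ^ j *
      ((x ^ j * Real.exp j) * Real.exp (1 / 2 * j)) := by
        apply mul_le_mul
        · apply div_le_div₀ (Real.exp_pos _).le he1 hpos hC2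
        · apply mul_le_mul hC3 he2 (Real.exp_pos _).le
          positivity
        · positivity
        · positivity
    _ = (Real.exp 15 * (256 / 49) ^ 12 / x ^ 11) ^ j := by
        have h15 : Real.exp (27 / 2 * j) * (Real.exp j * Real.exp (1 / 2 * j)) = Real.exp 15 ^ j := by
          rw [← Real.exp_add, ← Real.exp_add, ← Real.exp_nat_mul]
          congr 1; ring
        have h2 : ((49 / 256 * x) ^ 12) ^ j * ((256 / 49) ^ 12 / x ^ 11) ^ j = x ^ j := by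
          rw [← mul_pow]
          congr 1
          field_simp
        have h3 : (Real.exp 15 * (256 / 49) ^ 12 / x ^ 11) ^ j =
            Real.exp 15 ^ j * ((256 / 49) ^ 12 / x ^ 11) ^ j := by
          rw [mul_div_assoc, mul_pow]
        rw [h3, ← h15, ← h2]
        have hne : ((49 / 256 * x) ^ 12) ^ j ≠ 0 := hpos.ne'
        rw [div_mul_eq_mul_div, div_eq_iff hne]
        ring
    _ ≤ (64 ^ 9 / x ^ 11) ^ j := by
        gcongr
        exact const_le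
    _ ≤ (1 / x ^ 2) ^ j := by
        have h1 : 64 ^ 9 / x ^ 11 ≤ 1 / x ^ 2 := by
          rw [div_le_div_iff₀ (by positivity) (by positivity), one_mul]
          calc (64 : ℝ) ^ 9 * x ^ 2 ≤ x ^ 9 * x ^ 2 := by gcongr
            _ = x ^ 11 := by ring
        exact pow_le_pow_left₀ (by positivity) h1 j
    _ ≤ 1 / (n : ℝ) ^ 2 := by
        have h1 : (1 / x ^ 2) ^ j = (1 / x ^ 2) * (1 / x ^ 2) ^ (j - 1) := by
          rw [← pow_succ']
          congr 1; omega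
        rw [h1]
        have h2 : (1 / x ^ 2) ^ (j - 1) ≤ (1 / (64:ℝ) ^ 2) ^ (j - 1) := by
          gcongr
        have h3 := nat_bound j (by omega)
        calc (1 / x ^ 2) * (1 / x ^ 2) ^ (j - 1) ≤ (1 / x ^ 2) * (1 / (64:ℝ) ^ 2) ^ (j - 1) := by
              gcongr
          _ = ((j : ℝ) ^ 2 / ((64:ℝ) ^ 2) ^ (j - 1)) * (1 / (n : ℝ) ^ 2) := by
              rw [hx, div_pow (1:ℝ), one_pow]
              field_simp
          _ ≤ 1 * (1 / (n : ℝ) ^ 2) := by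
              gcongr
              rw [div_le_one (by positivity)]
              exact h3
          _ = _ := one_mul _

end FinalAaux

open FinalAaux in
theorem sumA : Filter.Tendsto (fun m : ℕ =>
    ∑ j ∈ (Finset.Ico 2 (2 ^ (m - 3))).filter (fun j => 64 * j < 2 ^ m),
      tm m j (Nat.sqrt (j * 2 ^ m) / 2)) Filter.atTop (nhds 0) := by
  have hlim : Filter.Tendsto (fun m : ℕ => ((1 / 2 : ℝ)) ^ m) Filter.atTop (nhds 0) :=
    tendsto_pow_atTop_nhds_zero_of_lt_one (by norm_num) (by norm_num)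
  apply squeeze_zero _ _ hlim
  · intro m
    apply Finset.sum_nonneg
    intro j _
    unfold tm
    positivity
  · intro m
    have hterm : ∀ j ∈ (Finset.Ico 2 (2 ^ (m - 3))).filter (fun j => 64 * j < 2 ^ m),
        tm m j (Nat.sqrt (j * 2 ^ m) / 2) ≤ 1 / ((2:ℝ) ^ m) ^ 2 := by
      intro j hj
      rw [Finset.mem_filter, Finset.mem_Ico] at hj
      have h := term_le (2 ^ m) j _ hj.1.1 hj.2 rfl
      push_cast at h
      unfold tm
      exact h
    calc _ ≤ ∑ _j ∈ (Finset.Ico 2 (2 ^ (m - 3))).filter (fun j => 64 * j < 2 ^ m),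
        1 / ((2:ℝ) ^ m) ^ 2 := Finset.sum_le_sum hterm
      _ = (((Finset.Ico 2 (2 ^ (m - 3))).filter (fun j => 64 * j < 2 ^ m)).card : ℝ) *
          (1 / ((2:ℝ) ^ m) ^ 2) := by rw [Finset.sum_const, nsmul_eq_mul]
      _ ≤ (2 : ℝ) ^ m * (1 / ((2:ℝ) ^ m) ^ 2) := by
          gcongr
          have h1 : ((Finset.Ico 2 (2 ^ (m - 3))).filter (fun j => 64 * j < 2 ^ m)).card ≤
              2 ^ m := by
            calc _ ≤ (Finset.Ico 2 (2 ^ (m - 3))).card := Finset.card_filter_le _ _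
              _ ≤ 2 ^ (m - 3) := by rw [Nat.card_Ico]; exact Nat.sub_le _ _
              _ ≤ 2 ^ m := Nat.pow_le_pow_right (by norm_num) (by omega)
          exact_mod_cast h1
      _ = (1 / 2) ^ m := by
          rw [one_div_pow]
          field_simp

end Crest.Agent.R155
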