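import Crest.Agent.R155.Ker
import Crest.Agent.R155.Counting

/-!
# helper lemmas for PIECE LINK (row 155)
-/

set_option autoImplicit false

namespace Crest.Agent.R155

open Crest.ProbabilityR.Shuffle

/-! ### one step is a rotation after a switch -/

/-- cyclic rotation of the bits: `(rot y) (i+1) = y i` -/
def rot (d : ℕ) : Equiv.Perm (Pos (d + 1)) :=
  Equiv.arrowCongr (finRotate (d + 1)) (Equiv.refl Bool)

theorem rot_apply (d : ℕ) (y : Pos (d + 1)) (i : Fin (d + 1)) :
    rot d y (finRotate (d + 1) i) = y i := by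
  simp [rot]

theorem rot_zero (d : ℕ) (y : Pos (d + 1)) : rot d y 0 = y (Fin.last d) := by
  have := rot_apply d y (Fin.last d)
  rwa [finRotate_last] at this

theorem rot_succ (d : ℕ) (y : Pos (d + 1)) (i : Fin d) : rot d y i.succ = y i.castSucc := by
  have := rot_apply d y i.castSucc
  rwa [finRotate_of_lt (by simp)] at this

theorem testBit_pos_inj (d : ℕ) :
    Function.Injective (fun (x : Fin (2 * 2 ^ d)) (i : Fin (d + 1)) => x.val.testBit i.val) := by
  intro x y h
  apply Fin.ext
  apply Nat.eq_of_testBit_eq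
  intro i
  by_cases hi : i < d + 1
  · exact congrFun h ⟨i, hi⟩
  · have hx : x.val < 2 ^ i := lt_of_lt_of_le x.isLt (by
      rw [← pow_succ']; exact Nat.pow_le_pow_right (by norm_num) (by omega))
    have hy : y.val < 2 ^ i := lt_of_lt_of_le y.isLt (by
      rw [← pow_succ']; exact Nat.pow_le_pow_right (by norm_num) (by omega))
    rw [Nat.testBit_lt_two_pow hx, Nat.testBit_lt_two_pow hy]

/-- binary digits -/
noncomputable def eb (d : ℕ) : Fin (2 * 2 ^ d) ≃ Pos (d + 1) :=
  Equiv.ofBijective _ ((Fintype.bijective_iff_injective_and_card _).2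
    ⟨testBit_pos_inj d, by simp [pow_succ']⟩)

theorem eb_apply (d : ℕ) (x : Fin (2 * 2 ^ d)) (i : Fin (d + 1)) :
    eb d x i = x.val.testBit i.val := rfl

/-- coins of the layer in the top direction from the coins of the step -/
noncomputable def coinOf (d : ℕ) (c : Fin (2 ^ d) → Bool) : Coin (d + 1) :=
  fun y => c ⟨((eb d).symm y).val % 2 ^ d, Nat.mod_lt _ (by positivity)⟩

/-- the injection `Fin (2^d) → Pos (d+1)` -/
noncomputable def embu (d : ℕ) (u : Fin (2 ^ d)) : Pos (d + 1) :=
  eb d ⟨u.val, lt_of_lt_of_le u.isLt (by omega)⟩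

theorem embu_injective (d : ℕ) : Function.Injective (embu d) := by
  intro u v h
  have := (eb d).injective h
  simpa [Fin.ext_iff] using this

/-- the position without the top bit -/
theorem eb_symm_update (d : ℕ) (x : Fin (2 * 2 ^ d)) :
    eb d ⟨x.val % 2 ^ d, lt_of_lt_of_le (Nat.mod_lt _ (by positivity)) (by omega)⟩ =
      Function.update (eb d x) (Fin.last d) false := by
  funext i
  rw [eb_apply]
  simp only [Nat.testBit_mod_two_pow]
  by_cases hi : i = Fin.last d
  · subst hi; simp
  · rw [Function.update_of_ne hi, eb_apply]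
    have : i.val < d := by
      have h1 := i.isLt
      have h2 : i.val ≠ d := fun h => hi (Fin.ext h)
      omega
    simp [this]

theorem eb_top (d : ℕ) (x : Fin (2 * 2 ^ d)) :
    eb d x (Fin.last d) = decide (2 ^ d ≤ x.val) := by
  rw [eb_apply]
  have hx := x.isLt
  by_cases h : 2 ^ d ≤ x.val
  · rw [decide_eq_true h]
    have : x.val = 2 ^ d + (x.val - 2 ^ d) := by omega
    rw [this, Fin.val_last, Nat.testBit_two_pow_add_eq]
    rw [Nat.testBit_lt_two_pow (by omega)]
    rfl
  · rw [decide_eq_false h]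
    exact Nat.testBit_lt_two_pow (by simpa using h)

theorem eb_stepPos (d : ℕ) (c : Fin (2 ^ d) → Bool) (x : Fin (2 * 2 ^ d)) :
    eb d (stepPos (2 ^ d) c x) = rot d (sw (Fin.last d) (coinOf d c) (eb d x)) := by
  have hc : coinOf d c (Function.update (eb d x) (Fin.last d) false) =
      c ⟨x.val % 2 ^ d, Nat.mod_lt _ (by positivity)⟩ := by
    rw [← eb_symm_update]
    unfold coinOf
    congr 1
    apply Fin.ext
    simp
  have hval : (stepPos (2 ^ d) c x).val = 2 * (x.val % 2 ^ d) +
      (if xor (decide (2 ^ d ≤ x.val)) (c ⟨x.val % 2 ^ d, Nat.mod_lt _ (by positivity)⟩)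
        then 1 else 0) := rfl
  funext i
  rw [eb_apply, hval]
  refine Fin.cases ?_ (fun i => ?_) i
  · rw [rot_zero, sw_apply, hc, Fin.val_zero, Nat.testBit_zero]
    rw [← eb_top]
    generalize c ⟨x.val % 2 ^ d, Nat.mod_lt _ (by positivity)⟩ = b
    generalize hw : eb d x (Fin.last d) = w
    cases b <;> cases w <;> simp [hw, Nat.add_mod]
  · rw [rot_succ, sw_apply_ne (ne_of_lt (Fin.castSucc_lt_last i)), eb_apply, Fin.val_succ,
      Nat.testBit_add_one]
    have : (2 * (x.val % 2 ^ d) +
      (if xor (decide (2 ^ d ≤ x.val)) (c ⟨x.val % 2 ^ d, Nat.mod_lt _ (by positivity)⟩)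
        then 1 else 0)) / 2 = x.val % 2 ^ d := by
      split <;> omega
    rw [this, Nat.testBit_mod_two_pow]
    simp

/-- one step as a permutation of `Pos (d+1)` -/
noncomputable def stepG (d : ℕ) (c : Fin (2 ^ d) → Bool) : Equiv.Perm (Pos (d + 1)) :=
  rot d * sw (Fin.last d) (coinOf d c)

/-- the transported permutation of `t` steps -/
noncomputable def iterG (d t : ℕ) (cs : Fin t → Fin (2 ^ d) → Bool) :
    Equiv.Perm (Pos (d + 1)) :=
  (Equiv.permCongr (eb d)) (iterPerm (2 ^ d) t cs)

theorem iterG_zero (d : ℕ) (cs : Fin 0 → Fin (2 ^ d) → Bool) : iterG d 0 cs = 1 := by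
  apply Equiv.ext
  intro y
  simp [iterG, Equiv.permCongr_apply, iterPos]

theorem iterG_succ (d t : ℕ) (cs : Fin (t + 1) → Fin (2 ^ d) → Bool) :
    iterG d (t + 1) cs = stepG d (cs (Fin.last t)) * iterG d t (fun i => cs i.castSucc) := by
  apply Equiv.ext
  intro y
  simp only [iterG, Equiv.permCongr_apply, coe_iterPerm, iterPos, stepG, Equiv.Perm.mul_apply]
  rw [eb_stepPos]

/-! ### the law -/

/-- transition matrix of one step -/
noncomputable def Qm (d : ℕ) : Matrix (Equiv.Perm (Pos (d + 1))) (Equiv.Perm (Pos (d + 1))) ℝ :=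
  ker (fun c : Fin (2 ^ d) → Bool => actG (stepG d c))

theorem ker_iter (d : ℕ) : ∀ t : ℕ,
    ker (fun cs : Fin t → Fin (2 ^ d) → Bool => actG (iterG d t cs)) = Qm d ^ t
  | 0 => by
    ext s u
    rw [pow_zero]
    unfold ker
    simp only [iterG_zero, actG, one_mul, avg_const, Matrix.one_apply]
  | t + 1 => by
    rw [pow_succ, ← ker_iter d t, Qm, ker_mul]
    ext s u
    unfold ker
    rw [← avg_equiv ((Equiv.prodComm _ _).trans (Fin.snocEquiv (fun _ => Fin (2 ^ d) → Bool)))]
    congr 1
    funext ω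
    simp only [Equiv.trans_apply, Equiv.prodComm_apply, iterG_succ, actG]
    congr 1
    simp [Fin.snocEquiv, mul_assoc]

theorem uniformProb_eq (d t : ℕ) (g : Equiv.Perm (Fin (2 * 2 ^ d))) :
    Crest.FinProb.uniformProb {cs : Fin t → Fin (2 ^ d) → Bool | iterPos (2 ^ d) t cs = ⇑g} =
      (Qm d ^ t) 1 (Equiv.permCongr (eb d) g) := by
  classical
  rw [uniformProb_iterPos, ← ker_iter]
  unfold ker avg
  congr 1
  rw [Finset.sum_ite, Finset.sum_const_zero, add_zero, Finset.sum_const, nsmul_eq_mul, mul_one]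
  congr 2
  ext cs
  simp only [Finset.mem_filter, Finset.mem_univ, true_and, actG, iterG, mul_one,
    EmbeddingLike.apply_eq_iff_eq]

/-! ### `Q^m = PG m` -/

/-- matrix of the left multiplication by `ρ` -/
noncomputable def Rm {m : ℕ} (ρ : Equiv.Perm (Pos m)) :
    Matrix (Equiv.Perm (Pos m)) (Equiv.Perm (Pos m)) ℝ :=
  ker (fun _ : Unit => actG ρ)

theorem Rm_one {m : ℕ} : Rm (1 : Equiv.Perm (Pos m)) = 1 := by
  ext s u
  unfold Rm ker
  rw [avg_const]
  simp [actG, Matrix.one_apply]

theorem avg_unit (f : Unit → ℝ) : avg f = f () := by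
  unfold avg; simp

theorem Rm_mul {m : ℕ} (ρ ρ' : Equiv.Perm (Pos m)) : Rm ρ * Rm ρ' = Rm (ρ' * ρ) := by
  rw [Rm, Rm, ker_mul]
  ext s u
  unfold Rm ker
  rw [avg_unit, ← avg_equiv (Equiv.refl (Unit × Unit))]
  simp only [actG, mul_assoc]
  rw [avg_const]
  rfl

/-- averages over coins of functions depending on the coins on the range of an injection -/
theorem avg_comp_injective {α β : Type*} [Fintype α] [DecidableEq α] [Fintype β] [DecidableEq β]
    (ι : α → β) (hι : Function.Injective ι) (f : (α → Bool) → ℝ) :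
    avg (fun c : β → Bool => f (fun u => c (ι u))) = avg f := by
  classical
  let p : β → Prop := fun b => b ∈ Set.range ι
  let E : (β → Bool) ≃ ({x // p x} → Bool) × ({x // ¬ p x} → Bool) :=
    Equiv.piEquivPiSubtypeProd p (fun _ => Bool)
  let e1 : ({x // p x} → Bool) ≃ (α → Bool) :=
    Equiv.arrowCongr (Equiv.ofInjective ι hι).symm (Equiv.refl Bool)
  have h : ∀ c : β → Bool, (fun u => c (ι u)) = e1 (E c).1 := by
    intro c
    funext u
    simp [e1, E, Equiv.piEquivPiSubtypeProd]
    rfl
  simp_rw [h]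
  rw [avg_equiv E (fun x : ({x // p x} → Bool) × ({x // ¬ p x} → Bool) => f (e1 x.1)),
    avg_prod_type]
  simp only
  simp_rw [avg_const]
  rw [avg_equiv e1 f]

theorem sw_coinOf (d : ℕ) (c : Coin (d + 1)) :
    sw (Fin.last d) (coinOf d (fun u => c (embu d u))) = sw (Fin.last d) c := by
  apply Equiv.ext
  intro y
  rw [sw_apply, sw_apply]
  have : coinOf d (fun u => c (embu d u)) (Function.update y (Fin.last d) false) =
      c (Function.update y (Fin.last d) false) := by
    have h2 := eb_symm_update d ((eb d).symm (Function.update y (Fin.last d) false))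
    rw [Equiv.apply_symm_apply, Function.update_idem] at h2
    exact congrArg c h2
  rw [this]

theorem Qm_eq (d : ℕ) : Qm d = lay actG (Fin.last d) * Rm (rot d) := by
  rw [lay, Rm, ker_mul, Qm]
  ext s u
  unfold ker
  rw [← avg_comp_injective (embu d) (embu_injective d), avg_prod_type]
  congr 1
  funext c
  rw [avg_unit]
  simp only [actG, stepG, sw_coinOf, mul_assoc]
  rfl

theorem sw_rot (d : ℕ) (i : Fin (d + 1)) (c : Coin (d + 1)) :
    rot d * sw i (fun y => c (rot d y)) = sw (finRotate (d + 1) i) c * rot d := by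
  apply Equiv.ext
  intro y
  simp only [Equiv.Perm.mul_apply]
  have h1 : ∀ (y : Pos (d + 1)) (b : Bool), rot d (Function.update y i b) =
      Function.update (rot d y) (finRotate (d + 1) i) b := by
    intro y b
    funext k
    obtain ⟨k, rfl⟩ := (finRotate (d + 1)).surjective k
    rw [rot_apply]
    by_cases hk : k = i
    · subst hk; simp
    · rw [Function.update_of_ne hk, Function.update_of_ne
        (fun h => hk ((finRotate (d + 1)).injective h)), rot_apply]
  have h2 : rot d (flip i y) = flip (finRotate (d + 1) i) (rot d y) := by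
    unfold flip
    rw [h1, rot_apply]
  rw [sw_apply, sw_apply, h1]
  split
  · exact h2
  · rfl

theorem lay_Rm (d : ℕ) (i : Fin (d + 1)) :
    lay actG i * Rm (rot d) = Rm (rot d) * lay actG (finRotate (d + 1) i) := by
  rw [lay, lay, Rm, ker_mul, ker_mul]
  ext s u
  unfold ker
  rw [avg_prod_type, avg_prod_type, avg_unit]
  simp_rw [avg_unit]
  rw [← avg_equiv (Equiv.arrowCongr (rot d) (Equiv.refl Bool)).symm]
  congr 1
  funext c
  have h : (Equiv.arrowCongr (rot d) (Equiv.refl Bool)).symm c = fun y => c (rot d y) := by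
    funext y; simp
  rw [h]
  simp only [actG, ← mul_assoc]
  rw [sw_rot]

theorem finRotate_pow_val (d k : ℕ) (hk : k ≤ d) :
    ((finRotate (d + 1)) ^ k) ⟨d - k, by omega⟩ = Fin.last d := by
  induction k with
  | zero => simp [Fin.ext_iff]
  | succ k ih =>
    rw [pow_succ, Equiv.Perm.mul_apply]
    rw [show (⟨d - (k + 1), by omega⟩ : Fin (d + 1)) =
      ⟨d - (k + 1), by omega⟩ from rfl, finRotate_of_lt (by omega)]
    have : (⟨d - (k + 1) + 1, by omega⟩ : Fin (d + 1)) = ⟨d - k, by omega⟩ := by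
      apply Fin.ext; simp; omega
    rw [this]
    exact ih (by omega)

theorem Rm_pow_lay (d k : ℕ) (i : Fin (d + 1)) :
    Rm (rot d) ^ k * lay actG (((finRotate (d + 1)) ^ k) i) = lay actG i * Rm (rot d) ^ k := by
  induction k generalizing i with
  | zero => simp
  | succ k ih =>
    rw [pow_succ, mul_assoc]
    rw [show ((finRotate (d + 1)) ^ (k + 1)) i = finRotate (d + 1) (((finRotate (d + 1)) ^ k) i) by
      rw [pow_succ', Equiv.Perm.mul_apply]]
    rw [← lay_Rm, ← mul_assoc, ih, mul_assoc]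

theorem Qm_pow (d k : ℕ) (hk : k ≤ d + 1) :
    Qm d ^ k = (((down (d + 1)).take k).map (lay actG)).prod * Rm (rot d) ^ k := by
  induction k with
  | zero => simp
  | succ k ih =>
    have hlen : k < (down (d + 1)).length := by simp [down]; omega
    have hget : (down (d + 1))[k] = ⟨d - k, by omega⟩ := by
      simp [down, List.getElem_reverse]
    rw [List.take_succ_eq_append_getElem hlen, List.map_append, List.prod_append, hget]
    rw [pow_succ, ih (by omega), Qm_eq, ← mul_assoc, mul_assoc _ (Rm (rot d) ^ k)]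
    rw [← finRotate_pow_val d k (by omega), Rm_pow_lay]
    simp [mul_assoc, pow_succ]

theorem Rm_pow {m : ℕ} (ρ : Equiv.Perm (Pos m)) (k : ℕ) : Rm ρ ^ k = Rm (ρ ^ k) := by
  induction k with
  | zero => rw [pow_zero, pow_zero, Rm_one]
  | succ k ih => rw [pow_succ, ih, Rm_mul, pow_succ']

theorem finRotate_pow_apply (d k : ℕ) (i : Fin (d + 1)) :
    (((finRotate (d + 1)) ^ k) i).val = (i.val + k) % (d + 1) := by
  induction k with
  | zero => simp [Nat.mod_eq_of_lt i.isLt]
  | succ k ih =>
    rw [pow_succ', Equiv.Perm.mul_apply, finRotate_apply, Fin.val_add, ih, Fin.val_one',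
      ← Nat.add_mod, add_assoc]

theorem rot_pow (d : ℕ) : rot d ^ (d + 1) = 1 := by
  have h : ∀ k, rot d ^ k = Equiv.arrowCongr ((finRotate (d + 1)) ^ k) (Equiv.refl Bool) := by
    intro k
    induction k with
    | zero => rfl
    | succ k ih =>
      rw [pow_succ, ih, pow_succ]
      rfl
  rw [h]
  have h2 : (finRotate (d + 1)) ^ (d + 1) = 1 := by
    apply Equiv.ext
    intro i
    apply Fin.ext
    rw [finRotate_pow_apply, Nat.add_mod_right, Nat.mod_eq_of_lt i.isLt]
    rfl
  rw [h2]
  rfl

theorem Qm_pow_m (d : ℕ) : Qm d ^ (d + 1) = PG (d + 1) := by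
  rw [Qm_pow d (d + 1) le_rfl, Rm_pow, rot_pow, Rm_one, mul_one, PG, PL]
  rw [List.take_of_length_le (by simp [down])]

end Crest.Agent.R155
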