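import Crest.Agent.R155.ModD1

/-!
# PIECE MODD (row 155): dimension lemma D
-/

set_option autoImplicit false

namespace Crest.Agent.R155

namespace ModDaux

open Equiv

section frame

variable {α : Type*} [DecidableEq α] {N : ℕ}

/-- the `i`-th transposition of the frame `e` -/
def tr (e : α ≃ Fin N × Bool) (i : Fin N) : Equiv.Perm α :=
  swap (e.symm (i, false)) (e.symm (i, true))

/-- moving a frame by a permutation -/
def act (g : Equiv.Perm α) (e : α ≃ Fin N × Bool) : α ≃ Fin N × Bool := g.symm.trans e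

theorem tr_act (g : Equiv.Perm α) (e : α ≃ Fin N × Bool) (i : Fin N) :
    tr (act g e) i = g * tr e i * g⁻¹ := by
  unfold tr act
  rw [← Equiv.swap_apply_apply]
  rfl

theorem tr_mul_self (e : α ≃ Fin N × Bool) (i : Fin N) : tr e i * tr e i = 1 := by
  unfold tr
  exact Equiv.swap_mul_self _ _

theorem tr_comm (e : α ≃ Fin N × Bool) (i j : Fin N) : tr e i * tr e j = tr e j * tr e i := by
  by_cases hij : i = j
  · rw [hij]
  · have h1 : ∀ b c : Bool, e.symm (j, b) ≠ e.symm (i, c) := by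
      intro b c h
      have := e.symm.injective h
      exact hij (Prod.mk.inj this).1.symm
    unfold tr
    rw [Equiv.mul_swap_eq_swap_mul, Equiv.swap_apply_of_ne_of_ne (h1 _ _) (h1 _ _),
      Equiv.swap_apply_of_ne_of_ne (h1 _ _) (h1 _ _)]

theorem tr_act_swap (e : α ≃ Fin N × Bool) (x y : α) (k : Fin N) (hx : k ≠ (e x).1)
    (hy : k ≠ (e y).1) : tr (act (swap x y) e) k = tr e k := by
  have h1 : ∀ b : Bool, swap x y (e.symm (k, b)) = e.symm (k, b) := by
    intro b
    apply Equiv.swap_apply_of_ne_of_ne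
    · rintro h
      apply hx
      rw [← h]; simp
    · rintro h
      apply hy
      rw [← h]; simp
  unfold tr act
  show swap (swap x y (e.symm (k, false))) (swap x y (e.symm (k, true))) = _
  rw [h1, h1]

end frame

/-- sign -/
def sg {N : ℕ} (S : Finset (Fin N)) (i : Fin N) : ℝ := if i ∈ S then -1 else 1

section rep

variable {α : Type*} [DecidableEq α] {N : ℕ} {V : Type*} [NormedAddCommGroup V]
    [InnerProductSpace ℝ V]

/-- joint eigenspace -/
def ES (ρ : Equiv.Perm α →* (V →ₗ[ℝ] V)) (E : Submodule ℝ V) (e : α ≃ Fin N × Bool)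
    (S : Finset (Fin N)) : Submodule ℝ V where
  carrier := {v | v ∈ E ∧ ∀ i, ρ (tr e i) v = sg S i • v}
  add_mem' := by
    rintro a b ⟨ha, ha'⟩ ⟨hb, hb'⟩
    refine ⟨E.add_mem ha hb, fun i => ?_⟩
    rw [map_add, ha', hb', smul_add]
  zero_mem' := by
    refine ⟨E.zero_mem, fun i => ?_⟩
    rw [map_zero, smul_zero]
  smul_mem' := by
    rintro c v ⟨hv, hv'⟩
    refine ⟨E.smul_mem c hv, fun i => ?_⟩
    rw [map_smul, hv', smul_comm]

variable (ρ : Equiv.Perm α →* (V →ₗ[ℝ] V)) (E : Submodule ℝ V)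

theorem mem_ES {e : α ≃ Fin N × Bool} {S : Finset (Fin N)} {v : V} :
    v ∈ ES ρ E e S ↔ v ∈ E ∧ ∀ i, ρ (tr e i) v = sg S i • v := Iff.rfl

theorem inner_map (hρ : ∀ g v, ‖ρ g v‖ = ‖v‖) (g : Equiv.Perm α) (u v : V) :
    inner ℝ (ρ g u) (ρ g v) = inner ℝ u v := by
  have h := LinearIsometry.inner_map_map (⟨ρ g, hρ g⟩ : V →ₗᵢ[ℝ] V) u v
  exact h

theorem inner_tr (hρ : ∀ g v, ‖ρ g v‖ = ‖v‖) (e : α ≃ Fin N × Bool) (i : Fin N) (u v : V) :
    inner ℝ (ρ (tr e i) u) v = inner ℝ u (ρ (tr e i) v) := by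
  have h := inner_map ρ hρ (tr e i) (ρ (tr e i) u) v
  rw [← h]
  have h2 : ρ (tr e i) (ρ (tr e i) u) = u := by
    rw [← Module.End.mul_apply, ← map_mul, tr_mul_self, map_one, Module.End.one_apply]
  rw [h2]

theorem orth (hρ : ∀ g v, ‖ρ g v‖ = ‖v‖) (e : α ≃ Fin N × Bool) {S S' : Finset (Fin N)}
    (hne : S ≠ S') {u v : V} (hu : u ∈ ES ρ E e S) (hv : v ∈ ES ρ E e S') :
    inner ℝ u v = (0 : ℝ) := by
  have hex : ∃ i, ¬ (i ∈ S ↔ i ∈ S') := by
    by_contra hcon
    push Not at hcon
    exact hne (Finset.ext hcon)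
  obtain ⟨i, hi⟩ := hex
  have h1 := inner_tr ρ hρ e i u v
  rw [hu.2 i, hv.2 i, real_inner_smul_left, real_inner_smul_right] at h1
  unfold sg at h1
  by_cases h2 : i ∈ S <;> by_cases h3 : i ∈ S'
  · exact absurd ⟨fun _ => h3, fun _ => h2⟩ hi
  · rw [if_pos h2, if_neg h3] at h1; linarith
  · rw [if_neg h2, if_pos h3] at h1; linarith
  · exact absurd ⟨fun h => absurd h h2, fun h => absurd h h3⟩ hi

theorem decomp (hE : ∀ g, ∀ v ∈ E, ρ g v ∈ E) (e : α ≃ Fin N × Bool) (G : Submodule ℝ V)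
    (T : Finset (Fin N)) :
    ∀ (S : Finset (Fin N)) (v : V), v ∈ E → (∀ k, k ∉ T → ρ (tr e k) v = sg S k • v) →
      (∀ S' : Finset (Fin N), (∀ k, k ∉ T → (k ∈ S' ↔ k ∈ S)) → ES ρ E e S' ≤ G) → v ∈ G := by
  induction T using Finset.induction_on with
  | empty =>
    intro S v hv h1 h2
    exact h2 S (fun k _ => Iff.rfl) ⟨hv, fun i => h1 i (by simp)⟩
  | insert k T hk ih =>
    intro S v hv h1 h2
    have hkk : ρ (tr e k) (ρ (tr e k) v) = v := by
      rw [← Module.End.mul_apply, ← map_mul, tr_mul_self, map_one, Module.End.one_apply]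
    have hc : ∀ l, ρ (tr e l) (ρ (tr e k) v) = ρ (tr e k) (ρ (tr e l) v) := by
      intro l
      rw [← Module.End.mul_apply, ← map_mul, tr_comm, map_mul, Module.End.mul_apply]
    have hp : v + ρ (tr e k) v ∈ G := by
      apply ih (S.erase k) _ (E.add_mem hv (hE _ _ hv))
      · intro l hl
        by_cases hlk : l = k
        · subst hlk
          rw [map_add, hkk]
          unfold sg
          rw [if_neg (by simp), one_smul, add_comm]
        · have h3 : l ∉ insert k T := by
            simp [hlk, hl]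
          have h4 : sg (S.erase k) l = sg S l := by
            unfold sg
            simp [hlk]
          rw [map_add, hc, h1 l h3, h4, map_smul, smul_add]
      · intro S' hS'
        apply h2
        intro l hl
        have hl1 : l ≠ k := by
          rintro rfl; exact hl (by simp)
        have hl2 : l ∉ T := fun h => hl (by simp [h])
        rw [hS' l hl2]
        simp [hl1]
    have hm : v - ρ (tr e k) v ∈ G := by
      apply ih (insert k S) _ (E.sub_mem hv (hE _ _ hv))
      · intro l hl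
        by_cases hlk : l = k
        · subst hlk
          rw [map_sub, hkk]
          unfold sg
          rw [if_pos (by simp), neg_one_smul, neg_sub]
        · have h3 : l ∉ insert k T := by
            simp [hlk, hl]
          have h4 : sg (insert k S) l = sg S l := by
            unfold sg
            simp [hlk]
          rw [map_sub, hc, h1 l h3, h4, map_smul, smul_sub]
      · intro S' hS'
        apply h2
        intro l hl
        have hl1 : l ≠ k := by
          rintro rfl; exact hl (by simp)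
        have hl2 : l ∉ T := fun h => hl (by simp [h])
        rw [hS' l hl2]
        simp [hl1]
    have hv2 : v = (1/2 : ℝ) • ((v + ρ (tr e k) v) + (v - ρ (tr e k) v)) := by
      rw [add_add_sub_cancel, ← two_smul ℝ v, smul_smul]
      norm_num
    rw [hv2]
    exact G.smul_mem _ (G.add_mem hp hm)

theorem le_of_ES (hE : ∀ g, ∀ v ∈ E, ρ g v ∈ E) (e : α ≃ Fin N × Bool) (G : Submodule ℝ V)
    (h : ∀ S : Finset (Fin N), ES ρ E e S ≤ G) : E ≤ G := by
  intro v hv
  exact decomp ρ E hE e G Finset.univ ∅ v hv (fun k hk => absurd (Finset.mem_univ k) hk)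
    (fun S' _ => h S')

theorem map_ES (hE : ∀ g, ∀ v ∈ E, ρ g v ∈ E) (e : α ≃ Fin N × Bool) (g : Equiv.Perm α)
    {S : Finset (Fin N)} {v : V} (hv : v ∈ ES ρ E e S) : ρ g v ∈ ES ρ E (act g e) S := by
  refine ⟨hE _ _ hv.1, fun i => ?_⟩
  rw [tr_act, ← Module.End.mul_apply, ← map_mul, inv_mul_cancel_right, map_mul,
    Module.End.mul_apply, hv.2 i, map_smul]

theorem norm_ne (hρ : ∀ g v, ‖ρ g v‖ = ‖v‖) (g : Equiv.Perm α) {v : V} (hv : v ≠ 0) :
    ρ g v ≠ 0 := by
  intro h
  have := hρ g v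
  rw [h, norm_zero] at this
  exact hv (norm_eq_zero.mp this.symm)

theorem occ_frame (hρ : ∀ g v, ‖ρ g v‖ = ‖v‖) (hE : ∀ g, ∀ v ∈ E, ρ g v ∈ E)
    (e e' : α ≃ Fin N × Bool) (S : Finset (Fin N)) (h : ES ρ E e S ≠ ⊥) :
    ES ρ E e' S ≠ ⊥ := by
  obtain ⟨v, hv, hv0⟩ := Submodule.exists_mem_ne_zero_of_ne_bot h
  have h1 : act (e.trans e'.symm) e = e' := by
    ext x <;> simp [act]
  have h2 := map_ES ρ E hE e (e.trans e'.symm) hv
  rw [h1] at h2
  exact (Submodule.ne_bot_iff _).mpr ⟨_, h2, norm_ne ρ hρ _ hv0⟩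

theorem occ_card (hρ : ∀ g v, ‖ρ g v‖ = ‖v‖) (hE : ∀ g, ∀ v ∈ E, ρ g v ∈ E)
    (e e' : α ≃ Fin N × Bool) (S S' : Finset (Fin N)) (hc : S'.card = S.card)
    (h : ES ρ E e S ≠ ⊥) : ES ρ E e' S' ≠ ⊥ := by
  classical
  let φ : {x // x ∈ S'} ≃ {x // x ∈ S} := Finset.equivOfCardEq hc
  let π : Equiv.Perm (Fin N) := φ.extendSubtype
  have hπ : ∀ k, π k ∈ S ↔ k ∈ S' := by
    intro k
    constructor
    · intro hk
      by_contra hk'
      exact φ.extendSubtype_not_mem k hk' hk
    · intro hk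
      exact φ.extendSubtype_mem k hk
  -- the frame `e'' ` with `tr e'' i = tr e (π.symm i)`
  let e'' : α ≃ Fin N × Bool := e.trans (Equiv.prodCongr π (Equiv.refl Bool))
  have htr : ∀ i, tr e'' (π i) = tr e i := by
    intro i
    simp [tr, e'']
  have h2 := occ_frame ρ E hρ hE e e'' S h
  obtain ⟨v, hv, hv0⟩ := Submodule.exists_mem_ne_zero_of_ne_bot h2
  have h3 : v ∈ ES ρ E e S' := by
    refine ⟨hv.1, fun i => ?_⟩
    rw [← htr i, hv.2 (π i)]
    unfold sg
    simp only [hπ]
  exact occ_frame ρ E hρ hE e e' S' ((Submodule.ne_bot_iff _).mpr ⟨v, h3, hv0⟩)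

/-- Step B -/
theorem no_gap (hρ : ∀ g v, ‖ρ g v‖ = ‖v‖) (hE : ∀ g, ∀ v ∈ E, ρ g v ∈ E)
    (hirr : ∀ E' : Submodule ℝ V, E' ≤ E → (∀ g, ∀ v ∈ E', ρ g v ∈ E') → E' ≠ ⊥ → E' = E)
    [Finite α]
    (e : α ≃ Fin N × Bool) (t : ℕ)
    (hno : ∀ (e' : α ≃ Fin N × Bool) (S : Finset (Fin N)), S.card = t + 1 ∨ S.card = t + 2 →
      ES ρ E e' S = ⊥)
    (w : V) (hw : w ∈ ES ρ E e ∅) (hw0 : w ≠ 0) (S : Finset (Fin N)) (hS : t < S.card) :
    ES ρ E e S = ⊥ := by
  classical
  let W : (α ≃ Fin N × Bool) → Submodule ℝ V := fun e' =>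
    ⨆ (S : Finset (Fin N)) (_ : S.card ≤ t), ES ρ E e' S
  have hWle : ∀ (e' : α ≃ Fin N × Bool) (S : Finset (Fin N)), S.card ≤ t → ES ρ E e' S ≤ W e' := by
    intro e' S hS
    exact le_iSup₂_of_le S hS le_rfl
  have hWE : W e ≤ E := by
    apply iSup₂_le
    intro S _ v hv
    exact hv.1
  have hmapW : ∀ (g : Equiv.Perm α) (e' : α ≃ Fin N × Bool) (v : V), v ∈ W e' →
      ρ g v ∈ W (act g e') := by
    intro g e' v hv
    have h1 : W e' ≤ (W (act g e')).comap (ρ g) := by
      apply iSup₂_le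
      intro S hS u hu
      exact hWle _ S hS (map_ES ρ E hE e' g hu)
    exact h1 hv
  have hmove : ∀ (x y : α) (e' : α ≃ Fin N × Bool), W e' ≤ W (act (swap x y) e') := by
    intro x y e'
    apply iSup₂_le
    intro S hS v hv
    apply decomp ρ E hE (act (swap x y) e') _ {(e' x).1, (e' y).1} S v hv.1
    · intro k hk
      have hk1 : k ≠ (e' x).1 := by
        rintro rfl; exact hk (by simp)
      have hk2 : k ≠ (e' y).1 := by
        rintro rfl; exact hk (by simp)
      rw [tr_act_swap e' x y k hk1 hk2]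
      exact hv.2 k
    · intro S' hS'
      by_cases hc : S'.card ≤ t
      · exact hWle _ S' hc
      · have h1 : S' ⊆ S ∪ {(e' x).1, (e' y).1} := by
          intro k hk
          by_cases hkT : k ∈ ({(e' x).1, (e' y).1} : Finset (Fin N))
          · exact Finset.mem_union_right _ hkT
          · exact Finset.mem_union_left _ ((hS' k hkT).mp hk)
        have h2 : S'.card ≤ t + 2 := by
          calc S'.card ≤ (S ∪ {(e' x).1, (e' y).1}).card := Finset.card_le_card h1
            _ ≤ S.card + ({(e' x).1, (e' y).1} : Finset (Fin N)).card := Finset.card_union_le _ _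
            _ ≤ t + 2 := Nat.add_le_add hS Finset.card_le_two
        rw [hno _ S' (by omega)]
        exact bot_le
  have hswap : ∀ (x y : α) (v : V), v ∈ W e → ρ (swap x y) v ∈ W e := by
    intro x y v hv
    have h1 := hmapW (swap x y) _ v (hmove x y e hv)
    have h2 : act (swap x y) (act (swap x y) e) = e := by
      ext z <;> simp [act]
    rw [h2] at h1
    exact h1
  have hall : ∀ (g : Equiv.Perm α), ∀ v ∈ W e, ρ g v ∈ W e := by
    intro g
    induction g using Equiv.Perm.swap_induction_on with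
    | one => intro v hv; rw [map_one]; exact hv
    | swap_mul g x y _ ih =>
      intro v hv
      rw [map_mul, Module.End.mul_apply]
      exact hswap x y _ (ih v hv)
  have hWne : W e ≠ ⊥ :=
    (Submodule.ne_bot_iff _).mpr ⟨w, hWle e ∅ (by simp) hw, hw0⟩
  have hWeq := hirr (W e) hWE hall hWne
  rw [Submodule.eq_bot_iff]
  intro v hv
  have h1 : W e ≤ (ℝ ∙ v)ᗮ := by
    apply iSup₂_le
    intro S₁ hS₁ u hu
    rw [Submodule.mem_orthogonal_singleton_iff_inner_right]
    apply orth ρ E hρ e _ hv hu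
    rintro rfl
    omega
  have h2 : v ∈ (ℝ ∙ v)ᗮ := h1 (by rw [hWeq]; exact hv.1)
  rw [Submodule.mem_orthogonal_singleton_iff_inner_right] at h2
  exact inner_self_eq_zero.mp h2

/-- Step C -/
theorem dim_ge [FiniteDimensional ℝ V] (hρ : ∀ g v, ‖ρ g v‖ = ‖v‖) (e : α ≃ Fin N × Bool)
    (m : ℕ) (h : ∀ S : Finset (Fin N), S.card = m → ES ρ E e S ≠ ⊥) :
    N.choose m ≤ Module.finrank ℝ E := by
  classical
  have hex : ∀ S : {S : Finset (Fin N) // S.card = m}, ∃ v ∈ ES ρ E e S.1, v ≠ 0 := by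
    intro S
    exact Submodule.exists_mem_ne_zero_of_ne_bot (h S.1 S.2)
  choose v hv hv0 using hex
  have hli : LinearIndependent ℝ (fun S : {S : Finset (Fin N) // S.card = m} =>
      (⟨v S, (hv S).1⟩ : E)) := by
    apply linearIndependent_of_ne_zero_of_inner_eq_zero (𝕜 := ℝ)
    · intro S hS
      exact hv0 S (congrArg Subtype.val hS)
    · intro S S' hSS'
      show inner ℝ (⟨v S, (hv S).1⟩ : E) (⟨v S', (hv S').1⟩ : E) = 0
      rw [Submodule.coe_inner]
      exact orth ρ E hρ e (fun h => hSS' (Subtype.ext h)) (hv S) (hv S')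
  have h2 := hli.fintype_card_le_finrank
  rwa [Fintype.card_finset_len, Fintype.card_fin] at h2

/-- Step A -/
theorem exists_large [FiniteDimensional ℝ V] (hρ : ∀ g v, ‖ρ g v‖ = ‖v‖)
    (hE : ∀ g, ∀ v ∈ E, ρ g v ∈ E) (hne : E ≠ ⊥) (e : α ≃ Fin N × Bool) (r : ℕ)
    (hN : N = 4 * r)
    (htr : ∀ i, 2 * LinearMap.trace ℝ E ((ρ (tr e i)).restrict (fun v hv => hE _ v hv)) ≤
      (Module.finrank ℝ E : ℝ)) :
    ∃ S : Finset (Fin N), r ≤ S.card ∧ ES ρ E e S ≠ ⊥ := by
  classical
  by_contra hcon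
  push Not at hcon
  let A : Fin N → (E →ₗ[ℝ] E) := fun i => (ρ (tr e i)).restrict (fun v hv => hE _ v hv)
  have hA : ∀ i (u : E), ((A i u : E) : V) = ρ (tr e i) (u : V) := fun i u => rfl
  let K : E →ₗ[ℝ] E := ∑ i, (1/2 : ℝ) • (1 - A i)
  have hKapp : ∀ u : E, K u = ∑ i, (1/2 : ℝ) • (u - A i u) := by
    intro u
    simp [K, LinearMap.sum_apply]
  have hK : K.IsSymmetric := by
    intro u v
    rw [hKapp, hKapp, sum_inner, inner_sum]
    apply Finset.sum_congr rfl
    intro i _
    rw [real_inner_smul_left, real_inner_smul_right, inner_sub_left, inner_sub_right]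
    congr 2
    rw [Submodule.coe_inner, Submodule.coe_inner, hA, hA]
    exact inner_tr ρ hρ e i u v
  have hKES : ∀ (S : Finset (Fin N)) (u : E), (u : V) ∈ ES ρ E e S → K u = (S.card : ℝ) • u := by
    intro S u hu
    rw [hKapp]
    have h1 : ∀ i, (1/2 : ℝ) • (u - A i u) = (if i ∈ S then (1:ℝ) else 0) • u := by
      intro i
      have h2 : A i u = sg S i • u := by
        apply Subtype.ext
        rw [hA, hu.2 i]
        rfl
      rw [h2]
      unfold sg
      split_ifs
      · rw [neg_one_smul, sub_neg_eq_add, ← two_smul ℝ u, smul_smul]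
        norm_num
      · rw [one_smul, sub_self, smul_zero, zero_smul]
    rw [Finset.sum_congr rfl (fun i _ => h1 i), ← Finset.sum_smul]
    congr 1
    simp
  have heig : ∀ j, hK.eigenvalues rfl j ≤ (r : ℝ) - 1 := by
    intro j
    by_contra hj
    push Not at hj
    set v := hK.eigenvectorBasis rfl j with hv
    have hKv : K v = hK.eigenvalues rfl j • v := hK.apply_eigenvectorBasis rfl j
    have hle : E ≤ (ℝ ∙ (v : V))ᗮ := by
      apply le_of_ES ρ E hE e
      intro S u hu
      rw [Submodule.mem_orthogonal_singleton_iff_inner_right]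
      by_cases hu0 : u = 0
      · rw [hu0, inner_zero_right]
      · have hS : S.card < r := by
          by_contra hS
          push Not at hS
          have := hcon S hS
          rw [this, Submodule.mem_bot] at hu
          exact hu0 hu
        have h1 := hK v ⟨u, hu.1⟩
        rw [hKv, hKES S ⟨u, hu.1⟩ hu, real_inner_smul_left, real_inner_smul_right] at h1
        have h2 : (hK.eigenvalues rfl j - S.card) * inner ℝ v (⟨u, hu.1⟩ : E) = 0 := by
          rw [sub_mul, h1, sub_self]
        rcases mul_eq_zero.mp h2 with h3 | h3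
        · exfalso
          have h4 : (S.card : ℝ) ≤ (r : ℝ) - 1 := by
            have : S.card + 1 ≤ r := hS
            have h5 : ((S.card + 1 : ℕ) : ℝ) ≤ (r : ℝ) := by exact_mod_cast this
            push_cast at h5
            linarith
          linarith
        · rw [Submodule.coe_inner] at h3
          exact h3
    have h5 : (v : V) ∈ (ℝ ∙ (v : V))ᗮ := hle v.2
    rw [Submodule.mem_orthogonal_singleton_iff_inner_right] at h5
    have h6 : (v : V) = 0 := inner_self_eq_zero.mp h5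
    have h7 : ‖v‖ = 1 := (hK.eigenvectorBasis rfl).orthonormal.1 j
    have h8 : ‖v‖ = 0 := by
      rw [Submodule.coe_norm, h6, norm_zero]
    linarith
  have htK1 : LinearMap.trace ℝ E K ≤ (Module.finrank ℝ E : ℝ) * ((r : ℝ) - 1) := by
    have h1 := hK.trace_eq_sum_eigenvalues rfl
    rw [h1]
    calc (∑ j, ((hK.eigenvalues rfl j : ℝ) : ℝ)) ≤ ∑ _j : Fin (Module.finrank ℝ E), ((r:ℝ) - 1) :=
          Finset.sum_le_sum (fun j _ => heig j)
      _ = _ := by
          rw [Finset.sum_const, Finset.card_univ, Fintype.card_fin, nsmul_eq_mul]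
  have htK2 : (Module.finrank ℝ E : ℝ) * (r : ℝ) ≤ LinearMap.trace ℝ E K := by
    have h1 : LinearMap.trace ℝ E K =
        ∑ i, (1/2 : ℝ) * ((Module.finrank ℝ E : ℝ) - LinearMap.trace ℝ E (A i)) := by
      simp only [K, map_sum, map_smul, map_sub, LinearMap.trace_one, smul_eq_mul]
    rw [h1]
    calc (Module.finrank ℝ E : ℝ) * (r : ℝ)
        = ∑ _i : Fin N, (1/4 : ℝ) * (Module.finrank ℝ E : ℝ) := by
          rw [Finset.sum_const, Finset.card_univ, Fintype.card_fin, hN, nsmul_eq_mul]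
          push_cast
          ring
      _ ≤ _ := by
          apply Finset.sum_le_sum
          intro i _
          have := htr i
          have h2 : 2 * LinearMap.trace ℝ E (A i) ≤ (Module.finrank ℝ E : ℝ) := this
          linarith
  have hd : 0 < (Module.finrank ℝ E : ℝ) := by
    have h1 : 1 ≤ Module.finrank ℝ E := Submodule.one_le_finrank_iff.mpr hne
    exact_mod_cast h1
  have h9 : (Module.finrank ℝ E : ℝ) * (r : ℝ) ≤ (Module.finrank ℝ E : ℝ) * ((r : ℝ) - 1) :=
    htK2.trans htK1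
  nlinarith

end rep

/-- existence of the frame -/
theorem exists_frame {α : Type*} [Fintype α] [DecidableEq α] (N : ℕ) (hN : 0 < N)
    (hcard : Fintype.card α = 2 * N)
    (f : α → α) (hf : Function.Involutive f) (hf' : ∀ x, f x ≠ x) :
    ∃ e : α ≃ Fin N × Bool, ∀ i b, f (e.symm (i, b)) = e.symm (i, !b) := by
  have hpos : 0 < Fintype.card α := by omega
  obtain ⟨x0⟩ := Fintype.card_pos_iff.mp hpos
  have e0 : α ≃ Fin N × Bool := Fintype.equivOfCardEq (by
    rw [hcard, Fintype.card_prod, Fintype.card_fin, Fintype.card_bool, mul_comm])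
  -- general fact on fixed point free involutions
  have key : ∀ σ : Equiv.Perm α, (∀ x, σ (σ x) = x) → (∀ x, σ x ≠ x) →
      σ.cycleType = Multiset.replicate N 2 := by
    intro σ h1 h2
    have h3 : orderOf σ = 2 := by
      have : Fact (Nat.Prime 2) := ⟨Nat.prime_two⟩
      apply orderOf_eq_prime
      · ext x
        rw [pow_two, Equiv.Perm.mul_apply, h1]
        rfl
      · intro h
        exact h2 x0 (by rw [h]; rfl)
    obtain ⟨n, hn⟩ := Equiv.Perm.cycleType_prime_order (σ := σ) (by rw [h3]; exact Nat.prime_two)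
    rw [h3] at hn
    have h4 : σ.support = Finset.univ := by
      ext x
      simp [h2 x]
    have h5 := σ.sum_cycleType
    rw [h4, Finset.card_univ, hcard, hn, Multiset.sum_replicate, smul_eq_mul] at h5
    have h6 : n + 1 = N := by omega
    rw [hn, h6]
  let σ : Equiv.Perm α := hf.toPerm
  let m : Equiv.Perm (Fin N × Bool) := Equiv.prodCongr (Equiv.refl _) Equiv.boolNot
  let τ : Equiv.Perm α := (e0.trans m).trans e0.symm
  have hσ := key σ (fun x => hf x) (fun x => hf' x)
  have hmm : ∀ p, m (m p) = p := by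
    rintro ⟨i, b⟩
    simp [m]
  have hτ := key τ (fun x => by
    show e0.symm (m (e0 (e0.symm (m (e0 x))))) = x
    rw [Equiv.apply_symm_apply, hmm, Equiv.symm_apply_apply]) (fun x h => by
    have h1 : m (e0 x) = e0 x := by
      have := congrArg e0 h
      simpa [τ] using this
    have h2 := congrArg Prod.snd h1
    simp [m] at h2)
  have hconj : IsConj σ τ := Equiv.Perm.isConj_iff_cycleType_eq.mpr (by rw [hσ, hτ])
  obtain ⟨c, hc⟩ := isConj_iff.mp hconj
  refine ⟨c.trans e0, fun i b => ?_⟩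
  have h1 : σ = c⁻¹ * τ * c := by
    rw [← hc]; group
  show σ _ = _
  rw [h1]
  simp [τ, m]

end ModDaux

open ModDaux in
theorem module_D {α : Type*} [Fintype α] [DecidableEq α] {V : Type*} [NormedAddCommGroup V]
    [InnerProductSpace ℝ V] [FiniteDimensional ℝ V]
    (ρ : Equiv.Perm α →* (V →ₗ[ℝ] V)) (hρ : ∀ g v, ‖ρ g v‖ = ‖v‖)
    (E : Submodule ℝ V) (hE : ∀ g, ∀ v ∈ E, ρ g v ∈ E) (hne : E ≠ ⊥)
    (hirr : ∀ E' : Submodule ℝ V, E' ≤ E → (∀ g, ∀ v ∈ E', ρ g v ∈ E') → E' ≠ ⊥ → E' = E)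
    (r : ℕ) (hcard : Fintype.card α = 8 * r)
    (hmax : ∀ B : Finset α, 4 * r < B.card → E ⊓ fixSub ρ B = ⊥)
    (f : α → α) (hf : Function.Involutive f) (hf' : ∀ x, f x ≠ x)
    (w : V) (hw : w ∈ E) (hw0 : w ≠ 0) (hfix : ∀ x, ρ (Equiv.swap x (f x)) w = w) :
    (4 * r).choose r ≤ Module.finrank ℝ E := by
  rcases Nat.eq_zero_or_pos r with hr | hr
  · subst hr
    simpa using Submodule.one_le_finrank_iff.mpr hne
  obtain ⟨e, he⟩ := exists_frame (4 * r) (by omega) (by rw [hcard]; ring) f hf hf'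
  have htr : ∀ i, 2 * LinearMap.trace ℝ E ((ρ (tr e i)).restrict (fun v hv => hE _ v hv)) ≤
      (Module.finrank ℝ E : ℝ) := by
    intro i
    apply trace_swap_le ρ hρ E hE hne hirr
    · intro B hB
      apply hmax B
      omega
    · intro h
      have := e.symm.injective h
      simp at this
  have hw1 : w ∈ ES ρ E e ∅ := by
    refine ⟨hw, fun i => ?_⟩
    have h1 := hfix (e.symm (i, false))
    rw [he] at h1
    simp only [sg, Finset.notMem_empty, if_false, one_smul]
    exact h1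
  obtain ⟨S0, hS0, hS0'⟩ := exists_large ρ E hρ hE hne e r rfl htr
  -- one of the sizes `r`, `r + 1` occurs
  by_cases hocc : ∃ (e' : α ≃ Fin (4 * r) × Bool) (S : Finset (Fin (4 * r))),
      (S.card = r ∨ S.card = r + 1) ∧ ES ρ E e' S ≠ ⊥
  · obtain ⟨e', S, hS, hS'⟩ := hocc
    have h1 : (4 * r).choose S.card ≤ Module.finrank ℝ E :=
      dim_ge ρ E hρ e' S.card (fun S' hS'' => occ_card ρ E hρ hE e' e' S S' hS'' hS')
    rcases hS with hS | hS
    · rwa [hS] at h1
    · rw [hS] at h1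
      exact (Nat.choose_le_succ_of_lt_half_left (by omega)).trans h1
  · exfalso
    push Not at hocc
    apply hS0'
    apply no_gap ρ E hρ hE hirr e (r - 1) _ w hw1 hw0 S0 (by omega)
    intro e' S hS
    apply hocc e' S
    omega

end Crest.Agent.R155
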