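import Crest.Agent.R155.ModDefs

/-!
# PIECE MODD1 (row 155): the trace of a transposition

`E` irreducible (nonzero) orthogonal representation of `Perm α` (given as a subspace of `V`), without
nonzero vectors fixed by `Sym(B)` for `2|B| > n = |α|`.  Then the trace `χ` of a transposition on `E`
satisfies `2 χ ≤ dim E`.

## Proof
1. `Z = ∑_{transpositions} ρ(t)` (each unordered pair once) commutes with all `ρ g` and is symmetric, so it
   has an eigenvalue `c` on `E` and its eigenspace in `E` is invariant, hence `Z = c` on `E`.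
2. `c ≤ n(l-1)/2`, where `l ≤ n/2` is the maximal size of `B` with `E ⊓ fixSub ρ B ≠ ⊥` (`l ≥ 1`).  Choose
   greedily: `B_1` of maximal size with `E ∩ fix(Sym B_1) ≠ 0`; `B_2 ⊆ B_1ᶜ` of maximal size with
   `E ∩ fix(Sym B_1 × Sym B_2) ≠ 0`, and so on until the `B_p` (nonempty) partition `α`; take `v ≠ 0` in the
   last intersection.  For `i ∈ B_q`, `p < q`: `(1 + ∑_{b∈B_p} ρ(b i)) v` is fixed by
   `Sym B_1 × … × Sym B_{p-1} × Sym(B_p ∪ {i})`, so it vanishes by maximality:
   `∑_{b∈B_p} ρ(b i) v = -v`.  Hence
   `Z v = [∑_p |B_p|(|B_p|-1)/2 - ∑_q (q-1)|B_q|] v`, so `c ≤ ∑_p |B_p| (|B_p|-1)/2 ≤ n (l-1)/2`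
   (`|B_p| ≤ l`).
   (One possible formalisation: a coloring `κ : α → ℕ` (the index of the block) such that `v` is fixed by
   `swap x y` whenever `κ x = κ y`, chosen with lexicographically maximal sizes of the colour classes;
   "fixed by the swaps inside the blocks" is equivalent to "fixed by the Young subgroup".
   Or: induction over the set of points not yet covered, keeping the set of fixed vectors.)
3. All transpositions are conjugate, so they have the same trace `χ` on `E`, `χ · n(n-1)/2 = c · dim E`, so
   `χ ≤ dim E · (l-1)/(n-1) ≤ dim E / 2`.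
-/

set_option autoImplicit false

namespace Crest.Agent.R155

namespace ModD1aux

variable {α : Type*} [Fintype α] [DecidableEq α] {V : Type*} [AddCommGroup V] [Module ℝ V]

/-- swap-averaging: the vector `∑_{b ∈ insert i B} ρ(swap b i) w` is fixed by `Sym (insert i B)` -/
theorem sum_swap_mem (ρ : Equiv.Perm α →* (V →ₗ[ℝ] V)) (B : Finset α) (i : α)
    (w : V) (hw : w ∈ fixSub ρ B) :
    (∑ b ∈ insert i B, ρ (Equiv.swap b i) w) ∈ fixSub ρ (insert i B) := by
  rw [mem_fixSub] at hw ⊢
  intro g hg
  have hgm : ∀ x, x ∈ insert i B → g x ∈ insert i B := by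
    intro x hx
    by_contra hcon
    have h1 := hg _ hcon
    have h2 : g x = x := g.injective h1
    rw [h2] at hcon
    exact hcon hx
  have key : ∀ b ∈ insert i B, ρ g (ρ (Equiv.swap b i) w) = ρ (Equiv.swap (g b) i) w := by
    intro b hb
    have hh : ρ (Equiv.swap (g b) i * g * Equiv.swap b i) w = w := by
      apply hw
      intro x hx
      simp only [Equiv.Perm.mul_apply]
      by_cases hxi : x = i
      · subst hxi
        rw [Equiv.swap_apply_right, Equiv.swap_apply_left]
      · have hxB : x ∉ insert i B := by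
          simp [hxi, hx]
        have hxb : x ≠ b := by
          rintro rfl
          exact hxB hb
        rw [Equiv.swap_apply_of_ne_of_ne hxb hxi, hg x hxB]
        have : x ≠ g b := by
          rintro h
          exact hxB (h ▸ hgm b hb)
        rw [Equiv.swap_apply_of_ne_of_ne this hxi]
    have h2 : ρ (Equiv.swap (g b) i) (ρ (Equiv.swap (g b) i * g * Equiv.swap b i) w)
        = ρ g (ρ (Equiv.swap b i) w) := by
      rw [← Module.End.mul_apply, ← map_mul, ← Module.End.mul_apply, ← map_mul]
      congr 2
      rw [← mul_assoc, ← mul_assoc, Equiv.swap_mul_self, one_mul]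
    rw [← h2, hh]
  rw [map_sum]
  rw [Finset.sum_congr rfl key]
  apply Finset.sum_nbij g
  · exact hgm
  · exact g.injective.injOn
  · intro y hy
    refine ⟨g.symm y, ?_, by simp⟩
    by_contra hcon
    have h1 := hg _ hcon
    rw [Equiv.apply_symm_apply] at h1
    rw [← h1] at hcon
    exact hcon hy
  · intro _ _
    rfl

theorem commute_of_supp (B C : Finset α) (hBC : Disjoint B C) (g h : Equiv.Perm α)
    (hg : ∀ x, x ∉ B → g x = x) (hh : ∀ x, x ∉ C → h x = x) : g * h = h * g := by
  apply Equiv.Perm.Disjoint.commute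
  intro x
  by_cases hx : x ∈ B
  · right
    exact hh x (Finset.disjoint_left.1 hBC hx)
  · left
    exact hg x hx

theorem greedy (ρ : Equiv.Perm α →* (V →ₗ[ℝ] V)) (l : ℝ) :
    ∀ n : ℕ, ∀ U : Finset α, U.card = n → ∀ F : Submodule ℝ V, F ≠ ⊥ →
      (∀ g : Equiv.Perm α, (∀ x, x ∉ U → g x = x) → ∀ v ∈ F, ρ g v ∈ F) →
      (∀ B : Finset α, F ⊓ fixSub ρ B ≠ ⊥ → (B.card : ℝ) ≤ l) →
      ∃ v ∈ F, v ≠ 0 ∧ ∃ c : ℝ, c ≤ U.card * l ∧
        ∑ a ∈ U, ∑ b ∈ U, ρ (Equiv.swap a b) v = c • v := by
  intro n
  induction n using Nat.strong_induction_on with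
  | _ n ih =>
    intro U hU F hF hinv hl
    by_cases hU0 : U = ∅
    · obtain ⟨v, hv, hv0⟩ := Submodule.exists_mem_ne_zero_of_ne_bot hF
      refine ⟨v, hv, hv0, 0, ?_, ?_⟩
      · simp [hU0]
      · simp [hU0]
    · obtain ⟨x0, hx0⟩ := Finset.nonempty_iff_ne_empty.2 hU0
      classical
      -- the admissible blocks
      have hne : (U.powerset.filter (fun B => F ⊓ fixSub ρ B ≠ ⊥)).Nonempty := by
        refine ⟨{x0}, ?_⟩
        rw [Finset.mem_filter, Finset.mem_powerset]
        refine ⟨by simpa using hx0, ?_⟩
        have : fixSub ρ ({x0} : Finset α) = ⊤ := by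
          rw [eq_top_iff]
          intro v _
          rw [mem_fixSub]
          intro g hg
          have : g = 1 := by
            ext x
            rw [Equiv.Perm.one_apply]
            by_cases hx : x = x0
            · by_contra hcon
              have h1 : g x ∉ ({x0} : Finset α) := by
                rw [Finset.mem_singleton, ← hx]
                exact hcon
              exact hcon (g.injective (hg _ h1))
            · exact hg x (by simpa using hx)
          rw [this, map_one, Module.End.one_apply]
        rw [this, inf_top_eq]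
        exact hF
      obtain ⟨B, hB, hBmax⟩ := Finset.exists_max_image _ Finset.card hne
      rw [Finset.mem_filter, Finset.mem_powerset] at hB
      obtain ⟨hBU, hBne⟩ := hB
      have hBcard : 1 ≤ B.card := by
        have := hBmax {x0} ?_
        · simpa using this
        · rw [Finset.mem_filter, Finset.mem_powerset]
          refine ⟨by simpa using hx0, ?_⟩
          obtain ⟨C, hC⟩ := hne
          -- redo
          have : fixSub ρ ({x0} : Finset α) = ⊤ := by
            rw [eq_top_iff]
            intro v _
            rw [mem_fixSub]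
            intro g hg
            have : g = 1 := by
              ext x
              rw [Equiv.Perm.one_apply]
              by_cases hx : x = x0
              · by_contra hcon
                have h1 : g x ∉ ({x0} : Finset α) := by
                  rw [Finset.mem_singleton, ← hx]
                  exact hcon
                exact hcon (g.injective (hg _ h1))
              · exact hg x (by simpa using hx)
            rw [this, map_one, Module.End.one_apply]
          rw [this, inf_top_eq]
          exact hF
      set F' := F ⊓ fixSub ρ B with hF'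
      set U' := U \ B with hU'
      have hcardU : U'.card + B.card = U.card := Finset.card_sdiff_add_card_eq_card hBU
      obtain ⟨w, hw, hw0, c', hc', hsum⟩ := ih U'.card (by omega) U' rfl F' hBne (by
        intro g hg v hv
        rw [hF', Submodule.mem_inf] at hv ⊢
        refine ⟨hinv g (fun x hx => hg x ?_) v hv.1, ?_⟩
        · intro hx'
          exact hx (Finset.mem_sdiff.1 hx').1
        · rw [mem_fixSub]
          intro h hh
          rw [← Module.End.mul_apply, ← map_mul,
            commute_of_supp B U' Finset.disjoint_sdiff h g hh hg, map_mul, Module.End.mul_apply,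
            (mem_fixSub ρ B v).1 hv.2 h hh]) (by
        intro C hC
        apply hl
        intro hbot
        apply hC
        rw [eq_bot_iff, ← hbot]
        exact inf_le_inf_right _ inf_le_left)
      have hw' := hw
      rw [hF', Submodule.mem_inf] at hw'
      obtain ⟨hwF, hwB⟩ := hw'
      -- the relation for `i ∈ U'`
      have hrel : ∀ i ∈ U', ∑ b ∈ B, ρ (Equiv.swap b i) w = -w := by
        intro i hi
        obtain ⟨hiU, hiB⟩ := Finset.mem_sdiff.1 hi
        have h1 := sum_swap_mem ρ B i w hwB
        have h2 : (∑ b ∈ insert i B, ρ (Equiv.swap b i) w) ∈ F := by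
          apply Submodule.sum_mem
          intro b hb
          apply hinv _ _ w hwF
          intro x hx
          apply Equiv.swap_apply_of_ne_of_ne
          · rintro rfl
            rcases Finset.mem_insert.1 hb with h | h
            · exact hx (h ▸ hiU)
            · exact hx (hBU h)
          · rintro rfl
            exact hx hiU
        have h3 : F ⊓ fixSub ρ (insert i B) = ⊥ := by
          by_contra hcon
          have := hBmax (insert i B) (by
            rw [Finset.mem_filter, Finset.mem_powerset]
            refine ⟨?_, hcon⟩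
            intro x hx
            rcases Finset.mem_insert.1 hx with h | h
            · exact h ▸ hiU
            · exact hBU h)
          rw [Finset.card_insert_of_notMem hiB] at this
          omega
        have h4 : (∑ b ∈ insert i B, ρ (Equiv.swap b i) w) = 0 := by
          have : (∑ b ∈ insert i B, ρ (Equiv.swap b i) w) ∈ F ⊓ fixSub ρ (insert i B) :=
            Submodule.mem_inf.2 ⟨h2, h1⟩
          rw [h3] at this
          exact (Submodule.mem_bot ℝ).1 this
        rw [Finset.sum_insert hiB, Equiv.swap_self] at h4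
        have h5 : ρ (Equiv.refl α) w = w := by
          have : (Equiv.refl α : Equiv.Perm α) = 1 := rfl
          rw [this, map_one, Module.End.one_apply]
        rw [h5] at h4
        exact (neg_eq_of_add_eq_zero_right h4).symm
      refine ⟨w, hwF, hw0, (B.card : ℝ) * B.card - 2 * U'.card + c', ?_, ?_⟩
      · have h1 : (B.card : ℝ) ≤ l := hl B hBne
        have h2 : (U.card : ℝ) = U'.card + B.card := by
          rw [← hcardU]
          push_cast
          ring
        rw [h2]
        have h3 : (0:ℝ) ≤ B.card := Nat.cast_nonneg _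
        have h4 : (0:ℝ) ≤ U'.card := Nat.cast_nonneg _
        nlinarith
      · have hsplit : ∀ f : α → V, ∑ a ∈ U, f a = ∑ a ∈ B, f a + ∑ a ∈ U', f a := by
          intro f
          rw [add_comm, hU', Finset.sum_sdiff hBU]
        have hBB : ∑ a ∈ B, ∑ b ∈ B, ρ (Equiv.swap a b) w = ((B.card : ℝ) * B.card) • w := by
          have : ∀ a ∈ B, ∀ b ∈ B, ρ (Equiv.swap a b) w = w := by
            intro a ha b hb
            apply (mem_fixSub ρ B w).1 hwB
            intro x hx
            apply Equiv.swap_apply_of_ne_of_ne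
            · rintro rfl
              exact hx ha
            · rintro rfl
              exact hx hb
          rw [Finset.sum_congr rfl (fun a ha => Finset.sum_congr rfl (fun b hb => this a ha b hb))]
          rw [Finset.sum_const, Finset.sum_const, ← Nat.cast_smul_eq_nsmul ℝ,
            ← Nat.cast_smul_eq_nsmul ℝ, smul_smul]
        have hU'B : ∑ a ∈ U', ∑ b ∈ B, ρ (Equiv.swap a b) w = (-(U'.card : ℝ)) • w := by
          rw [Finset.sum_congr rfl (fun a ha => show ∑ b ∈ B, ρ (Equiv.swap a b) w = -w by
            rw [← hrel a ha]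
            exact Finset.sum_congr rfl (fun b _ => by rw [Equiv.swap_comm]))]
          rw [Finset.sum_const, ← Nat.cast_smul_eq_nsmul ℝ, smul_neg, neg_smul]
        have hBU' : ∑ a ∈ B, ∑ b ∈ U', ρ (Equiv.swap a b) w = (-(U'.card : ℝ)) • w := by
          rw [Finset.sum_comm]
          rw [Finset.sum_congr rfl hrel]
          rw [Finset.sum_const, ← Nat.cast_smul_eq_nsmul ℝ, smul_neg, neg_smul]
        rw [hsplit]
        rw [Finset.sum_congr rfl (fun a _ => hsplit (fun b => ρ (Equiv.swap a b) w)),
          Finset.sum_congr (s₁ := U') rfl (fun a _ => hsplit (fun b => ρ (Equiv.swap a b) w))]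
        rw [Finset.sum_add_distrib, Finset.sum_add_distrib, hBB, hU'B, hBU', hsum]
        simp only [← add_smul, neg_smul, ← sub_eq_add_neg, ← sub_smul]
        module

end ModD1aux

open ModD1aux in
theorem trace_swap_le {α : Type*} [Fintype α] [DecidableEq α] {V : Type*} [NormedAddCommGroup V]
    [InnerProductSpace ℝ V] [FiniteDimensional ℝ V]
    (ρ : Equiv.Perm α →* (V →ₗ[ℝ] V)) (hρ : ∀ g v, ‖ρ g v‖ = ‖v‖)
    (E : Submodule ℝ V) (hE : ∀ g, ∀ v ∈ E, ρ g v ∈ E) (hne : E ≠ ⊥)
    (hirr : ∀ E' : Submodule ℝ V, E' ≤ E → (∀ g, ∀ v ∈ E', ρ g v ∈ E') → E' ≠ ⊥ → E' = E)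
    (hmax : ∀ B : Finset α, Fintype.card α < 2 * B.card → E ⊓ fixSub ρ B = ⊥)
    (x y : α) (hxy : x ≠ y) :
    2 * LinearMap.trace ℝ E ((ρ (Equiv.swap x y)).restrict (fun v hv => hE _ v hv)) ≤
      (Module.finrank ℝ E : ℝ) := by
  have hn : 2 ≤ Fintype.card α := by
    have : Nontrivial α := ⟨x, y, hxy⟩
    exact Fintype.one_lt_card
  obtain ⟨v, hv, hv0, c, hc, hsum⟩ := greedy ρ ((Fintype.card α : ℝ) / 2) _ Finset.univ rfl E hne
    (fun g _ v hv => hE g v hv) (fun B hB => by
      by_contra hcon
      apply hB
      apply hmax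
      have h1 : (Fintype.card α : ℝ) < 2 * B.card := by
        push Not at hcon
        linarith
      exact_mod_cast h1)
  rw [Finset.card_univ] at hc
  -- the operator S
  set S : V →ₗ[ℝ] V := ∑ a : α, ∑ b : α, ρ (Equiv.swap a b) with hS
  have hSapp : ∀ u, S u = ∑ a : α, ∑ b : α, ρ (Equiv.swap a b) u := by
    intro u
    rw [hS]
    simp [LinearMap.sum_apply]
  have hScomm : ∀ g, S * ρ g = ρ g * S := by
    intro g
    rw [hS]
    simp only [Finset.sum_mul, Finset.mul_sum, ← map_mul]
    rw [← Equiv.sum_comp g]
    apply Finset.sum_congr rfl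
    intro a _
    rw [← Equiv.sum_comp g]
    apply Finset.sum_congr rfl
    intro b _
    congr 1
    rw [Equiv.swap_apply_apply]
    simp [mul_assoc]
  -- the eigenspace
  let E' : Submodule ℝ V := E ⊓ LinearMap.ker (S - c • LinearMap.id)
  have hE'mem : ∀ u, u ∈ E' ↔ u ∈ E ∧ S u = c • u := by
    intro u
    simp only [E', Submodule.mem_inf, LinearMap.mem_ker, LinearMap.sub_apply, LinearMap.smul_apply,
      LinearMap.id_apply, sub_eq_zero]
  have hE'E : E' = E := by
    apply hirr
    · exact inf_le_left
    · intro g u hu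
      rw [hE'mem] at hu ⊢
      refine ⟨hE g u hu.1, ?_⟩
      have := congrArg (fun T : V →ₗ[ℝ] V => T u) (hScomm g)
      simp only [Module.End.mul_apply] at this
      rw [this, hu.2, map_smul]
    · intro hbot
      have : v ∈ E' := by
        rw [hE'mem]
        exact ⟨hv, by rw [hSapp]; exact hsum⟩
      rw [hbot] at this
      exact hv0 ((Submodule.mem_bot ℝ).1 this)
  have hSE : ∀ u ∈ E, S u = c • u := by
    intro u hu
    rw [← hE'E, hE'mem] at hu
    exact hu.2
  -- the restricted representation
  let ρE : Equiv.Perm α → (E →ₗ[ℝ] E) := fun g => (ρ g).restrict (fun v hv => hE g v hv)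
  have hρEmul : ∀ g h, ρE (g * h) = ρE g * ρE h := by
    intro g h
    ext u
    simp [ρE, LinearMap.restrict_apply]
  have hρE1 : ρE 1 = 1 := by
    ext u
    simp [ρE, LinearMap.restrict_apply]
  set χ : ℝ := LinearMap.trace ℝ E (ρE (Equiv.swap x y)) with hχ
  have hconj : ∀ a b : α, a ≠ b → LinearMap.trace ℝ E (ρE (Equiv.swap a b)) = χ := by
    intro a b hab
    obtain ⟨g, hg⟩ := isConj_iff.1 (Equiv.Perm.isConj_swap hxy hab)
    rw [← hg, hρEmul, LinearMap.trace_mul_comm, ← hρEmul, ← mul_assoc, inv_mul_cancel, one_mul]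
  have hdiag : ∀ a : α, LinearMap.trace ℝ E (ρE (Equiv.swap a a)) = Module.finrank ℝ E := by
    intro a
    have : (Equiv.swap a a : Equiv.Perm α) = 1 := Equiv.swap_self a
    rw [this, hρE1, LinearMap.trace_one]
  have hsumE : ∑ a : α, ∑ b : α, ρE (Equiv.swap a b) = c • (LinearMap.id : E →ₗ[ℝ] E) := by
    ext u
    simp only [LinearMap.sum_apply, LinearMap.smul_apply, LinearMap.id_apply,
      Submodule.coe_sum, Submodule.coe_smul, ρE, LinearMap.coe_restrict_apply]
    rw [← hSapp]
    exact hSE u u.2
  have htr := congrArg (LinearMap.trace ℝ E) hsumE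
  simp only [map_sum, map_smul, LinearMap.trace_id, smul_eq_mul] at htr
  have hinner : ∀ a : α, ∑ b : α, LinearMap.trace ℝ E (ρE (Equiv.swap a b)) =
      Module.finrank ℝ E + ((Fintype.card α : ℝ) - 1) * χ := by
    intro a
    rw [← Finset.add_sum_erase _ _ (Finset.mem_univ a), hdiag]
    congr 1
    rw [Finset.sum_congr rfl (fun b hb => hconj a b (Finset.ne_of_mem_erase hb).symm),
      Finset.sum_const, Finset.card_erase_of_mem (Finset.mem_univ a), Finset.card_univ,
      nsmul_eq_mul, Nat.cast_sub (by omega), Nat.cast_one]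
  rw [Finset.sum_congr rfl (fun a _ => hinner a), Finset.sum_const, Finset.card_univ,
    nsmul_eq_mul] at htr
  have hd : (0:ℝ) ≤ Module.finrank ℝ E := Nat.cast_nonneg _
  have hn' : (2:ℝ) ≤ Fintype.card α := by exact_mod_cast hn
  change 2 * χ ≤ _
  set n : ℝ := (Fintype.card α : ℝ)
  set d : ℝ := (Module.finrank ℝ E : ℝ)
  -- n (d + (n-1) χ) = c d ≤ n * (n/2) * d
  have h1 : n * (d + (n - 1) * χ) ≤ n * (n / 2) * d := by
    rw [htr]
    exact mul_le_mul_of_nonneg_right hc hd
  have h2 : d + (n - 1) * χ ≤ n / 2 * d := by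
    have : n * (d + (n - 1) * χ) ≤ n * (n / 2 * d) := by linarith
    exact le_of_mul_le_mul_left this (by linarith)
  have h3 : (n - 1) * (2 * χ) ≤ (n - 1) * d := by
    nlinarith
  exact le_of_mul_le_mul_left h3 (by linarith)

end Crest.Agent.R155
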