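import Mathlib

/-!
# Fixed vectors of the permutations supported in `B`
-/

set_option autoImplicit false

namespace Crest.Agent.R155

/-- vectors fixed by all the permutations which fix every point outside `B` -/
def fixSub {α V : Type*} [AddCommGroup V] [Module ℝ V]
    (ρ : Equiv.Perm α →* (V →ₗ[ℝ] V)) (B : Finset α) : Submodule ℝ V where
  carrier := {v | ∀ g : Equiv.Perm α, (∀ x, x ∉ B → g x = x) → ρ g v = v}
  add_mem' := by
    intro a b ha hb g hg
    rw [map_add, ha g hg, hb g hg]
  zero_mem' := by
    intro g _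
    exact map_zero _
  smul_mem' := by
    intro c v hv g hg
    rw [map_smul, hv g hg]

theorem mem_fixSub {α V : Type*} [AddCommGroup V] [Module ℝ V]
    (ρ : Equiv.Perm α →* (V →ₗ[ℝ] V)) (B : Finset α) (v : V) :
    v ∈ fixSub ρ B ↔ ∀ g : Equiv.Perm α, (∀ x, x ∉ B → g x = x) → ρ g v = v := Iff.rfl

end Crest.Agent.R155
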