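import Crest.Agent.R155.ModDefs

/-!
# PIECE MODM (row 155): multiplicity lemma M

`E` invariant subspace of an orthogonal representation `ρ` of `Perm α`; `l` = maximal size of `B` such
that `E` has a nonzero vector fixed by `Sym(B)`.  `K ⊆ N`, `|N| = l + j`, `j ≤ |K| ≤ l`.  Then
`dim (E ∩ fix Sym(N \ K)) ≥ C(|K|, j)`.

## Proof
For `A ⊆ K`, `|A| = j`, choose `v_A ∈ E` nonzero fixed by `Sym(N \ A)` (`|N \ A| = l`; all `B` of size `l`
are conjugate: if `v` is fixed by `Sym(B₀)` and `σ B₀ = B`, then `ρ σ v` is fixed by `Sym(B)`).  As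
`A ⊆ K`, `v_A` is fixed by `Sym(N \ K)`.  Claim: the `v_A` are linearly independent.
Fix `A₁` and choose an injection `f : A₁ → N \ K`, `Δ = ∏_{a ∈ A₁} (1 - ρ(a f(a)))` (a list product).
For `A ≠ A₁` there is `a ∈ A₁ \ A`, and `f a ∉ K ⊇ A`, so `(a f(a)) ∈ Sym(N \ A)` and `Δ v_A = 0`.
Moreover `⟨Δ v, v⟩ ≥ ‖v‖²` for `v = v_{A₁}`: by induction over the factors it is enough that
`(-1)^{|S|} ⟨ρ(w) v, v⟩ ≥ 0` for each `w = ∏_{s ∈ S} (s f(s))`.
With `B = N \ A₁`, `R_B = ∑_{g ∈ Sym B} ρ g`, one shows by induction on `S` that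
`R_B ρ(w) v = (-1)^{|S|} κ R_S v` with `κ > 0`; this uses
* for `a ∉ B`: `v + ∑_{b∈B} ρ(a b) v = 0` (coset representatives and maximality);
* `R_{S ∪ s} = (1 + ∑_{s' ∈ S} ρ(s s')) R_S`;
* `w' (s c') ` for `c' ∈ B` fixed by `w'` are conjugate under elements of `Sym B` commuting with `w'`,
  and `w' (s w'(s')) = (s s') w'`.
Then `|Sym B| ⟨ρ(w) v, v⟩ = ⟨R_B ρ(w) v, v⟩ = (-1)^{|S|} κ ⟨R_S v, v⟩` and `R_S` is positive.
-/

set_option autoImplicit false
set_option linter.unusedSectionVars false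

namespace Crest.Agent.R155

namespace ModMaux

open Finset Equiv

section Basic

variable {α : Type*} [Fintype α] [DecidableEq α]

/-- the permutations supported in `B` -/
def G (B : Finset α) : Finset (Perm α) := univ.filter (fun g => ∀ x, x ∉ B → g x = x)

theorem mem_G {B : Finset α} {g : Perm α} : g ∈ G B ↔ ∀ x, x ∉ B → g x = x := by
  simp [G]

theorem one_mem_G (B : Finset α) : (1 : Perm α) ∈ G B := by simp [mem_G]

theorem mul_mem_G {B : Finset α} {g h : Perm α} (hg : g ∈ G B) (hh : h ∈ G B) : g * h ∈ G B := by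
  rw [mem_G] at *
  intro x hx
  rw [Perm.mul_apply, hh x hx, hg x hx]

theorem inv_mem_G {B : Finset α} {g : Perm α} (hg : g ∈ G B) : g⁻¹ ∈ G B := by
  rw [mem_G] at *
  intro x hx
  rw [Perm.inv_eq_iff_eq, hg x hx]

theorem swap_mem_G {B : Finset α} {a b : α} (ha : a ∈ B) (hb : b ∈ B) : swap a b ∈ G B := by
  rw [mem_G]
  intro x hx
  exact swap_apply_of_ne_of_ne (fun h => hx (h ▸ ha)) (fun h => hx (h ▸ hb))

theorem G_mono {B C : Finset α} (h : B ⊆ C) {g : Perm α} (hg : g ∈ G B) : g ∈ G C := by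
  rw [mem_G] at *
  intro x hx
  exact hg x (fun h' => hx (h h'))

theorem G_apply_mem {B : Finset α} {g : Perm α} (hg : g ∈ G B) {x : α} (hx : x ∈ B) : g x ∈ B := by
  by_contra h
  have h1 : g (g x) = g x := (mem_G.1 hg) _ h
  have h2 : g x = x := g.injective h1
  exact h (h2.symm ▸ hx)

theorem G_card_pos (B : Finset α) : (0 : ℝ) < ((G B).card : ℝ) := by
  have : 0 < (G B).card := Finset.card_pos.2 ⟨1, one_mem_G B⟩
  exact_mod_cast this

variable {V : Type*} [NormedAddCommGroup V] [InnerProductSpace ℝ V]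
variable (ρ : Perm α →* (V →ₗ[ℝ] V))

/-- sum over the permutations supported in `B` -/
def R (B : Finset α) : V →ₗ[ℝ] V := ∑ g ∈ G B, ρ g

theorem R_mul {B : Finset α} {τ : Perm α} (hτ : τ ∈ G B) : R ρ B * ρ τ = R ρ B := by
  unfold R
  rw [Finset.sum_mul]
  refine Finset.sum_nbij' (fun g => g * τ) (fun g => g * τ⁻¹) ?_ ?_ ?_ ?_ ?_
  · intro g hg; exact mul_mem_G hg hτ
  · intro g hg; exact mul_mem_G hg (inv_mem_G hτ)
  · intro g _; simp
  · intro g _; simp
  · intro g _; rw [map_mul]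

theorem mul_R {B : Finset α} {τ : Perm α} (hτ : τ ∈ G B) : ρ τ * R ρ B = R ρ B := by
  unfold R
  rw [Finset.mul_sum]
  refine Finset.sum_nbij' (fun g => τ * g) (fun g => τ⁻¹ * g) ?_ ?_ ?_ ?_ ?_
  · intro g hg; exact mul_mem_G hτ hg
  · intro g hg; exact mul_mem_G (inv_mem_G hτ) hg
  · intro g _; simp
  · intro g _; simp
  · intro g _; rw [map_mul]

theorem R_R (B : Finset α) (v : V) : R ρ B (R ρ B v) = ((G B).card : ℝ) • R ρ B v := by
  have : R ρ B (R ρ B v) = ∑ g ∈ G B, (ρ g * R ρ B) v := by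
    conv_lhs => rw [R]
    rw [LinearMap.sum_apply]
    rfl
  rw [this, Finset.sum_congr rfl (fun g hg => by rw [mul_R ρ hg]), Finset.sum_const]
  exact (Nat.cast_smul_eq_nsmul ℝ _ _).symm

theorem R_of_fix {B : Finset α} {v : V} (hv : v ∈ fixSub ρ B) :
    R ρ B v = ((G B).card : ℝ) • v := by
  rw [mem_fixSub] at hv
  rw [R, LinearMap.sum_apply, Finset.sum_congr rfl (fun g hg => hv g (mem_G.1 hg)), Finset.sum_const]
  exact (Nat.cast_smul_eq_nsmul ℝ _ _).symm

theorem R_mem_fix (B : Finset α) (v : V) : R ρ B v ∈ fixSub ρ B := by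
  rw [mem_fixSub]
  intro g hg
  have := mul_R ρ (mem_G.2 hg)
  exact congrArg (fun T : V →ₗ[ℝ] V => T v) this

theorem R_mem {E : Submodule ℝ V} (hE : ∀ g, ∀ v ∈ E, ρ g v ∈ E) (B : Finset α) {v : V}
    (hv : v ∈ E) : R ρ B v ∈ E := by
  rw [R, LinearMap.sum_apply]
  exact Submodule.sum_mem _ (fun g _ => hE g v hv)

theorem R_insert {a : α} {B : Finset α} (ha : a ∉ B) :
    R ρ (insert a B) = R ρ B + ∑ b ∈ B, ρ (swap a b) * R ρ B := by
  have h1 : R ρ (insert a B) = ∑ p ∈ (insert a B) ×ˢ (G B), ρ (swap a p.1 * p.2) := by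
    unfold R
    symm
    refine Finset.sum_bij' (fun p _ => swap a p.1 * p.2) (fun g _ => (g a, swap a (g a) * g))
      ?_ ?_ ?_ ?_ ?_
    · rintro ⟨b, g⟩ hp
      rw [Finset.mem_product] at hp
      exact mul_mem_G (swap_mem_G (Finset.mem_insert_self a B) hp.1)
        (G_mono (Finset.subset_insert a B) hp.2)
    · intro g hg
      rw [Finset.mem_product]
      refine ⟨G_apply_mem hg (Finset.mem_insert_self a B), ?_⟩
      rw [mem_G]
      intro x hx
      by_cases hxa : x = a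
      · subst hxa
        simp
      · have h2 : g x = x := (mem_G.1 hg) x (by simp [hx, hxa])
        have h3 : g a ≠ x := by
          intro h
          rw [← h2] at h
          exact hxa (g.injective h).symm
        simp only [Perm.mul_apply, h2]
        exact swap_apply_of_ne_of_ne hxa h3.symm
    · rintro ⟨b, g⟩ hp
      rw [Finset.mem_product] at hp
      have h2 : g a = a := (mem_G.1 hp.2) a ha
      simp [h2]
    · intro g hg
      simp
    · intro p _
      rfl
  rw [h1, Finset.sum_product, Finset.sum_insert ha]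
  congr 1
  · unfold R
    refine Finset.sum_congr rfl (fun g _ => ?_)
    rw [swap_self, show (Equiv.refl α : Perm α) = 1 from rfl, one_mul]
  · refine Finset.sum_congr rfl (fun b _ => ?_)
    unfold R
    rw [Finset.mul_sum]
    refine Finset.sum_congr rfl (fun g _ => ?_)
    rw [map_mul]

theorem R_empty : R ρ (∅ : Finset α) = 1 := by
  have : G (∅ : Finset α) = {1} := by
    ext g
    rw [mem_G, Finset.mem_singleton]
    constructor
    · intro h
      ext x
      exact h x (Finset.notMem_empty x)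
    · rintro rfl x _
      rfl
  rw [R, this, Finset.sum_singleton, map_one]

/-- maximality: `v + ∑_{b ∈ B} ρ (a b) v = 0` -/
theorem max_sum {E : Submodule ℝ V} (hE : ∀ g, ∀ v ∈ E, ρ g v ∈ E) {B : Finset α} {a : α}
    (ha : a ∉ B) (hmax : E ⊓ fixSub ρ (insert a B) = ⊥) {v : V} (hv : v ∈ E)
    (hfix : v ∈ fixSub ρ B) : ∑ b ∈ B, ρ (swap a b) v = -v := by
  have h0 : R ρ (insert a B) v = 0 := by
    have : R ρ (insert a B) v ∈ E ⊓ fixSub ρ (insert a B) :=
      ⟨R_mem ρ hE _ hv, R_mem_fix ρ _ v⟩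
    rw [hmax] at this
    exact (Submodule.mem_bot ℝ).1 this
  rw [R_insert ρ ha] at h0
  have h1 : R ρ B v + ∑ b ∈ B, ρ (swap a b) (R ρ B v) = 0 := by
    have h2 : (R ρ B + ∑ b ∈ B, ρ (swap a b) * R ρ B) v
        = R ρ B v + ∑ b ∈ B, ρ (swap a b) (R ρ B v) := by
      rw [LinearMap.add_apply, LinearMap.sum_apply]
      rfl
    rw [← h2]; exact h0
  rw [R_of_fix ρ hfix] at h1
  have h3 : ((G B).card : ℝ) • (v + ∑ b ∈ B, ρ (swap a b) v) = 0 := by
    rw [smul_add, Finset.smul_sum]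
    simpa [map_smul] using h1
  rcases smul_eq_zero.1 h3 with h4 | h4
  · exact absurd h4 (G_card_pos B).ne'
  · exact eq_neg_of_add_eq_zero_right h4

variable {ρ}

theorem inner_ρ (hρ : ∀ g v, ‖ρ g v‖ = ‖v‖) (g : Perm α) (x y : V) :
    inner ℝ (ρ g x) (ρ g y) = inner ℝ x y :=
  (LinearIsometry.mk (ρ g) (hρ g)).inner_map_map x y

theorem inner_ρ_left (hρ : ∀ g v, ‖ρ g v‖ = ‖v‖) (g : Perm α) (x y : V) :
    inner ℝ (ρ g x) y = inner ℝ x (ρ g⁻¹ y) := by
  have h : y = ρ g (ρ g⁻¹ y) := by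
    have : (ρ g * ρ g⁻¹) y = y := by
      rw [← map_mul, mul_inv_cancel, map_one]; rfl
    exact this.symm
  conv_lhs => rw [h]
  exact inner_ρ hρ g x _

theorem R_selfadj (hρ : ∀ g v, ‖ρ g v‖ = ‖v‖) (B : Finset α) (x y : V) :
    inner ℝ (R ρ B x) y = inner ℝ x (R ρ B y) := by
  unfold R
  rw [LinearMap.sum_apply, LinearMap.sum_apply, sum_inner, inner_sum]
  refine Finset.sum_nbij' (fun g => g⁻¹) (fun g => g⁻¹) ?_ ?_ ?_ ?_ ?_
  · intro g hg; exact inv_mem_G hg
  · intro g hg; exact inv_mem_G hg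
  · intro g _; simp
  · intro g _; simp
  · intro g _; exact inner_ρ_left hρ g x y

theorem R_nonneg (hρ : ∀ g v, ‖ρ g v‖ = ‖v‖) (B : Finset α) (v : V) :
    0 ≤ inner ℝ (R ρ B v) v := by
  have h1 : inner ℝ (R ρ B v) (R ρ B v) = ((G B).card : ℝ) * inner ℝ (R ρ B v) v := by
    rw [← R_selfadj hρ, R_R, real_inner_smul_left]
  have h2 : (0 : ℝ) ≤ inner ℝ (R ρ B v) (R ρ B v) := real_inner_self_nonneg
  rw [h1] at h2
  exact nonneg_of_mul_nonneg_right h2 (G_card_pos B)

/-- `w` is a product of disjoint transpositions `(s w(s))`, `s ∈ S`, `w(s) ∈ B` -/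
structure Mt (B S : Finset α) (w : Perm α) : Prop where
  inv : ∀ x, w (w x) = x
  mB : ∀ s ∈ S, w s ∈ B
  fix : ∀ x, x ∉ S → w x ∉ S → w x = x

theorem Mt.mul_self {B S : Finset α} {w : Perm α} (h : Mt B S w) : w * w = 1 := by
  ext x
  exact h.inv x

theorem Mt.erase {B S : Finset α} {w : Perm α} {s : α} (hs : s ∉ S) (hB : s ∉ B)
    (hSB : Disjoint S B) (h : Mt B (insert s S) w) : Mt B S (w * swap s (w s)) := by
  have hc : w s ∈ B := h.mB s (Finset.mem_insert_self s S)
  have hcomm : w * swap s (w s) = swap s (w s) * w := by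
    rw [Equiv.mul_swap_eq_swap_mul, h.inv, swap_comm]
  refine ⟨?_, ?_, ?_⟩
  · intro x
    have : (w * swap s (w s)) * (w * swap s (w s)) = 1 := by
      calc (w * swap s (w s)) * (w * swap s (w s)) = (w * swap s (w s)) * (swap s (w s) * w) := by
            rw [← hcomm]
        _ = w * (swap s (w s) * swap s (w s)) * w := by simp only [mul_assoc]
        _ = 1 := by rw [swap_mul_self, mul_one, h.mul_self]
    exact congrArg (fun g : Perm α => g x) this
  · intro s' hs'
    have h1 : s' ≠ s := fun h' => hs (h' ▸ hs')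
    have h2 : s' ≠ w s := fun h' => (Finset.disjoint_left.1 hSB hs') (h' ▸ hc)
    rw [Perm.mul_apply, swap_apply_of_ne_of_ne h1 h2]
    exact h.mB s' (Finset.mem_insert_of_mem hs')
  · intro x hx hwx
    rw [Perm.mul_apply] at *
    by_cases h1 : x = s
    · subst h1
      rw [swap_apply_left, h.inv]
    · by_cases h2 : x = w s
      · rw [h2, swap_apply_right]
      · rw [swap_apply_of_ne_of_ne h1 h2] at *
        apply h.fix
        · simp [h1, hx]
        · rw [Finset.mem_insert, not_or]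
          refine ⟨?_, hwx⟩
          intro h3
          apply h2
          rw [← h3, h.inv]

theorem Mt.insert {B S : Finset α} {w : Perm α} {s c : α} (hs : s ∉ S) (hc : c ∈ B)
    (hcS : c ∉ S) (h : Mt B S w) (hws : w s = s) (hwc : w c = c) :
    Mt B (insert s S) (w * swap s c) := by
  have hcomm : w * swap s c = swap s c * w := by
    rw [Equiv.mul_swap_eq_swap_mul, hws, hwc]
  refine ⟨?_, ?_, ?_⟩
  · intro x
    have : (w * swap s c) * (w * swap s c) = 1 := by
      calc (w * swap s c) * (w * swap s c) = (w * swap s c) * (swap s c * w) := by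
            rw [← hcomm]
        _ = w * (swap s c * swap s c) * w := by simp only [mul_assoc]
        _ = 1 := by rw [swap_mul_self, mul_one, h.mul_self]
    exact congrArg (fun g : Perm α => g x) this
  · intro s' hs'
    rw [Perm.mul_apply]
    rcases Finset.mem_insert.1 hs' with h1 | h1
    · rw [h1, swap_apply_left, hwc]
      exact hc
    · have h2 : s' ≠ s := fun h' => hs (h' ▸ h1)
      have h3 : s' ≠ c := fun h' => hcS (h' ▸ h1)
      rw [swap_apply_of_ne_of_ne h2 h3]
      exact h.mB s' h1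
  · intro x hx hwx
    rw [Perm.mul_apply] at *
    rw [Finset.mem_insert, not_or] at hx hwx
    by_cases h2 : x = c
    · exfalso
      apply hwx.1
      rw [h2, swap_apply_right, hws]
    · rw [swap_apply_of_ne_of_ne hx.1 h2] at *
      exact h.fix x hx.2 hwx.2

theorem key (B : Finset α) (v : V)
    (hmaxv : ∀ a, a ∉ B → ∑ b ∈ B, ρ (swap a b) v = -v) (hfix : v ∈ fixSub ρ B)
    (S : Finset α) : Disjoint S B → ∀ w : Perm α, Mt B S w →
    ∃ κ : ℝ, 0 < κ ∧ R ρ B (ρ w v) = ((-1) ^ S.card * κ) • R ρ S v := by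
  induction S using Finset.induction_on with
  | empty =>
    intro _ w hw
    have hw1 : w = 1 := by
      ext x
      exact hw.fix x (Finset.notMem_empty x) (Finset.notMem_empty _)
    refine ⟨((G B).card : ℝ), G_card_pos B, ?_⟩
    rw [hw1, map_one, R_empty]
    simp only [Module.End.one_apply, Finset.card_empty, pow_zero, one_mul]
    exact R_of_fix ρ hfix
  | insert s S hs ih =>
    intro hdisj w hw
    rw [Finset.disjoint_insert_left] at hdisj
    obtain ⟨hsB, hSB⟩ := hdisj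
    set c := w s with hcdef
    have hc : c ∈ B := hw.mB s (Finset.mem_insert_self s S)
    set w' := w * swap s c with hw'def
    have hw' : Mt B S w' := hw.erase hs hsB hSB
    obtain ⟨κ, hκ, hκeq⟩ := ih hSB w' hw'
    have hwc : w c = s := hw.inv s
    have hw's : w' s = s := by
      rw [hw'def, Perm.mul_apply, swap_apply_left, hwc]
    have hw'c : w' c = c := by
      rw [hw'def, Perm.mul_apply, swap_apply_right]
    have hww' : w = w' * swap s c := by
      rw [hw'def, mul_assoc, swap_mul_self, mul_one]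
    -- the points of `B` fixed by `w'`
    set C := B.filter (fun x => w' x = x) with hCdef
    have hcC : c ∈ C := Finset.mem_filter.2 ⟨hc, hw'c⟩
    have hCpos : (0 : ℝ) < (C.card : ℝ) := by
      have : 0 < C.card := Finset.card_pos.2 ⟨c, hcC⟩
      exact_mod_cast this
    -- constancy
    have hconst : ∀ c' ∈ C, R ρ B (ρ (w' * swap s c') v) = R ρ B (ρ w v) := by
      intro c' hc'
      obtain ⟨hc'B, hc'w⟩ := Finset.mem_filter.1 hc'
      have hτ : swap c c' ∈ G B := swap_mem_G hc hc'B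
      have hsc : s ≠ c := fun h => hsB (h ▸ hc)
      have hsc' : s ≠ c' := fun h => hsB (h ▸ hc'B)
      have e1 : w' * swap c c' = swap c c' * w' := by
        rw [Equiv.mul_swap_eq_swap_mul, hw'c, hc'w]
      have e2 : swap c c' * swap s c = swap s c' * swap c c' := by
        rw [Equiv.mul_swap_eq_swap_mul, swap_apply_of_ne_of_ne hsc hsc', swap_apply_left]
      have e3 : w' * swap s c' = swap c c' * w * swap c c' := by
        calc w' * swap s c' = w' * (swap s c' * swap c c') * swap c c' := by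
              rw [mul_assoc w', mul_assoc (swap s c'), swap_mul_self, mul_one]
          _ = w' * (swap c c' * swap s c) * swap c c' := by rw [e2]
          _ = (w' * swap c c') * swap s c * swap c c' := by simp only [mul_assoc]
          _ = (swap c c' * w') * swap s c * swap c c' := by rw [e1]
          _ = swap c c' * (w' * swap s c) * swap c c' := by simp only [mul_assoc]
          _ = swap c c' * w * swap c c' := by rw [← hww']
      have hv : ρ (swap c c') v = v := hfix _ (mem_G.1 hτ)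
      have e4 : ρ (w' * swap s c') v = ρ (swap c c') (ρ w v) := by
        rw [e3, map_mul, map_mul]
        simp only [Module.End.mul_apply, hv]
      rw [e4]
      have := R_mul ρ hτ
      exact congrArg (fun T : V →ₗ[ℝ] V => T (ρ w v)) this
    have hsum1 : ∑ c' ∈ C, R ρ B (ρ (w' * swap s c') v) = (C.card : ℝ) • R ρ B (ρ w v) := by
      rw [Finset.sum_congr rfl hconst, Finset.sum_const]
      exact (Nat.cast_smul_eq_nsmul ℝ _ _).symm
    -- complement
    have hcompl : B.filter (fun x => ¬ w' x = x) = S.image w' := by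
      ext x
      rw [Finset.mem_filter, Finset.mem_image]
      constructor
      · rintro ⟨hxB, hx⟩
        have hxS : x ∉ S := fun h => Finset.disjoint_left.1 hSB h hxB
        have : w' x ∈ S := by
          by_contra h
          exact hx (hw'.fix x hxS h)
        exact ⟨w' x, this, hw'.inv x⟩
      · rintro ⟨y, hy, rfl⟩
        refine ⟨hw'.mB y hy, ?_⟩
        rw [hw'.inv]
        intro h
        have := hw'.mB y hy
        rw [← h] at this
        exact Finset.disjoint_left.1 hSB hy this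
    have hsum2 : ∑ c' ∈ B.filter (fun x => ¬ w' x = x), R ρ B (ρ (w' * swap s c') v)
        = ∑ s' ∈ S, ρ (swap s s') (R ρ B (ρ w' v)) := by
      rw [hcompl, Finset.sum_image (fun x _ y _ h => w'.injective h)]
      refine Finset.sum_congr rfl (fun s' hs' => ?_)
      have e1 : w' * swap s (w' s') = swap s s' * w' := by
        rw [Equiv.mul_swap_eq_swap_mul, hw's, hw'.inv]
      rw [e1, map_mul, Module.End.mul_apply]
      -- commute
      unfold R
      rw [LinearMap.sum_apply, LinearMap.sum_apply, map_sum]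
      refine Finset.sum_congr rfl (fun g hg => ?_)
      have e2 : g * swap s s' = swap s s' * g := by
        rw [Equiv.mul_swap_eq_swap_mul, (mem_G.1 hg) s hsB,
          (mem_G.1 hg) s' (fun h => Finset.disjoint_left.1 hSB hs' h)]
      have e3 : ρ g * ρ (swap s s') = ρ (swap s s') * ρ g := by rw [← map_mul, e2, map_mul]
      exact congrArg (fun T : V →ₗ[ℝ] V => T (ρ w' v)) e3
    have htot : ∑ c' ∈ B, R ρ B (ρ (w' * swap s c') v) = - R ρ B (ρ w' v) := by
      have h1 : ∀ c' ∈ B, R ρ B (ρ (w' * swap s c') v) = R ρ B (ρ w' (ρ (swap s c') v)) := by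
        intro c' _
        rw [map_mul, Module.End.mul_apply]
      rw [Finset.sum_congr rfl h1, ← map_sum, ← map_sum, hmaxv s hsB, map_neg, map_neg]
    rw [← Finset.sum_filter_add_sum_filter_not B (fun x => w' x = x)] at htot
    rw [hsum1, hsum2] at htot
    -- combine
    have hR : R ρ (insert s S) v = R ρ S v + ∑ s' ∈ S, ρ (swap s s') (R ρ S v) := by
      rw [R_insert ρ hs, LinearMap.add_apply, LinearMap.sum_apply]
      rfl
    refine ⟨κ / (C.card : ℝ), div_pos hκ hCpos, ?_⟩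
    have h5 : (C.card : ℝ) • R ρ B (ρ w v)
        = -(R ρ B (ρ w' v) + ∑ s' ∈ S, ρ (swap s s') (R ρ B (ρ w' v))) := by
      rw [neg_add]
      exact eq_sub_of_add_eq htot |>.trans (sub_eq_add_neg _ _)
    rw [hκeq] at h5
    have h6 : (C.card : ℝ) • R ρ B (ρ w v) = (-((-1) ^ S.card * κ)) • R ρ (insert s S) v := by
      rw [h5, hR, neg_smul, smul_add, Finset.smul_sum]
      congr 2
      refine Finset.sum_congr rfl (fun s' _ => ?_)
      rw [map_smul]
    have h7 : R ρ B (ρ w v) = (C.card : ℝ)⁻¹ • ((C.card : ℝ) • R ρ B (ρ w v)) := by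
      rw [smul_smul, inv_mul_cancel₀ hCpos.ne', one_smul]
    rw [h7, h6, smul_smul]
    congr 1
    rw [Finset.card_insert_of_notMem hs, pow_succ, div_eq_mul_inv]
    ring

theorem pos_w (hρ : ∀ g v, ‖ρ g v‖ = ‖v‖) (B : Finset α) (v : V)
    (hmaxv : ∀ a, a ∉ B → ∑ b ∈ B, ρ (swap a b) v = -v) (hfix : v ∈ fixSub ρ B)
    (S : Finset α) (hSB : Disjoint S B) (w : Perm α) (hw : Mt B S w) :
    0 ≤ (-1 : ℝ) ^ S.card * inner ℝ (ρ w v) v := by
  obtain ⟨κ, hκ, hκeq⟩ := key B v hmaxv hfix S hSB w hw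
  have h1 : inner ℝ (R ρ B (ρ w v)) v = ((G B).card : ℝ) * inner ℝ (ρ w v) v := by
    rw [R_selfadj hρ, R_of_fix ρ hfix, real_inner_smul_right]
  rw [hκeq, real_inner_smul_left] at h1
  have h2 : 0 ≤ κ * inner ℝ (R ρ S v) v := mul_nonneg hκ.le (R_nonneg hρ S v)
  have h3 : ((G B).card : ℝ) * ((-1 : ℝ) ^ S.card * inner ℝ (ρ w v) v)
      = κ * inner ℝ (R ρ S v) v := by
    have : ((-1 : ℝ) ^ S.card) * ((-1 : ℝ) ^ S.card) = 1 := by
      rw [← mul_pow]; norm_num
    calc ((G B).card : ℝ) * ((-1 : ℝ) ^ S.card * inner ℝ (ρ w v) v)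
        = (-1 : ℝ) ^ S.card * (((G B).card : ℝ) * inner ℝ (ρ w v) v) := by ring
      _ = (-1 : ℝ) ^ S.card * ((-1) ^ S.card * κ * inner ℝ (R ρ S v) v) := by rw [h1]
      _ = ((-1 : ℝ) ^ S.card * (-1) ^ S.card) * (κ * inner ℝ (R ρ S v) v) := by ring
      _ = κ * inner ℝ (R ρ S v) v := by rw [this, one_mul]
  rw [← h3] at h2
  exact nonneg_of_mul_nonneg_right h2 (G_card_pos B)

/-- product of the `1 - ρ (a f(a))` -/
noncomputable def Dl (ρ : Perm α →* (V →ₗ[ℝ] V)) (f : α → α) (L : List α) : V →ₗ[ℝ] V :=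
  (L.map (fun a => (1 : V →ₗ[ℝ] V) - ρ (swap a (f a)))).prod

theorem Dl_nil (f : α → α) (u : V) : Dl ρ f [] u = u := rfl

theorem Dl_cons (f : α → α) (a : α) (L : List α) (u : V) :
    Dl ρ f (a :: L) u = Dl ρ f L u - ρ (swap a (f a)) (Dl ρ f L u) := by
  unfold Dl
  rw [List.map_cons, List.prod_cons, Module.End.mul_apply, LinearMap.sub_apply]
  rfl

theorem pos_list (hρ : ∀ g v, ‖ρ g v‖ = ‖v‖) (B : Finset α) (v : V)
    (hmaxv : ∀ a, a ∉ B → ∑ b ∈ B, ρ (swap a b) v = -v) (hfix : v ∈ fixSub ρ B)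
    (f : α → α) (L : List α) : L.Nodup → (∀ a ∈ L, a ∉ B) → (∀ a ∈ L, f a ∈ B) →
    (∀ a ∈ L, ∀ a' ∈ L, f a = f a' → a = a') →
    ∀ (S : Finset α) (w : Perm α), Disjoint S B → (∀ a ∈ L, a ∉ S) → Mt B S w →
    (∀ a ∈ L, w (f a) = f a) →
    0 ≤ (-1 : ℝ) ^ S.card * inner ℝ (ρ w (Dl ρ f L v)) v := by
  induction L with
  | nil =>
    intro _ _ _ _ S w hSB _ hw _
    rw [Dl_nil]
    exact pos_w hρ B v hmaxv hfix S hSB w hw
  | cons a L ih =>
    intro hnd hLB hfB hinj S w hSB hLS hw hwf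
    rw [List.nodup_cons] at hnd
    obtain ⟨haL, hnd⟩ := hnd
    have haB : a ∉ B := hLB a (List.mem_cons_self)
    have haS : a ∉ S := hLS a (List.mem_cons_self)
    have hfaB : f a ∈ B := hfB a (List.mem_cons_self)
    have hfaS : f a ∉ S := fun h => Finset.disjoint_left.1 hSB h hfaB
    have hwa : w a = a := by
      apply hw.fix a haS
      intro h
      apply haB
      have := hw.mB _ h
      rwa [hw.inv] at this
    have hwfa : w (f a) = f a := hwf a (List.mem_cons_self)
    have ih' := ih hnd (fun x hx => hLB x (List.mem_cons_of_mem _ hx))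
      (fun x hx => hfB x (List.mem_cons_of_mem _ hx))
      (fun x hx y hy => hinj x (List.mem_cons_of_mem _ hx) y (List.mem_cons_of_mem _ hy))
    have h1 := ih' S w hSB (fun x hx => hLS x (List.mem_cons_of_mem _ hx)) hw
      (fun x hx => hwf x (List.mem_cons_of_mem _ hx))
    have h2 := ih' (insert a S) (w * swap a (f a))
      (Finset.disjoint_insert_left.2 ⟨haB, hSB⟩)
      (fun x hx => by
        rw [Finset.mem_insert, not_or]
        exact ⟨fun h => haL (h ▸ hx), hLS x (List.mem_cons_of_mem _ hx)⟩)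
      (hw.insert haS hfaB hfaS hwa hwfa)
      (fun x hx => by
        have hxL : x ∈ a :: L := List.mem_cons_of_mem _ hx
        have e1 : f x ≠ a := fun h => haB (h ▸ hfB x hxL)
        have e2 : f x ≠ f a := by
          intro h
          have := hinj x hxL a (List.mem_cons_self) h
          exact haL (this ▸ hx)
        rw [Perm.mul_apply, swap_apply_of_ne_of_ne e1 e2]
        exact hwf x hxL)
    rw [Dl_cons, map_sub, inner_sub_left]
    rw [map_mul, Module.End.mul_apply, Finset.card_insert_of_notMem haS, pow_succ] at h2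
    linarith

theorem norm_le_Dl (hρ : ∀ g v, ‖ρ g v‖ = ‖v‖) (B : Finset α) (v : V)
    (hmaxv : ∀ a, a ∉ B → ∑ b ∈ B, ρ (swap a b) v = -v) (hfix : v ∈ fixSub ρ B)
    (f : α → α) (L : List α) : L.Nodup → (∀ a ∈ L, a ∉ B) → (∀ a ∈ L, f a ∈ B) →
    (∀ a ∈ L, ∀ a' ∈ L, f a = f a' → a = a') →
    inner ℝ v v ≤ inner ℝ (Dl ρ f L v) v := by
  induction L with
  | nil =>
    intro _ _ _ _
    rw [Dl_nil]
  | cons a L ih =>
    intro hnd hLB hfB hinj
    rw [List.nodup_cons] at hnd
    obtain ⟨haL, hnd⟩ := hnd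
    have haB : a ∉ B := hLB a (List.mem_cons_self)
    have hfaB : f a ∈ B := hfB a (List.mem_cons_self)
    have h1 := ih hnd (fun x hx => hLB x (List.mem_cons_of_mem _ hx))
      (fun x hx => hfB x (List.mem_cons_of_mem _ hx))
      (fun x hx y hy => hinj x (List.mem_cons_of_mem _ hx) y (List.mem_cons_of_mem _ hy))
    have hMt1 : Mt B ∅ (1 : Perm α) := ⟨fun _ => rfl, fun s hs => absurd hs (Finset.notMem_empty s),
      fun _ _ _ => rfl⟩
    have hMt := hMt1.insert (s := a) (c := f a) (Finset.notMem_empty a) hfaB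
      (Finset.notMem_empty _) rfl rfl
    rw [one_mul] at hMt
    have h2 := pos_list hρ B v hmaxv hfix f L hnd (fun x hx => hLB x (List.mem_cons_of_mem _ hx))
      (fun x hx => hfB x (List.mem_cons_of_mem _ hx))
      (fun x hx y hy => hinj x (List.mem_cons_of_mem _ hx) y (List.mem_cons_of_mem _ hy))
      (insert a ∅) (swap a (f a))
      (Finset.disjoint_insert_left.2 ⟨haB, Finset.disjoint_empty_left _⟩)
      (fun x hx => by
        rw [Finset.mem_insert, not_or]
        exact ⟨fun h => haL (h ▸ hx), Finset.notMem_empty _⟩)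
      hMt
      (fun x hx => by
        have hxL : x ∈ a :: L := List.mem_cons_of_mem _ hx
        have e1 : f x ≠ a := fun h => haB (h ▸ hfB x hxL)
        have e2 : f x ≠ f a := by
          intro h
          have := hinj x hxL a (List.mem_cons_self) h
          exact haL (this ▸ hx)
        exact swap_apply_of_ne_of_ne e1 e2)
    rw [Dl_cons, inner_sub_left]
    rw [Finset.card_insert_of_notMem (Finset.notMem_empty a), Finset.card_empty, zero_add,
      pow_one] at h2
    linarith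

theorem Dl_fix (f : α → α) (a : α) (u : V) (hu : ρ (swap a (f a)) u = u) (L : List α) :
    (∀ a' ∈ L, a' ≠ a ∧ a' ≠ f a ∧ f a' ≠ a ∧ f a' ≠ f a) →
    ρ (swap a (f a)) (Dl ρ f L u) = Dl ρ f L u := by
  induction L with
  | nil => intro _; rw [Dl_nil]; exact hu
  | cons b L ih =>
    intro h
    have h1 := ih (fun x hx => h x (List.mem_cons_of_mem _ hx))
    obtain ⟨n1, n2, n3, n4⟩ := h b List.mem_cons_self
    have e1 : swap a (f a) * swap b (f b) = swap b (f b) * swap a (f a) := by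
      rw [Equiv.mul_swap_eq_swap_mul, swap_apply_of_ne_of_ne n1 n2, swap_apply_of_ne_of_ne n3 n4]
    have e2 : ρ (swap a (f a)) (ρ (swap b (f b)) (Dl ρ f L u))
        = ρ (swap b (f b)) (Dl ρ f L u) := by
      have e3 : ρ (swap a (f a)) * ρ (swap b (f b)) = ρ (swap b (f b)) * ρ (swap a (f a)) := by
        rw [← map_mul, e1, map_mul]
      have e4 := congrArg (fun T : V →ₗ[ℝ] V => T (Dl ρ f L u)) e3
      simp only [Module.End.mul_apply] at e4
      rw [e4, h1]
    rw [Dl_cons, map_sub, h1, e2]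

theorem Dl_zero (f : α → α) (a : α) (u : V) (hu : ρ (swap a (f a)) u = u) (L : List α) :
    L.Nodup → a ∈ L → (∀ a' ∈ L, a' ≠ a → a' ≠ f a ∧ f a' ≠ a ∧ f a' ≠ f a) →
    Dl ρ f L u = 0 := by
  induction L with
  | nil => intro _ h; exact absurd h List.not_mem_nil
  | cons b L ih =>
    intro hnd ha h
    rw [List.nodup_cons] at hnd
    rw [Dl_cons]
    rcases List.mem_cons.1 ha with h1 | h1
    · subst h1
      rw [Dl_fix f a u hu L (fun x hx => ⟨fun e => hnd.1 (e ▸ hx),
        h x (List.mem_cons_of_mem _ hx) (fun e => hnd.1 (e ▸ hx))⟩), sub_self]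
    · rw [ih hnd.2 h1 (fun x hx => h x (List.mem_cons_of_mem _ hx)), map_zero, sub_zero]

theorem exists_fixed {E : Submodule ℝ V} (hE : ∀ g, ∀ v ∈ E, ρ g v ∈ E) {l : ℕ}
    (hex : ∃ B : Finset α, B.card = l ∧ E ⊓ fixSub ρ B ≠ ⊥) (B : Finset α) (hB : B.card = l) :
    ∃ v ∈ E, v ∈ fixSub ρ B ∧ v ≠ 0 := by
  obtain ⟨B₀, hB₀, hne⟩ := hex
  obtain ⟨v₀, hv₀, hv₀0⟩ := (Submodule.ne_bot_iff _).1 hne
  let e : {x // x ∈ B₀} ≃ {x // x ∈ B} := Finset.equivOfCardEq (hB₀.trans hB.symm)
  let σ : Perm α := e.extendSubtype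
  refine ⟨ρ σ v₀, hE σ v₀ hv₀.1, ?_, ?_⟩
  · rw [mem_fixSub]
    intro g hg
    have h1 : ρ (σ⁻¹ * g * σ) v₀ = v₀ := by
      apply hv₀.2
      intro x hx
      have h2 : σ x ∉ B := e.extendSubtype_not_mem x hx
      rw [Perm.mul_apply, Perm.mul_apply, hg _ h2]
      simp
    have h3 : g * σ = σ * (σ⁻¹ * g * σ) := by group
    have h4 : ρ g (ρ σ v₀) = ρ (g * σ) v₀ := by rw [map_mul]; rfl
    rw [h4, h3, map_mul, Module.End.mul_apply, h1]
  · intro h
    apply hv₀0
    have h1 : ρ (σ⁻¹ * σ) v₀ = 0 := by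
      rw [map_mul, Module.End.mul_apply, h, map_zero]
    rw [inv_mul_cancel, map_one] at h1
    exact h1

end Basic

end ModMaux

theorem module_M {α : Type*} [Fintype α] [DecidableEq α] {V : Type*} [NormedAddCommGroup V]
    [InnerProductSpace ℝ V] [FiniteDimensional ℝ V]
    (ρ : Equiv.Perm α →* (V →ₗ[ℝ] V)) (hρ : ∀ g v, ‖ρ g v‖ = ‖v‖)
    (E : Submodule ℝ V) (hE : ∀ g, ∀ v ∈ E, ρ g v ∈ E) (l : ℕ)
    (hmax : ∀ B : Finset α, B.card = l + 1 → E ⊓ fixSub ρ B = ⊥)
    (hex : ∃ B : Finset α, B.card = l ∧ E ⊓ fixSub ρ B ≠ ⊥)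
    (N K : Finset α) (hKN : K ⊆ N) (j : ℕ) (hN : N.card = l + j) (hjK : j ≤ K.card)
    (hK : K.card ≤ l) :
    K.card.choose j ≤ Module.finrank ℝ ↥(E ⊓ fixSub ρ (N \ K)) := by
  classical
  -- the vectors `v_A`
  have hcardA : ∀ A : Finset α, A ∈ K.powersetCard j → (N \ A).card = l := by
    intro A hA
    rw [Finset.mem_powersetCard] at hA
    rw [Finset.card_sdiff_of_subset (hA.1.trans hKN), hN, hA.2]
    omega
  have hchoose : ∀ A : {A // A ∈ K.powersetCard j},
      ∃ v ∈ E, v ∈ fixSub ρ (N \ A.1) ∧ v ≠ 0 := fun A =>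
    ModMaux.exists_fixed hE hex (N \ A.1) (hcardA A.1 A.2)
  choose v hvE hvfix hv0 using hchoose
  have hvW : ∀ A : {A // A ∈ K.powersetCard j}, v A ∈ E ⊓ fixSub ρ (N \ K) := by
    intro A
    refine ⟨hvE A, (mem_fixSub ρ _ _).2 ?_⟩
    intro g hg
    apply hvfix A
    intro x hx
    apply hg
    intro h
    apply hx
    rw [Finset.mem_sdiff] at *
    exact ⟨h.1, fun h' => h.2 ((Finset.mem_powersetCard.1 A.2).1 h')⟩
  -- the functionals
  have hphi : ∀ A₁ : {A // A ∈ K.powersetCard j}, ∃ φ : V →ₗ[ℝ] ℝ,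
      φ (v A₁) ≠ 0 ∧ ∀ A : {A // A ∈ K.powersetCard j}, A ≠ A₁ → φ (v A) = 0 := by
    intro A₁
    obtain ⟨hA₁K, hA₁j⟩ := Finset.mem_powersetCard.1 A₁.2
    have hcard : A₁.1.card ≤ (N \ K).card := by
      rw [Finset.card_sdiff_of_subset hKN, hN, hA₁j]
      omega
    obtain ⟨T, hT, hTc⟩ := Finset.exists_subset_card_eq hcard
    let e : {x // x ∈ A₁.1} ≃ {x // x ∈ T} := Finset.equivOfCardEq hTc.symm
    let f : α → α := fun a => if h : a ∈ A₁.1 then (e ⟨a, h⟩ : α) else a
    have hfe : ∀ a (h : a ∈ A₁.1), f a = (e ⟨a, h⟩ : α) := fun a h => dif_pos h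
    have hfT : ∀ a ∈ A₁.1, f a ∈ N \ K := by
      intro a ha
      rw [hfe a ha]
      exact hT (e ⟨a, ha⟩).2
    have hfinj : ∀ a ∈ A₁.1, ∀ a' ∈ A₁.1, f a = f a' → a = a' := by
      intro a ha a' ha' h
      rw [hfe a ha, hfe a' ha'] at h
      have := e.injective (Subtype.ext h)
      exact congrArg Subtype.val this
    have hmaxv : ∀ a, a ∉ N \ A₁.1 → ∑ b ∈ N \ A₁.1, ρ (Equiv.swap a b) (v A₁) = -(v A₁) := by
      intro a ha
      apply ModMaux.max_sum ρ hE ha _ (hvE A₁) (hvfix A₁)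
      apply hmax
      rw [Finset.card_insert_of_notMem ha, hcardA A₁.1 A₁.2]
    have hmem : ∀ a, a ∈ A₁.1.toList ↔ a ∈ A₁.1 := fun a => Finset.mem_toList
    have hLB : ∀ a ∈ A₁.1.toList, a ∉ N \ A₁.1 := by
      intro a ha h
      exact (Finset.mem_sdiff.1 h).2 ((hmem a).1 ha)
    have hfB : ∀ a ∈ A₁.1.toList, f a ∈ N \ A₁.1 := by
      intro a ha
      have := Finset.mem_sdiff.1 (hfT a ((hmem a).1 ha))
      exact Finset.mem_sdiff.2 ⟨this.1, fun h => this.2 (hA₁K h)⟩
    have hpos := ModMaux.norm_le_Dl hρ (N \ A₁.1) (v A₁) hmaxv (hvfix A₁) f A₁.1.toList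
      A₁.1.nodup_toList hLB hfB
      (fun a ha a' ha' => hfinj a ((hmem a).1 ha) a' ((hmem a').1 ha'))
    refine ⟨(innerₗ V (v A₁)).comp (ModMaux.Dl ρ f A₁.1.toList), ?_, ?_⟩
    · rw [LinearMap.comp_apply, innerₗ_apply_apply, real_inner_comm]
      have h1 : 0 < inner ℝ (v A₁) (v A₁) := real_inner_self_pos.2 (hv0 A₁)
      exact (lt_of_lt_of_le h1 hpos).ne'
    · intro A hA
      rw [LinearMap.comp_apply]
      obtain ⟨hAK, hAj⟩ := Finset.mem_powersetCard.1 A.2
      have hex' : ∃ a ∈ A₁.1, a ∉ A.1 := by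
        by_contra hcon
        push Not at hcon
        have : A₁.1 = A.1 := Finset.eq_of_subset_of_card_le hcon (by rw [hA₁j, hAj])
        exact hA (Subtype.ext this.symm)
      obtain ⟨a, haA₁, haA⟩ := hex'
      have h0 : ModMaux.Dl ρ f A₁.1.toList (v A) = 0 := by
        apply ModMaux.Dl_zero f a (v A) _ A₁.1.toList A₁.1.nodup_toList ((hmem a).2 haA₁)
        · intro a' ha' hne
          have ha'1 := (hmem a').1 ha'
          refine ⟨?_, ?_, ?_⟩
          · intro h
            exact (Finset.mem_sdiff.1 (hfT a haA₁)).2 (h ▸ hA₁K ha'1)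
          · intro h
            exact (Finset.mem_sdiff.1 (hfT a' ha'1)).2 (h ▸ hA₁K haA₁)
          · intro h
            exact hne (hfinj a' ha'1 a haA₁ h)
        · apply hvfix A
          apply ModMaux.mem_G.1
          apply ModMaux.swap_mem_G
          · exact Finset.mem_sdiff.2 ⟨hKN (hA₁K haA₁), haA⟩
          · have := Finset.mem_sdiff.1 (hfT a haA₁)
            exact Finset.mem_sdiff.2 ⟨this.1, fun h => this.2 (hAK h)⟩
      rw [h0, map_zero]
  choose φ hφ1 hφ2 using hphi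
  let vW : {A // A ∈ K.powersetCard j} → ↥(E ⊓ fixSub ρ (N \ K)) := fun A => ⟨v A, hvW A⟩
  have hli : LinearIndependent ℝ vW := by
    rw [linearIndependent_iff']
    intro s g hg i hi
    have h1 : φ i ((∑ A ∈ s, g A • vW A : ↥(E ⊓ fixSub ρ (N \ K))) : V) = 0 := by
      rw [hg]; exact map_zero _
    have h2 : ((∑ A ∈ s, g A • vW A : ↥(E ⊓ fixSub ρ (N \ K))) : V) = ∑ A ∈ s, g A • v A := by
      rw [Submodule.coe_sum]
      rfl
    rw [h2, map_sum, Finset.sum_eq_single i] at h1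
    · rw [map_smul, smul_eq_mul] at h1
      rcases mul_eq_zero.1 h1 with h3 | h3
      · exact h3
      · exact absurd h3 (hφ1 i)
    · intro A _ hA
      rw [map_smul, hφ2 i A hA, smul_zero]
    · intro h
      exact absurd hi h
  have := hli.fintype_card_le_finrank
  rwa [Fintype.card_coe, Finset.card_powersetCard] at this

end Crest.Agent.R155
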