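import Mathlib

/-!
# PIECE SCHATTEN (row 155): Schatten-Hölder inequality for powers (finite dimension, elementary)

`A† = LinearMap.adjoint A`, `tr = LinearMap.trace ℝ E`.  For `s = 2^i`:
* `A_s`: `|tr(M^{2s})| ≤ tr((M M†)^s)` for all `M`.
* `B_s`: `tr((Q R)^s) ≤ tr(Q^s R^s) ≤ √(tr Q^{2s}) √(tr R^{2s})` for symmetric positive `Q, R`.
* `C_s`: `tr(A^s A†^s) ≤ tr((A A†)^s)`.
`A_1`: Cauchy-Schwarz for the Hilbert-Schmidt product: `|tr(M M)| ≤ tr(M M†)`.  `B_1` trivial.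
`B_{2s}`: `tr((QR)^{2s}) ≤ [A_s] tr((QR (QR)†)^s) = tr((Q R² Q)^s) = tr((Q² R²)^s) ≤ [B_s] tr(Q^{2s} R^{2s})`.
`A_{2s}`: `|tr((M²)^{2s})| ≤ [A_s] tr((M² M†²)^s) = tr((M†M · MM†)^s) ≤ [B_s] √(tr (M†M)^{2s}) √(tr (MM†)^{2s})
= tr((MM†)^{2s})`.
`C_{2s}`: with `B = A²`: `tr(B^s B†^s) ≤ [C_s] tr((A²A†²)^s) = tr((A†A · AA†)^s) ≤ [B_s] tr((AA†)^{2s})`.
Cyclicity: `tr((XY)^s) = tr((YX)^s)`.
Final: `tr(P^1600 P†^1600) = ‖P†^{1600}‖²_HS ≤ (sup ‖P†v‖²)^{1536} ‖P†^{64}‖²_HS`, and `C_64`.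
(`‖T S‖²_HS ≤ ‖T‖² ‖S‖²_HS`, HS norm: `∑_i ‖S e_i‖²` over an orthonormal basis.)
One may work with matrices instead.
-/

set_option autoImplicit false

namespace Crest.Agent.R155

namespace Schattenaux

section abs
variable {R : Type*} [Ring R] [StarRing R]

theorem cyc_pow (X Y : R) (n : ℕ) : (X * Y) ^ (n + 1) = X * ((Y * X) ^ n * Y) := by
  induction n with
  | zero => simp
  | succ n ih =>
    rw [pow_succ, ih, pow_succ (Y * X) n]
    simp only [mul_assoc]

theorem tr_cyc_pow (τ : R → ℝ) (hc : ∀ X Y, τ (X * Y) = τ (Y * X)) (X Y : R) (n : ℕ) :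
    τ ((X * Y) ^ n) = τ ((Y * X) ^ n) := by
  cases n with
  | zero => simp
  | succ n => rw [cyc_pow, hc, mul_assoc, ← pow_succ]

structure Tr (τ : R → ℝ) : Prop where
  cyc : ∀ X Y, τ (X * Y) = τ (Y * X)
  pos : ∀ X, 0 ≤ τ (X * star X)
  cs : ∀ X Y, |τ (X * Y)| ≤ √(τ (X * star X)) * √(τ (star Y * Y))

theorem AB (τ : R → ℝ) (h : Tr τ) (i : ℕ) :
    (∀ M : R, |τ (M ^ (2 * 2 ^ i))| ≤ τ ((M * star M) ^ (2 ^ i))) ∧
    (∀ Q R' : R, star Q = Q → star R' = R' →
      |τ ((Q * R') ^ (2 ^ i))| ≤ √(τ (Q ^ (2 * 2 ^ i))) * √(τ (R' ^ (2 * 2 ^ i)))) := by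
  induction i with
  | zero =>
    constructor
    · intro M
      have := h.cs M M
      rw [h.cyc (star M) M, Real.mul_self_sqrt (h.pos M)] at this
      simpa [sq] using this
    · intro Q R' hQ hR
      have := h.cs Q R'
      rw [hQ, hR] at this
      simpa [sq] using this
  | succ i ih =>
    obtain ⟨hA, hB⟩ := ih
    have e1 : 2 * 2 ^ (i + 1) = 2 * (2 * 2 ^ i) := by ring
    have e2 : 2 ^ (i + 1) = 2 * 2 ^ i := by ring
    constructor
    · intro M
      rw [e1, pow_mul]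
      refine (hA (M ^ 2)).trans ?_
      have e3 : M ^ 2 * star (M ^ 2) = M * (M * (star M * star M)) := by
        rw [star_pow, sq, sq]; simp only [mul_assoc]
      have e4 : M * (star M * star M) * M = (M * star M) * (star M * M) := by
        simp only [mul_assoc]
      rw [e3, tr_cyc_pow τ h.cyc, e4]
      have hb := hB (M * star M) (star M * M) (by simp) (by simp)
      have e5 : τ ((star M * M) ^ (2 * 2 ^ i)) = τ ((M * star M) ^ (2 * 2 ^ i)) :=
        tr_cyc_pow τ h.cyc _ _ _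
      rw [e5, Real.mul_self_sqrt] at hb
      · rw [e2]
        exact (le_abs_self _).trans hb
      · have := h.pos ((M * star M) ^ (2 ^ i))
        have e6 : star ((M * star M) ^ (2 ^ i)) = (M * star M) ^ (2 ^ i) := by
          rw [star_pow]; simp
        rwa [e6, ← pow_add, ← two_mul] at this
    · intro Q R' hQ hR
      rw [e2]
      refine (hA (Q * R')).trans ?_
      have e3 : Q * R' * star (Q * R') = Q * (R' * R' * Q) := by
        rw [star_mul, hQ, hR]; simp only [mul_assoc]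
      have e4 : R' * R' * Q * Q = R' ^ 2 * Q ^ 2 := by
        rw [sq, sq]; simp only [mul_assoc]
      rw [e3, tr_cyc_pow τ h.cyc, e4, tr_cyc_pow τ h.cyc]
      have hb := hB (Q ^ 2) (R' ^ 2) (by rw [star_pow, hQ]) (by rw [star_pow, hR])
      rw [← pow_mul, ← pow_mul] at hb
      exact (le_abs_self _).trans hb

theorem C (τ : R → ℝ) (h : Tr τ) (i : ℕ) (A : R) :
    τ (A ^ (2 ^ i) * (star A) ^ (2 ^ i)) ≤ τ ((A * star A) ^ (2 ^ i)) := by
  induction i generalizing A with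
  | zero => simp
  | succ i ih =>
    have e2 : 2 ^ (i + 1) = 2 * 2 ^ i := by ring
    have h1 := ih (A ^ 2)
    rw [star_pow, ← pow_mul, ← pow_mul, ← e2] at h1
    refine h1.trans ?_
    have e3 : A ^ 2 * star A ^ 2 = A * (A * (star A * star A)) := by
      rw [sq, sq]; simp only [mul_assoc]
    have e4 : A * (star A * star A) * A = (A * star A) * (star A * A) := by
      simp only [mul_assoc]
    rw [e3, tr_cyc_pow τ h.cyc, e4]
    have hb := (AB τ h i).2 (A * star A) (star A * A) (by simp) (by simp)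
    have e5 : τ ((star A * A) ^ (2 * 2 ^ i)) = τ ((A * star A) ^ (2 * 2 ^ i)) :=
      tr_cyc_pow τ h.cyc _ _ _
    rw [e5, Real.mul_self_sqrt] at hb
    · rw [e2]
      exact (le_abs_self _).trans hb
    · have := h.pos ((A * star A) ^ (2 ^ i))
      have e6 : star ((A * star A) ^ (2 ^ i)) = (A * star A) ^ (2 ^ i) := by
        rw [star_pow]; simp
      rwa [e6, ← pow_add, ← two_mul] at this

end abs

section lin
variable {E : Type*} [NormedAddCommGroup E] [InnerProductSpace ℝ E] [FiniteDimensional ℝ E]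

open scoped InnerProductSpace in
theorem tr_mul (X Y : E →ₗ[ℝ] E) :
    LinearMap.trace ℝ E (X * Y) =
      ∑ i, ⟪star X (stdOrthonormalBasis ℝ E i), Y (stdOrthonormalBasis ℝ E i)⟫_ℝ := by
  rw [LinearMap.trace_eq_sum_inner _ (stdOrthonormalBasis ℝ E)]
  refine Finset.sum_congr rfl fun i _ => ?_
  rw [LinearMap.star_eq_adjoint, LinearMap.adjoint_inner_left]
  rfl

theorem tr_self (X : E →ₗ[ℝ] E) :
    LinearMap.trace ℝ E (star X * X) = ∑ i, ‖X (stdOrthonormalBasis ℝ E i)‖ ^ 2 := by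
  rw [tr_mul, star_star]
  refine Finset.sum_congr rfl fun i _ => ?_
  rw [real_inner_self_eq_norm_sq]

theorem isTr : Tr (R := E →ₗ[ℝ] E) (fun X => LinearMap.trace ℝ E X) where
  cyc X Y := LinearMap.trace_mul_comm ℝ X Y
  pos X := by
    have := tr_self (star X)
    rw [star_star] at this
    rw [this]
    positivity
  cs X Y := by
    have h1 := tr_self (star X)
    rw [star_star] at h1
    rw [tr_mul, h1, tr_self]
    calc |∑ i, inner ℝ (star X (stdOrthonormalBasis ℝ E i)) (Y (stdOrthonormalBasis ℝ E i))|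
        ≤ ∑ i, |inner ℝ (star X (stdOrthonormalBasis ℝ E i)) (Y (stdOrthonormalBasis ℝ E i))| :=
          Finset.abs_sum_le_sum_abs _ _
      _ ≤ ∑ i, ‖star X (stdOrthonormalBasis ℝ E i)‖ * ‖Y (stdOrthonormalBasis ℝ E i)‖ :=
          Finset.sum_le_sum fun i _ => abs_real_inner_le_norm _ _
      _ ≤ _ := Real.sum_mul_le_sqrt_mul_sqrt _ _ _

end lin

end Schattenaux

open Schattenaux in
theorem schatten {E : Type*} [NormedAddCommGroup E] [InnerProductSpace ℝ E]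
    [FiniteDimensional ℝ E] (P : E →ₗ[ℝ] E) (a : ℝ) (ha0 : 0 ≤ a)
    (ha : ∀ v, ‖LinearMap.adjoint P v‖ ^ 2 ≤ a * ‖v‖ ^ 2) :
    LinearMap.trace ℝ E (P ^ 1600 * (LinearMap.adjoint P) ^ 1600) ≤
      a ^ 1536 * LinearMap.trace ℝ E ((P * LinearMap.adjoint P) ^ 64) := by
  rw [← LinearMap.star_eq_adjoint] at *
  have hit : ∀ (n : ℕ) (v : E), ‖((star P) ^ n) v‖ ^ 2 ≤ a ^ n * ‖v‖ ^ 2 := by
    intro n
    induction n with
    | zero => intro v; simp
    | succ n ih =>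
      intro v
      rw [pow_succ' (star P) n]
      have h1 := ha (((star P) ^ n) v)
      calc ‖(star P * (star P) ^ n) v‖ ^ 2 = ‖(star P) (((star P) ^ n) v)‖ ^ 2 := rfl
        _ ≤ a * ‖((star P) ^ n) v‖ ^ 2 := h1
        _ ≤ a * (a ^ n * ‖v‖ ^ 2) := mul_le_mul_of_nonneg_left (ih v) ha0
        _ = a ^ (n + 1) * ‖v‖ ^ 2 := by ring
  have h0 : ∀ n : ℕ, LinearMap.trace ℝ E (P ^ n * (star P) ^ n) =
      ∑ i, ‖((star P) ^ n) (stdOrthonormalBasis ℝ E i)‖ ^ 2 := by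
    intro n
    rw [← tr_self, star_pow, star_star]
  have h1 : ∀ m n : ℕ, LinearMap.trace ℝ E (P ^ (m + n) * (star P) ^ (m + n)) ≤
      a ^ m * LinearMap.trace ℝ E (P ^ n * (star P) ^ n) := by
    intro m n
    rw [h0, h0, Finset.mul_sum]
    refine Finset.sum_le_sum fun i _ => ?_
    rw [pow_add]
    exact hit m _
  refine (h1 1536 64).trans (mul_le_mul_of_nonneg_left ?_ (pow_nonneg ha0 _))
  exact C (R := E →ₗ[ℝ] E) (fun X => LinearMap.trace ℝ E X) isTr 6 P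

end Crest.Agent.R155
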