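import Crest.Agent.R155.SpecBasic

/-!
# PIECE SPECEIG (row 155): the top eigenvalue on a level, and the vector fixed by a matching

* `top_eig`: if `WW m j = ⊥` take `a = 0`.  Otherwise `X` restricted to `WW m j` is symmetric; let `a` be its
  largest eigenvalue (`LinearMap.IsSymmetric.hasEigenvalue_iSup_of_finiteDimensional` or the finite
  eigenbasis), `a ≥ 0` by positivity, `‖P†v‖² = ⟨Xv,v⟩ ≤ a‖v‖²`.  The eigenspace in `WW m j` is invariant
  under `Rt`; take for `E` an invariant nonzero subspace of it of minimal dimension.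
* `matching_vec`: let `f ∈ E`, `f ≠ 0`, `X f = a f`, `a ≠ 0`.  `X = lay_{m-1} * …` (`XL_cons` with
  `down m = (m-1) :: …`, and `lay * lay = lay`), so `f = a⁻¹ X f` satisfies `f (sw (m-1) c * g) = f g` for all `c`, `g`
  (`lay actG i * f = f` means `f` is the average of `f (sw i c * ·)`, and the `sw i c` form a group; an
  average of the form `∑_c f(sw i c g)/|Ω|` is invariant under `g ↦ sw i c' g`).
  Put `w = ∑_h f(h) Rt h f`, i.e. `w(g) = ∑_h f(h) f(g h)`.  `w ∈ E`, `w(1) = ∑ f(h)² > 0`, and for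
  `v = sw (m-1) c`: `(Rt v w)(g) = w (g v) = ∑_h f(h) f(g v h) = ∑_h' f(v⁻¹ h') f(g h') = w(g)`.
  `Equiv.swap x (flip i x)` is `sw i c` for the coin `c` = indicator of the position `update x i false`.
-/

set_option autoImplicit false

namespace Crest.Agent.R155

namespace SpecEigaux

/-- the largest eigenvalue of a symmetric operator on a nonzero invariant subspace -/
theorem exists_top {V : Type*} [NormedAddCommGroup V] [InnerProductSpace ℝ V]
    [FiniteDimensional ℝ V] (X : V →ₗ[ℝ] V) (hX : X.IsSymmetric) (W : Submodule ℝ V)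
    (hW : ∀ v ∈ W, X v ∈ W) (hne : W ≠ ⊥) :
    ∃ a : ℝ, ∃ v ∈ W, v ≠ 0 ∧ X v = a • v ∧ ∀ u ∈ W, inner ℝ (X u) u ≤ a * ‖u‖ ^ 2 := by
  classical
  set T : W →ₗ[ℝ] W := X.restrict hW with hT
  have hTs : T.IsSymmetric := hX.restrict_invariant hW
  have : Nontrivial W := (Submodule.nontrivial_iff_ne_bot).2 hne
  obtain ⟨n, hn⟩ : ∃ n, Module.finrank ℝ W = n := ⟨_, rfl⟩
  have hnpos : 0 < n := hn ▸ Module.finrank_pos
  have : Nonempty (Fin n) := ⟨⟨0, hnpos⟩⟩
  set b := hTs.eigenvectorBasis hn with hb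
  obtain ⟨i₀, hi₀⟩ := Finite.exists_max (hTs.eigenvalues hn)
  have hev : ∀ i, T (b i) = (hTs.eigenvalues hn i) • b i := by
    intro i
    rw [hb, hTs.apply_eigenvectorBasis hn i]
    rfl
  refine ⟨hTs.eigenvalues hn i₀, (b i₀ : V), (b i₀).2, ?_, ?_, ?_⟩
  · intro h0
    have h1 : b i₀ = 0 := Subtype.ext h0
    have h2 : ‖b i₀‖ = 1 := b.orthonormal.1 i₀
    rw [h1, norm_zero] at h2
    exact zero_ne_one h2
  · have := congrArg (fun w : W => (w : V)) (hev i₀)
    simpa [hT] using this
  · intro u hu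
    set u' : W := ⟨u, hu⟩ with hu'
    have e1 : inner ℝ (X u) u = inner ℝ (T u') u' := rfl
    have e2 : ‖u‖ = ‖u'‖ := rfl
    rw [e1, e2]
    have e3 : inner ℝ (T u') u' = ∑ i, inner ℝ (T u') (b i) * inner ℝ (b i) u' :=
      (b.sum_inner_mul_inner (T u') u').symm
    have e4 : ‖u'‖ ^ 2 = ∑ i, inner ℝ u' (b i) * inner ℝ (b i) u' := by
      rw [b.sum_inner_mul_inner, real_inner_self_eq_norm_sq]
    rw [e3, e4, Finset.mul_sum]
    refine Finset.sum_le_sum fun i _ => ?_
    have e5 : inner ℝ (T u') (b i) = hTs.eigenvalues hn i * inner ℝ u' (b i) := by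
      rw [hTs u' (b i), hev i, inner_smul_right]
    rw [e5, mul_assoc]
    have e6 : inner ℝ u' (b i) * inner ℝ (b i) u' = (inner ℝ (b i) u') ^ 2 := by
      rw [real_inner_comm, sq]
    rw [e6]
    exact mul_le_mul_of_nonneg_right (hi₀ i) (sq_nonneg _)

theorem update_sw {m : ℕ} (i : Fin m) (c : Coin m) (x : Pos m) :
    Function.update (sw i c x) i false = Function.update x i false := by
  rw [sw_apply]
  split
  · exact update_flip i x false
  · rfl

theorem sw_mul_sw {m : ℕ} (i : Fin m) (c c' : Coin m) :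
    sw i c * sw i c' = sw i (fun y => xor (c y) (c' y)) := by
  ext1 x
  rw [Equiv.Perm.mul_apply, sw_apply i c, update_sw, sw_apply i c', sw_apply]
  cases c (Function.update x i false) <;> cases c' (Function.update x i false) <;> simp

/-- xor with a fixed coin is a bijection -/
def xorEquiv {m : ℕ} (c' : Coin m) : Coin m ≃ Coin m where
  toFun c := fun y => xor (c y) (c' y)
  invFun c := fun y => xor (c y) (c' y)
  left_inv c := by funext y; simp
  right_inv c := by funext y; simp

theorem update_eq_iff {m : ℕ} (i : Fin m) (x z : Pos m) :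
    Function.update z i false = Function.update x i false ↔ z = x ∨ z = flip i x := by
  constructor
  · intro h
    have h1 : ∀ k, k ≠ i → z k = x k := by
      intro k hk
      have := congrFun h k
      simpa [Function.update_of_ne hk] using this
    by_cases hz : z i = x i
    · left
      funext k
      by_cases hk : k = i
      · subst hk; exact hz
      · exact h1 k hk
    · right
      funext k
      by_cases hk : k = i
      · subst hk
        rw [flip_apply_self]
        cases hzk : z k <;> cases hxk : x k <;> simp_all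
      · rw [flip_apply_ne hk]; exact h1 k hk
  · rintro (h | h)
    · rw [h]
    · rw [h, update_flip]

theorem swap_eq_sw {m : ℕ} (i : Fin m) (x : Pos m) :
    Equiv.swap x (flip i x) =
      sw i (fun y => decide (y = Function.update x i false)) := by
  ext1 z
  rw [sw_apply]
  by_cases h1 : z = x
  · subst h1
    simp
  · by_cases h2 : z = flip i x
    · subst h2
      simp [update_flip]
    · rw [Equiv.swap_apply_of_ne_of_ne h1 h2]
      have : ¬ (Function.update z i false = Function.update x i false) := by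
        rw [update_eq_iff]; tauto
      simp [this]

theorem down_succ (m : ℕ) : ∃ L, down (m + 1) = Fin.last m :: L := by
  unfold down
  rw [List.finRange_succ_last]
  exact ⟨_, by rw [List.reverse_append]; rfl⟩

theorem actG_one {m : ℕ} (s : Equiv.Perm (Pos m)) : actG 1 s = s := one_mul s

theorem actG_mul {m : ℕ} (g h s : Equiv.Perm (Pos m)) : actG (g * h) s = actG g (actG h s) :=
  mul_assoc g h s

/-- eigenvectors of `X` with nonzero eigenvalue are invariant under left multiplication with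
the switches of the first layer -/
theorem left_inv_of_eig (m : ℕ) (a : ℝ) (ha : a ≠ 0) (f : VG (m + 1))
    (hX : Xop (m + 1) f = a • f) (c' : Coin (m + 1)) (g : Equiv.Perm (Pos (m + 1))) :
    f (sw (Fin.last m) c' * g) = f g := by
  classical
  obtain ⟨L, hL⟩ := down_succ m
  set Y : Matrix (Equiv.Perm (Pos (m + 1))) (Equiv.Perm (Pos (m + 1))) ℝ :=
    XL actG L * lay actG (Fin.last m) with hY
  have h1 : XL actG (down (m + 1)) = lay actG (Fin.last m) * Y := by
    rw [hL, XL_cons actG actG_one actG_mul, Matrix.mul_assoc]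
  set v : Equiv.Perm (Pos (m + 1)) → ℝ := Y.mulVec (fun y => f y) with hv
  have h2 : ∀ x, a * f x = avg (fun c : Coin (m + 1) => v (sw (Fin.last m) c * x)) := by
    intro x
    have e1 : Xop (m + 1) f x = a * f x := by rw [hX]; rfl
    rw [← e1, Xop_apply, h1]
    have e2 : ∑ y, (lay actG (Fin.last m) * Y) x y * f y =
        (lay actG (Fin.last m)).mulVec v x := by
      rw [hv, Matrix.mulVec_mulVec]
      rfl
    rw [e2]
    unfold lay
    rw [ker_mulVec]
    rfl
  have h3 : a * f (sw (Fin.last m) c' * g) = a * f g := by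
    rw [h2, h2]
    rw [← avg_equiv (xorEquiv c') (fun c : Coin (m + 1) => v (sw (Fin.last m) c * g))]
    congr 1
    funext c
    rw [← mul_assoc, sw_mul_sw]
    rfl
  exact mul_left_cancel₀ ha h3

end SpecEigaux

open SpecEigaux in
theorem top_eig (m j : ℕ) : ∃ a : ℝ, 0 ≤ a ∧
    (∀ v ∈ WW m j, ‖LinearMap.adjoint (Pop m) v‖ ^ 2 ≤ a * ‖v‖ ^ 2) ∧
    (a = 0 ∨ ∃ E : Submodule ℝ (VG m), E ≤ WW m j ∧ E ≠ ⊥ ∧ (∀ g, ∀ v ∈ E, Rt m g v ∈ E) ∧
      (∀ v ∈ E, Xop m v = a • v) ∧
      (∀ E' : Submodule ℝ (VG m), E' ≤ E → (∀ g, ∀ v ∈ E', Rt m g v ∈ E') → E' ≠ ⊥ → E' = E)) := by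
  classical
  by_cases hW : WW m j = ⊥
  · refine ⟨0, le_rfl, ?_, Or.inl rfl⟩
    intro v hv
    rw [hW, Submodule.mem_bot] at hv
    subst hv
    simp
  · obtain ⟨a, v₀, hv₀, hv₀ne, hv₀X, htop⟩ :=
      exists_top (Xop m) (Xop_symmetric m) (WW m j) (WW_Xop m j) hW
    have ha : 0 ≤ a := by
      have h1 := Xop_pos m v₀
      rw [hv₀X, inner_smul_left, real_inner_self_eq_norm_sq] at h1
      have h2 : 0 < ‖v₀‖ ^ 2 := by positivity
      simp only [conj_trivial] at h1
      exact nonneg_of_mul_nonneg_left h1 h2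
    refine ⟨a, ha, ?_, Or.inr ?_⟩
    · intro v hv
      rw [← inner_Xop]
      exact htop v hv
    · set S : Set (Submodule ℝ (VG m)) := {E | E ≤ WW m j ∧ E ≠ ⊥ ∧
        (∀ g, ∀ v ∈ E, Rt m g v ∈ E) ∧ (∀ v ∈ E, Xop m v = a • v)} with hS
      have hSne : S.Nonempty := by
        refine ⟨WW m j ⊓ Module.End.eigenspace (Xop m) a, inf_le_left, ?_, ?_, ?_⟩
        · intro h
          have : v₀ ∈ WW m j ⊓ Module.End.eigenspace (Xop m) a :=
            ⟨hv₀, Module.End.mem_eigenspace_iff.2 hv₀X⟩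
          rw [h, Submodule.mem_bot] at this
          exact hv₀ne this
        · rintro g v ⟨hv1, hv2⟩
          refine ⟨WW_Rt m j g v hv1, ?_⟩
          rw [SetLike.mem_coe, Module.End.mem_eigenspace_iff] at hv2 ⊢
          rw [← Rt_Xop, hv2, map_smul]
        · rintro v ⟨_, hv2⟩
          exact Module.End.mem_eigenspace_iff.1 hv2
      obtain ⟨E, hES, hEmin⟩ := WellFounded.has_min
        (measure (fun E : Submodule ℝ (VG m) => Module.finrank ℝ E)).wf S hSne
      obtain ⟨h1, h2, h3, h4⟩ := hES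
      refine ⟨E, h1, h2, h3, h4, ?_⟩
      intro E' hE'le hE'inv hE'ne
      have hE'S : E' ∈ S := ⟨hE'le.trans h1, hE'ne, hE'inv, fun v hv => h4 v (hE'le hv)⟩
      have h5 : ¬ (Module.finrank ℝ E' < Module.finrank ℝ E) := hEmin E' hE'S
      exact Submodule.eq_of_le_of_finrank_le hE'le (not_lt.1 h5)

open SpecEigaux in
theorem matching_vec (m : ℕ) (a : ℝ) (ha : a ≠ 0) (E : Submodule ℝ (VG (m + 1))) (hne : E ≠ ⊥)
    (hinv : ∀ g, ∀ v ∈ E, Rt (m + 1) g v ∈ E) (hX : ∀ v ∈ E, Xop (m + 1) v = a • v) :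
    ∃ w ∈ E, w ≠ 0 ∧ ∀ x : Pos (m + 1), Rt (m + 1) (Equiv.swap x (flip (Fin.last m) x)) w = w := by
  classical
  obtain ⟨f, hfE, hf0⟩ := Submodule.exists_mem_ne_zero_of_ne_bot hne
  have hfinv := left_inv_of_eig m a ha f (hX f hfE)
  set w : VG (m + 1) := ∑ h : Equiv.Perm (Pos (m + 1)), f h • Rt (m + 1) h f with hw
  have hwapp : ∀ g, w g = ∑ h, f h * f (g * h) := by
    intro g
    rw [hw]
    rw [WithLp.ofLp_sum, Finset.sum_apply]
    rfl
  refine ⟨w, ?_, ?_, ?_⟩
  · exact Submodule.sum_mem _ fun h _ => Submodule.smul_mem _ _ (hinv h f hfE)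
  · intro h0
    have h1 : w 1 = 0 := by rw [h0]; rfl
    rw [hwapp] at h1
    simp only [one_mul] at h1
    have h2 : ∀ h, f h = 0 := by
      intro h
      have := (Finset.sum_eq_zero_iff_of_nonneg (fun i _ => mul_self_nonneg (f i))).1 h1 h
        (Finset.mem_univ _)
      exact mul_self_eq_zero.1 this
    apply hf0
    ext g
    exact h2 g
  · intro x
    rw [swap_eq_sw]
    set c : Coin (m + 1) := fun y => decide (y = Function.update x (Fin.last m) false) with hc
    ext g
    rw [Rt_apply, hwapp, hwapp]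
    rw [← Equiv.sum_comp (Equiv.mulLeft (sw (Fin.last m) c))
      (fun h => f h * f (g * h))]
    refine Finset.sum_congr rfl fun h _ => ?_
    simp only [Equiv.coe_mulLeft]
    rw [hfinv, mul_assoc]

end Crest.Agent.R155
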