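import Mathlib

/-!
# PIECE TRACEEIG (row 155): the trace of a positive operator dominates the sum of the eigenvalues of a
linearly independent family of eigenvectors

Proof: diagonalise `Y` (symmetric): `tr Y = ∑_μ μ · dim E_μ`, all `μ ≥ 0`; the `v i` with `μ i = μ` are
linearly independent in the eigenspace `E_μ`, so their number is `≤ dim E_μ`.
(Or: replace the family by an orthonormal one inside every eigenspace, extend to an orthonormal
basis `e`, `tr Y = ∑ ⟪e, Y e⟫`, all terms `≥ 0`.)
-/

set_option autoImplicit false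

namespace Crest.Agent.R155

theorem trace_ge_sum {E : Type*} [NormedAddCommGroup E] [InnerProductSpace ℝ E]
    [FiniteDimensional ℝ E] (Y : E →ₗ[ℝ] E) (hsym : Y.IsSymmetric)
    (hpos : ∀ v, 0 ≤ inner ℝ (Y v) v) {ι : Type*} [Fintype ι] (v : ι → E)
    (hv : LinearIndependent ℝ v) (μ : ι → ℝ) (h : ∀ i, Y (v i) = μ i • v i) :
    ∑ i, μ i ≤ LinearMap.trace ℝ E Y := by
  classical
  set V : Submodule ℝ E := Submodule.span ℝ (Set.range v) with hV
  have hYV : ∀ x ∈ V, Y x ∈ V := by
    intro x hx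
    rw [hV] at hx ⊢
    induction hx using Submodule.span_induction with
    | mem x hx =>
      obtain ⟨i, rfl⟩ := hx
      rw [h]
      exact Submodule.smul_mem _ _ (Submodule.subset_span ⟨i, rfl⟩)
    | zero => simp
    | add x y _ _ hx hy => rw [map_add]; exact Submodule.add_mem _ hx hy
    | smul a x _ hx => rw [map_smul]; exact Submodule.smul_mem _ _ hx
  set P : E →ₗ[ℝ] E := (V.starProjection : E →L[ℝ] E).toLinearMap with hP
  have hPmem : ∀ x, P x ∈ V := fun x => Submodule.starProjection_apply_mem V x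
  have hPfix : ∀ x ∈ V, P x = x := fun x hx => (Submodule.starProjection_eq_self_iff).2 hx
  have hPP : P * P = P := by
    ext x
    exact hPfix _ (hPmem x)
  have hPsym : P.IsSymmetric := Submodule.starProjection_isSymmetric V
  have h1 : LinearMap.trace ℝ E (Y * P) = ∑ i, μ i := by
    have hmem : ∀ x, (Y * P) x ∈ V := fun x => hYV _ (hPmem x)
    rw [← LinearMap.trace_restrict_eq_of_forall_mem V (Y * P) hmem]
    let b := Module.Basis.span hv
    rw [LinearMap.trace_eq_matrix_trace ℝ b, Matrix.trace]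
    refine Finset.sum_congr rfl fun i _ => ?_
    rw [Matrix.diag_apply, LinearMap.toMatrix_apply]
    have : ((Y * P).restrict (fun x _ => hmem x)) (b i) = μ i • b i := by
      apply Subtype.ext
      rw [LinearMap.restrict_apply]
      have e : (b i : E) = v i := by rw [Module.Basis.span_apply hv i]
      show Y (P (b i)) = ((μ i • b i : V) : E)
      rw [hPfix _ (b i).2, Submodule.coe_smul, e, h]
    rw [this]
    simp
  have h2 : 0 ≤ LinearMap.trace ℝ E (Y * (1 - P)) := by
    have hQQ : (1 - P) * (1 - P) = 1 - P := by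
      rw [mul_sub, mul_one, sub_mul, one_mul, hPP]; simp
    have e : LinearMap.trace ℝ E (Y * (1 - P)) =
        LinearMap.trace ℝ E ((1 - P) * (Y * (1 - P))) := by
      rw [LinearMap.trace_mul_comm ℝ (1 - P) (Y * (1 - P)), mul_assoc, hQQ]
    rw [e, LinearMap.trace_eq_sum_inner _ (stdOrthonormalBasis ℝ E)]
    refine Finset.sum_nonneg fun i _ => ?_
    set x := stdOrthonormalBasis ℝ E i
    have e2 : inner ℝ x (((1 - P) * (Y * (1 - P))) x) =
        inner ℝ ((1 - P) x) (Y ((1 - P) x)) := by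
      have hs : ∀ a b : E, inner ℝ ((1 - P) a) b = inner ℝ a ((1 - P) b) := by
        intro a b
        simp only [LinearMap.sub_apply, Module.End.one_apply, inner_sub_left, inner_sub_right]
        rw [hPsym a b]
      rw [hs]
      rfl
    rw [e2, real_inner_comm]
    exact hpos _
  have h3 : LinearMap.trace ℝ E Y = LinearMap.trace ℝ E (Y * P) +
      LinearMap.trace ℝ E (Y * (1 - P)) := by
    rw [← map_add, ← mul_add]
    congr 1
    rw [add_sub_cancel, mul_one]
  rw [h3, h1]
  linarith

/-- if `T` is surjective and intertwines the positive operators `Y₁`, `Y₂`, then `tr Y₂ ≤ tr Y₁`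
(`T†` is injective and intertwines `Y₂`, `Y₁`; apply `trace_ge_sum` to the images under `T†` of an
orthonormal eigenbasis of `Y₂`) -/
theorem trace_le_of_surj {E₁ E₂ : Type*} [NormedAddCommGroup E₁] [InnerProductSpace ℝ E₁]
    [FiniteDimensional ℝ E₁] [NormedAddCommGroup E₂] [InnerProductSpace ℝ E₂]
    [FiniteDimensional ℝ E₂] (Y₁ : E₁ →ₗ[ℝ] E₁) (Y₂ : E₂ →ₗ[ℝ] E₂)
    (h₁ : Y₁.IsSymmetric) (hp₁ : ∀ v, 0 ≤ inner ℝ (Y₁ v) v)
    (h₂ : Y₂.IsSymmetric) (hp₂ : ∀ v, 0 ≤ inner ℝ (Y₂ v) v)
    (T : E₁ →ₗ[ℝ] E₂) (hT : Function.Surjective T) (hcomm : ∀ v, T (Y₁ v) = Y₂ (T v)) :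
    LinearMap.trace ℝ E₂ Y₂ ≤ LinearMap.trace ℝ E₁ Y₁ := by
  classical
  have hinj : Function.Injective (LinearMap.adjoint T) := by
    rw [← LinearMap.ker_eq_bot, LinearMap.ker_eq_bot']
    intro w hw
    obtain ⟨u, rfl⟩ := hT w
    have : inner ℝ (T u) (T u) = 0 := by
      rw [← LinearMap.adjoint_inner_left, hw, inner_zero_left]
    exact inner_self_eq_zero.1 this
  have hc : ∀ w, LinearMap.adjoint T (Y₂ w) = Y₁ (LinearMap.adjoint T w) := by
    intro w
    refine ext_inner_right ℝ fun u => ?_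
    rw [LinearMap.adjoint_inner_left, h₂ w (T u), ← hcomm, ← LinearMap.adjoint_inner_left,
      ← h₁]
  rw [h₂.trace_eq_sum_eigenvalues rfl]
  have := trace_ge_sum Y₁ h₁ hp₁ (fun i => LinearMap.adjoint T (h₂.eigenvectorBasis rfl i))
    ((h₂.eigenvectorBasis rfl).orthonormal.linearIndependent.map' _
      (LinearMap.ker_eq_bot.2 hinj)) (fun i => h₂.eigenvalues rfl i) (fun i => by
      rw [← hc, h₂.apply_eigenvectorBasis, map_smul]
      rfl)
  simpa using this

end Crest.Agent.R155
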