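import Crest.Agent.R155.SpecBasic
import Crest.Agent.R155.TraceEig

/-!
# PIECE SPECMULT (row 155): comparison of the traces with `F m k`

Let `|B| = 2^m - k` and `x₀ : Fin k ↪ Pos m` with range `Bᶜ`.  A function `f ∈ fixSub (Rt m) B` has the form
`f g = f̄ (g ∘ x₀)`, `f̄ : (Fin k ↪ Pos m) → ℝ` (if `g ∘ x₀ = g' ∘ x₀` then `g⁻¹ g'` is supported in `B`; every
injection is `g ∘ x₀` for some `g`), `f ↦ f̄` is a linear bijection, which intertwines `Xop` with the matrix
`XI m k` (layers: `sw i c * g` ↦ `sw i c ∘ (g ∘ x₀)`), i.e. `(Xop f)(g) = ∑_y XI (g∘x₀) y * f̄ y`.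

* `mult_le`: a basis of `E ⊓ fixSub B` gives linearly independent eigenvectors of `XI m k` (PSD, symmetric)
  with eigenvalue `a`, together with the constant function (eigenvalue `1`; it is orthogonal to
  `E ≤ WW m j`, `j ≥ 1`, so the whole family is independent); apply `trace_ge_sum` to `(XI m k)^64`
  (`Matrix.toEuclideanLin`): `1 + a^64 * finrank ≤ F m k`.
* `trW_le`: `trace_le_of_surj` for the map `⨁_B (functions on Fin j ↪ Pos m) → WW m j`.
* `sum_trW_le`: the `WW m j` are orthogonal, `X^64 ≥ 0`, and `tr X^64 ≤ F m (2^m)`.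
-/

set_option autoImplicit false

namespace Crest.Agent.R155

namespace SpecMultaux

/-- functions of the positions of `k` cards -/
abbrev VI (m k : ℕ) := EuclideanSpace ℝ (Fin k ↪ Pos m)

/-- lift of a function of the positions of `k` cards -/
noncomputable def Lf {m k : ℕ} (x₀ : Fin k ↪ Pos m) : VI m k →ₗ[ℝ] VG m where
  toFun φ := WithLp.toLp 2 (fun g => φ (actI g x₀))
  map_add' := by intro f f'; rfl
  map_smul' := by intro c f; rfl

theorem Lf_apply {m k : ℕ} (x₀ : Fin k ↪ Pos m) (φ : VI m k) (g : Equiv.Perm (Pos m)) :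
    Lf x₀ φ g = φ (actI g x₀) := rfl

theorem actI_one {m k : ℕ} (x : Fin k ↪ Pos m) : actI 1 x = x := by
  ext; rfl

theorem actI_mul {m k : ℕ} (g h : Equiv.Perm (Pos m)) (x : Fin k ↪ Pos m) :
    actI (g * h) x = actI g (actI h x) := by
  ext; rfl

theorem actG_one {m : ℕ} (x : Equiv.Perm (Pos m)) : actG 1 x = x := one_mul x

theorem actG_mul {m : ℕ} (g h x : Equiv.Perm (Pos m)) :
    actG (g * h) x = actG g (actG h x) := mul_assoc g h x

theorem exists_actI {m k : ℕ} (x y : Fin k ↪ Pos m) : ∃ g : Equiv.Perm (Pos m), actI g x = y := by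
  classical
  obtain ⟨g, hg⟩ := Equiv.Perm.exists_extending_pair x y x.injective y.injective
  refine ⟨g, ?_⟩
  apply DFunLike.ext
  intro i
  exact hg i

theorem Lf_injective {m k : ℕ} (x₀ : Fin k ↪ Pos m) : Function.Injective (Lf x₀) := by
  intro φ ψ h
  ext y
  obtain ⟨g, rfl⟩ := exists_actI x₀ y
  have := congrArg (fun f : VG m => f g) h
  simpa [Lf_apply] using this

theorem Lf_mem {m k : ℕ} (x₀ : Fin k ↪ Pos m) (B : Finset (Pos m)) (hB : ∀ i, x₀ i ∉ B)
    (φ : VI m k) : Lf x₀ φ ∈ fixSub (Rt m) B := by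
  rw [mem_fixSub]
  intro h hh
  ext g
  rw [Rt_apply, Lf_apply, Lf_apply, actI_mul]
  have h1 : actI h x₀ = x₀ := by
    apply DFunLike.ext
    intro i
    exact hh _ (hB i)
  rw [h1]

theorem Lf_surj {m k : ℕ} (x₀ : Fin k ↪ Pos m) (B : Finset (Pos m))
    (hB : ∀ y, y ∉ B → ∃ i, x₀ i = y) (f : VG m) (hf : f ∈ fixSub (Rt m) B) :
    ∃ φ : VI m k, Lf x₀ φ = f := by
  classical
  choose g hg using exists_actI x₀
  refine ⟨WithLp.toLp 2 (fun y => f (g y)), ?_⟩
  ext t
  rw [Lf_apply]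
  change f (g (actI t x₀)) = f t
  have h1 : t * (t⁻¹ * g (actI t x₀)) = g (actI t x₀) := by group
  rw [← h1, ← Rt_apply]
  rw [(mem_fixSub _ _ _).1 hf]
  intro y hy
  obtain ⟨i, rfl⟩ := hB y hy
  have h2 := congrArg (fun e : Fin k ↪ Pos m => e i) (hg (actI t x₀))
  change (g (actI t x₀)) (x₀ i) = t (x₀ i) at h2
  change t⁻¹ (g (actI t x₀) (x₀ i)) = x₀ i
  rw [h2]
  simp

theorem lay_lift {m k : ℕ} (x₀ : Fin k ↪ Pos m) (i : Fin m) (φ : (Fin k ↪ Pos m) → ℝ) :
    (lay actG i).mulVec (fun g => φ (actI g x₀)) =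
      fun g => (lay actI i).mulVec φ (actI g x₀) := by
  funext g
  unfold lay
  rw [ker_mulVec, ker_mulVec]
  rfl

theorem PL_lift {m k : ℕ} (x₀ : Fin k ↪ Pos m) (L : List (Fin m)) (φ : (Fin k ↪ Pos m) → ℝ) :
    (PL actG L).mulVec (fun g => φ (actI g x₀)) =
      fun g => (PL actI L).mulVec φ (actI g x₀) := by
  induction L generalizing φ with
  | nil => simp [PL]
  | cons i L ih =>
    have e1 : PL (actG (m := m)) (i :: L) = lay actG i * PL actG L := by simp [PL]
    have e2 : PL (actI (m := m) (k := k)) (i :: L) = lay actI i * PL actI L := by simp [PL]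
    rw [e1, e2, ← Matrix.mulVec_mulVec, ih, lay_lift]
    simp only [Matrix.mulVec_mulVec]

theorem XL_lift {m k : ℕ} (x₀ : Fin k ↪ Pos m) (L : List (Fin m)) (φ : (Fin k ↪ Pos m) → ℝ) :
    (XL actG L).mulVec (fun g => φ (actI g x₀)) =
      fun g => (XL actI L).mulVec φ (actI g x₀) := by
  unfold XL
  rw [PL_transpose _ actG_one actG_mul, PL_transpose _ actI_one actI_mul]
  rw [← Matrix.mulVec_mulVec, PL_lift, PL_lift]
  simp only [Matrix.mulVec_mulVec]

/-- the operator of the matrix `XI` -/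
noncomputable def XIop (m k : ℕ) : VI m k →ₗ[ℝ] VI m k := Matrix.toEuclideanLin (XI m k)

theorem XIop_apply (m k : ℕ) (φ : VI m k) (x : Fin k ↪ Pos m) :
    XIop m k φ x = (XI m k).mulVec (fun y => φ y) x := rfl

theorem Lf_XIop {m k : ℕ} (x₀ : Fin k ↪ Pos m) (φ : VI m k) :
    Lf x₀ (XIop m k φ) = Xop m (Lf x₀ φ) := by
  ext g
  rw [Xop_apply, Lf_apply, XIop_apply]
  have h := congrFun (XL_lift x₀ (down m) (fun y => φ y)) g
  exact h.symm

theorem Lf_XIop_pow {m k : ℕ} (x₀ : Fin k ↪ Pos m) (n : ℕ) (φ : VI m k) :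
    Lf x₀ ((XIop m k ^ n) φ) = (Xop m ^ n) (Lf x₀ φ) := by
  induction n generalizing φ with
  | zero => rfl
  | succ n ih =>
    rw [pow_succ, pow_succ, Module.End.mul_apply, Module.End.mul_apply, ih, Lf_XIop]

theorem XIop_pow (m k n : ℕ) : XIop m k ^ n = Matrix.toEuclideanLin ((XI m k) ^ n) := by
  induction n with
  | zero => 
    rw [pow_zero, pow_zero]
    ext φ x
    simp
  | succ n ih =>
    rw [pow_succ, pow_succ, ih, XIop]
    ext φ x
    simp

theorem trace_toE {n : Type*} [Fintype n] [DecidableEq n] (A : Matrix n n ℝ) :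
    LinearMap.trace ℝ (EuclideanSpace ℝ n) (Matrix.toEuclideanLin A) = A.trace := by
  rw [Matrix.toEuclideanLin_eq_toLin_orthonormal]
  exact Matrix.trace_toLin_eq _ _

theorem F_eq (m k : ℕ) : F m k = LinearMap.trace ℝ (VI m k) (XIop m k ^ 64) := by
  rw [XIop_pow, trace_toE]; rfl

theorem XIop_pow_pos (m k n : ℕ) : (XIop m k ^ n).IsPositive := by
  rw [XIop_pow, Matrix.isPositive_toEuclideanLin_iff]
  exact (XL_psd actI (down m)).pow n

theorem eig_pow {V : Type*} [AddCommGroup V] [Module ℝ V] (A : V →ₗ[ℝ] V) (a : ℝ) (v : V)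
    (h : A v = a • v) (n : ℕ) : (A ^ n) v = a ^ n • v := by
  induction n with
  | zero => simp
  | succ n ih => rw [pow_succ, Module.End.mul_apply, h, map_smul, ih, smul_smul, pow_succ, mul_comm]

/-- constants -/
noncomputable def oneI (m k : ℕ) : VI m k := WithLp.toLp 2 (fun _ => 1)

theorem XIop_oneI (m k : ℕ) : XIop m k (oneI m k) = oneI m k := by
  ext x
  rw [XIop_apply]
  have := XL_row (actI (m := m) (k := k)) actI_one actI_mul (down m) x
  simp only [Matrix.mulVec, dotProduct, oneI, mul_one]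
  exact this

theorem exists_emb (m k : ℕ) (hk : k ≤ 2 ^ m) (B : Finset (Pos m)) (hB : B.card = 2 ^ m - k) :
    ∃ x₀ : Fin k ↪ Pos m, (∀ i, x₀ i ∉ B) ∧ (∀ y, y ∉ B → ∃ i, x₀ i = y) := by
  classical
  have hc : (Bᶜ).card = k := by
    rw [Finset.card_compl, hB]
    have : Fintype.card (Pos m) = 2 ^ m := by simp [Pos]
    rw [this]
    omega
  let e : (Bᶜ : Finset (Pos m)) ≃ Fin k := Finset.equivFinOfCardEq hc
  refine ⟨e.symm.toEmbedding.trans (Function.Embedding.subtype _), ?_, ?_⟩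
  · intro i
    have := (e.symm i).2
    exact Finset.mem_compl.1 this
  · intro y hy
    refine ⟨e ⟨y, Finset.mem_compl.2 hy⟩, ?_⟩
    simp

end SpecMultaux

open SpecMultaux

theorem mult_le (m k j : ℕ) (hk : k ≤ 2 ^ m) (hj : 1 ≤ j) (a : ℝ) (ha : 0 ≤ a)
    (E : Submodule ℝ (VG m)) (hE : E ≤ WW m j) (hX : ∀ v ∈ E, Xop m v = a • v)
    (B : Finset (Pos m)) (hB : B.card = 2 ^ m - k) :
    a ^ 64 * (Module.finrank ℝ ↥(E ⊓ fixSub (Rt m) B) : ℝ) ≤ F m k - 1 := by
  classical
  obtain ⟨x₀, hx1, hx2⟩ := exists_emb m k hk B hB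
  set D := E ⊓ fixSub (Rt m) B with hD
  let b := Module.finBasis ℝ D
  have hb : ∀ i, ∃ φ : VI m k, Lf x₀ φ = (b i : VG m) := fun i =>
    Lf_surj x₀ B hx2 _ (b i).2.2
  choose φ hφ using hb
  have hφX : ∀ i, XIop m k (φ i) = a • φ i := by
    intro i
    apply Lf_injective x₀
    rw [Lf_XIop, map_smul, hφ]
    exact hX _ (b i).2.1
  have hli : LinearIndependent ℝ (fun o : Option (Fin (Module.finrank ℝ D)) =>
      (Option.casesOn' o (oneI m k) φ : VI m k)) := by
    have h1 : LinearIndependent ℝ (Lf x₀ ∘ (fun o : Option (Fin (Module.finrank ℝ D)) =>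
      (Option.casesOn' o (oneI m k) φ : VI m k))) := by
      have h2 : (Lf x₀ ∘ (fun o : Option (Fin (Module.finrank ℝ D)) =>
        (Option.casesOn' o (oneI m k) φ : VI m k))) =
        (fun o : Option (Fin (Module.finrank ℝ D)) =>
          (Option.casesOn' o (Lf x₀ (oneI m k)) (fun i => (b i : VG m)) : VG m)) := by
        funext o
        cases o with
        | none => rfl
        | some i => exact hφ i
      rw [h2, linearIndependent_option']
      constructor
      · exact b.linearIndependent.map' D.subtype (Submodule.ker_subtype D)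
      · intro hmem
        have h3 : Lf x₀ (oneI m k) ∈ E := by
          have h4 : Submodule.span ℝ (Set.range (fun i => (b i : VG m))) ≤ E := by
            rw [Submodule.span_le]
            rintro _ ⟨i, rfl⟩
            exact (b i).2.1
          exact h4 hmem
        have h5 : Lf x₀ (oneI m k) ∈ WW m 0 := by
          rw [mem_WW_zero]
          intro x y
          rfl
        have h6 := WW_orth m 0 j (by omega) _ h5 _ (hE h3)
        rw [inner_self_eq_zero] at h6
        have h7 := congrArg (fun f : VG m => f 1) h6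
        have h8 : (Lf x₀ (oneI m k)) (1 : Equiv.Perm (Pos m)) = (1 : ℝ) := rfl
        have h9 : (1 : ℝ) = 0 := h8.symm.trans h7
        exact one_ne_zero h9
    exact LinearIndependent.of_comp _ h1
  rw [F_eq]
  generalize 64 = N
  have htr := trace_ge_sum (XIop m k ^ N) (XIop_pow_pos m k N).1
    (fun v => (XIop_pow_pos m k N).2 v) _ hli
    (fun o : Option (Fin (Module.finrank ℝ D)) => (Option.casesOn' o 1 (fun _ => a ^ N) : ℝ)) (by
      intro o
      cases o with
      | none =>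
        have := eig_pow (XIop m k) 1 (oneI m k) (by rw [XIop_oneI, one_smul]) N
        simpa using this
      | some i => exact eig_pow (XIop m k) a (φ i) (hφX i) N)
  rw [Fintype.sum_option] at htr
  simp at htr
  linarith

namespace SpecMultaux

section general

variable {E : Type*} [NormedAddCommGroup E] [InnerProductSpace ℝ E] [FiniteDimensional ℝ E]

theorem trace_nonneg (A : E →ₗ[ℝ] E) (hA : A.IsPositive) : 0 ≤ LinearMap.trace ℝ E A := by
  have h := trace_ge_sum A hA.1 (fun v => hA.2 v) (ι := Empty) (fun i => i.elim)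
    (linearIndependent_empty_type) (fun i => i.elim) (fun i => i.elim)
  simpa using h

/-- a symmetric projection times a positive operator commuting with it -/
theorem proj_pos (Q A : E →ₗ[ℝ] E) (hQs : Q.IsSymmetric) (hQQ : ∀ v, Q (Q v) = Q v)
    (hA : A.IsPositive) (hc : ∀ v, Q (A v) = A (Q v)) : (Q ∘ₗ A).IsPositive := by
  refine ⟨?_, ?_⟩
  · intro u v
    change inner ℝ (Q (A u)) v = inner ℝ u (Q (A v))
    rw [hQs, hA.1, hc]
  · intro v
    change 0 ≤ inner ℝ (Q (A v)) v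
    rw [← hQQ, hQs, hc]
    exact hA.2 (Q v)

theorem commute_proj (K : Submodule ℝ E) (A : E →ₗ[ℝ] E) (hA : A.IsSymmetric)
    (hK : ∀ v ∈ K, A v ∈ K) (v : E) : K.starProjection (A v) = A (K.starProjection v) := by
  have h1 : A (v - K.starProjection v) ∈ Kᗮ := by
    rw [Submodule.mem_orthogonal]
    intro u hu
    rw [← hA]
    have h2 := K.sub_starProjection_mem_orthogonal v
    rw [Submodule.mem_orthogonal] at h2
    exact h2 _ (hK u hu)
  have h3 : A v = A (K.starProjection v) + A (v - K.starProjection v) := by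
    rw [← map_add]; congr 1; abel
  have h4 : K.starProjection (A (v - K.starProjection v)) = 0 := by
    rw [Submodule.starProjection_apply_eq_zero_iff]
    exact h1
  have h5 : K.starProjection (A (K.starProjection v)) = A (K.starProjection v) := by
    rw [Submodule.starProjection_eq_self_iff]
    exact hK _ (K.starProjection_apply_mem v)
  rw [h3, map_add, h4, h5, add_zero]

/-- the projection onto `K` as a linear map -/
noncomputable def Pr (K : Submodule ℝ E) : E →ₗ[ℝ] E := ((K.starProjection : E →L[ℝ] E) : E →ₗ[ℝ] E)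

theorem Pr_apply (K : Submodule ℝ E) (v : E) : Pr K v = K.starProjection v := rfl

theorem Pr_symm (K : Submodule ℝ E) : (Pr K).IsSymmetric := K.starProjection_isSymmetric

theorem Pr_Pr (K : Submodule ℝ E) (v : E) : Pr K (Pr K v) = Pr K v := by
  rw [Pr_apply, Pr_apply, Submodule.starProjection_eq_self_iff]
  exact K.starProjection_apply_mem v

theorem Pr_mem (K : Submodule ℝ E) (v : E) : Pr K v ∈ K := K.starProjection_apply_mem v

theorem Pr_self (K : Submodule ℝ E) (v : E) (hv : v ∈ K) : Pr K v = v := by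
  rw [Pr_apply, Submodule.starProjection_eq_self_iff]
  exact hv

theorem Pr_comm (K : Submodule ℝ E) (A : E →ₗ[ℝ] E) (hA : A.IsSymmetric)
    (hK : ∀ v ∈ K, A v ∈ K) (v : E) : Pr K (A v) = A (Pr K v) := commute_proj K A hA hK v

theorem Pr_pos (K : Submodule ℝ E) (A : E →ₗ[ℝ] E) (hA : A.IsPositive)
    (hK : ∀ v ∈ K, A v ∈ K) : (Pr K ∘ₗ A).IsPositive :=
  proj_pos _ _ (Pr_symm K) (Pr_Pr K) hA (Pr_comm K A hA.1 hK)

/-- comparison of the trace on an invariant subspace with the trace of an operator which covers it -/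
theorem trace_cover {E₁ : Type*} [NormedAddCommGroup E₁] [InnerProductSpace ℝ E₁]
    [FiniteDimensional ℝ E₁] (K : Submodule ℝ E) (A : E →ₗ[ℝ] E) (hA : A.IsPositive)
    (hK : ∀ v ∈ K, A v ∈ K) (Y : E₁ →ₗ[ℝ] E₁) (hY : Y.IsPositive) (T : E₁ →ₗ[ℝ] E)
    (hT : ∀ v, T (Y v) = A (T v)) (hKT : ∀ w ∈ K, ∃ v, T v = w) :
    LinearMap.trace ℝ E (Pr K ∘ₗ A) ≤ LinearMap.trace ℝ E₁ Y := by
  have hmem : ∀ x, (Pr K ∘ₗ A) x ∈ K := fun x => Pr_mem K _
  have hpos := Pr_pos K A hA hK
  rw [← LinearMap.trace_restrict_eq_of_forall_mem K (Pr K ∘ₗ A) hmem]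
  refine trace_le_of_surj Y _ hY.1 (fun v => hY.2 v) ?_ ?_
    ((Pr K ∘ₗ T).codRestrict K (fun v => Pr_mem K _)) ?_ ?_
  · intro u v
    exact hpos.1 (u : E) (v : E)
  · intro v
    exact hpos.2 (v : E)
  · intro w
    obtain ⟨v, hv⟩ := hKT w w.2
    refine ⟨v, ?_⟩
    apply Subtype.ext
    change Pr K (T v) = w
    rw [hv, Pr_self K _ w.2]
  · intro v
    apply Subtype.ext
    change Pr K (T (Y v)) = Pr K (A (Pr K (T v)))
    rw [hT, ← Pr_comm K A hA.1 hK, Pr_Pr]

end general

theorem Xop_isPositive (m : ℕ) : (Xop m).IsPositive := ⟨Xop_symmetric m, fun v => Xop_pos m v⟩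

theorem IsPositive_pow {E : Type*} [NormedAddCommGroup E] [InnerProductSpace ℝ E]
    [FiniteDimensional ℝ E] (A : E →ₗ[ℝ] E) (hA : A.IsPositive) (n : ℕ) :
    (A ^ (2 * n)).IsPositive := by
  have hs : (A ^ n).IsSymmetric := by
    induction n with
    | zero => intro u v; rfl
    | succ n ih =>
      intro u v
      rw [pow_succ, Module.End.mul_apply, ih, hA.1, ← Module.End.mul_apply, ← pow_succ', 
        pow_succ]
  refine ⟨?_, ?_⟩
  · intro u v
    rw [two_mul, pow_add, Module.End.mul_apply, hs, hs, Module.End.mul_apply]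
  · intro v
    rw [two_mul, pow_add, Module.End.mul_apply]
    change 0 ≤ inner ℝ ((A ^ n) ((A ^ n) v)) v
    rw [hs]
    exact real_inner_self_nonneg

theorem X64_pos (m : ℕ) : (Xop m ^ 64).IsPositive := IsPositive_pow (Xop m) (Xop_isPositive m) 32

theorem X64_mem (m j n : ℕ) : ∀ f ∈ WW m j, (Xop m ^ n) f ∈ WW m j := by
  intro f hf
  induction n generalizing f with
  | zero => exact hf
  | succ n ih =>
    rw [pow_succ, Module.End.mul_apply]
    exact ih _ (WW_Xop m j f hf)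

theorem trW_eq (m j : ℕ) : trW m j = LinearMap.trace ℝ (VG m) (Pr (WW m j) ∘ₗ (Xop m ^ 64)) := rfl

theorem WW_le_Ug (m j : ℕ) : WW m j ≤ Ug m j := by
  cases j with
  | zero => exact le_refl _
  | succ j => exact inf_le_left

end SpecMultaux

theorem trW_nonneg (m j : ℕ) : 0 ≤ trW m j := by
  rw [trW_eq]
  exact trace_nonneg _ (Pr_pos _ _ (X64_pos m) (X64_mem m j 64))

namespace SpecMultaux

/-- index set of the sets `B` -/
abbrev IB (m j : ℕ) := {B : Finset (Pos m) // B.card = 2 ^ m - j}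

/-- one component -/
noncomputable def slice (m j : ℕ) (φ : EuclideanSpace ℝ ((Fin j ↪ Pos m) × IB m j)) (B : IB m j) :
    VI m j := WithLp.toLp 2 (fun x => φ (x, B))

/-- sum of the lifts -/
noncomputable def TT (m j : ℕ) (x₀ : IB m j → (Fin j ↪ Pos m)) :
    EuclideanSpace ℝ ((Fin j ↪ Pos m) × IB m j) →ₗ[ℝ] VG m where
  toFun φ := ∑ B, Lf (x₀ B) (slice m j φ B)
  map_add' := by
    intro f f'
    rw [← Finset.sum_add_distrib]
    refine Finset.sum_congr rfl fun B _ => ?_
    rw [← map_add]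
    rfl
  map_smul' := by
    intro c f
    rw [RingHom.id_apply, Finset.smul_sum]
    refine Finset.sum_congr rfl fun B _ => ?_
    rw [← map_smul]
    rfl

/-- block diagonal operator -/
noncomputable def YY (m j n : ℕ) : EuclideanSpace ℝ ((Fin j ↪ Pos m) × IB m j) →ₗ[ℝ]
    EuclideanSpace ℝ ((Fin j ↪ Pos m) × IB m j) :=
  Matrix.toEuclideanLin (Matrix.blockDiagonal (fun _ : IB m j => (XI m j) ^ n))

theorem slice_YY (m j n : ℕ) (φ : EuclideanSpace ℝ ((Fin j ↪ Pos m) × IB m j)) (B : IB m j) :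
    slice m j (YY m j n φ) B = (XIop m j ^ n) (slice m j φ B) := by
  classical
  ext x
  rw [XIop_pow]
  change (Matrix.blockDiagonal (fun _ : IB m j => (XI m j) ^ n)).mulVec (fun y => φ y) (x, B) =
    ((XI m j) ^ n).mulVec (fun y => φ (y, B)) x
  simp only [Matrix.mulVec, dotProduct, Matrix.blockDiagonal_apply]
  rw [Fintype.sum_prod_type]
  refine Finset.sum_congr rfl fun y _ => ?_
  rw [Finset.sum_eq_single B]
  · simp
  · intro B' _ hB'
    rw [if_neg (fun h => hB' h.symm), zero_mul]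
  · intro h
    exact absurd (Finset.mem_univ _) h

theorem TT_YY (m j n : ℕ) (x₀ : IB m j → (Fin j ↪ Pos m))
    (φ : EuclideanSpace ℝ ((Fin j ↪ Pos m) × IB m j)) :
    TT m j x₀ (YY m j n φ) = (Xop m ^ n) (TT m j x₀ φ) := by
  change ∑ B, Lf (x₀ B) (slice m j (YY m j n φ) B) = (Xop m ^ n) (∑ B, Lf (x₀ B) (slice m j φ B))
  rw [map_sum]
  refine Finset.sum_congr rfl fun B _ => ?_
  rw [slice_YY, Lf_XIop_pow]

theorem YY_pos (m j : ℕ) (n : ℕ) : (YY m j (2 * n)).IsPositive := by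
  unfold YY
  rw [Matrix.isPositive_toEuclideanLin_iff]
  have h1 : (fun _ : IB m j => (XI m j) ^ (2 * n)) =
      (fun B : IB m j => ((fun _ : IB m j => (XI m j) ^ n) B) * ((fun _ : IB m j => (XI m j) ^ n) B)) := by
    funext B
    rw [two_mul, pow_add]
  rw [h1, Matrix.blockDiagonal_mul]
  have h2 : (Matrix.blockDiagonal (fun _ : IB m j => (XI m j) ^ n)).conjTranspose =
      Matrix.blockDiagonal (fun _ : IB m j => (XI m j) ^ n) := by
    rw [Matrix.blockDiagonal_conjTranspose]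
    congr 1
    funext B
    exact ((XL_psd actI (down m)).pow n).isHermitian
  nth_rewrite 1 [← h2]
  exact Matrix.posSemidef_conjTranspose_mul_self _

theorem YY_trace (m j n : ℕ) (hj : j ≤ 2 ^ m) : LinearMap.trace ℝ _ (YY m j n) =
    ((2 ^ m).choose j : ℝ) * ((XI m j) ^ n).trace := by
  unfold YY
  rw [trace_toE, Matrix.trace_blockDiagonal, Finset.sum_const, Finset.card_univ,
    Fintype.card_finset_len, nsmul_eq_mul]
  have h1 : Fintype.card (Pos m) = 2 ^ m := by simp [Pos]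
  rw [h1, Nat.choose_symm hj]

theorem TT_cover (m j : ℕ) (hj : j ≤ 2 ^ m) (x₀ : IB m j → (Fin j ↪ Pos m))
    (hx : ∀ B : IB m j, ∀ y, y ∉ B.1 → ∃ i, x₀ B i = y) :
    ∀ w ∈ Ug m j, ∃ v, TT m j x₀ v = w := by
  classical
  have h : Ug m j ≤ LinearMap.range (TT m j x₀) := by
    unfold Ug
    refine iSup_le fun B => ?_
    intro f hf
    obtain ⟨φ, hφ⟩ := Lf_surj (x₀ B) B.1 (hx B) f hf
    refine ⟨WithLp.toLp 2 (fun z => if z.2 = B then φ z.1 else 0), ?_⟩
    change ∑ B', Lf (x₀ B') (slice m j (WithLp.toLp 2 (fun z => if z.2 = B then φ z.1 else 0)) B') = f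
    rw [Finset.sum_eq_single B]
    · rw [← hφ]
      congr 1
      ext x
      simp [slice]
    · intro B' _ hB'
      have h0 : slice m j (WithLp.toLp 2 (fun z => if z.2 = B then φ z.1 else 0)) B' = 0 := by
        ext x
        simp [slice, hB']
      rw [h0, map_zero]
    · intro h
      exact absurd (Finset.mem_univ _) h
  intro w hw
  exact h hw

theorem trace_XN_le (m N : ℕ) (hp : (Xop m ^ N).IsPositive) :
    LinearMap.trace ℝ (VG m) (Xop m ^ N) ≤ LinearMap.trace ℝ (VI m (2 ^ m)) (XIop m (2 ^ m) ^ N) := by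
  classical
  obtain ⟨x₀, hx1, hx2⟩ := exists_emb m (2 ^ m) le_rfl ∅ (by simp)
  refine trace_le_of_surj _ _ (XIop_pow_pos m _ N).1 (fun v => (XIop_pow_pos m _ N).2 v)
    hp.1 (fun v => hp.2 v) (Lf x₀) ?_ (fun v => Lf_XIop_pow x₀ N v)
  intro f
  refine Lf_surj x₀ ∅ hx2 f ?_
  rw [mem_fixSub]
  intro g hg
  have : g = 1 := by
    ext1 x
    exact hg x (by simp)
  rw [this, map_one]
  rfl

theorem trace_X64_le (m : ℕ) :
    LinearMap.trace ℝ (VG m) (Xop m ^ 64) ≤ F m (2 ^ m) := by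
  rw [F_eq]
  exact trace_XN_le m 64 (X64_pos m)

theorem trWN_le (m j N : ℕ) (hj : j ≤ 2 ^ m) (hN : (Xop m ^ N).IsPositive)
    (hY : (YY m j N).IsPositive) :
    LinearMap.trace ℝ (VG m) (Pr (WW m j) ∘ₗ (Xop m ^ N)) ≤
      ((2 ^ m).choose j : ℝ) * ((XI m j) ^ N).trace := by
  classical
  have hx : ∀ B : IB m j, ∃ x₀ : Fin j ↪ Pos m, ∀ y, y ∉ B.1 → ∃ i, x₀ i = y := by
    intro B
    obtain ⟨x₀, _, h⟩ := exists_emb m j hj B.1 B.2
    exact ⟨x₀, h⟩
  choose x₀ hx₀ using hx
  have h := trace_cover (WW m j) (Xop m ^ N) hN (X64_mem m j N) (YY m j N)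
    hY (TT m j x₀) (fun v => TT_YY m j N x₀ v)
    (fun w hw => TT_cover m j hj x₀ hx₀ w (WW_le_Ug m j hw))
  rw [YY_trace m j N hj] at h
  exact h

end SpecMultaux

theorem trW_le (m j : ℕ) (hj : j ≤ 2 ^ m) : trW m j ≤ ((2 ^ m).choose j : ℝ) * F m j := by
  rw [trW_eq, F]
  exact trWN_le m j 64 hj (X64_pos m) (YY_pos m j 32)

theorem sum_trW_le (m : ℕ) (s : Finset ℕ) (hs : s ⊆ Finset.range (2 ^ m + 1)) :
    ∑ j ∈ s, trW m j ≤ F m (2 ^ m) := by
  classical
  refine le_trans ?_ (trace_X64_le m)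
  let Q : VG m →ₗ[ℝ] VG m := ∑ j ∈ s, Pr (WW m j)
  have hQ : ∀ v, Q v = ∑ j ∈ s, Pr (WW m j) v := fun v => by simp [Q]
  have hPP : ∀ i j, i ≠ j → ∀ v, Pr (WW m i) (Pr (WW m j) v) = 0 := by
    intro i j hij v
    rw [Pr_apply (WW m i), Submodule.starProjection_apply_eq_zero_iff, Submodule.mem_orthogonal]
    intro u hu
    exact WW_orth m i j hij u hu _ (Pr_mem _ _)
  have hQP : ∀ j ∈ s, ∀ v, Q (Pr (WW m j) v) = Pr (WW m j) v := by
    intro j hj v
    rw [hQ, Finset.sum_eq_single j]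
    · exact Pr_Pr _ _
    · intro i _ hij
      exact hPP i j hij v
    · intro h
      exact absurd hj h
  have hQQ : ∀ v, Q (Q v) = Q v := by
    intro v
    nth_rewrite 2 [hQ]
    rw [map_sum, hQ v]
    exact Finset.sum_congr rfl fun j hj => hQP j hj v
  have hQs : Q.IsSymmetric := by
    intro u v
    rw [hQ, hQ, sum_inner, inner_sum]
    exact Finset.sum_congr rfl fun j _ => Pr_symm _ u v
  have hQc : ∀ v, Q ((Xop m ^ 64) v) = (Xop m ^ 64) (Q v) := by
    intro v
    rw [hQ, hQ, map_sum]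
    exact Finset.sum_congr rfl fun j _ => Pr_comm _ _ (X64_pos m).1 (X64_mem m j 64) v
  have hR := proj_pos (LinearMap.id - Q) (Xop m ^ 64) (by
    intro u v
    have := hQs u v
    simp only [LinearMap.sub_apply, LinearMap.id_apply, inner_sub_left, inner_sub_right]
    rw [this]) (by
    intro v
    simp only [LinearMap.sub_apply, LinearMap.id_apply, map_sub]
    rw [hQQ]
    abel) (X64_pos m) (by
    intro v
    simp only [LinearMap.sub_apply, LinearMap.id_apply, map_sub]
    rw [hQc])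
  have h1 := trace_nonneg _ hR
  have h2 : (LinearMap.id - Q) ∘ₗ (Xop m ^ 64) =
      (Xop m ^ 64) - ∑ j ∈ s, (Pr (WW m j) ∘ₗ (Xop m ^ 64)) := by
    apply LinearMap.ext
    intro v
    simp [Q]
  rw [h2, map_sub, map_sum] at h1
  have h3 : ∑ j ∈ s, trW m j =
      ∑ j ∈ s, LinearMap.trace ℝ (VG m) (Pr (WW m j) ∘ₗ (Xop m ^ 64)) :=
    Finset.sum_congr rfl fun j _ => trW_eq m j
  rw [h3]
  linarith

end Crest.Agent.R155
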