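import Crest.Agent.R155.SpecTrace
import Crest.Agent.R155.SpecMult
import Crest.Agent.R155.SpecEig
import Crest.Agent.R155.ModM
import Crest.Agent.R155.ModD

/-!
# PIECE SPEC (row 155): assembly of the spectral part

Let `n = 2^m`.  For every `j ∈ [1, n]` take `a j` from `top_eig`; `chi2_le`; `(a j)^1536 = ((a j)^64)^24`.
If `a j = 0` the term vanishes (all the bounds are `≥ 0`).  Otherwise let `E` be as in `top_eig`.
* `1 ≤ j < n/8`: `module_M` with `l = n - j`, `N = univ`, `|K| = k j`, `hmax` from `WW_max`, `hex` from `WW_ex`: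
  `C(k j, j) ≤ finrank (E ⊓ fixSub Kᶜ)`, and `mult_le` (`|Kᶜ| = n - k j`):
  `(a j)^64 ≤ (F m (k j) - 1)/C(k j, j)`.  With `trW_le`.
* `n/8 ≤ j ≤ n/2`: `module_M` with `l = n - j ≥ n/2`, `|N| = l + n/8 ≤ n`, `K ⊆ N`, `|K| = l`:
  `C(n/2, n/8) ≤ C(l, n/8) ≤ finrank (E ⊓ fixSub (N \ K)) ≤ finrank E`; `mult_le` with `k = n`, `B = ∅`
  (`fixSub ∅ = ⊤`): `(a j)^64 * finrank E ≤ F m n - 1 ≤ F m n`.
* `j > n/2`: `module_D` with `r = n/8 = 2^(m-3)`, `f = flip (m-1)`, `matching_vec`; `mult_le` as before.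
  The sum over `j ≥ n/8` of `trW m j` is `≤ F m n` (`sum_trW_le`).
-/

set_option autoImplicit false

namespace Crest.Agent.R155

namespace Specaux

theorem card_Pos (m : ℕ) : Fintype.card (Pos m) = 2 ^ m := by simp [Pos]

theorem F_one_le (m k : ℕ) (hk : k ≤ 2 ^ m) : 1 ≤ F m k := by
  obtain ⟨B, -, hB⟩ := Finset.exists_subset_card_eq (s := (Finset.univ : Finset (Pos m)))
      (n := 2 ^ m - k) (by rw [Finset.card_univ, card_Pos]; omega)
  have := mult_le m k 1 hk le_rfl 0 le_rfl ⊥ bot_le (by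
    intro v hv
    rw [Submodule.mem_bot] at hv
    subst hv
    simp) B hB
  simp at this
  exact this

theorem fixSub_empty (m : ℕ) : fixSub (Rt m) (∅ : Finset (Pos m)) = ⊤ := by
  rw [eq_top_iff]
  intro v _
  rw [mem_fixSub]
  intro g hg
  have : g = 1 := by
    ext x
    have := hg x (by simp)
    rw [this]; rfl
  rw [this, map_one]
  rfl

/-- the full deck -/
theorem mult_full (m j : ℕ) (hj : 1 ≤ j) (a : ℝ) (ha : 0 ≤ a)
    (E : Submodule ℝ (VG m)) (hE : E ≤ WW m j) (hX : ∀ v ∈ E, Xop m v = a • v) :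
    a ^ 64 * (Module.finrank ℝ E : ℝ) ≤ F m (2 ^ m) := by
  have h := mult_le m (2 ^ m) j le_rfl hj a ha E hE hX ∅ (by simp)
  rw [fixSub_empty, inf_top_eq] at h
  linarith

theorem a64_small (m : ℕ) (hm : 3 ≤ m) (j k : ℕ) (hj : 1 ≤ j) (hj2 : j < 2 ^ (m - 3))
    (hk1 : j ≤ k) (hk2 : k + j ≤ 2 ^ m) (a : ℝ) (ha : 0 ≤ a)
    (E : Submodule ℝ (VG m)) (hE : E ≤ WW m j) (hne : E ≠ ⊥)
    (hinv : ∀ g, ∀ v ∈ E, Rt m g v ∈ E) (hX : ∀ v ∈ E, Xop m v = a • v) :
    a ^ 64 ≤ (F m k - 1) / (k.choose j : ℝ) := by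
  have hjm : j ≤ 2 ^ m := by omega
  obtain ⟨K, -, hK⟩ := Finset.exists_subset_card_eq (s := (Finset.univ : Finset (Pos m)))
      (n := k) (by rw [Finset.card_univ, card_Pos]; omega)
  have hM := module_M (Rt m) (Rt_norm m) E hinv (2 ^ m - j)
    (fun B hB => WW_max m j hj hjm E hE B hB)
    (by
      obtain ⟨B, hB, hB'⟩ := WW_ex m j hjm E hE hne hinv
      exact ⟨B, hB, hB'⟩)
    Finset.univ K (Finset.subset_univ _) j
    (by rw [Finset.card_univ, card_Pos]; omega) (by omega) (by omega)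
  rw [hK] at hM
  have hB : (Finset.univ \ K).card = 2 ^ m - k := by
    rw [Finset.card_sdiff_of_subset (Finset.subset_univ _), Finset.card_univ, card_Pos, hK]
  have h := mult_le m k j (by omega) hj a ha E hE hX _ hB
  have hC : (0 : ℝ) < (k.choose j : ℝ) := by
    exact_mod_cast Nat.choose_pos hk1
  rw [le_div_iff₀ hC]
  have hM' : (k.choose j : ℝ) ≤
      (Module.finrank ℝ ↥(E ⊓ fixSub (Rt m) (Finset.univ \ K)) : ℝ) := by exact_mod_cast hM
  calc a ^ 64 * (k.choose j : ℝ) ≤ a ^ 64 *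
        (Module.finrank ℝ ↥(E ⊓ fixSub (Rt m) (Finset.univ \ K)) : ℝ) := by gcongr
    _ ≤ F m k - 1 := h

theorem a64_big (m : ℕ) (hm : 3 ≤ m) (j : ℕ) (hj : 2 ^ (m - 3) ≤ j) (hjm : j ≤ 2 ^ m)
    (a : ℝ) (ha : 0 ≤ a) (ha0 : a ≠ 0)
    (E : Submodule ℝ (VG m)) (hE : E ≤ WW m j) (hne : E ≠ ⊥)
    (hinv : ∀ g, ∀ v ∈ E, Rt m g v ∈ E) (hX : ∀ v ∈ E, Xop m v = a • v)
    (hirr : ∀ E' : Submodule ℝ (VG m), E' ≤ E → (∀ g, ∀ v ∈ E', Rt m g v ∈ E') →
      E' ≠ ⊥ → E' = E) :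
    a ^ 64 ≤ F m (2 ^ m) / ((2 ^ (m - 1)).choose (2 ^ (m - 3)) : ℝ) := by
  obtain ⟨r, rfl⟩ : ∃ r, m = r + 3 := ⟨m - 3, by omega⟩
  have hn : 2 ^ (r + 3) = 8 * 2 ^ r := by rw [pow_add]; ring
  have hn2 : 2 ^ (r + 3 - 1) = 4 * 2 ^ r := by
    rw [show r + 3 - 1 = r + 2 by omega, pow_add]; ring
  have hr3 : r + 3 - 3 = r := by omega
  rw [hr3] at hj ⊢
  have hrpos : 1 ≤ 2 ^ r := Nat.one_le_two_pow
  have hj1 : 1 ≤ j := le_trans hrpos hj
  have key : (4 * 2 ^ r).choose (2 ^ r) ≤ Module.finrank ℝ E := by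
    rcases le_or_gt j (4 * 2 ^ r) with hle | hgt
    · -- lemma M
      obtain ⟨N, -, hN⟩ := Finset.exists_subset_card_eq
        (s := (Finset.univ : Finset (Pos (r + 3)))) (n := 2 ^ (r + 3) - j + 2 ^ r)
        (by rw [Finset.card_univ, card_Pos]; omega)
      obtain ⟨K, hKN, hK⟩ := Finset.exists_subset_card_eq (s := N) (n := 2 ^ (r + 3) - j)
        (by omega)
      have hM := module_M (Rt (r + 3)) (Rt_norm (r + 3)) E hinv (2 ^ (r + 3) - j)
        (fun B hB => WW_max (r + 3) j hj1 hjm E hE B hB)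
        (by
          obtain ⟨B, hB, hB'⟩ := WW_ex (r + 3) j hjm E hE hne hinv
          exact ⟨B, hB, hB'⟩)
        N K hKN (2 ^ r) hN (by omega) (by omega)
      rw [hK] at hM
      calc (4 * 2 ^ r).choose (2 ^ r) ≤ (2 ^ (r + 3) - j).choose (2 ^ r) :=
            Nat.choose_le_choose _ (by omega)
        _ ≤ _ := hM
        _ ≤ Module.finrank ℝ E := Submodule.finrank_mono inf_le_left
    · -- lemma D
      obtain ⟨w, hw, hw0, hfix⟩ := matching_vec (r + 2) a ha0 E hne hinv hX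
      refine module_D (Rt (r + 3)) (Rt_norm (r + 3)) E hinv hne hirr (2 ^ r)
        (by rw [card_Pos]; omega) ?_ (flip (Fin.last (r + 2))) (flip_flip _) (flip_ne _)
        w hw hw0 hfix
      intro B hB
      -- a smaller set of size `n - j + 1`
      obtain ⟨B', hB', hcard⟩ := Finset.exists_subset_card_eq (s := B)
        (n := 2 ^ (r + 3) - j + 1) (by omega)
      have h1 := WW_max (r + 3) j hj1 hjm E hE B' hcard
      rw [eq_bot_iff] at h1 ⊢
      refine le_trans ?_ h1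
      refine le_inf inf_le_left (inf_le_right.trans ?_)
      intro v hv
      rw [mem_fixSub] at hv ⊢
      intro g hg
      exact hv g (fun x hx => hg x (fun hx' => hx (hB' hx')))
  have h := mult_full (r + 3) j hj1 a ha E hE hX
  rw [hn2]
  have hC : (0 : ℝ) < ((4 * 2 ^ r).choose (2 ^ r) : ℝ) := by
    exact_mod_cast Nat.choose_pos (by omega)
  rw [le_div_iff₀ hC]
  have hM' : ((4 * 2 ^ r).choose (2 ^ r) : ℝ) ≤ (Module.finrank ℝ E : ℝ) := by exact_mod_cast key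
  calc a ^ 64 * ((4 * 2 ^ r).choose (2 ^ r) : ℝ) ≤ a ^ 64 * (Module.finrank ℝ E : ℝ) := by gcongr
    _ ≤ _ := h

end Specaux

open Specaux

theorem spec (m : ℕ) (hm : 3 ≤ m) (k : ℕ → ℕ)
    (hk : ∀ j, 1 ≤ j → j < 2 ^ (m - 3) → j ≤ k j ∧ k j + j ≤ 2 ^ m) :
    chi2 m ≤ ∑ j ∈ Finset.Ico 1 (2 ^ (m - 3)),
        ((F m (k j) - 1) / ((k j).choose j : ℝ)) ^ 24 * (((2 ^ m).choose j : ℝ) * F m j) +
      (F m (2 ^ m) / ((2 ^ (m - 1)).choose (2 ^ (m - 3)) : ℝ)) ^ 24 * F m (2 ^ m) := by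
  choose a ha0 hav haE using top_eig m
  have h1 := chi2_le m a ha0 (fun j _ _ => hav j)
  have h3m : 2 ^ (m - 3) ≤ 2 ^ m := Nat.pow_le_pow_right (by norm_num) (by omega)
  have hpos3 : 1 ≤ 2 ^ (m - 3) := Nat.one_le_two_pow
  have hsplit : ∑ j ∈ Finset.Icc 1 (2 ^ m), (a j) ^ 1536 * trW m j =
      ∑ j ∈ Finset.Ico 1 (2 ^ (m - 3)), (a j) ^ 1536 * trW m j +
      ∑ j ∈ Finset.Icc (2 ^ (m - 3)) (2 ^ m), (a j) ^ 1536 * trW m j := by
    have e1 : Finset.Icc 1 (2 ^ m) = Finset.Ico 1 (2 ^ m + 1) := by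
      ext x; simp only [Finset.mem_Icc, Finset.mem_Ico]; omega
    have e2 : Finset.Icc (2 ^ (m - 3)) (2 ^ m) = Finset.Ico (2 ^ (m - 3)) (2 ^ m + 1) := by
      ext x; simp only [Finset.mem_Icc, Finset.mem_Ico]; omega
    rw [e1, e2, Finset.sum_Ico_consecutive _ hpos3 (by omega)]
  have hpow : ∀ j, (a j) ^ 1536 = ((a j) ^ 64) ^ 24 := by
    intro j; rw [← pow_mul]
  have hFn : 0 ≤ F m (2 ^ m) := by
    have := F_one_le m (2 ^ m) le_rfl
    linarith
  refine h1.trans ?_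
  rw [hsplit]
  apply add_le_add
  · apply Finset.sum_le_sum
    intro j hj
    rw [Finset.mem_Ico] at hj
    obtain ⟨hk1, hk2⟩ := hk j hj.1 hj.2
    have hF1 : 0 ≤ F m (k j) - 1 := by
      have := F_one_le m (k j) (by omega)
      linarith
    have hjm : j ≤ 2 ^ m := by omega
    have htr := trW_le m j hjm
    have htr0 := trW_nonneg m j
    have hmul : 0 ≤ ((2 ^ m).choose j : ℝ) * F m j := htr0.trans htr
    have hab : (a j) ^ 64 ≤ (F m (k j) - 1) / ((k j).choose j : ℝ) := by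
      rcases haE j with h0 | ⟨E, hE, hne, hinv, hX, hirr⟩
      · rw [h0]
        have : (0 : ℝ) ^ 64 = 0 := by norm_num
        rw [this]
        positivity
      · exact a64_small m hm j (k j) hj.1 hj.2 hk1 hk2 (a j) (ha0 j) E hE hne hinv hX
    rw [hpow j]
    have : 0 ≤ (a j) ^ 64 := pow_nonneg (ha0 j) _
    exact mul_le_mul (pow_le_pow_left₀ this hab 24) htr htr0 (by positivity)
  · have hC0 : (0 : ℝ) ≤ F m (2 ^ m) / ((2 ^ (m - 1)).choose (2 ^ (m - 3)) : ℝ) := by positivity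
    calc ∑ j ∈ Finset.Icc (2 ^ (m - 3)) (2 ^ m), (a j) ^ 1536 * trW m j
        ≤ ∑ j ∈ Finset.Icc (2 ^ (m - 3)) (2 ^ m),
            (F m (2 ^ m) / ((2 ^ (m - 1)).choose (2 ^ (m - 3)) : ℝ)) ^ 24 * trW m j := by
          apply Finset.sum_le_sum
          intro j hj
          rw [Finset.mem_Icc] at hj
          apply mul_le_mul_of_nonneg_right _ (trW_nonneg m j)
          rw [hpow j]
          have h64 : 0 ≤ (a j) ^ 64 := pow_nonneg (ha0 j) _
          apply pow_le_pow_left₀ h64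
          rcases eq_or_ne (a j) 0 with h0 | h0
          · rw [h0]
            have : (0 : ℝ) ^ 64 = 0 := by norm_num
            rw [this]
            exact hC0
          · rcases haE j with h0' | ⟨E, hE, hne, hinv, hX, hirr⟩
            · exact absurd h0' h0
            · exact a64_big m hm j hj.1 hj.2 (a j) (ha0 j) h0 E hE hne hinv hX hirr
      _ = (F m (2 ^ m) / ((2 ^ (m - 1)).choose (2 ^ (m - 3)) : ℝ)) ^ 24 *
            ∑ j ∈ Finset.Icc (2 ^ (m - 3)) (2 ^ m), trW m j := by rw [Finset.mul_sum]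
      _ ≤ _ := by
          apply mul_le_mul_of_nonneg_left _ (by positivity)
          apply sum_trW_le
          intro x hx
          rw [Finset.mem_Icc] at hx
          rw [Finset.mem_range]
          omega

end Crest.Agent.R155
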