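import Crest.Agent.R155.SpecDefs
import Crest.Agent.R155.Ker

/-!
# PIECE SPECBASIC (row 155): commutation and orthogonality

* `Rt_norm`: right translations are isometries (permutation of the coordinates).
* `Rt_Pop`: `PG (x h) (y h) = PG x y` (every layer `lay actG i` has this property since
  `sw i c * (x h) = (sw i c * x) h`; products too).
* `fixSub_anti`: bigger `B`, fewer fixed vectors.  `Ug_mono`.  `Ug_top`: for `j = 2^m`, `B = ∅`,
  everything is fixed.
* invariance of `fixSub (Rt m) B`, `Ug`, `WW` under every operator commuting with right translations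
  (and whose adjoint commutes), in particular `Pop`, its adjoint, `Xop`; invariance of `Ug`, `WW` under `Rt h`
  (`Rt h` maps `fixSub B` to `fixSub (h B)`).
* `WW_orth`: the `WW m j`, `j ≤ 2^m`, are pairwise orthogonal and their sum is everything.
-/

set_option autoImplicit false

namespace Crest.Agent.R155

namespace SpecBasicAux

variable {m : ℕ}

/-- a matrix invariant under right translations -/
def RInv (A : Matrix (Equiv.Perm (Pos m)) (Equiv.Perm (Pos m)) ℝ) : Prop :=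
  ∀ x y h, A (x * h) (y * h) = A x y

theorem RInv.mul {A B : Matrix (Equiv.Perm (Pos m)) (Equiv.Perm (Pos m)) ℝ}
    (hA : RInv A) (hB : RInv B) : RInv (A * B) := by
  intro x y h
  rw [Matrix.mul_apply, Matrix.mul_apply]
  rw [← Equiv.sum_comp (Equiv.mulRight h)]
  apply Finset.sum_congr rfl
  intro z _
  rw [Equiv.coe_mulRight, hA x z h, hB z y h]

theorem RInv.one : RInv (1 : Matrix (Equiv.Perm (Pos m)) (Equiv.Perm (Pos m)) ℝ) := by
  intro x y h
  rw [Matrix.one_apply, Matrix.one_apply]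
  simp

theorem RInv.transpose {A : Matrix (Equiv.Perm (Pos m)) (Equiv.Perm (Pos m)) ℝ}
    (hA : RInv A) : RInv A.transpose := by
  intro x y h
  exact hA y x h

theorem RInv.lay (i : Fin m) : RInv (lay (actG (m := m)) i) := by
  intro x y h
  unfold R155.lay ker
  congr 1
  funext c
  have : (actG (sw i c) (x * h) = y * h) ↔ (actG (sw i c) x = y) := by
    unfold actG
    rw [← mul_assoc]
    exact mul_left_inj h
  simp only [this]

theorem RInv.PL (L : List (Fin m)) : RInv (PL (actG (m := m)) L) := by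
  induction L with
  | nil => exact RInv.one
  | cons b L ih =>
    have : R155.PL (actG (m := m)) (b :: L) = R155.lay actG b * R155.PL actG L := by
      simp [R155.PL]
    rw [this]
    exact (RInv.lay b).mul ih

theorem toE_apply (A : Matrix (Equiv.Perm (Pos m)) (Equiv.Perm (Pos m)) ℝ) (f : VG m)
    (x : Equiv.Perm (Pos m)) : Matrix.toEuclideanLin A f x = ∑ y, A x y * f y := by
  rfl

theorem Rt_toE {A : Matrix (Equiv.Perm (Pos m)) (Equiv.Perm (Pos m)) ℝ} (hA : RInv A)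
    (h : Equiv.Perm (Pos m)) (f : VG m) :
    Rt m h (Matrix.toEuclideanLin A f) = Matrix.toEuclideanLin A (Rt m h f) := by
  ext x
  rw [Rt_apply, toE_apply, toE_apply]
  rw [← Equiv.sum_comp (Equiv.mulRight h)]
  apply Finset.sum_congr rfl
  intro z _
  rw [Equiv.coe_mulRight, hA x z h, Rt_apply]

theorem adj_toE (A : Matrix (Equiv.Perm (Pos m)) (Equiv.Perm (Pos m)) ℝ) :
    LinearMap.adjoint (Matrix.toEuclideanLin A) = Matrix.toEuclideanLin A.transpose := by
  rw [← Matrix.toEuclideanLin_conjTranspose_eq_adjoint]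
  congr 1

theorem Rt_inner (h : Equiv.Perm (Pos m)) (f g : VG m) :
    inner ℝ (Rt m h f) (Rt m h g) = inner ℝ f g := by
  rw [PiLp.inner_apply, PiLp.inner_apply]
  rw [← Equiv.sum_comp (Equiv.mulRight h) (fun i => inner ℝ (f i) (g i))]
  rfl

theorem Rt_inner' (h : Equiv.Perm (Pos m)) (f g : VG m) :
    inner ℝ (Rt m h f) g = inner ℝ f (Rt m h⁻¹ g) := by
  rw [← Rt_inner h f (Rt m h⁻¹ g)]
  congr 1
  have : Rt m h (Rt m h⁻¹ g) = (Rt m h * Rt m h⁻¹) g := rfl
  rw [this, ← map_mul]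
  simp

theorem fixSub_anti {B B' : Finset (Pos m)} (h : B' ⊆ B) :
    fixSub (Rt m) B ≤ fixSub (Rt m) B' := by
  intro v hv g hg
  exact hv g (fun x hx => hg x (fun hx' => hx (h hx')))

theorem fixSub_le_Ug (j : ℕ) (B : Finset (Pos m)) (hB : B.card = 2 ^ m - j) :
    fixSub (Rt m) B ≤ Ug m j :=
  le_iSup (fun B : {B : Finset (Pos m) // B.card = 2 ^ m - j} => fixSub (Rt m) B.1) ⟨B, hB⟩

theorem card_Pos : Fintype.card (Pos m) = 2 ^ m := by
  simp [Pos]

/-- orthogonal complement of `Ug` is preserved -/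
theorem orth_inv (j : ℕ) (A B : VG m →ₗ[ℝ] VG m) (hAB : ∀ f g, inner ℝ (A f) g = inner ℝ f (B g))
    (hB : ∀ g ∈ Ug m j, B g ∈ Ug m j) : ∀ f ∈ (Ug m j)ᗮ, A f ∈ (Ug m j)ᗮ := by
  intro f hf
  rw [Submodule.mem_orthogonal'] at hf ⊢
  intro g hg
  rw [hAB]
  exact hf _ (hB g hg)

theorem WW_inv (j : ℕ) (A B : VG m →ₗ[ℝ] VG m) (hAB : ∀ f g, inner ℝ (A f) g = inner ℝ f (B g))
    (hA : ∀ j, ∀ g ∈ Ug m j, A g ∈ Ug m j)
    (hB : ∀ j, ∀ g ∈ Ug m j, B g ∈ Ug m j) : ∀ f ∈ WW m j, A f ∈ WW m j := by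
  cases j with
  | zero => exact hA 0
  | succ j =>
    intro f hf
    refine Submodule.mem_inf.2 ⟨hA _ f (Submodule.mem_inf.1 hf).1, ?_⟩
    exact orth_inv j A B hAB (hB j) f (Submodule.mem_inf.1 hf).2

end SpecBasicAux

open SpecBasicAux

theorem Rt_norm (m : ℕ) (h : Equiv.Perm (Pos m)) (f : VG m) : ‖Rt m h f‖ = ‖f‖ := by
  have := Rt_inner h f f
  rw [real_inner_self_eq_norm_sq, real_inner_self_eq_norm_sq] at this
  exact (sq_eq_sq₀ (norm_nonneg _) (norm_nonneg _)).1 this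

theorem Rt_Pop (m : ℕ) (h : Equiv.Perm (Pos m)) (f : VG m) :
    Rt m h (Pop m f) = Pop m (Rt m h f) :=
  Rt_toE (RInv.PL (down m)) h f

theorem Rt_PopAdj (m : ℕ) (h : Equiv.Perm (Pos m)) (f : VG m) :
    Rt m h (LinearMap.adjoint (Pop m) f) = LinearMap.adjoint (Pop m) (Rt m h f) := by
  unfold Pop
  rw [adj_toE]
  exact Rt_toE (RInv.PL (down m)).transpose h f

theorem Rt_Xop (m : ℕ) (h : Equiv.Perm (Pos m)) (f : VG m) :
    Rt m h (Xop m f) = Xop m (Rt m h f) := by
  unfold Xop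
  rw [Module.End.mul_apply, Module.End.mul_apply, Rt_Pop, Rt_PopAdj]

/-- `Xop` in coordinates: the matrix `XL actG (down m)` -/
theorem Xop_apply (m : ℕ) (f : VG m) (x : Equiv.Perm (Pos m)) :
    Xop m f x = ∑ y, XL actG (down m) x y * f y := by
  unfold Xop
  rw [Module.End.mul_apply]
  unfold Pop
  rw [adj_toE, toE_apply]
  simp_rw [toE_apply]
  unfold XL
  simp_rw [Matrix.mul_apply, Finset.mul_sum, Finset.sum_mul]
  rw [Finset.sum_comm]
  apply Finset.sum_congr rfl
  intro y _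
  apply Finset.sum_congr rfl
  intro z _
  unfold PG
  ring

theorem Xop_symmetric (m : ℕ) : (Xop m).IsSymmetric := by
  intro f g
  unfold Xop
  rw [Module.End.mul_apply, Module.End.mul_apply]
  exact (LinearMap.adjoint_inner_right (Pop m) (LinearMap.adjoint (Pop m) f) g).symm.trans
    (LinearMap.adjoint_inner_left (Pop m) (LinearMap.adjoint (Pop m) g) f)

theorem inner_Xop (m : ℕ) (f : VG m) :
    inner ℝ (Xop m f) f = ‖LinearMap.adjoint (Pop m) f‖ ^ 2 := by
  unfold Xop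
  rw [Module.End.mul_apply, ← LinearMap.adjoint_inner_right, real_inner_self_eq_norm_sq]

theorem Xop_pos (m : ℕ) (f : VG m) : 0 ≤ inner ℝ (Xop m f) f := by
  rw [inner_Xop]
  positivity

theorem Ug_mono (m i j : ℕ) (h : i ≤ j) : Ug m i ≤ Ug m j := by
  apply iSup_le
  rintro ⟨B, hB⟩
  have hle : 2 ^ m - j ≤ B.card := by omega
  obtain ⟨B', hB', hc⟩ := Finset.exists_subset_card_eq hle
  exact (fixSub_anti hB').trans (fixSub_le_Ug j B' hc)

theorem Ug_top (m j : ℕ) (h : 2 ^ m ≤ j) : Ug m j = ⊤ := by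
  rw [eq_top_iff]
  refine le_trans ?_ (fixSub_le_Ug j (∅ : Finset (Pos m)) (by simp; omega))
  intro v _ g hg
  have : g = 1 := by
    ext x : 1
    exact hg x (by simp)
  rw [this, map_one]
  rfl

theorem Ug_inv_of_comm (m j : ℕ) (A : VG m →ₗ[ℝ] VG m)
    (hA : ∀ h f, Rt m h (A f) = A (Rt m h f)) : ∀ f ∈ Ug m j, A f ∈ Ug m j := by
  have : Ug m j ≤ (Ug m j).comap A := by
    apply iSup_le
    rintro ⟨B, hB⟩
    intro f hf
    rw [Submodule.mem_comap]
    apply fixSub_le_Ug j B hB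
    intro g hg
    rw [hA, hf g hg]
  exact this

theorem Ug_Rt (m j : ℕ) (h : Equiv.Perm (Pos m)) : ∀ f ∈ Ug m j, Rt m h f ∈ Ug m j := by
  have : Ug m j ≤ (Ug m j).comap (Rt m h) := by
    apply iSup_le
    rintro ⟨B, hB⟩
    intro f hf
    rw [Submodule.mem_comap]
    apply fixSub_le_Ug j (B.map h.toEmbedding) (by rw [Finset.card_map, hB])
    intro g hg
    have h1 : Rt m g (Rt m h f) = Rt m h (Rt m (h⁻¹ * g * h) f) := by
      have e1 : Rt m g (Rt m h f) = (Rt m g * Rt m h) f := rfl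
      have e2 : Rt m h (Rt m (h⁻¹ * g * h) f) = (Rt m h * Rt m (h⁻¹ * g * h)) f := rfl
      rw [e1, e2, ← map_mul, ← map_mul]
      congr 2
      group
    rw [h1, hf]
    intro x hx
    have h2 : g (h x) = h x := by
      apply hg
      intro hx'
      rw [Finset.mem_map] at hx'
      obtain ⟨y, hy, hxy⟩ := hx'
      have : y = x := h.injective hxy
      exact hx (this ▸ hy)
    simp [Equiv.Perm.mul_apply, h2]
  exact this

theorem WW_Pop (m j : ℕ) : ∀ f ∈ WW m j, Pop m f ∈ WW m j :=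
  WW_inv j (Pop m) (LinearMap.adjoint (Pop m)) (fun f g => (LinearMap.adjoint_inner_right _ _ _).symm)
    (fun j => Ug_inv_of_comm m j _ (Rt_Pop m)) (fun j => Ug_inv_of_comm m j _ (Rt_PopAdj m))

theorem WW_PopAdj (m j : ℕ) : ∀ f ∈ WW m j, LinearMap.adjoint (Pop m) f ∈ WW m j :=
  WW_inv j (LinearMap.adjoint (Pop m)) (Pop m) (fun f g => LinearMap.adjoint_inner_left _ _ _)
    (fun j => Ug_inv_of_comm m j _ (Rt_PopAdj m)) (fun j => Ug_inv_of_comm m j _ (Rt_Pop m))

theorem WW_Xop (m j : ℕ) : ∀ f ∈ WW m j, Xop m f ∈ WW m j := by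
  intro f hf
  unfold Xop
  rw [Module.End.mul_apply]
  exact WW_Pop m j _ (WW_PopAdj m j f hf)

theorem WW_Rt (m j : ℕ) (h : Equiv.Perm (Pos m)) : ∀ f ∈ WW m j, Rt m h f ∈ WW m j :=
  WW_inv j (Rt m h) (Rt m h⁻¹) (Rt_inner' h) (fun j => Ug_Rt m j h) (fun j => Ug_Rt m j h⁻¹)

namespace SpecBasicAux

theorem WW_le_Ug (m j : ℕ) : WW m j ≤ Ug m j := by
  cases j with
  | zero => exact le_rfl
  | succ j => exact inf_le_left

theorem WW_orth_lt (m i j : ℕ) (hij : i < j) :
    ∀ f ∈ WW m i, ∀ g ∈ WW m j, inner ℝ f g = 0 := by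
  intro f hf g hg
  obtain ⟨k, rfl⟩ : ∃ k, j = k + 1 := ⟨j - 1, by omega⟩
  have h1 : f ∈ Ug m k := Ug_mono m i k (by omega) (WW_le_Ug m i hf)
  have h2 : g ∈ (Ug m k)ᗮ := (Submodule.mem_inf.1 hg).2
  exact (Submodule.mem_orthogonal _ _).1 h2 f h1

theorem WW_sup_aux (m j : ℕ) : Ug m j ≤ ⨆ i : Fin (j + 1), WW m i.val := by
  induction j with
  | zero => exact le_iSup (fun i : Fin 1 => WW m i.val) 0
  | succ j ih =>
    have h1 : Ug m j ⊔ (Ug m j)ᗮ ⊓ Ug m (j + 1) = Ug m (j + 1) :=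
      Submodule.sup_orthogonal_inf_of_hasOrthogonalProjection (Ug_mono m j (j + 1) (by omega))
    rw [← h1]
    apply sup_le
    · refine ih.trans (iSup_le fun i => ?_)
      exact le_iSup (fun i : Fin (j + 1 + 1) => WW m i.val) (Fin.castSucc i)
    · rw [inf_comm]
      exact le_iSup (fun i : Fin (j + 1 + 1) => WW m i.val) (Fin.last (j + 1))

end SpecBasicAux

theorem WW_orth (m i j : ℕ) (hij : i ≠ j) : ∀ f ∈ WW m i, ∀ g ∈ WW m j, inner ℝ f g = 0 := by
  rcases lt_or_gt_of_ne hij with h | h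
  · exact WW_orth_lt m i j h
  · intro f hf g hg
    rw [real_inner_comm]
    exact WW_orth_lt m j i h g hg f hf

theorem WW_sup (m : ℕ) : (⨆ j : Fin (2 ^ m + 1), WW m j.val) = ⊤ := by
  rw [eq_top_iff, ← Ug_top m (2 ^ m) le_rfl]
  exact WW_sup_aux m (2 ^ m)

/-- `WW m 0` are the constants -/
theorem mem_WW_zero (m : ℕ) (f : VG m) : f ∈ WW m 0 ↔ ∀ x y, f x = f y := by
  have h0 : WW m 0 = fixSub (Rt m) (Finset.univ : Finset (Pos m)) := by
    apply le_antisymm
    · apply iSup_le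
      rintro ⟨B, hB⟩
      have : B = Finset.univ := by
        apply Finset.eq_univ_of_card
        rw [hB, card_Pos]; simp
      subst this
      exact le_rfl
    · exact fixSub_le_Ug 0 Finset.univ (by rw [Finset.card_univ, card_Pos]; simp)
  rw [h0, mem_fixSub]
  constructor
  · intro h x y
    have := h (x⁻¹ * y) (by simp)
    have h2 := congrArg (fun v : VG m => v x) this
    simp only [Rt_apply] at h2
    rw [mul_inv_cancel_left] at h2
    exact h2.symm
  · intro h g _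
    ext x
    rw [Rt_apply]
    exact h _ _

/-- if `E ≤ WW m j` is invariant under right translations, `1 ≤ j ≤ 2^m`, then `E` has no nonzero vector
fixed by `Sym(B)` with `|B| = 2^m - j + 1` (it would be in `Ug m (j-1)`, orthogonal to `E`) -/
theorem WW_max (m j : ℕ) (hj : 1 ≤ j) (hjm : j ≤ 2 ^ m) (E : Submodule ℝ (VG m)) (hE : E ≤ WW m j)
    (B : Finset (Pos m)) (hB : B.card = 2 ^ m - j + 1) : E ⊓ fixSub (Rt m) B = ⊥ := by
  obtain ⟨k, rfl⟩ : ∃ k, j = k + 1 := ⟨j - 1, by omega⟩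
  rw [eq_bot_iff]
  intro v hv
  obtain ⟨h1, h2⟩ := Submodule.mem_inf.1 hv
  have h3 : v ∈ Ug m k := fixSub_le_Ug k B (by omega) h2
  have h4 : v ∈ (Ug m k)ᗮ := (Submodule.mem_inf.1 (hE h1)).2
  rw [Submodule.mem_bot]
  exact inner_self_eq_zero.1 ((Submodule.mem_orthogonal _ _).1 h4 v h3)

/-- but it has one with `|B| = 2^m - j`: otherwise, for `e ∈ E` and `f` fixed by `Sym(B)`,
`⟨e, f⟩ = ⟨average of Rt h e over h ∈ Sym(B), f⟩ = 0`, so `E` is orthogonal to `Ug m j ⊇ E` -/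
theorem WW_ex (m j : ℕ) (hjm : j ≤ 2 ^ m) (E : Submodule ℝ (VG m)) (hE : E ≤ WW m j)
    (hne : E ≠ ⊥) (hinv : ∀ h, ∀ v ∈ E, Rt m h v ∈ E) :
    ∃ B : Finset (Pos m), B.card = 2 ^ m - j ∧ E ⊓ fixSub (Rt m) B ≠ ⊥ := by
  classical
  by_contra hcon
  push Not at hcon
  apply hne
  rw [eq_bot_iff]
  intro e he
  have key : Ug m j ≤ (Submodule.span ℝ {e})ᗮ := by
    apply iSup_le
    rintro ⟨B, hB⟩
    intro f hf
    rw [Submodule.mem_orthogonal_singleton_iff_inner_right]
    set S : Finset (Equiv.Perm (Pos m)) :=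
      Finset.univ.filter (fun g => ∀ x, x ∉ B → g x = x) with hS
    have hmS : ∀ g, g ∈ S ↔ ∀ x, x ∉ B → g x = x := by
      intro g; rw [hS]; simp
    have hav : (∑ h ∈ S, Rt m h e) = 0 := by
      have h1 : (∑ h ∈ S, Rt m h e) ∈ E ⊓ fixSub (Rt m) B := by
        refine Submodule.mem_inf.2 ⟨Submodule.sum_mem _ fun h _ => hinv h e he, ?_⟩
        intro g hg
        rw [map_sum]
        refine Finset.sum_nbij' (fun h => g * h) (fun h => g⁻¹ * h) ?_ ?_ ?_ ?_ ?_
        · intro h hh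
          rw [hmS] at hh ⊢
          intro x hx
          rw [Equiv.Perm.mul_apply, hh x hx, hg x hx]
        · intro h hh
          rw [hmS] at hh ⊢
          intro x hx
          rw [Equiv.Perm.mul_apply, hh x hx, Equiv.Perm.inv_eq_iff_eq, hg x hx]
        · intro h _; simp
        · intro h _; simp
        · intro h _
          have : Rt m g (Rt m h e) = (Rt m g * Rt m h) e := rfl
          rw [this, ← map_mul]
      rw [hcon B hB] at h1
      exact (Submodule.mem_bot ℝ).1 h1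
    have h2 : ∀ h ∈ S, inner ℝ (Rt m h e) f = inner ℝ e f := by
      intro h hh
      have h3 : Rt m h f = f := hf h ((hmS h).1 hh)
      rw [← Rt_inner h e f, h3]
    have h4 : (S.card : ℝ) * inner ℝ e f = 0 := by
      have h5 : inner ℝ (∑ h ∈ S, Rt m h e) f = (0 : ℝ) := by rw [hav, inner_zero_left]
      rw [sum_inner, Finset.sum_congr rfl h2, Finset.sum_const, nsmul_eq_mul] at h5
      exact h5
    have h6 : (S.card : ℝ) ≠ 0 := by
      have : (1 : Equiv.Perm (Pos m)) ∈ S := (hmS 1).2 (by simp)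
      have : S.card ≠ 0 := Finset.card_ne_zero_of_mem this
      exact_mod_cast this
    exact (mul_eq_zero.1 h4).resolve_left h6
  have h7 : e ∈ (Submodule.span ℝ {e})ᗮ := key (WW_le_Ug m j (hE he))
  rw [Submodule.mem_orthogonal_singleton_iff_inner_right] at h7
  rw [Submodule.mem_bot]
  exact inner_self_eq_zero.1 h7

end Crest.Agent.R155
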