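import Crest.Agent.R155.Defs
import Crest.Agent.R155.ModDefs

/-!
# Row 155: definitions of the spectral part

`VG m` = functions on `Perm (Pos m)` (the states of the whole deck), `Pop` = one pass,
`(Pop f)(x) = ∑_y PG x y f y = E f(g x)`; it commutes with the right translations `Rt h`,
`(Rt h f)(g) = f (g h)`.  `Ug m j` = sums of functions which depend on `j` cards only
(= fixed by the right translations by the permutations supported in a set of size `2^m - j`);
`WW m j` = pure level `j`.
-/

set_option autoImplicit false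

namespace Crest.Agent.R155

/-- functions on the states of the deck -/
abbrev VG (m : ℕ) := EuclideanSpace ℝ (Equiv.Perm (Pos m))

/-- right translations `(Rt h f) g = f (g * h)` -/
noncomputable def Rt (m : ℕ) : Equiv.Perm (Pos m) →* (VG m →ₗ[ℝ] VG m) where
  toFun h :=
    { toFun := fun f => WithLp.toLp 2 (fun g => f (g * h))
      map_add' := by intro f f'; rfl
      map_smul' := by intro c f; rfl }
  map_one' := by
    apply LinearMap.ext; intro f
    ext g
    simp
  map_mul' := by
    intro h h'
    apply LinearMap.ext; intro f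
    ext g
    simp [mul_assoc]

@[simp] theorem Rt_apply (m : ℕ) (h : Equiv.Perm (Pos m)) (f : VG m) (g : Equiv.Perm (Pos m)) :
    Rt m h f g = f (g * h) := rfl

/-- one pass as an operator -/
noncomputable def Pop (m : ℕ) : VG m →ₗ[ℝ] VG m := Matrix.toEuclideanLin (PG m)

/-- the Benes operator -/
noncomputable def Xop (m : ℕ) : VG m →ₗ[ℝ] VG m := Pop m * LinearMap.adjoint (Pop m)

/-- functions of `j` cards -/
noncomputable def Ug (m j : ℕ) : Submodule ℝ (VG m) :=
  ⨆ B : {B : Finset (Pos m) // B.card = 2 ^ m - j}, fixSub (Rt m) B.1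

/-- pure level `j` -/
noncomputable def WW (m : ℕ) : ℕ → Submodule ℝ (VG m)
  | 0 => Ug m 0
  | j + 1 => Ug m (j + 1) ⊓ (Ug m j)ᗮ

/-- trace of `X^64` on the pure level `j` -/
noncomputable def trW (m j : ℕ) : ℝ :=
  LinearMap.trace ℝ (VG m)
    ((((WW m j).starProjection : VG m →L[ℝ] VG m) : VG m →ₗ[ℝ] VG m) ∘ₗ (Xop m ^ 64))

end Crest.Agent.R155
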