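import Crest.Agent.R155.SpecBasic
import Crest.Agent.R155.Schatten

/-!
# PIECE SPECTRACE (row 155): chi-square as a sum over the levels

`n! ∑_g (P^K(1,g))² = ∑_{x,y} (P^K(x,y))²` (by `PG (x h) (y h) = PG x y`) `= tr (Pop^K (Pop†)^K)`.
The `WW m j`, `0 ≤ j ≤ 2^m`, are invariant under `Pop`, `Pop†`, orthogonal and span `VG m`
(`LinearMap.trace_eq_sum_trace_restrict` or a collected orthonormal basis), so the trace is the sum of the
traces of the restrictions.  `j = 0`: constants, `Pop = 1` there (rows sum to one), contribution `1`,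
which cancels the `-1` of `chi2`.  For `j ≥ 1` apply `schatten` to the restriction of `Pop` to `WW m j`
(its adjoint is the restriction of `Pop†`); the trace of the restriction of `Xop^64` is `trW m j`.
-/

set_option autoImplicit false

namespace Crest.Agent.R155

namespace SpecTraceaux

theorem Pop_apply (m : ℕ) (f : VG m) (x : Equiv.Perm (Pos m)) :
    Pop m f x = ∑ y, PG m x y * f y := by
  rw [Pop, Matrix.toLpLin_apply]
  rfl

theorem Pop_pow_apply (m K : ℕ) (f : VG m) (x : Equiv.Perm (Pos m)) :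
    (Pop m ^ K) f x = ∑ y, (PG m ^ K) x y * f y := by
  induction K generalizing x with
  | zero =>
    simp [Matrix.one_apply]
  | succ K ih =>
    rw [pow_succ', pow_succ', Module.End.mul_apply, Pop_apply]
    simp_rw [ih, Matrix.mul_apply, Finset.mul_sum, Finset.sum_mul]
    rw [Finset.sum_comm]
    simp_rw [mul_assoc]

theorem Pop_pow_single (m K : ℕ) (x y : Equiv.Perm (Pos m)) :
    (Pop m ^ K) (EuclideanSpace.single y (1 : ℝ)) x = (PG m ^ K) x y := by
  rw [Pop_pow_apply]
  simp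

theorem Rt_Pop_pow (m K : ℕ) (h : Equiv.Perm (Pos m)) (f : VG m) :
    Rt m h ((Pop m ^ K) f) = (Pop m ^ K) (Rt m h f) := by
  induction K with
  | zero => simp
  | succ K ih =>
    rw [pow_succ', Module.End.mul_apply, Module.End.mul_apply, Rt_Pop, ih]

theorem PG_pow_mul (m K : ℕ) (x y h : Equiv.Perm (Pos m)) :
    (PG m ^ K) (x * h) y = (PG m ^ K) x (y * h⁻¹) := by
  have e : Rt m h (EuclideanSpace.single y (1 : ℝ)) = EuclideanSpace.single (y * h⁻¹) (1 : ℝ) := by
    ext z
    rw [Rt_apply]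
    simp only [EuclideanSpace.single_apply, eq_mul_inv_iff_mul_eq]
  rw [← Pop_pow_single, ← Pop_pow_single, ← Rt_apply, Rt_Pop_pow, e]

theorem PG_pow_one (m K : ℕ) (x y : Equiv.Perm (Pos m)) :
    (PG m ^ K) x y = (PG m ^ K) 1 (y * x⁻¹) := by
  have := PG_pow_mul m K 1 y x
  rwa [one_mul] at this

theorem sum_sq (m K : ℕ) :
    ∑ y, ∑ x, ((PG m ^ K) x y) ^ 2 =
      ((2 ^ m).factorial : ℝ) * ∑ g : Equiv.Perm (Pos m), ((PG m ^ K) 1 g) ^ 2 := by
  rw [Finset.sum_comm]
  have h1 : ∀ x : Equiv.Perm (Pos m), ∑ y, ((PG m ^ K) x y) ^ 2 =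
      ∑ g : Equiv.Perm (Pos m), ((PG m ^ K) 1 g) ^ 2 := by
    intro x
    rw [← Equiv.sum_comp (Equiv.mulRight x⁻¹) (fun g => ((PG m ^ K) 1 g) ^ 2)]
    refine Finset.sum_congr rfl fun y _ => ?_
    rw [PG_pow_one m K x y]
    rfl
  simp_rw [h1]
  rw [Finset.sum_const, nsmul_eq_mul, Finset.card_univ, Fintype.card_perm]
  simp

theorem adj_pow (m K : ℕ) (f g : VG m) :
    inner ℝ ((LinearMap.adjoint (Pop m) ^ K) f) g = inner ℝ f ((Pop m ^ K) g) := by
  induction K generalizing f g with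
  | zero => simp
  | succ K ih =>
    rw [pow_succ, pow_succ', Module.End.mul_apply, Module.End.mul_apply, ih,
      LinearMap.adjoint_inner_left]

theorem trace_eq (m K : ℕ) :
    LinearMap.trace ℝ (VG m) (Pop m ^ K * (LinearMap.adjoint (Pop m)) ^ K) =
      ((2 ^ m).factorial : ℝ) * ∑ g : Equiv.Perm (Pos m), ((PG m ^ K) 1 g) ^ 2 := by
  rw [LinearMap.trace_mul_comm,
    LinearMap.trace_eq_sum_inner _ (EuclideanSpace.basisFun (Equiv.Perm (Pos m)) ℝ), ← sum_sq]
  refine Finset.sum_congr rfl fun y _ => ?_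
  rw [Module.End.mul_apply, EuclideanSpace.basisFun_apply, real_inner_comm, adj_pow,
    real_inner_self_eq_norm_sq, EuclideanSpace.norm_sq_eq]
  refine Finset.sum_congr rfl fun x _ => ?_
  rw [Pop_pow_single, Real.norm_eq_abs, sq_abs]

theorem isInternal (m : ℕ) :
    DirectSum.IsInternal (fun j : Fin (2 ^ m + 1) => WW m j.val) := by
  have horth : OrthogonalFamily ℝ (fun j : Fin (2 ^ m + 1) => WW m j.val)
      (fun j => (WW m j.val).subtypeₗᵢ) := by
    intro i j hij v w
    exact WW_orth m i.val j.val (fun h => hij (Fin.ext h)) v.1 v.2 w.1 w.2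
  rw [horth.isInternal_iff, WW_sup, Submodule.top_orthogonal_eq_bot]

theorem PG_row (m : ℕ) (x : Equiv.Perm (Pos m)) : ∑ y, PG m x y = 1 := PL_row _ _ _

theorem Pop_zero (m : ℕ) (f : VG m) (hf : f ∈ WW m 0) : Pop m f = f := by
  rw [mem_WW_zero] at hf
  ext x
  rw [Pop_apply]
  have : ∀ y, PG m x y * f y = PG m x y * f x := fun y => by rw [hf y x]
  simp_rw [this]
  rw [← Finset.sum_mul, PG_row, one_mul]

theorem PopAdj_zero (m : ℕ) (f : VG m) (hf : f ∈ WW m 0) :
    LinearMap.adjoint (Pop m) f = f := by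
  have hd : LinearMap.adjoint (Pop m) f - f ∈ WW m 0 :=
    Submodule.sub_mem _ (WW_PopAdj m 0 f hf) hf
  have h0 : inner ℝ (LinearMap.adjoint (Pop m) f - f) (LinearMap.adjoint (Pop m) f - f) = 0 := by
    conv_lhs => rw [inner_sub_left]
    rw [LinearMap.adjoint_inner_left, Pop_zero m _ hd, sub_self]
  exact sub_eq_zero.1 (inner_self_eq_zero.1 h0)

theorem Pop_pow_mem (m j K : ℕ) (f : VG m) (hf : f ∈ WW m j) : (Pop m ^ K) f ∈ WW m j := by
  induction K with
  | zero => simpa using hf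
  | succ K ih =>
    rw [pow_succ', Module.End.mul_apply]
    exact WW_Pop m j _ ih

theorem PopAdj_pow_mem (m j K : ℕ) (f : VG m) (hf : f ∈ WW m j) :
    (LinearMap.adjoint (Pop m) ^ K) f ∈ WW m j := by
  induction K with
  | zero => simpa using hf
  | succ K ih =>
    rw [pow_succ', Module.End.mul_apply]
    exact WW_PopAdj m j _ ih

theorem Xop_pow_mem (m j K : ℕ) (f : VG m) (hf : f ∈ WW m j) : (Xop m ^ K) f ∈ WW m j := by
  induction K with
  | zero => simpa using hf
  | succ K ih =>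
    rw [pow_succ', Module.End.mul_apply]
    exact WW_Xop m j _ ih

theorem T_mem (m j K : ℕ) (f : VG m) (hf : f ∈ WW m j) :
    (Pop m ^ K * (LinearMap.adjoint (Pop m)) ^ K) f ∈ WW m j := by
  rw [Module.End.mul_apply]
  exact Pop_pow_mem m j K _ (PopAdj_pow_mem m j K f hf)

theorem finrank_zero (m : ℕ) : Module.finrank ℝ (WW m 0) = 1 := by
  have h1 : (WithLp.toLp 2 (fun _ => 1) : VG m) ∈ WW m 0 := by
    rw [mem_WW_zero]
    intro x y
    rfl
  refine finrank_eq_one (⟨_, h1⟩ : WW m 0) ?_ ?_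
  · intro h
    have := congrArg (fun w : WW m 0 => (w : VG m) 1) h
    simp at this
  · intro w
    refine ⟨(w : VG m) 1, ?_⟩
    apply Subtype.ext
    ext x
    have := (mem_WW_zero m (w : VG m)).1 w.2 x 1
    simp [this]

theorem trace_zero (m K : ℕ) :
    LinearMap.trace ℝ (WW m 0) ((Pop m ^ K * (LinearMap.adjoint (Pop m)) ^ K).restrict
      (T_mem m 0 K)) = 1 := by
  have h1 : (Pop m ^ K * (LinearMap.adjoint (Pop m)) ^ K).restrict (T_mem m 0 K) = 1 := by
    apply LinearMap.ext
    intro v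
    apply Subtype.ext
    rw [LinearMap.coe_restrict_apply, Module.End.mul_apply]
    have h2 : ∀ n : ℕ, ((LinearMap.adjoint (Pop m)) ^ n) (v : VG m) = v := by
      intro n
      induction n with
      | zero => simp
      | succ n ih => rw [pow_succ', Module.End.mul_apply, ih, PopAdj_zero m _ v.2]
    have h3 : ∀ n : ℕ, ((Pop m) ^ n) (v : VG m) = v := by
      intro n
      induction n with
      | zero => simp
      | succ n ih => rw [pow_succ', Module.End.mul_apply, ih, Pop_zero m _ v.2]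
    rw [h2, h3]
    rfl
  rw [h1, LinearMap.trace_one, finrank_zero, Nat.cast_one]

theorem trace_level (m j : ℕ) (a : ℝ) (ha0 : 0 ≤ a)
    (ha : ∀ v ∈ WW m j, ‖LinearMap.adjoint (Pop m) v‖ ^ 2 ≤ a * ‖v‖ ^ 2) :
    LinearMap.trace ℝ (WW m j) ((Pop m ^ 1600 * (LinearMap.adjoint (Pop m)) ^ 1600).restrict
      (T_mem m j 1600)) ≤ a ^ 1536 * trW m j := by
  set A : WW m j →ₗ[ℝ] WW m j := (Pop m).restrict (WW_Pop m j) with hA
  have hAd : LinearMap.adjoint A = (LinearMap.adjoint (Pop m)).restrict (WW_PopAdj m j) := by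
    symm
    rw [LinearMap.eq_adjoint_iff]
    intro v w
    rw [Submodule.coe_inner, Submodule.coe_inner, LinearMap.coe_restrict_apply, hA,
      LinearMap.coe_restrict_apply, LinearMap.adjoint_inner_left]
  have hApow : ∀ (n : ℕ) (v : WW m j), ((A ^ n) v : VG m) = (Pop m ^ n) (v : VG m) := by
    intro n v
    induction n with
    | zero => simp
    | succ n ih =>
      rw [pow_succ', pow_succ', Module.End.mul_apply, Module.End.mul_apply, ← ih]
      rfl
  have hAdpow : ∀ (n : ℕ) (v : WW m j), ((LinearMap.adjoint A ^ n) v : VG m) =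
      (LinearMap.adjoint (Pop m) ^ n) (v : VG m) := by
    intro n v
    rw [hAd]
    induction n with
    | zero => simp
    | succ n ih =>
      rw [pow_succ', pow_succ', Module.End.mul_apply, Module.End.mul_apply, ← ih]
      rfl
  have hXpow : ∀ (n : ℕ) (v : WW m j), (((A * LinearMap.adjoint A) ^ n) v : VG m) =
      (Xop m ^ n) (v : VG m) := by
    intro n v
    induction n with
    | zero => simp
    | succ n ih =>
      have h1 : ((A * LinearMap.adjoint A) ^ (n + 1)) v =
          A (LinearMap.adjoint A (((A * LinearMap.adjoint A) ^ n) v)) := by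
        rw [pow_succ', Module.End.mul_apply, Module.End.mul_apply]
      have h2 : (Xop m ^ (n + 1)) (v : VG m) = Xop m ((Xop m ^ n) (v : VG m)) := by
        rw [pow_succ', Module.End.mul_apply]
      rw [h1, h2, ← ih, hAd]
      rfl
  have e1 : (Pop m ^ 1600 * (LinearMap.adjoint (Pop m)) ^ 1600).restrict (T_mem m j 1600) =
      A ^ 1600 * (LinearMap.adjoint A) ^ 1600 := by
    apply LinearMap.ext
    intro v
    apply Subtype.ext
    rw [LinearMap.coe_restrict_apply, Module.End.mul_apply, Module.End.mul_apply, hApow, hAdpow]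
  have e2 : trW m j = LinearMap.trace ℝ (WW m j) ((A * LinearMap.adjoint A) ^ 64) := by
    unfold trW
    generalize 64 = n
    have hmem : ∀ x, ((((WW m j).starProjection : VG m →L[ℝ] VG m) : VG m →ₗ[ℝ] VG m) ∘ₗ
        (Xop m ^ n)) x ∈ WW m j := by
      intro x
      exact Submodule.starProjection_apply_mem _ _
    rw [← LinearMap.trace_restrict_eq_of_forall_mem (WW m j) _ hmem]
    have e3 : ((((WW m j).starProjection : VG m →L[ℝ] VG m) : VG m →ₗ[ℝ] VG m) ∘ₗ
        (Xop m ^ n)).restrict (fun x _ => hmem x) = (A * LinearMap.adjoint A) ^ n := by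
      apply LinearMap.ext
      intro v
      apply Subtype.ext
      rw [LinearMap.coe_restrict_apply, hXpow]
      exact Submodule.starProjection_eq_self_iff.2 (Xop_pow_mem m j n _ v.2)
    rw [e3]
  rw [e1, e2]
  refine schatten A a ha0 ?_
  intro v
  have := ha v.1 v.2
  rw [hAd]
  exact this

theorem chi2_eq (m : ℕ) :
    chi2 m = ∑ j : Fin (2 ^ m), LinearMap.trace ℝ (WW m (j.val + 1))
      ((Pop m ^ 1600 * (LinearMap.adjoint (Pop m)) ^ 1600).restrict
        (T_mem m (j.val + 1) 1600)) := by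
  have h := LinearMap.trace_eq_sum_trace_restrict (isInternal m)
    (f := Pop m ^ 1600 * (LinearMap.adjoint (Pop m)) ^ 1600)
    (fun j => fun v hv => T_mem m j.val 1600 v hv)
  rw [trace_eq] at h
  unfold chi2
  rw [h, Fin.sum_univ_succ]
  have h0 := trace_zero m 1600
  have : ∀ a b : ℝ, a = 1 → a + b - 1 = b := by intro a b h; rw [h]; ring
  exact this _ _ h0

end SpecTraceaux

open SpecTraceaux

theorem chi2_nonneg (m : ℕ) : 0 ≤ chi2 m := by
  have hrow : ∀ (K : ℕ) (x : Equiv.Perm (Pos m)), ∑ y, (PG m ^ K) x y = 1 := by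
    intro K
    induction K with
    | zero => intro x; simp [Matrix.one_apply]
    | succ K ih =>
      intro x
      rw [pow_succ']
      simp_rw [Matrix.mul_apply]
      rw [Finset.sum_comm]
      simp_rw [← Finset.mul_sum, ih, mul_one]
      exact PG_row m x
  have h1 := sq_sum_le_card_mul_sum_sq (s := (Finset.univ : Finset (Equiv.Perm (Pos m))))
    (f := fun g => (PG m ^ 1600) 1 g)
  rw [hrow, Finset.card_univ, Fintype.card_perm] at h1
  unfold chi2
  simp only [Fintype.card_pi, Fintype.card_bool, Finset.prod_const, Finset.card_univ,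
    Fintype.card_fin] at h1
  linarith

theorem chi2_le (m : ℕ) (a : ℕ → ℝ) (ha0 : ∀ j, 0 ≤ a j)
    (ha : ∀ j, 1 ≤ j → j ≤ 2 ^ m → ∀ v ∈ WW m j,
      ‖LinearMap.adjoint (Pop m) v‖ ^ 2 ≤ a j * ‖v‖ ^ 2) :
    chi2 m ≤ ∑ j ∈ Finset.Icc 1 (2 ^ m), (a j) ^ 1536 * trW m j := by
  rw [chi2_eq]
  have h2 : ∑ j ∈ Finset.Icc 1 (2 ^ m), (a j) ^ 1536 * trW m j =
      ∑ j : Fin (2 ^ m), (a (j.val + 1)) ^ 1536 * trW m (j.val + 1) := by
    rw [Fin.sum_univ_eq_sum_range (fun j => (a (j + 1)) ^ 1536 * trW m (j + 1)) (2 ^ m),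
      Finset.range_eq_Ico, Finset.sum_Ico_add' (fun j => (a j) ^ 1536 * trW m j) 0 (2 ^ m) 1]
    rfl
  rw [h2]
  refine Finset.sum_le_sum fun j _ => ?_
  exact trace_level m (j.val + 1) (a (j.val + 1)) (ha0 _)
    (ha (j.val + 1) (by omega) (by omega))

end Crest.Agent.R155
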