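import Crest.Agent.R155.Defs

/-!
# Splitting `Pos (m+1)` along a coordinate `b`
`ins b s y` is the position with bit `b` equal to `s` and the other bits given by `y`.
-/

set_option autoImplicit false

namespace Crest.Agent.R155

/-- insert the bit `s` at coordinate `b` -/
def ins {m : ℕ} (b : Fin (m + 1)) (s : Bool) (y : Pos m) : Pos (m + 1) :=
  Fin.insertNth (α := fun _ => Bool) b s y

/-- remove the coordinate `b` -/
def del {m : ℕ} (b : Fin (m + 1)) (x : Pos (m + 1)) : Pos m := fun i => x (b.succAbove i)

@[simp] theorem ins_self {m : ℕ} (b : Fin (m + 1)) (s : Bool) (y : Pos m) : ins b s y b = s := by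
  simp [ins]

@[simp] theorem ins_succAbove {m : ℕ} (b : Fin (m + 1)) (s : Bool) (y : Pos m) (i : Fin m) :
    ins b s y (b.succAbove i) = y i := by
  simp [ins]

@[simp] theorem del_ins {m : ℕ} (b : Fin (m + 1)) (s : Bool) (y : Pos m) :
    del b (ins b s y) = y := by
  funext i; simp [del]

@[simp] theorem ins_del {m : ℕ} (b : Fin (m + 1)) (x : Pos (m + 1)) :
    ins b (x b) (del b x) = x := by
  funext i
  rcases Fin.eq_self_or_eq_succAbove b i with h | ⟨k, h⟩
  · subst h; simp
  · subst h; simp [del]

/-- the splitting as an equivalence -/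
def splitE {m : ℕ} (b : Fin (m + 1)) : Pos (m + 1) ≃ Bool × Pos m where
  toFun x := (x b, del b x)
  invFun p := ins b p.1 p.2
  left_inv x := ins_del b x
  right_inv p := by simp

theorem update_ins_succAbove {m : ℕ} (b : Fin (m + 1)) (s : Bool) (y : Pos m) (i : Fin m)
    (t : Bool) :
    Function.update (ins b s y) (b.succAbove i) t = ins b s (Function.update y i t) := by
  funext k
  rcases Fin.eq_self_or_eq_succAbove b k with h | ⟨l, h⟩
  · subst h
    rw [Function.update_of_ne (Fin.ne_succAbove _ _)]
    simp
  · subst h
    by_cases hl : l = i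
    · subst hl; simp
    · rw [Function.update_of_ne (by simpa using hl)]
      simp [hl]

theorem flip_succAbove_ins {m : ℕ} (b : Fin (m + 1)) (s : Bool) (y : Pos m) (i : Fin m) :
    flip (b.succAbove i) (ins b s y) = ins b s (flip i y) := by
  unfold flip
  rw [update_ins_succAbove]
  simp

theorem flip_ins {m : ℕ} (b : Fin (m + 1)) (s : Bool) (y : Pos m) :
    flip b (ins b s y) = ins b (!s) y := by
  funext k
  rcases Fin.eq_self_or_eq_succAbove b k with h | ⟨l, h⟩
  · subst h; simp
  · subst h
    rw [flip_apply_ne (Fin.succAbove_ne _ _)]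
    simp

theorem update_ins_self {m : ℕ} (b : Fin (m + 1)) (s t : Bool) (y : Pos m) :
    Function.update (ins b s y) b t = ins b t y := by
  funext k
  rcases Fin.eq_self_or_eq_succAbove b k with h | ⟨l, h⟩
  · subst h; simp
  · subst h
    rw [Function.update_of_ne (Fin.succAbove_ne _ _)]
    simp

/-- a switch in another direction acts separately on the two halves -/
theorem sw_succAbove_ins {m : ℕ} (b : Fin (m + 1)) (c : Coin (m + 1)) (s : Bool) (y : Pos m)
    (i : Fin m) :
    sw (b.succAbove i) c (ins b s y) = ins b s (sw i (fun y' => c (ins b s y')) y) := by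
  rw [sw_apply, sw_apply, update_ins_succAbove, flip_succAbove_ins]
  split <;> rfl

/-- the switch in direction `b` exchanges the two halves -/
theorem sw_ins {m : ℕ} (b : Fin (m + 1)) (c : Coin (m + 1)) (s : Bool) (y : Pos m) :
    sw b c (ins b s y) = ins b (xor s (c (ins b false y))) y := by
  rw [sw_apply, update_ins_self, flip_ins]
  cases h : c (ins b false y) <;> simp

end Crest.Agent.R155
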