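import Crest.Agent.R155.Split
import Crest.Agent.R155.Ker

/-!
# Splitting colorings of `Pos (m+1)` into two halves (row 155)

`jn b φ₀ φ₁` is the coloring of `Pos (m+1)` whose halves in direction `b` are `φ₀` and `φ₁`.
-/

set_option autoImplicit false

namespace Crest.Agent.R155

/-- join two halves -/
def jn {m : ℕ} {γ : Type*} (b : Fin (m + 1)) (φ₀ φ₁ : Pos m → γ) : Pos (m + 1) → γ :=
  fun x => if x b then φ₁ (del b x) else φ₀ (del b x)

/-- a half -/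
def hf {m : ℕ} {γ : Type*} (b : Fin (m + 1)) (s : Bool) (φ : Pos (m + 1) → γ) : Pos m → γ :=
  fun y => φ (ins b s y)

@[simp] theorem jn_ins {m : ℕ} {γ : Type*} (b : Fin (m + 1)) (φ₀ φ₁ : Pos m → γ) (s : Bool)
    (y : Pos m) : jn b φ₀ φ₁ (ins b s y) = if s then φ₁ y else φ₀ y := by
  unfold jn
  simp

@[simp] theorem hf_jn_false {m : ℕ} {γ : Type*} (b : Fin (m + 1)) (φ₀ φ₁ : Pos m → γ) :
    hf b false (jn b φ₀ φ₁) = φ₀ := by
  funext y
  simp [hf]

@[simp] theorem hf_jn_true {m : ℕ} {γ : Type*} (b : Fin (m + 1)) (φ₀ φ₁ : Pos m → γ) :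
    hf b true (jn b φ₀ φ₁) = φ₁ := by
  funext y
  simp [hf]

@[simp] theorem jn_hf {m : ℕ} {γ : Type*} (b : Fin (m + 1)) (φ : Pos (m + 1) → γ) :
    jn b (hf b false φ) (hf b true φ) = φ := by
  funext x
  rw [← ins_del b x]
  rw [jn_ins]
  cases x b <;> simp [hf]

/-- splitting as an equivalence -/
def jnE {m : ℕ} {γ : Type*} (b : Fin (m + 1)) :
    (Pos m → γ) × (Pos m → γ) ≃ (Pos (m + 1) → γ) where
  toFun p := jn b p.1 p.2
  invFun φ := (hf b false φ, hf b true φ)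
  left_inv p := by simp
  right_inv φ := by simp

theorem jn_inj {m : ℕ} {γ : Type*} (b : Fin (m + 1)) (φ₀ φ₁ χ₀ χ₁ : Pos m → γ) :
    jn b φ₀ φ₁ = jn b χ₀ χ₁ ↔ φ₀ = χ₀ ∧ φ₁ = χ₁ := by
  constructor
  · intro h
    have := (jnE b).injective (a₁ := (φ₀, φ₁)) (a₂ := (χ₀, χ₁)) h
    simpa using this
  · rintro ⟨rfl, rfl⟩; rfl

theorem sum_jn {m : ℕ} {γ : Type*} [Fintype γ] [DecidableEq γ] (b : Fin (m + 1))
    (f : (Pos (m + 1) → γ) → ℝ) :
    ∑ φ, f φ = ∑ φ₀ : Pos m → γ, ∑ φ₁ : Pos m → γ, f (jn b φ₀ φ₁) := by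
  rw [← Equiv.sum_comp (jnE b) f, Fintype.sum_prod_type]
  rfl

theorem avg_jn {m : ℕ} {γ : Type*} [Fintype γ] [DecidableEq γ] (b : Fin (m + 1))
    (f : (Pos (m + 1) → γ) → ℝ) :
    avg f = avg (fun φ₀ : Pos m → γ => avg (fun φ₁ : Pos m → γ => f (jn b φ₀ φ₁))) := by
  rw [← avg_equiv (jnE b) f, avg_prod_type]
  rfl

/-- exchange of the two copies -/
def ex {H γ : Type*} (ε : H → Bool) (φ₀ φ₁ : H → γ) : H → γ := fun y => if ε y then φ₁ y else φ₀ y

/-- a matrix on the colorings of `Pos (m+1)` which is the tensor square of `Y` -/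
def IsSq {m q : ℕ} (b : Fin (m + 1)) (A : Matrix (Pos (m + 1) → Fin q) (Pos (m + 1) → Fin q) ℝ)
    (Y : Matrix (Pos m → Fin q) (Pos m → Fin q) ℝ) : Prop :=
  ∀ φ₀ φ₁ χ₀ χ₁, A (jn b φ₀ φ₁) (jn b χ₀ χ₁) = Y φ₀ χ₀ * Y φ₁ χ₁

theorem IsSq.one {m q : ℕ} (b : Fin (m + 1)) :
    IsSq b (1 : Matrix (Pos (m + 1) → Fin q) (Pos (m + 1) → Fin q) ℝ) 1 := by
  intro φ₀ φ₁ χ₀ χ₁
  simp only [Matrix.one_apply, jn_inj]
  by_cases h0 : φ₀ = χ₀ <;> by_cases h1 : φ₁ = χ₁ <;> simp [h0, h1]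

theorem IsSq.mul {m q : ℕ} {b : Fin (m + 1)}
    {A B : Matrix (Pos (m + 1) → Fin q) (Pos (m + 1) → Fin q) ℝ}
    {Y Z : Matrix (Pos m → Fin q) (Pos m → Fin q) ℝ} (hA : IsSq b A Y) (hB : IsSq b B Z) :
    IsSq b (A * B) (Y * Z) := by
  intro φ₀ φ₁ χ₀ χ₁
  simp only [Matrix.mul_apply]
  rw [sum_jn b, Finset.sum_mul_sum]
  refine Finset.sum_congr rfl fun ψ₀ _ => Finset.sum_congr rfl fun ψ₁ _ => ?_
  rw [hA, hB]
  ring

theorem IsSq.transpose {m q : ℕ} {b : Fin (m + 1)}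
    {A : Matrix (Pos (m + 1) → Fin q) (Pos (m + 1) → Fin q) ℝ}
    {Y : Matrix (Pos m → Fin q) (Pos m → Fin q) ℝ} (hA : IsSq b A Y) :
    IsSq b A.transpose Y.transpose := by
  intro φ₀ φ₁ χ₀ χ₁
  simp only [Matrix.transpose_apply]
  exact hA _ _ _ _

theorem actC_sw_succAbove_jn {m q : ℕ} (b : Fin (m + 1)) (i : Fin m) (c : Coin (m + 1))
    (φ₀ φ₁ : Pos m → Fin q) :
    actC (sw (b.succAbove i) c) (jn b φ₀ φ₁) =
      jn b (actC (sw i (hf b false c)) φ₀) (actC (sw i (hf b true c)) φ₁) := by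
  funext x
  rw [← ins_del b x]
  rw [jn_ins]
  unfold actC
  rw [sw_symm, sw_succAbove_ins, jn_ins]
  cases x b <;> rfl

theorem IsSq.lay {m q : ℕ} (b : Fin (m + 1)) (i : Fin m) :
    IsSq (q := q) b (lay actC (b.succAbove i)) (lay actC i) := by
  intro φ₀ φ₁ χ₀ χ₁
  unfold R155.lay ker
  rw [avg_jn b]
  have h : ∀ c₀ c₁ : Coin m,
      (if actC (sw (b.succAbove i) (jn b c₀ c₁)) (jn b φ₀ φ₁) = jn b χ₀ χ₁ then (1 : ℝ) else 0)
      = (if actC (sw i c₀) φ₀ = χ₀ then 1 else 0) * (if actC (sw i c₁) φ₁ = χ₁ then 1 else 0) := by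
    intro c₀ c₁
    simp only [actC_sw_succAbove_jn, jn_inj, hf_jn_false, hf_jn_true]
    by_cases h0 : actC (sw i c₀) φ₀ = χ₀ <;> by_cases h1 : actC (sw i c₁) φ₁ = χ₁ <;>
      simp [h0, h1]
  simp only [h]
  simp only [avg_mul_left, avg_mul_right]

theorem IsSq.PL {m q : ℕ} (b : Fin (m + 1)) (L : List (Fin m)) :
    IsSq (q := q) b (PL actC (L.map b.succAbove)) (PL actC L) := by
  induction L with
  | nil =>
    rw [List.map_nil, PL_nil, PL_nil]
    exact IsSq.one b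
  | cons i L ih =>
    rw [List.map_cons, PL_cons, PL_cons]
    exact (IsSq.lay b i).mul ih

theorem IsSq.XL {m q : ℕ} (b : Fin (m + 1)) (L : List (Fin m)) :
    IsSq (q := q) b (XL actC (L.map b.succAbove)) (XL actC L) := by
  unfold R155.XL
  exact (IsSq.PL b L).mul (IsSq.PL b L).transpose

theorem actC_sw_jn {m q : ℕ} (b : Fin (m + 1)) (c : Coin (m + 1)) (φ₀ φ₁ : Pos m → Fin q) :
    actC (sw b c) (jn b φ₀ φ₁) =
      jn b (ex (hf b false c) φ₀ φ₁) (ex (hf b false c) φ₁ φ₀) := by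
  funext x
  rw [← ins_del b x]
  rw [jn_ins]
  unfold actC
  rw [sw_symm, sw_ins, jn_ins]
  unfold ex hf
  cases x b <;> cases c (ins b false (del b x)) <;> rfl

theorem actC_one {m q : ℕ} (φ : Pos m → Fin q) : actC 1 φ = φ := rfl

theorem actC_mul {m q : ℕ} (g h : Equiv.Perm (Pos m)) (φ : Pos m → Fin q) :
    actC (g * h) φ = actC g (actC h φ) := rfl

/-- left multiplication by a kernel -/
theorem ker_mul_apply {Ω S : Type*} [Fintype Ω] [Fintype S] [DecidableEq S]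
    (f : Ω → S → S) (A : Matrix S S ℝ) (s t : S) :
    (ker f * A) s t = avg (fun ω => A (f ω s) t) := by
  rw [Matrix.mul_apply]
  exact ker_mulVec f (fun u => A u t) s

/-- `lay b * A * lay b` on the diagonal -/
theorem lay_mul_mul_lay {m : ℕ} {S : Type*} [Fintype S] [DecidableEq S]
    (a : Equiv.Perm (Pos m) → S → S) (h1 : ∀ s, a 1 s = s)
    (hmul : ∀ g h s, a (g * h) s = a g (a h s)) (b : Fin m) (A : Matrix S S ℝ) (s t : S) :
    (lay a b * A * lay a b) s t =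
      avg (fun c : Coin m => avg (fun c' : Coin m => A (a (sw b c) s) (a (sw b c') t))) := by
  rw [Matrix.mul_assoc]
  conv_lhs => arg 1; unfold lay
  rw [ker_mul_apply]
  congr 1
  funext c
  have : (A * lay a b) (a (sw b c) s) t = (lay a b * A.transpose) t (a (sw b c) s) := by
    rw [← Matrix.transpose_apply (lay a b * A.transpose), Matrix.transpose_mul,
      Matrix.transpose_transpose, lay_transpose a h1 hmul]
  rw [this]
  unfold lay
  rw [ker_mul_apply]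
  rfl

/-- average over the coins of the layer `b` of a function of the coins at `x b = false` -/
theorem avg_hf {m : ℕ} (b : Fin (m + 1)) (f : Coin m → ℝ) :
    avg (fun c : Coin (m + 1) => f (hf b false c)) = avg f := by
  rw [avg_jn b]
  simp only [hf_jn_false]
  congr 1
  funext c
  exact avg_const _

/-- the weight as a product over sites -/
theorem wt_eq_prod {H : Type*} [Fintype H] [DecidableEq H] {q : ℕ} [NeZero q] (a : ℕ)
    (J : Finset H) (φ : H → Fin q) :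
    wt a J φ = ∏ x, (if φ x = 0 then (1 : ℝ) else if x ∈ J then (1 / 2) ^ a else 0) := by
  unfold wt
  by_cases h : supp φ ⊆ J
  · rw [if_pos h]
    have : ∀ x, (if φ x = 0 then (1 : ℝ) else if x ∈ J then (1 / 2) ^ a else 0) =
        if φ x ≠ 0 then (1 / 2) ^ a else 1 := by
      intro x
      by_cases hx : φ x = 0
      · simp [hx]
      · have : x ∈ J := h (by simp [supp, hx])
        simp [hx, this]
    simp only [this]
    rw [Finset.prod_ite, Finset.prod_const, Finset.prod_const_one, mul_one, pow_mul]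
    rfl
  · rw [if_neg h]
    rw [Finset.not_subset] at h
    obtain ⟨x, hx, hxJ⟩ := h
    symm
    apply Finset.prod_eq_zero (Finset.mem_univ x)
    have : φ x ≠ 0 := by simpa [supp] using hx
    simp [this, hxJ]

theorem wt_nonneg {H : Type*} [Fintype H] [DecidableEq H] {q : ℕ} [NeZero q] (a : ℕ)
    (J : Finset H) (φ : H → Fin q) : 0 ≤ wt a J φ := by
  unfold wt
  split_ifs <;> positivity

theorem prod_split {m : ℕ} (b : Fin (m + 1)) (f : Pos (m + 1) → ℝ) :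
    ∏ x, f x = ∏ y : Pos m, (f (ins b false y) * f (ins b true y)) := by
  rw [← Equiv.prod_comp (splitE b).symm f, Fintype.prod_prod_type_right]
  refine Finset.prod_congr rfl fun y _ => ?_
  rw [Fintype.prod_bool, mul_comm]
  rfl

/-- the half `s` of `J` after exchange with the coins `ε` -/
def sl {m : ℕ} (b : Fin (m + 1)) (ε : Pos m → Bool) (J : Finset (Pos (m + 1))) (s : Bool) :
    Finset (Pos m) :=
  Finset.univ.filter fun y => ins b (xor s (ε y)) y ∈ J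

/-- the weight of a coloring after an exchange -/
theorem wt_ex {m q : ℕ} [NeZero q] (b : Fin (m + 1)) (ε : Pos m → Bool) (a : ℕ)
    (J : Finset (Pos (m + 1))) (φ₀ φ₁ : Pos m → Fin q) :
    wt a J (jn b (ex ε φ₀ φ₁) (ex ε φ₁ φ₀)) =
      wt a (sl b ε J false) φ₀ * wt a (sl b ε J true) φ₁ := by
  simp only [wt_eq_prod]
  rw [prod_split b, ← Finset.prod_mul_distrib]
  refine Finset.prod_congr rfl fun y _ => ?_
  rw [jn_ins, jn_ins]
  unfold ex sl
  simp only [Finset.mem_filter, Finset.mem_univ, true_and]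
  cases h : ε y
  · simp
  · simp only [Bool.false_eq_true, if_false, if_true, Bool.xor_true, Bool.not_false,
      Bool.not_true]
    rw [mul_comm]

/-- the exchange of the two halves as a permutation of the pairs -/
def exE {H γ : Type*} (ε : H → Bool) : (H → γ) × (H → γ) ≃ (H → γ) × (H → γ) where
  toFun p := (ex ε p.1 p.2, ex ε p.2 p.1)
  invFun p := (ex ε p.1 p.2, ex ε p.2 p.1)
  left_inv p := by
    apply Prod.ext <;> (funext y; simp only [ex]; cases ε y <;> rfl)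
  right_inv p := by
    apply Prod.ext <;> (funext y; simp only [ex]; cases ε y <;> rfl)

/-- `(E A E)(φ,φ)` for `E` the layer `b` and `A = Y ⊗ Y` -/
theorem diag_two_copy {m q : ℕ} (b : Fin (m + 1))
    (A : Matrix (Pos (m + 1) → Fin q) (Pos (m + 1) → Fin q) ℝ)
    (Y : Matrix (Pos m → Fin q) (Pos m → Fin q) ℝ) (hA : IsSq b A Y) (φ₀ φ₁ : Pos m → Fin q) :
    (lay actC b * A * lay actC b : Matrix (Pos (m + 1) → Fin q) (Pos (m + 1) → Fin q) ℝ)
        (jn b φ₀ φ₁) (jn b φ₀ φ₁) =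
      avg (fun ε' : Pos m → Bool => avg (fun ε : Pos m → Bool =>
        Y (ex ε φ₀ φ₁) (ex ε' φ₀ φ₁) * Y (ex ε φ₁ φ₀) (ex ε' φ₁ φ₀))) := by
  rw [lay_mul_mul_lay actC actC_one actC_mul b A, avg_comm]
  have h1 : ∀ c c' : Coin (m + 1), A (actC (sw b c) (jn b φ₀ φ₁)) (actC (sw b c') (jn b φ₀ φ₁)) =
      Y (ex (hf b false c) φ₀ φ₁) (ex (hf b false c') φ₀ φ₁) *
        Y (ex (hf b false c) φ₁ φ₀) (ex (hf b false c') φ₁ φ₀) := by
    intro c c'
    rw [actC_sw_jn, actC_sw_jn, hA]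
  simp only [h1]
  rw [avg_hf b (fun ε' => avg (fun c : Coin (m + 1) =>
      Y (ex (hf b false c) φ₀ φ₁) (ex ε' φ₀ φ₁) * Y (ex (hf b false c) φ₁ φ₀) (ex ε' φ₁ φ₀)))]
  congr 1
  funext ε'
  exact avg_hf b (fun ε => Y (ex ε φ₀ φ₁) (ex ε' φ₀ φ₁) * Y (ex ε φ₁ φ₀) (ex ε' φ₁ φ₀))

/-- `∑_φ wt φ (E A E)(φ,φ)` for `E` the layer `b` and `A = Y ⊗ Y` in the form of the two-copy
inequality -/
theorem trace_two_copy {m q : ℕ} [NeZero q] (b : Fin (m + 1))
    (A : Matrix (Pos (m + 1) → Fin q) (Pos (m + 1) → Fin q) ℝ)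
    (Y : Matrix (Pos m → Fin q) (Pos m → Fin q) ℝ) (hA : IsSq b A Y) (a : ℕ)
    (J : Finset (Pos (m + 1))) :
    ∑ φ : Pos (m + 1) → Fin q, wt a J φ *
        (lay actC b * A * lay actC b : Matrix (Pos (m + 1) → Fin q) (Pos (m + 1) → Fin q) ℝ) φ φ =
      avg (fun ε : Pos m → Bool => avg (fun B : Pos m → Bool =>
        ∑ φ₀ : Pos m → Fin q, ∑ φ₁ : Pos m → Fin q,
          wt a (sl b ε J false) φ₀ * wt a (sl b ε J true) φ₁ *
          (Y (ex B φ₀ φ₁) φ₀ * Y (ex B φ₁ φ₀) φ₁))) := by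
  rw [sum_jn b]
  simp only [diag_two_copy b A Y hA]
  have e2 : ∀ φ₀ φ₁ : Pos m → Fin q, wt a J (jn b φ₀ φ₁) *
      avg (fun ε' : Pos m → Bool => avg (fun ε : Pos m → Bool =>
        Y (ex ε φ₀ φ₁) (ex ε' φ₀ φ₁) * Y (ex ε φ₁ φ₀) (ex ε' φ₁ φ₀))) =
      avg (fun ε' : Pos m → Bool => avg (fun ε : Pos m → Bool => wt a J (jn b φ₀ φ₁) *
        (Y (ex ε φ₀ φ₁) (ex ε' φ₀ φ₁) * Y (ex ε φ₁ φ₀) (ex ε' φ₁ φ₀)))) := by
    intro φ₀ φ₁
    rw [← avg_mul_left]
    congr 1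
    funext ε'
    rw [← avg_mul_left]
  simp only [e2]
  have e3 : (∑ φ₀ : Pos m → Fin q, ∑ φ₁ : Pos m → Fin q,
      avg (fun ε' : Pos m → Bool => avg (fun ε : Pos m → Bool => wt a J (jn b φ₀ φ₁) *
        (Y (ex ε φ₀ φ₁) (ex ε' φ₀ φ₁) * Y (ex ε φ₁ φ₀) (ex ε' φ₁ φ₀))))) =
      avg (fun ε' : Pos m → Bool => avg (fun ε : Pos m → Bool =>
        ∑ φ₀ : Pos m → Fin q, ∑ φ₁ : Pos m → Fin q, wt a J (jn b φ₀ φ₁) *
        (Y (ex ε φ₀ φ₁) (ex ε' φ₀ φ₁) * Y (ex ε φ₁ φ₀) (ex ε' φ₁ φ₀)))) := by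
    rw [← Fintype.sum_prod_type']
    rw [← avg_sum]
    congr 1
    funext ε'
    rw [← avg_sum]
    congr 1
    funext ε
    rw [← Fintype.sum_prod_type']
  rw [e3]
  refine congrArg avg (funext fun ε' => ?_)
  -- reindex the average over `ε`
  let e : (Pos m → Bool) ≃ (Pos m → Bool) :=
    { toFun := fun B y => xor (B y) (ε' y)
      invFun := fun B y => xor (B y) (ε' y)
      left_inv := fun B => by funext y; simp
      right_inv := fun B => by funext y; simp }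
  rw [← avg_equiv e]
  refine congrArg avg (funext fun B => ?_)
  rw [← Fintype.sum_prod_type', ← Equiv.sum_comp (exE ε'), ← Fintype.sum_prod_type']
  refine Finset.sum_congr rfl fun p _ => ?_
  obtain ⟨φ₀, φ₁⟩ := p
  simp only [exE, Equiv.coe_fn_mk]
  have h3 : ∀ χ₀ χ₁ : Pos m → Fin q, ex ε' (ex ε' χ₀ χ₁) (ex ε' χ₁ χ₀) = χ₀ := by
    intro χ₀ χ₁
    funext y
    simp only [ex]
    cases ε' y <;> rfl
  have h4 : ∀ χ₀ χ₁ : Pos m → Fin q, ex (e B) (ex ε' χ₀ χ₁) (ex ε' χ₁ χ₀) = ex B χ₀ χ₁ := by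
    intro χ₀ χ₁
    funext y
    have he : e B y = xor (B y) (ε' y) := rfl
    simp only [ex, he]
    cases h1 : ε' y <;> cases h2 : B y <;> simp
  rw [h3, h3, h4, h4, wt_ex]

end Crest.Agent.R155
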