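import Crest.Agent.R155.Split
import Crest.Agent.R155.Ker
import Crest.Agent.R155.SplitC
import Crest.Agent.R155.Core

/-!
# PIECE TWOCOPY (row 155): two-copy inequality for the network, and the exponential bound

## Proof of `two_copy`
Split `Pos (m+1)` along `b` (`Split.lean`): colorings of `Pos (m+1)` = pairs `(φ₀, φ₁)` of colorings of
`Pos m` (`φ_s y = φ (ins b s y)`).  For the directions `b.succAbove i` the two halves evolve
independently: `XL actC (L.map b.succAbove) φ χ = Y φ₀ χ₀ * Y φ₁ χ₁`, `Y = XL actC L` on `Pos m`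
(coins on the two halves are independent, `sw_succAbove_ins`; first for one layer
`lay actC (b.succAbove i) φ χ = lay actC i φ₀ χ₀ * lay actC i φ₁ χ₁`, then for products).
`lay actC b φ χ = avg_ε 1[τ_ε φ = χ]`, `τ_ε` = exchange of the two copies on
`{y | ε y}` (`sw_ins`), `ε : Pos m → Bool` uniform.  So with `XL_cons`
`T (b :: L') a J = avg_ε avg_ε' ∑_φ wt a J φ (Y⊗Y)(τ_ε φ, τ_ε' φ)`; substituting `φ = τ_ε' φ'`
`= avg_ε' avg_B ∑_φ' wt a J (τ_ε' φ') (Y⊗Y)(τ_B φ', φ')` (`B = ε xor ε'`) and
`wt a J (τ_ε' φ') = wt a (sl b ε' J false) φ'₀ * wt a (sl b ε' J true) φ'₁`.  Now `two_copy_core`.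
(`Y = ker` of a random permutation of `Pos m`: product of `ker`s, `ker_mul`; `Y` is PSD: `XL_psd`.)

## Proof of `T_le`
Induction on the list (for all `m`, `a`, `J`).  `L = []`: `XL = 1`,
`T = ∑_φ wt a J φ = (1 + (q-1) 2^{-a})^{|J|} ≤ exp(|J| (q-1) 2^{-a})`.
`L = b :: L'` with `m = m'+1` and `b ∉ L'`, so `L' = L''.map b.succAbove`, `L''` nodup; by `two_copy`,
the induction hypothesis and `|sl b ε J false| + |sl b ε J true| = |J|`:
`T ≤ avg_ε √(exp(|J| (q-1) (3/4)^r (2^{-a-1} + 2^{-a}))) = exp(|J| (q-1) (3/4)^r 2^{-a} (3/4))`.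
-/

set_option autoImplicit false

namespace Crest.Agent.R155

theorem card_sl {m : ℕ} (b : Fin (m + 1)) (ε : Pos m → Bool) (J : Finset (Pos (m + 1))) :
    (sl b ε J false).card + (sl b ε J true).card = J.card := by
  classical
  have h : ∀ s : Bool, (sl b ε J s).card =
      ∑ y : Pos m, if ins b (xor s (ε y)) y ∈ J then 1 else 0 := by
    intro s
    unfold sl
    rw [Finset.card_filter]
  have hJ : J.card = ∑ x : Pos (m + 1), if x ∈ J then 1 else 0 := by
    simp
  rw [h, h, hJ, ← Finset.sum_add_distrib]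
  rw [← Equiv.sum_comp (splitE b).symm, Fintype.sum_prod_type_right]
  refine Finset.sum_congr rfl fun y _ => ?_
  rw [Fintype.sum_bool]
  have e : ∀ s, (splitE b).symm (s, y) = ins b s y := fun s => rfl
  rw [e, e]
  cases hε : ε y
  · simp only [Bool.xor_false]
    rw [add_comm]
  · simp only [Bool.false_xor, Bool.true_xor, Bool.not_true]

/-- every product of layers is the kernel of a random permutation -/
theorem PL_exists_ker {m : ℕ} {S : Type*} [Fintype S] [DecidableEq S]
    (a : Equiv.Perm (Pos m) → S → S) (h1 : ∀ s, a 1 s = s)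
    (hmul : ∀ g h s, a (g * h) s = a g (a h s)) (L : List (Fin m)) :
    ∃ (Ω : Type) (_ : Fintype Ω) (_ : Nonempty Ω) (g : Ω → Equiv.Perm (Pos m)),
      PL a L = ker (fun ω => a (g ω)) := by
  induction L with
  | nil =>
    refine ⟨Unit, inferInstance, inferInstance, fun _ => 1, ?_⟩
    ext s t
    rw [PL_nil]
    unfold ker
    simp only [h1]
    rw [avg_const, Matrix.one_apply]
  | cons i L ih =>
    obtain ⟨Ω, _, _, g, hg⟩ := ih
    refine ⟨Coin m × Ω, inferInstance, inferInstance, fun ω => g ω.2 * sw i ω.1, ?_⟩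
    rw [PL_cons, hg]
    unfold lay
    rw [ker_mul]
    congr 1
    funext ω s
    rw [hmul]

theorem XL_exists_ker {m : ℕ} {S : Type*} [Fintype S] [DecidableEq S]
    (a : Equiv.Perm (Pos m) → S → S) (h1 : ∀ s, a 1 s = s)
    (hmul : ∀ g h s, a (g * h) s = a g (a h s)) (L : List (Fin m)) :
    ∃ (Ω : Type) (_ : Fintype Ω) (_ : Nonempty Ω) (g : Ω → Equiv.Perm (Pos m)),
      XL a L = ker (fun ω => a (g ω)) := by
  obtain ⟨Ω, i1, i2, g, hg⟩ := PL_exists_ker a h1 hmul (L ++ L.reverse)
  refine ⟨Ω, i1, i2, g, ?_⟩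
  rw [← hg]
  unfold XL
  rw [PL_transpose a h1 hmul, PL_append]

/-- the two-copy inequality for a positive semidefinite kernel `Y` of a random permutation -/
theorem trace_two_copy_le {m q : ℕ} [NeZero q] (b : Fin (m + 1))
    (A : Matrix (Pos (m + 1) → Fin q) (Pos (m + 1) → Fin q) ℝ)
    (Y : Matrix (Pos m → Fin q) (Pos m → Fin q) ℝ) (hA : IsSq b A Y)
    {Ω : Type} [Fintype Ω] [Nonempty Ω] (g : Ω → Equiv.Perm (Pos m))
    (hY : Y = ker (fun (ω : Ω) => actC (g ω))) (hpsd : Y.PosSemidef) (a : ℕ)
    (J : Finset (Pos (m + 1))) :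
    ∑ φ : Pos (m + 1) → Fin q, wt a J φ *
        (lay actC b * A * lay actC b : Matrix (Pos (m + 1) → Fin q) (Pos (m + 1) → Fin q) ℝ) φ φ ≤
      avg (fun ε : Pos m → Bool =>
        Real.sqrt (TH Y (a + 1) (sl b ε J false) * TH Y (a + 1) (sl b ε J true) *
          TH Y a (sl b ε J false) * TH Y a (sl b ε J true))) := by
  rw [trace_two_copy b A Y hA a J]
  apply avg_le_avg
  intro ε
  exact two_copy_core g Y hY hpsd a (sl b ε J false) (sl b ε J true)

theorem two_copy {m q : ℕ} [NeZero q] (b : Fin (m + 1)) (L : List (Fin m)) (a : ℕ)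
    (J : Finset (Pos (m + 1))) :
    T q (b :: L.map b.succAbove) a J ≤ avg (fun ε : Pos m → Bool =>
      Real.sqrt (T q L (a + 1) (sl b ε J false) * T q L (a + 1) (sl b ε J true) *
        T q L a (sl b ε J false) * T q L a (sl b ε J true))) := by
  obtain ⟨Ω, i1, i2, g, hg⟩ := XL_exists_ker (actC (m := m) (q := q)) actC_one actC_mul L
  have h := trace_two_copy_le b (XL (actC (q := q)) (L.map b.succAbove)) (XL actC L)
    (IsSq.XL b L) g hg (XL_psd _ _) a J
  unfold T
  rw [XL_cons (actC (q := q)) actC_one actC_mul]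
  exact h

theorem T_nonneg {m q : ℕ} [NeZero q] (L : List (Fin m)) (a : ℕ) (J : Finset (Pos m)) :
    0 ≤ T q L a J :=
  Finset.sum_nonneg fun φ _ => mul_nonneg (wt_nonneg a J φ) (XL_nonneg _ _ _ _)

theorem T_nil_le {m q : ℕ} [NeZero q] (a : ℕ) (J : Finset (Pos m)) :
    T q [] a J ≤ Real.exp ((J.card : ℝ) * ((q : ℝ) - 1) * (1 / 2) ^ a) := by
  classical
  unfold T
  have hX : XL (actC (m := m) (q := q)) [] = 1 := by
    unfold XL
    rw [PL_nil]
    simp
  rw [hX]
  simp only [Matrix.one_apply_eq, mul_one, wt_eq_prod]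
  have h1 := Finset.prod_univ_sum (ι := Pos m) (κ := fun _ => Fin q)
    (fun _ => (Finset.univ : Finset (Fin q)))
    (fun x c => if c = 0 then (1 : ℝ) else if x ∈ J then (1 / 2) ^ a else 0)
  rw [Fintype.piFinset_univ] at h1
  rw [← h1]
  have hq : (1 : ℝ) ≤ q := by
    have : 1 ≤ q := Nat.one_le_iff_ne_zero.mpr (NeZero.ne q)
    exact_mod_cast this
  have h2 : ∀ x : Pos m, (∑ c : Fin q, if c = 0 then (1 : ℝ) else
      if x ∈ J then (1 / 2) ^ a else 0) =
      if x ∈ J then 1 + ((q : ℝ) - 1) * (1 / 2) ^ a else 1 := by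
    intro x
    rw [Finset.sum_ite]
    have e1 : (Finset.univ.filter fun c : Fin q => c = 0).card = 1 := by
      rw [Finset.card_eq_one]
      exact ⟨0, by ext; simp⟩
    have e2 : ((Finset.univ.filter fun c : Fin q => ¬ c = 0).card : ℝ) = (q : ℝ) - 1 := by
      have := Finset.card_filter_add_card_filter_not (s := (Finset.univ : Finset (Fin q)))
        (fun c => c = 0)
      rw [e1, Finset.card_univ, Fintype.card_fin] at this
      have h3 : (1 : ℝ) + ((Finset.univ.filter fun c : Fin q => ¬ c = 0).card : ℝ) = q := by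
        exact_mod_cast this
      linarith
    rw [Finset.sum_const, Finset.sum_const, e1, nsmul_eq_mul, nsmul_eq_mul, e2]
    split_ifs <;> simp
  simp only [h2]
  rw [Finset.prod_ite, Finset.prod_const, Finset.prod_const_one, mul_one]
  have h3 : (Finset.univ.filter fun x => x ∈ J).card = J.card := by
    congr 1
    ext x; simp
  rw [h3, mul_assoc, Real.exp_nat_mul]
  apply pow_le_pow_left₀
  · have : (0 : ℝ) ≤ (1 / 2) ^ a := by positivity
    nlinarith
  · rw [add_comm]
    exact Real.add_one_le_exp _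

theorem T_le_aux {q : ℕ} [NeZero q] (n : ℕ) : ∀ {m : ℕ} (L : List (Fin m)) (_ : L.Nodup)
    (_ : L.length = n) (a : ℕ) (J : Finset (Pos m)),
    T q L a J ≤ Real.exp ((J.card : ℝ) * ((q : ℝ) - 1) * (1 / 2) ^ a * (3 / 4) ^ L.length) := by
  induction n with
  | zero =>
    intro m L _ hlen a J
    rw [List.length_eq_zero_iff] at hlen
    subst hlen
    simpa using T_nil_le (q := q) a J
  | succ n ih =>
    intro m L hL hlen a J
    match L, hL, hlen with
    | [], _, hlen => simp at hlen
    | b :: L', hL, hlen =>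
      obtain ⟨hb, hL'⟩ := List.nodup_cons.mp hL
      -- `m = m' + 1`
      cases m with
      | zero => exact b.elim0
      | succ m =>
        -- `L' = L''.map b.succAbove`
        have hex : ∀ L₁ : List (Fin (m + 1)), b ∉ L₁ →
            ∃ L₂ : List (Fin m), L₁ = L₂.map b.succAbove := by
          intro L₁
          induction L₁ with
          | nil => intro _; exact ⟨[], rfl⟩
          | cons i L₁ ih₁ =>
            intro hi
            rw [List.mem_cons, not_or] at hi
            obtain ⟨L₂, h₂⟩ := ih₁ hi.2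
            obtain ⟨j, hj⟩ := Fin.exists_succAbove_eq (Ne.symm hi.1)
            exact ⟨j :: L₂, by rw [List.map_cons, hj, ← h₂]⟩
        obtain ⟨L'', hL''⟩ := hex L' hb
        subst hL''
        have hnd : L''.Nodup := List.Nodup.of_map _ hL'
        have hlen' : L''.length = n := by simpa using hlen
        have hx : (0 : ℝ) ≤ (1 / 2) ^ a := by positivity
        set x : ℝ := (1 / 2) ^ a with hxdef
        set Q : ℝ := (q : ℝ) - 1 with hQ
        set r : ℝ := (3 / 4) ^ L''.length with hr
        have h1 : ∀ (ε : Pos m → Bool) (s : Bool), T q L'' a (sl b ε J s) ≤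
            Real.exp (((sl b ε J s).card : ℝ) * Q * x * r) :=
          fun ε s => ih L'' hnd hlen' a _
        have h2 : ∀ (ε : Pos m → Bool) (s : Bool), T q L'' (a + 1) (sl b ε J s) ≤
            Real.exp (((sl b ε J s).card : ℝ) * Q * (x / 2) * r) := by
          intro ε s
          have := ih L'' hnd hlen' (a + 1) (sl b ε J s)
          have e : ((1 : ℝ) / 2) ^ (a + 1) = x / 2 := by
            rw [pow_succ, hxdef]; ring
          rw [e] at this
          exact this
        refine (two_copy b L'' a J).trans ?_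
        have hrhs : Real.exp ((J.card : ℝ) * Q * x * (3 / 4) ^ (b :: L''.map b.succAbove).length) =
            avg (fun _ : Pos m → Bool => Real.exp ((J.card : ℝ) * Q * x * (3 / 4) ^
              (b :: L''.map b.succAbove).length)) := (avg_const _).symm
        rw [hrhs]
        apply avg_le_avg
        intro ε
        apply Real.sqrt_le_iff.mpr
        refine ⟨(Real.exp_pos _).le, ?_⟩
        have hcard : ((sl b ε J false).card : ℝ) + ((sl b ε J true).card : ℝ) = J.card := by
          exact_mod_cast card_sl b ε J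
        have hprod : T q L'' (a + 1) (sl b ε J false) * T q L'' (a + 1) (sl b ε J true) *
            T q L'' a (sl b ε J false) * T q L'' a (sl b ε J true) ≤
            Real.exp (((sl b ε J false).card : ℝ) * Q * (x / 2) * r) *
            Real.exp (((sl b ε J true).card : ℝ) * Q * (x / 2) * r) *
            Real.exp (((sl b ε J false).card : ℝ) * Q * x * r) *
            Real.exp (((sl b ε J true).card : ℝ) * Q * x * r) := by
          have n1 := T_nonneg (q := q) L'' (a + 1) (sl b ε J false)
          have n2 := T_nonneg (q := q) L'' (a + 1) (sl b ε J true)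
          have n3 := T_nonneg (q := q) L'' a (sl b ε J false)
          have n4 := T_nonneg (q := q) L'' a (sl b ε J true)
          exact mul_le_mul (mul_le_mul (mul_le_mul (h2 ε false) (h2 ε true) n2
            (Real.exp_pos _).le) (h1 ε false) n3 (by positivity)) (h1 ε true) n4 (by positivity)
        refine hprod.trans (le_of_eq ?_)
        rw [← Real.exp_add, ← Real.exp_add, ← Real.exp_add, ← Real.exp_nat_mul]
        congr 1
        rw [← hcard, List.length_cons, List.length_map, pow_succ, ← hr]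
        push_cast
        ring

theorem T_le {m q : ℕ} [NeZero q] (L : List (Fin m)) (hL : L.Nodup) (a : ℕ)
    (J : Finset (Pos m)) :
    T q L a J ≤ Real.exp ((J.card : ℝ) * ((q : ℝ) - 1) * (1 / 2) ^ a * (3 / 4) ^ L.length) :=
  T_le_aux L.length L hL rfl a J

end Crest.Agent.R155
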