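import Crest.Agent.R155.Split
import Crest.Agent.R155.Ker
import Crest.Agent.R155.Core
import Crest.Agent.R155.SplitC
import Crest.Agent.R155.TwoCopy

/-!
# PIECE TSQREC (row 155): recursion for `Tsq`

`Tsq j a = Tr (X_j² M_a)`, `X_j = XL actC (down j)` on the 2-colorings of `Pos j`,
`M_a = diag(2^{-a |supp φ|})`.

## Proof
`down (j+1) = last :: (down j).map (last).succAbove` (`Fin.last j`, `succAbove = castSucc`), so by
`XL_cons` `X_{j+1} = E X' E`, `E = lay actC (last)`, `X' = X_j ⊗ X_j` after splitting `Pos (j+1)` along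
the last coordinate (see the header of `TwoCopy.lean`; the splitting statement
`XL actC (L.map b.succAbove) φ χ = XL actC L φ₀ χ₀ * XL actC L φ₁ χ₁` may be shared).
`E` is a symmetric idempotent (`lay_transpose`, `lay_mul_self`) which commutes with `M_a`
(permutations preserve the size of the support).  `X_{j+1}² = E X' E X' E`,
`Tr (E X' E X' E M) = ‖E X' E M^{1/2}‖²_HS = ‖E (X' E M^{1/2})‖²_HS ≤ ‖X' E M^{1/2}‖²_HS
= Tr (X'² E M E)`.  (`M^{1/2}` commutes with everything.)  So
`Tsq (j+1) a ≤ Tr (E X'² E M) = avg_ε avg_ε' ∑_φ wt φ (Y⊗Y)(τ_ε φ, τ_ε' φ)` with `Y = X_j²` and this is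
`avg_B ∑_φ wt φ (Y⊗Y)(τ_B φ, φ) ≤ √(TH Y (a+1) univ² · TH Y a univ²) = Tsq j (a+1) * Tsq j a`
by `two_copy_core` with `J₀ = J₁ = univ`; `Y = X_j²` is PSD and is the kernel of a random permutation.
-/

set_option autoImplicit false

namespace Crest.Agent.R155

theorem down_succ (j : ℕ) :
    down (j + 1) = Fin.last j :: (down j).map (Fin.last j).succAbove := by
  unfold down
  rw [List.finRange_succ_last, List.reverse_append, Fin.succAbove_last, List.map_reverse]
  rfl

/-- compression by an orthogonal projection decreases a weighted Hilbert-Schmidt norm -/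
theorem compress_le {S : Type*} [Fintype S] [DecidableEq S] (w : S → ℝ) (hw : ∀ s, 0 ≤ w s)
    (E A : Matrix S S ℝ) (hE : E.transpose = E) (hEE : E * E = E) (hA : A.transpose = A) :
    ∑ s, w s * ((E * A * E) * (E * A * E)) s s ≤ ∑ s, w s * (E * (A * A) * E) s s := by
  have h : ∀ s, ((E * A * E) * (E * A * E)) s s ≤ (E * (A * A) * E) s s := by
    intro s
    have hpsd : ((1 - E) * (A * E)).transpose * ((1 - E) * (A * E)) =
        E * (A * A) * E - (E * A * E) * (E * A * E) := by
      rw [Matrix.transpose_mul, Matrix.transpose_mul, Matrix.transpose_sub, Matrix.transpose_one,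
        hE, hA]
      have e1 : (1 - E) * (1 - E) = 1 - E := by
        rw [Matrix.mul_sub, Matrix.sub_mul, Matrix.sub_mul, Matrix.mul_one, Matrix.one_mul, hEE]
        simp
      calc E * A * (1 - E) * ((1 - E) * (A * E))
          = E * A * ((1 - E) * (1 - E)) * (A * E) := by simp only [Matrix.mul_assoc]
        _ = E * A * (1 - E) * (A * E) := by rw [e1]
        _ = E * A * (A * E) - E * A * E * (A * E) := by
            rw [Matrix.mul_sub, Matrix.sub_mul, Matrix.mul_one]
        _ = E * (A * A) * E - (E * A * E) * (E * A * E) := by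
            congr 1
            · simp only [Matrix.mul_assoc]
            · calc E * A * E * (A * E) = E * A * (E * E) * (A * E) := by rw [hEE]
                _ = E * A * E * (E * A * E) := by simp only [Matrix.mul_assoc]
    have h2 : 0 ≤ (((1 - E) * (A * E)).transpose * ((1 - E) * (A * E))) s s := by
      rw [Matrix.mul_apply]
      exact Finset.sum_nonneg fun u _ => mul_self_nonneg _
    rw [hpsd, Matrix.sub_apply] at h2
    linarith
  exact Finset.sum_le_sum fun s _ => mul_le_mul_of_nonneg_left (h s) (hw s)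

theorem XL_transpose {m : ℕ} {S : Type*} [Fintype S] [DecidableEq S]
    (a : Equiv.Perm (Pos m) → S → S) (L : List (Fin m)) :
    (XL a L).transpose = XL a L := by
  unfold XL
  rw [Matrix.transpose_mul, Matrix.transpose_transpose]

theorem sl_univ {m : ℕ} (b : Fin (m + 1)) (ε : Pos m → Bool) (s : Bool) :
    sl b ε Finset.univ s = Finset.univ := by
  ext y
  simp [sl]

theorem Tsq_nonneg (j a : ℕ) : 0 ≤ Tsq j a := by
  unfold Tsq
  refine Finset.sum_nonneg fun φ _ => mul_nonneg (wt_nonneg a _ φ) ?_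
  rw [Matrix.mul_apply]
  exact Finset.sum_nonneg fun u _ => mul_nonneg (XL_nonneg _ _ _ _) (XL_nonneg _ _ _ _)

theorem Tsq_succ_le (j a : ℕ) : Tsq (j + 1) a ≤ Tsq j a * Tsq j (a + 1) := by
  set b : Fin (j + 1) := Fin.last j with hb
  set A : Matrix (Pos (j + 1) → Fin 2) (Pos (j + 1) → Fin 2) ℝ :=
    XL (actC (q := 2)) ((down j).map b.succAbove) with hA
  set X : Matrix (Pos j → Fin 2) (Pos j → Fin 2) ℝ := XL (actC (q := 2)) (down j) with hX
  set E : Matrix (Pos (j + 1) → Fin 2) (Pos (j + 1) → Fin 2) ℝ := lay (actC (q := 2)) b with hE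
  have hXsucc : XL (actC (m := j + 1) (q := 2)) (down (j + 1)) = E * A * E := by
    rw [down_succ, XL_cons (actC (q := 2)) actC_one actC_mul]
  have hEt : E.transpose = E := lay_transpose _ actC_one actC_mul b
  have hEE : E * E = E := lay_mul_self _ actC_one actC_mul b
  have hAt : A.transpose = A := XL_transpose _ _
  have hsq : IsSq b (A * A) (X * X) := (IsSq.XL b (down j)).mul (IsSq.XL b (down j))
  -- the kernel
  obtain ⟨Ω, i1, i2, g, hg⟩ := XL_exists_ker (actC (m := j) (q := 2)) actC_one actC_mul (down j)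
  have hY : X * X = ker (fun (ω : Ω × Ω) => actC (g ω.2 * g ω.1)) := by
    rw [hX, hg, ker_mul]
    rfl
  have hpsd : (X * X).PosSemidef := by
    have h1 := Matrix.posSemidef_self_mul_conjTranspose X
    rw [Matrix.conjTranspose_eq_transpose_of_trivial] at h1
    have h2 : X.transpose = X := XL_transpose _ _
    rwa [h2] at h1
  have h1 : Tsq (j + 1) a ≤ ∑ φ : Pos (j + 1) → Fin 2, wt a Finset.univ φ * (E * (A * A) * E) φ φ := by
    unfold Tsq
    rw [hXsucc]
    exact compress_le (fun φ => wt a Finset.univ φ) (fun φ => wt_nonneg a _ φ) E A hEt hEE hAt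
  refine h1.trans ?_
  have h2 := trace_two_copy_le b (A * A) (X * X) hsq (fun ω : Ω × Ω => g ω.2 * g ω.1) hY hpsd a
    Finset.univ
  refine h2.trans (le_of_eq ?_)
  simp only [sl_univ]
  rw [avg_const]
  have e : ∀ a', TH (X * X) a' Finset.univ = Tsq j a' := fun a' => rfl
  rw [e, e]
  have : Tsq j (a + 1) * Tsq j (a + 1) * Tsq j a * Tsq j a =
      (Tsq j a * Tsq j (a + 1)) ^ 2 := by ring
  rw [this, Real.sqrt_sq (mul_nonneg (Tsq_nonneg j a) (Tsq_nonneg j (a + 1)))]

end Crest.Agent.R155
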