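import Crest.Agent.R155.TwoCopy
import Crest.Agent.R155.WBasic

/-!
# PIECE WINDOW (row 155): the window bound

## Proof
Fix `cin`, `c₀` and `b ≤ j`.  Write `q = 2^u`; by `W_pow`, `W^u` counts the colorings `ψ` with `q` colors
supported in `O = occ cin A j`, `flip j`-invariant, and with `actC (net cin (mix b c₀ c) j) ψ`
`flip j`-invariant.
`net cin (mix b c₀ c) j = outPerm c b j * Ψ`, where `Ψ = net` part which depends only on `cin`, `c₀`
(`Ψ = out_{b-1}(c₀) … out_0(c₀) in_0 … in_{j-1}`) and both factors preserve the bit `j` (all their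
layers have directions `< j`).
(i) For a fixed coloring `φ` let `φ^s` = `φ` on `{x | x j = s}` and `0` elsewhere.  Claim
`avg_c 1[Inv j (actC (outPerm c b j) φ)] ≤ (X(φ^0,φ^0) + X(φ^1,φ^1)) / 2`, `X = XL actC Lbj`,
`Lbj = (finRange m).filter (b ≤ · < j)`.  Indeed `actC R φ` is invariant iff the half-1 part of
`actC R φ` is the `flip j`-image of its half-0 part; the half-`s` part is `actC R φ^s` and it depends only
on the coins at positions with bit `j` equal to `s` (`sw_apply`: the coin used at `x` is at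
`update x i false`, which has the same bit `j`), so the two parts are independent:
the probability is `∑_χ P(actC R φ^0 = χ) P(actC R φ^1 = flip χ) ≤ ½ ∑_χ (P(..)² + P(..)²)` and
`∑_χ P(actC R φ = χ)² = (PL * PLᵀ) φ φ = XL actC Lbj φ φ` (`outPerm_eq_ker`).
(Independence may be formalised by exchanging the coins `c ↔ c'` on one half for two independent copies
`c, c'`: `P(E₀(c) ∧ E₁(c)) = P(E₀(c) ∧ E₁(c'))` for events depending on different halves.)
(ii) Sum over `ψ`: `ψ ↦ (actC Ψ ψ)^s = actC Ψ (ψ^s)` is injective on `flip j`-invariant colorings, with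
support in `Ψ (O^s)`, `O^s = {x ∈ O | x j = s, flip j x ∈ O}`, `|O^s| = dbl j O`.  So the average is
`≤ ½ (T q Lbj 0 (Ψ O^0) + T q Lbj 0 (Ψ O^1)) ≤ exp(dbl j O * (q - 1) * (3/4)^{j-b})` by `T_le`
(`Lbj` is nodup of length `j - b`).
-/

set_option autoImplicit false

namespace Crest.Agent.R155

namespace Window_aux

variable {m q : ℕ}

/-- merge coins along the bit `j` -/
def mg (j : Fin m) (c c' : Fin m → Coin m) : Fin m → Coin m :=
  fun i x => if x j = false then c i x else c' i x

/-- choose one of two coin families -/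
def pk (s : Bool) (c c' : Fin m → Coin m) : Fin m → Coin m := if s = false then c else c'

def mgE (j : Fin m) :
    ((Fin m → Coin m) × (Fin m → Coin m)) ≃ ((Fin m → Coin m) × (Fin m → Coin m)) where
  toFun p := (mg j p.1 p.2, mg j p.2 p.1)
  invFun p := (mg j p.1 p.2, mg j p.2 p.1)
  left_inv p := by
    refine Prod.ext ?_ ?_
    · funext i x
      by_cases h : x j = false <;> simp [mg, h]
    · funext i x
      by_cases h : x j = false <;> simp [mg, h]
  right_inv p := by
    refine Prod.ext ?_ ?_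
    · funext i x
      by_cases h : x j = false <;> simp [mg, h]
    · funext i x
      by_cases h : x j = false <;> simp [mg, h]

theorem sw_mg {i j : Fin m} (h : i ≠ j) (c c' : Fin m → Coin m) (x : Pos m) :
    sw i (mg j c c' i) x = sw i (pk (x j) c c' i) x := by
  have h1 : Function.update x i false j = x j := Function.update_of_ne (Ne.symm h) _ _
  rw [sw_apply, sw_apply]
  have h2 : mg j c c' i (Function.update x i false) =
      pk (x j) c c' i (Function.update x i false) := by
    unfold mg pk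
    rw [h1]
    by_cases hx : x j = false
    · rw [if_pos hx, if_pos hx]
    · rw [if_neg hx, if_neg hx]
  rw [h2]

/-- product of switches with directions in `L` -/
def pr (L : List (Fin m)) (c : Fin m → Coin m) : Equiv.Perm (Pos m) :=
  (L.map (fun i => sw i (c i))).prod

theorem pr_bit {j : Fin m} (L : List (Fin m)) (hL : ∀ i ∈ L, i ≠ j) (c : Fin m → Coin m)
    (x : Pos m) : pr L c x j = x j := by
  induction L with
  | nil => rfl
  | cons i L ih =>
    have h1 : pr (i :: L) c x = sw i (c i) (pr L c x) := rfl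
    rw [h1, sw_apply_ne (Ne.symm (hL i (List.mem_cons_self ..)))]
    exact ih fun k hk => hL k (List.mem_cons_of_mem _ hk)

theorem pr_mg {j : Fin m} (L : List (Fin m)) (hL : ∀ i ∈ L, i ≠ j) (c c' : Fin m → Coin m)
    (x : Pos m) : pr L (mg j c c') x = pr L (pk (x j) c c') x := by
  induction L with
  | nil => rfl
  | cons i L ih =>
    have hL' : ∀ k ∈ L, k ≠ j := fun k hk => hL k (List.mem_cons_of_mem _ hk)
    have h1 : ∀ c, pr (i :: L) c x = sw i (c i) (pr L c x) := fun c => rfl
    rw [h1, h1, ih hL', sw_mg (hL i (List.mem_cons_self ..)), pr_bit L hL']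

theorem symm_bit {j : Fin m} (R : Equiv.Perm (Pos m)) (hR : ∀ x, R x j = x j) (x : Pos m) :
    R.symm x j = x j := by
  have := hR (R.symm x)
  rw [Equiv.apply_symm_apply] at this
  exact this.symm

theorem pr_mg_symm {j : Fin m} (L : List (Fin m)) (hL : ∀ i ∈ L, i ≠ j) (c c' : Fin m → Coin m)
    (x : Pos m) : (pr L (mg j c c')).symm x = (pr L (pk (x j) c c')).symm x := by
  rw [Equiv.symm_apply_eq, pr_mg L hL, symm_bit _ (pr_bit L hL _), Equiv.apply_symm_apply]

/-- the half `s` of a coloring -/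
def hf [NeZero q] (j : Fin m) (s : Bool) (φ : Pos m → Fin q) : Pos m → Fin q :=
  fun x => if x j = s then φ x else 0

theorem inv_iff [NeZero q] (j : Fin m) (χ : Pos m → Fin q) :
    Inv j χ ↔ (fun x => hf j false χ (flip j x)) = hf j true χ := by
  constructor
  · intro h
    funext x
    unfold hf
    rw [flip_apply_self]
    cases hx : x j
    · simp
    · simp [h x]
  · intro h x
    cases hx : x j
    · have h1 := congrFun h (flip j x)
      unfold hf at h1
      rw [flip_flip, flip_apply_self, hx] at h1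
      simp at h1
      exact h1.symm
    · have h1 := congrFun h x
      unfold hf at h1
      rw [flip_apply_self, hx] at h1
      simpa using h1

theorem actC_hf [NeZero q] {j : Fin m} (s : Bool) (R : Equiv.Perm (Pos m))
    (hR : ∀ x, R x j = x j) (φ : Pos m → Fin q) :
    actC R (hf j s φ) = hf j s (actC R φ) := by
  funext x
  unfold actC hf
  rw [symm_bit R hR]

theorem actC_mg [NeZero q] {j : Fin m} (L : List (Fin m)) (hL : ∀ i ∈ L, i ≠ j)
    (c c' : Fin m → Coin m) (s : Bool) (φ : Pos m → Fin q) :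
    actC (pr L (mg j c c')) (hf j s φ) = actC (pr L (pk s c c')) (hf j s φ) := by
  funext x
  unfold actC hf
  rw [symm_bit _ (pr_bit L hL _), symm_bit _ (pr_bit L hL _)]
  by_cases h : x j = s
  · rw [if_pos h, if_pos h, pr_mg_symm L hL, h]
  · rw [if_neg h, if_neg h]

/-- composition with `flip j` -/
def flE (q : ℕ) (j : Fin m) : (Pos m → Fin q) ≃ (Pos m → Fin q) where
  toFun χ := fun x => χ (flip j x)
  invFun χ := fun x => χ (flip j x)
  left_inv χ := by funext x; simp
  right_inv χ := by funext x; simp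

/-- (i) -/
theorem prob_inv_le [NeZero q] {j : Fin m} (L : List (Fin m)) (hL : ∀ i ∈ L, i ≠ j)
    (X : Matrix (Pos m → Fin q) (Pos m → Fin q) ℝ)
    (hX : ker (fun (c : Fin m → Coin m) => actC (q := q) (pr L c)) = X) (φ : Pos m → Fin q)
    [∀ c : Fin m → Coin m, Decidable (Inv j (actC (pr L c) φ))] :
    avg (fun c : Fin m → Coin m => if Inv j (actC (pr L c) φ) then (1 : ℝ) else 0) ≤
      ((X * X.transpose) (hf j false φ) (hf j false φ) +
        (X * X.transpose) (hf j true φ) (hf j true φ)) / 2 := by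
  classical
  -- the two halves
  set E : Bool → (Fin m → Coin m) → (Pos m → Fin q) := fun s c => actC (pr L c) (hf j s φ) with hE
  have h1 : ∀ c, (Inv j (actC (pr L c) φ) ↔ flE q j (E false c) = E true c) := by
    intro c
    rw [inv_iff, ← actC_hf false _ (pr_bit L hL c), ← actC_hf true _ (pr_bit L hL c)]
    rfl
  have h2 : avg (fun c : Fin m → Coin m => if Inv j (actC (pr L c) φ) then (1 : ℝ) else 0) =
      avg (fun c => avg (fun c' => if flE q j (E false c) = E true c' then (1 : ℝ) else 0)) := by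
    have e1 : avg (fun c : Fin m → Coin m => if Inv j (actC (pr L c) φ) then (1 : ℝ) else 0) =
        avg (fun p : (Fin m → Coin m) × (Fin m → Coin m) =>
          if flE q j (E false p.1) = E true p.1 then (1 : ℝ) else 0) := by
      rw [avg_prod_type]
      congr 1
      funext c
      refine Eq.trans ?_ (avg_const (Ω := Fin m → Coin m)
        (if flE q j (E false c) = E true c then (1 : ℝ) else 0)).symm
      by_cases hc : Inv j (actC (pr L c) φ)
      · rw [if_pos hc, if_pos ((h1 c).1 hc)]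
      · rw [if_neg hc, if_neg fun h => hc ((h1 c).2 h)]
    rw [e1, ← avg_equiv (mgE j), avg_prod_type]
    congr 1
    funext c
    congr 1
    funext c'
    have e2 : E false (mg j c c') = E false c := actC_mg L hL c c' false φ
    have e3 : E true (mg j c c') = E true c' := actC_mg L hL c c' true φ
    show (if flE q j (E false (mg j c c')) = E true (mg j c c') then (1 : ℝ) else 0) = _
    rw [e2, e3]
  set p : Bool → (Pos m → Fin q) → ℝ := fun s χ => X (hf j s φ) χ with hp
  have hp' : ∀ s χ, p s χ = avg (fun c => if E s c = χ then (1 : ℝ) else 0) := by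
    intro s χ
    rw [hp, ← hX]
    rfl
  have h3 : avg (fun c => avg (fun c' => if flE q j (E false c) = E true c' then (1 : ℝ) else 0))
      = ∑ χ, p false χ * p true (flE q j χ) := by
    have e1 : ∀ c c', (if flE q j (E false c) = E true c' then (1 : ℝ) else 0) =
        ∑ χ, (if E false c = χ then (1 : ℝ) else 0) * (if E true c' = flE q j χ then 1 else 0) := by
      intro c c'
      rw [Finset.sum_eq_single (E false c)]
      · rw [if_pos rfl, one_mul]
        by_cases h : flE q j (E false c) = E true c'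
        · rw [if_pos h, if_pos h.symm]
        · rw [if_neg h, if_neg fun h' => h h'.symm]
      · intro χ _ hχ
        rw [if_neg (Ne.symm hχ), zero_mul]
      · intro h; exact absurd (Finset.mem_univ _) h
    simp only [e1]
    simp only [avg_sum]
    refine Finset.sum_congr rfl fun χ _ => ?_
    simp only [avg_mul_left, avg_mul_right]
    rw [← hp', ← hp']
  rw [h2, h3]
  have h4 : ∀ s, (X * X.transpose) (hf j s φ) (hf j s φ) = ∑ χ, p s χ * p s χ := by
    intro s
    rw [Matrix.mul_apply]
    rfl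
  have h5 : ∑ χ, p true χ * p true χ = ∑ χ, p true (flE q j χ) * p true (flE q j χ) :=
    (Equiv.sum_comp (flE q j) (fun χ => p true χ * p true χ)).symm
  rw [h4, h4, h5, ← Finset.sum_add_distrib, Finset.sum_div]
  refine Finset.sum_le_sum fun χ _ => ?_
  nlinarith [sq_nonneg (p false χ - p true (flE q j χ))]

/-! ### the network -/

theorem net_congr (cin c c' : Fin m → Coin m) (n : ℕ) (h : ∀ i : Fin m, i.val < n → c i = c' i) :
    net cin c n = net cin c' n := by
  induction n with
  | zero => rfl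
  | succ n ih =>
    have ih' := ih fun i hi => h i (by omega)
    unfold net
    by_cases hn : n < m
    · rw [dif_pos hn, dif_pos hn, ih', h ⟨n, hn⟩ (Nat.lt_succ_self n)]
    · rw [dif_neg hn, dif_neg hn, ih']

theorem net_bit (cin c : Fin m → Coin m) (n : ℕ) (k : Fin m) (hk : n ≤ k.val) (x : Pos m) :
    net cin c n x k = x k := by
  induction n generalizing x with
  | zero => rfl
  | succ n ih =>
    unfold net
    have hn : n < m := by omega
    have hne : k ≠ (⟨n, hn⟩ : Fin m) := by
      intro h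
      rw [h] at hk
      simp at hk
    rw [dif_pos hn, Equiv.Perm.mul_apply, Equiv.Perm.mul_apply, sw_apply_ne hne,
      ih (by omega), sw_apply_ne hne]

/-- the directions `b ≤ i < n` -/
def Ld (m b n : ℕ) : List (Fin m) :=
  (List.finRange m).filter (fun i => b ≤ i.val ∧ i.val < n)

theorem mem_Ld {b n : ℕ} {i : Fin m} : i ∈ Ld m b n ↔ b ≤ i.val ∧ i.val < n := by
  unfold Ld
  simp

theorem Ld_nodup (b n : ℕ) : (Ld m b n).Nodup := (List.nodup_finRange m).filter _

theorem Ld_self (b : ℕ) : Ld m b b = [] := by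
  rw [List.eq_nil_iff_forall_not_mem]
  intro i hi
  have := mem_Ld.1 hi
  omega

theorem Ld_succ (b n : ℕ) (hb : b ≤ n) (hn : n < m) : Ld m b (n + 1) = Ld m b n ++ [⟨n, hn⟩] := by
  have s1 : (Ld m b (n + 1)).Pairwise (· < ·) := (List.pairwise_lt_finRange m).filter _
  have s2 : (Ld m b n ++ [(⟨n, hn⟩ : Fin m)]).Pairwise (· < ·) := by
    rw [List.pairwise_append]
    refine ⟨(List.pairwise_lt_finRange m).filter _, List.pairwise_singleton _ _, ?_⟩
    intro i hi k hk
    have h1 := mem_Ld.1 hi
    rw [List.mem_singleton] at hk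
    rw [hk]
    exact h1.2
  refine List.Perm.eq_of_pairwise (le := (· < ·)) (fun a b _ _ h1 h2 => absurd h1 (lt_asymm h2)) s1 s2 ?_
  refine (List.perm_ext_iff_of_nodup (Ld_nodup b (n + 1)) (s2.imp (fun h => ne_of_lt h))).2 ?_
  intro i
  rw [mem_Ld, List.mem_append, mem_Ld, List.mem_singleton]
  constructor
  · rintro ⟨h1, h2⟩
    rcases Nat.lt_succ_iff_lt_or_eq.1 h2 with h3 | h3
    · exact Or.inl ⟨h1, h3⟩
    · exact Or.inr (Fin.ext h3)
  · rintro (⟨h1, h2⟩ | h)
    · exact ⟨h1, by omega⟩
    · rw [h]; exact ⟨hb, Nat.lt_succ_self n⟩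

theorem Ld_length (b n : ℕ) (hb : b ≤ n) (hn : n ≤ m) : (Ld m b n).length = n - b := by
  induction n, hb using Nat.le_induction with
  | base => rw [Ld_self]; simp
  | succ n hb ih =>
    rw [Ld_succ b n hb (by omega), List.length_append, ih (by omega), List.length_singleton]
    omega

theorem outPerm_eq_pr (c : Fin m → Coin m) (b n : ℕ) : outPerm c b n = pr (Ld m b n).reverse c :=
  rfl

theorem outPerm_succ (c : Fin m → Coin m) (b n : ℕ) (hb : b ≤ n) (hn : n < m) :
    outPerm c b (n + 1) = sw ⟨n, hn⟩ (c ⟨n, hn⟩) * outPerm c b n := by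
  rw [outPerm_eq_pr, outPerm_eq_pr, Ld_succ b n hb hn, List.reverse_append]
  rfl

theorem net_mix (cin c₀ : Fin m → Coin m) (b n : ℕ) (hb : b ≤ n) (hn : n ≤ m) :
    ∃ Ψ : Equiv.Perm (Pos m), (∀ c, net cin (mix b c₀ c) n = outPerm c b n * Ψ) ∧
      ∀ k : Fin m, n ≤ k.val → ∀ x, Ψ x k = x k := by
  induction n, hb using Nat.le_induction with
  | base =>
    refine ⟨net cin c₀ b, fun c => ?_, fun k hk x => net_bit cin c₀ b k hk x⟩
    rw [outPerm_eq_pr, Ld_self, net_congr cin (mix b c₀ c) c₀ b]
    · rfl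
    · intro i hi
      unfold mix
      rw [if_pos hi]
  | succ n hb ih =>
    obtain ⟨Ψ, h1, h2⟩ := ih (by omega)
    have hn' : n < m := by omega
    refine ⟨Ψ * sw ⟨n, hn'⟩ (cin ⟨n, hn'⟩), fun c => ?_, fun k hk x => ?_⟩
    · rw [outPerm_succ c b n hb hn']
      conv_lhs => unfold net
      rw [dif_pos hn', h1 c]
      have h3 : mix b c₀ c ⟨n, hn'⟩ = c ⟨n, hn'⟩ := by
        unfold mix
        rw [if_neg (by simpa using hb)]
      rw [h3]
      simp only [mul_assoc]
    · rw [Equiv.Perm.mul_apply, h2 k (by omega), sw_apply_ne]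
      intro h
      rw [h] at hk
      simp at hk

/-- the half `s` of the doubly occupied positions -/
def Os (j : Fin m) (s : Bool) (O : Finset (Pos m)) : Finset (Pos m) :=
  O.filter fun x => x j = s ∧ flip j x ∈ O

theorem card_Os (j : Fin m) (s : Bool) (O : Finset (Pos m)) : (Os j s O).card = dbl j O := by
  cases s
  · rfl
  · unfold dbl
    refine Finset.card_bij (fun x _ => flip j x) ?_ ?_ ?_
    · intro x hx
      obtain ⟨h1, h2, h3⟩ := Finset.mem_filter.1 hx
      refine Finset.mem_filter.2 ⟨h3, ?_, ?_⟩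
      · rw [flip_apply_self, h2]; rfl
      · rw [flip_flip]; exact h1
    · intro x _ y _ h
      have := congrArg (flip j) h
      simpa using this
    · intro y hy
      obtain ⟨h1, h2, h3⟩ := Finset.mem_filter.1 hy
      refine ⟨flip j y, Finset.mem_filter.2 ⟨h3, ?_, ?_⟩, flip_flip j y⟩
      · rw [flip_apply_self, h2]; rfl
      · rw [flip_flip]; exact h1

/-- (ii) -/
theorem sum_half_le [NeZero q] {j : Fin m} (L : List (Fin m)) (hLn : L.Nodup)
    (Ψ : Equiv.Perm (Pos m)) (hΨ : ∀ x, Ψ x j = x j) (O : Finset (Pos m)) (s : Bool)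
    (S : Finset (Pos m → Fin q)) (hS : ∀ ψ ∈ S, (∀ x, ψ x ≠ 0 → x ∈ O) ∧ Inv j ψ) :
    ∑ ψ ∈ S, XL actC L (hf j s (actC Ψ ψ)) (hf j s (actC Ψ ψ)) ≤
      Real.exp ((dbl j O : ℝ) * ((q : ℝ) - 1) * (3 / 4) ^ L.length) := by
  classical
  have hinj : Set.InjOn (fun ψ : Pos m → Fin q => hf j s (actC Ψ ψ)) (S : Set (Pos m → Fin q)) := by
    intro ψ hψ ψ' hψ' h
    have h' : actC Ψ (hf j s ψ) = actC Ψ (hf j s ψ') := by
      rw [actC_hf s Ψ hΨ, actC_hf s Ψ hΨ]; exact h
    have h1 : ∀ x, x j = s → ψ x = ψ' x := by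
      intro x hx
      have := congrFun h' (Ψ x)
      unfold actC hf at this
      rw [Equiv.symm_apply_apply, if_pos hx, if_pos hx] at this
      exact this
    funext x
    by_cases hx : x j = s
    · exact h1 x hx
    · have h2 : flip j x j = s := by
        rw [flip_apply_self]
        cases hxj : x j <;> cases s <;> simp_all
      have h3 := h1 _ h2
      rw [(hS ψ hψ).2 x, (hS ψ' hψ').2 x] at h3
      exact h3
  set J : Finset (Pos m) := (Os j s O).map Ψ.toEmbedding with hJ
  have hcard : J.card = dbl j O := by rw [hJ, Finset.card_map, card_Os]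
  have hsupp : ∀ ψ ∈ S, supp (hf j s (actC Ψ ψ)) ⊆ J := by
    intro ψ hψ x hx
    have hx' : hf j s (actC Ψ ψ) x ≠ 0 := (Finset.mem_filter.1 hx).2
    unfold hf at hx'
    by_cases hxs : x j = s
    · rw [if_pos hxs] at hx'
      have h1 : ψ (Ψ.symm x) ≠ 0 := hx'
      refine Finset.mem_map.2 ⟨Ψ.symm x, Finset.mem_filter.2 ⟨(hS ψ hψ).1 _ h1, ?_, ?_⟩, ?_⟩
      · rw [symm_bit Ψ hΨ, hxs]
      · refine (hS ψ hψ).1 _ ?_
        rw [(hS ψ hψ).2]; exact h1
      · exact Ψ.apply_symm_apply x
    · rw [if_neg hxs] at hx'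
      exact absurd rfl hx'
  have hT := T_le (q := q) L hLn 0 J
  rw [hcard, pow_zero, mul_one] at hT
  refine le_trans ?_ hT
  unfold T
  calc ∑ ψ ∈ S, XL actC L (hf j s (actC Ψ ψ)) (hf j s (actC Ψ ψ))
      = ∑ φ ∈ S.image (fun ψ : Pos m → Fin q => hf j s (actC Ψ ψ)), XL actC L φ φ := by
        rw [Finset.sum_image hinj]
    _ = ∑ φ ∈ S.image (fun ψ : Pos m → Fin q => hf j s (actC Ψ ψ)),
          wt 0 J φ * XL actC L φ φ := by
        refine Finset.sum_congr rfl fun φ hφ => ?_
        obtain ⟨ψ, hψ, rfl⟩ := Finset.mem_image.1 hφ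
        unfold wt
        rw [if_pos (hsupp ψ hψ), zero_mul, pow_zero, one_mul]
    _ ≤ ∑ φ, wt 0 J φ * XL actC L φ φ := by
        refine Finset.sum_le_sum_of_subset_of_nonneg (Finset.subset_univ _) fun φ _ _ => ?_
        refine mul_nonneg ?_ (XL_nonneg _ _ _ _)
        unfold wt
        split_ifs
        · positivity
        · exact le_rfl

theorem window_q {m q : ℕ} [NeZero q] (cin c₀ : Fin m → Coin m) (A : Finset (Pos m)) (j : Fin m)
    (b : ℕ) (hb : b ≤ j.val) :
    avg (fun c : Fin m → Coin m => (Wq q cin (mix b c₀ c) A j : ℝ)) ≤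
      Real.exp ((dbl j (occ cin A j) : ℝ) * ((q : ℝ) - 1) * (3 / 4) ^ (j.val - b)) := by
  classical
  obtain ⟨Ψ, hΨ, hΨb⟩ := net_mix cin c₀ b j.val hb j.isLt.le
  set O := occ cin A j with hO
  set L := Ld m b j.val with hL
  have hLne : ∀ i ∈ L.reverse, i ≠ j := by
    intro i hi h
    rw [List.mem_reverse] at hi
    have := (mem_Ld.1 hi).2
    rw [h] at this
    exact lt_irrefl _ this
  have hact1 : ∀ s : Pos m → Fin q, actC (1 : Equiv.Perm (Pos m)) s = s := fun s => rfl
  have hactm : ∀ (g h : Equiv.Perm (Pos m)) (s : Pos m → Fin q),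
      actC (g * h) s = actC g (actC h s) := fun g h s => rfl
  have hX : ker (fun (c : Fin m → Coin m) => actC (q := q) (pr L.reverse c)) = PL actC L :=
    outPerm_eq_ker actC hact1 hactm b j.val
  set S : Finset (Pos m → Fin q) := Finset.univ.filter
    (fun ψ : Pos m → Fin q => (∀ x, ψ x ≠ 0 → x ∈ O) ∧ Inv j ψ) with hSdef
  have hW : ∀ c : Fin m → Coin m, (Wq q cin (mix b c₀ c) A j : ℝ) =
      ∑ ψ ∈ S, if Inv j (actC (pr L.reverse c) (actC Ψ ψ)) then (1 : ℝ) else 0 := by
    intro c
    have e1 : (Finset.univ.filter fun φ : Pos m → Fin q =>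
        (∀ x, φ x ≠ 0 → x ∈ occ cin A j) ∧ Inv j φ ∧
          Inv j (actC (net cin (mix b c₀ c) j) φ)) =
        S.filter (fun ψ => Inv j (actC (pr L.reverse c) (actC Ψ ψ))) := by
      ext ψ
      rw [Finset.mem_filter, Finset.mem_filter, hSdef, Finset.mem_filter, hΨ c]
      simp only [Finset.mem_univ, true_and, and_assoc]
      rfl
    unfold Wq
    rw [Finset.sum_ite, Finset.sum_const_zero, add_zero, Finset.sum_const, nsmul_eq_mul, mul_one,
      ← e1]
  simp only [hW, avg_sum]
  have h1 : ∀ ψ ∈ S, avg (fun c : Fin m → Coin m =>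
      if Inv j (actC (pr L.reverse c) (actC Ψ ψ)) then (1 : ℝ) else 0) ≤
      (XL actC L (hf j false (actC Ψ ψ)) (hf j false (actC Ψ ψ)) +
        XL actC L (hf j true (actC Ψ ψ)) (hf j true (actC Ψ ψ))) / 2 := by
    intro ψ _
    exact prob_inv_le L.reverse hLne _ hX (actC Ψ ψ)
  refine (Finset.sum_le_sum h1).trans ?_
  rw [← Finset.sum_div, Finset.sum_add_distrib]
  have hSmem : ∀ ψ ∈ S, (∀ x, ψ x ≠ 0 → x ∈ O) ∧ Inv j ψ := fun ψ hψ =>
    (Finset.mem_filter.1 hψ).2
  have hlen : L.length = j.val - b := Ld_length b j.val hb j.isLt.le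
  have h2 := sum_half_le L (Ld_nodup b j.val) Ψ (hΨb j le_rfl) O false S hSmem
  have h3 := sum_half_le L (Ld_nodup b j.val) Ψ (hΨb j le_rfl) O true S hSmem
  rw [hlen] at h2 h3
  linarith

end Window_aux

theorem window {m : ℕ} (u : ℕ) (cin c₀ : Fin m → Coin m) (A : Finset (Pos m)) (j : Fin m)
    (b : ℕ) (hb : b ≤ j.val) :
    avg (fun c : Fin m → Coin m => (W cin (mix b c₀ c) A j) ^ u) ≤
      Real.exp ((dbl j (occ cin A j) : ℝ) * ((2 : ℝ) ^ u - 1) * (3 / 4) ^ (j.val - b)) := by
  simp only [W_pow]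
  have h := Window_aux.window_q (q := 2 ^ u) cin c₀ A j b hb
  have hqc : ((2 ^ u : ℕ) : ℝ) = (2 : ℝ) ^ u := by push_cast; rfl
  rw [hqc] at h
  exact h

end Crest.Agent.R155
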